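import Vale.Agent.Lib.P205.NF.Defs

/-!
# From two complex components to a map into four-space and its induced metric
-/

namespace Vale.Agent.Lib.P205.NF

open scoped ContDiff

theorem asm_contDiff (F₁ F₂ : ℝ × ℝ → ℂ) (h₁ : ContDiff ℝ ∞ F₁) (h₂ : ContDiff ℝ ∞ F₂) :
    ContDiff ℝ ∞ (toR4 F₁ F₂) := by
  rw [contDiff_euclidean]
  intro i
  fin_cases i
  · change ContDiff ℝ ∞ fun q : ℝ × ℝ => (F₁ q).re
    exact Complex.reCLM.contDiff.comp h₁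
  · change ContDiff ℝ ∞ fun q : ℝ × ℝ => (F₁ q).im
    exact Complex.imCLM.contDiff.comp h₁
  · change ContDiff ℝ ∞ fun q : ℝ × ℝ => (F₂ q).re
    exact Complex.reCLM.contDiff.comp h₂
  · change ContDiff ℝ ∞ fun q : ℝ × ℝ => (F₂ q).im
    exact Complex.imCLM.contDiff.comp h₂

theorem asm_normSq (z : ℂ) : ‖z‖ ^ 2 = z.re * z.re + z.im * z.im := by
  rw [Complex.sq_norm, Complex.normSq_apply]

theorem toR4_spec (F₁ F₂ X₁ Y₁ X₂ Y₂ : ℝ × ℝ → ℂ) (h₁ : ContDiff ℝ ∞ F₁)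
    (h₂ : ContDiff ℝ ∞ F₂)
    (d₁ : ∀ p, HasFDerivAt F₁ ((ContinuousLinearMap.fst ℝ ℝ ℝ).smulRight (X₁ p) +
      (ContinuousLinearMap.snd ℝ ℝ ℝ).smulRight (Y₁ p)) p)
    (d₂ : ∀ p, HasFDerivAt F₂ ((ContinuousLinearMap.fst ℝ ℝ ℝ).smulRight (X₂ p) +
      (ContinuousLinearMap.snd ℝ ℝ ℝ).smulRight (Y₂ p)) p) :
    ContDiff ℝ ∞ (toR4 F₁ F₂) ∧
    ∀ p v w : ℝ × ℝ, inner ℝ (fderiv ℝ (toR4 F₁ F₂) p v) (fderiv ℝ (toR4 F₁ F₂) p w) =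
      (‖X₁ p‖ ^ 2 + ‖X₂ p‖ ^ 2) * v.1 * w.1 +
      (X₁ p * (starRingEnd ℂ) (Y₁ p) + X₂ p * (starRingEnd ℂ) (Y₂ p)).re *
        (v.1 * w.2 + v.2 * w.1) +
      (‖Y₁ p‖ ^ 2 + ‖Y₂ p‖ ^ 2) * v.2 * w.2 := by
  have hsm : ContDiff ℝ ∞ (toR4 F₁ F₂) := asm_contDiff F₁ F₂ h₁ h₂
  refine ⟨hsm, ?_⟩
  intro p v w
  have hdiff : DifferentiableAt ℝ (toR4 F₁ F₂) p :=
    (hsm.differentiable (by simp)).differentiableAt
  have key : ∀ (i : Fin 4) (L : ℝ × ℝ →L[ℝ] ℝ),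
      HasFDerivAt (fun q => toR4 F₁ F₂ q i) L p →
      ∀ t, (fderiv ℝ (toR4 F₁ F₂) p t) i = L t := by
    intro i L hL t
    have h0 := (ContinuousLinearMap.hasFDerivAt (PiLp.proj 2 (fun _ : Fin 4 => ℝ) i)
      (x := toR4 F₁ F₂ p)).comp p hdiff.hasFDerivAt
    have h1' : HasFDerivAt (fun q => toR4 F₁ F₂ q i)
        ((PiLp.proj 2 (fun _ : Fin 4 => ℝ) i).comp (fderiv ℝ (toR4 F₁ F₂) p)) p := h0
    have h2' := h1'.unique hL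
    exact congrArg (fun T : ℝ × ℝ →L[ℝ] ℝ => T t) h2'
  have d0 : HasFDerivAt (fun q => toR4 F₁ F₂ q 0)
      (Complex.reCLM.comp ((ContinuousLinearMap.fst ℝ ℝ ℝ).smulRight (X₁ p) +
        (ContinuousLinearMap.snd ℝ ℝ ℝ).smulRight (Y₁ p))) p :=
    Complex.reCLM.hasFDerivAt.comp p (d₁ p)
  have d1 : HasFDerivAt (fun q => toR4 F₁ F₂ q 1)
      (Complex.imCLM.comp ((ContinuousLinearMap.fst ℝ ℝ ℝ).smulRight (X₁ p) +
        (ContinuousLinearMap.snd ℝ ℝ ℝ).smulRight (Y₁ p))) p :=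
    Complex.imCLM.hasFDerivAt.comp p (d₁ p)
  have d2 : HasFDerivAt (fun q => toR4 F₁ F₂ q 2)
      (Complex.reCLM.comp ((ContinuousLinearMap.fst ℝ ℝ ℝ).smulRight (X₂ p) +
        (ContinuousLinearMap.snd ℝ ℝ ℝ).smulRight (Y₂ p))) p :=
    Complex.reCLM.hasFDerivAt.comp p (d₂ p)
  have d3 : HasFDerivAt (fun q => toR4 F₁ F₂ q 3)
      (Complex.imCLM.comp ((ContinuousLinearMap.fst ℝ ℝ ℝ).smulRight (X₂ p) +
        (ContinuousLinearMap.snd ℝ ℝ ℝ).smulRight (Y₂ p))) p :=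
    Complex.imCLM.hasFDerivAt.comp p (d₂ p)
  rw [PiLp.inner_apply, Fin.sum_univ_four]
  rw [key 0 _ d0 v, key 0 _ d0 w, key 1 _ d1 v, key 1 _ d1 w, key 2 _ d2 v, key 2 _ d2 w,
    key 3 _ d3 v, key 3 _ d3 w]
  simp only [ContinuousLinearMap.comp_apply, add_apply,
    ContinuousLinearMap.smulRight_apply, ContinuousLinearMap.coe_fst',
    ContinuousLinearMap.coe_snd', Complex.reCLM_apply, Complex.imCLM_apply,
    RCLike.inner_apply, conj_trivial, Complex.add_re, Complex.add_im, Complex.real_smul,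
    Complex.mul_re, Complex.mul_im, Complex.ofReal_re, Complex.ofReal_im, Complex.conj_re,
    Complex.conj_im, asm_normSq]
  ring

end Vale.Agent.Lib.P205.NF
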