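import Vale.Agent.Lib.P205.NF.Defs

/-!
# Algebra of `cstar` and `bconv`
-/

namespace Vale.Agent.Lib.P205.NF

theorem cstar_cstar (a : ℤ × ℤ → ℂ) : cstar (cstar a) = a := by
  funext k
  simp [cstar]

theorem balg_term (ω : ℤ × ℤ → ℝ) (hωe : ∀ k, ω (-k) = ω k) (a : ℤ × ℤ → ℂ) (k : ℤ × ℤ) :
    ω k * ‖cstar a k‖ = ω (-k) * ‖a (-k)‖ := by
  rw [hωe k]
  unfold cstar
  rw [RCLike.norm_conj]

theorem summable_cstar (ω : ℤ × ℤ → ℝ) (hωe : ∀ k, ω (-k) = ω k) (a : ℤ × ℤ → ℂ)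
    (ha : Summable fun k => ω k * ‖a k‖) : Summable fun k => ω k * ‖cstar a k‖ := by
  have h : (fun k => ω k * ‖cstar a k‖) = (fun k => ω k * ‖a k‖) ∘ (Equiv.neg (ℤ × ℤ)) := by
    funext k
    rw [balg_term ω hωe a k]
    rfl
  rw [h]
  exact (Equiv.neg (ℤ × ℤ)).summable_iff.mpr ha

theorem nrm_cstar (ω : ℤ × ℤ → ℝ) (hωe : ∀ k, ω (-k) = ω k) (a : ℤ × ℤ → ℂ) :
    nrm ω (cstar a) = nrm ω a := by
  unfold nrm
  rw [← (Equiv.neg (ℤ × ℤ)).tsum_eq (fun k => ω k * ‖a k‖)]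
  refine tsum_congr fun k => ?_
  rw [balg_term ω hωe a k]
  rfl

/-- The conjugate of `bconv τ a (cstar a)` is the same expression with the adjoint symbol.
No summability is needed. -/
theorem bconv_star (τ : ℤ × ℤ → ℤ × ℤ → ℂ) (a : ℤ × ℤ → ℂ) :
    cstar (bconv τ a (cstar a)) = bconv (dag τ) a (cstar a) := by
  funext m
  simp only [cstar, bconv, dag]
  rw [Complex.conj_tsum]
  rw [← (Equiv.addRight m).tsum_eq (fun j => (starRingEnd ℂ) (τ (-m) (j - m)) * a j *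
    (starRingEnd ℂ) (a (-(m - j))))]
  refine tsum_congr fun k => ?_
  simp only [Equiv.coe_addRight, map_mul, Complex.conj_conj]
  have h1 : -(-m - k) = k + m := by abel
  have h2 : k + m - m = k := by abel
  have h3 : -(m - (k + m)) = k := by abel
  rw [h1, h2, h3]
  ring

end Vale.Agent.Lib.P205.NF
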