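import Vale.Agent.Lib.P205.NF.SynthBasic

/-!
# Product of two absolutely convergent Fourier series
-/

namespace Vale.Agent.Lib.P205.NF

/-- The character `exp (i k·p)`. -/
noncomputable def cauchy_E (p : ℝ × ℝ) (k : ℤ × ℤ) : ℂ :=
  Complex.exp (Complex.I * ((k.1 : ℂ) * (p.1 : ℂ) + (k.2 : ℂ) * (p.2 : ℂ)))

theorem cauchy_E_norm (p : ℝ × ℝ) (k : ℤ × ℤ) : ‖cauchy_E p k‖ = 1 := by
  unfold cauchy_E
  have e : Complex.I * ((k.1 : ℂ) * (p.1 : ℂ) + (k.2 : ℂ) * (p.2 : ℂ))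
      = (((k.1 : ℝ) * p.1 + (k.2 : ℝ) * p.2 : ℝ) : ℂ) * Complex.I := by
    push_cast
    ring
  rw [e, Complex.norm_exp_ofReal_mul_I]

theorem cauchy_E_mul_conj (p : ℝ × ℝ) (k l : ℤ × ℤ) :
    cauchy_E p k * (starRingEnd ℂ) (cauchy_E p l) = cauchy_E p (k - l) := by
  unfold cauchy_E
  rw [← Complex.exp_conj, ← Complex.exp_add]
  congr 1
  simp only [map_mul, map_add, Complex.conj_I, Complex.conj_ofReal, map_intCast, Prod.fst_sub,
    Prod.snd_sub, Int.cast_sub]
  ring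

theorem S_mul_conj (f g : ℤ × ℤ → ℂ) (hf : Summable fun k => ‖f k‖)
    (hg : Summable fun k => ‖g k‖) (p : ℝ × ℝ) :
    Summable (fun m : ℤ × ℤ => ‖∑' k, f k * (starRingEnd ℂ) (g (k - m))‖) ∧
    S f p * (starRingEnd ℂ) (S g p) =
      S (fun m : ℤ × ℤ => ∑' k, f k * (starRingEnd ℂ) (g (k - m))) p := by
  obtain ⟨φ, hφ⟩ : ∃ φ : (ℤ × ℤ) × (ℤ × ℤ) ≃ (ℤ × ℤ) × (ℤ × ℤ),
      ∀ w, φ w = (w.2, w.2 - w.1) :=
    ⟨{ toFun := fun w => (w.2, w.2 - w.1)
       invFun := fun z => (z.1 - z.2, z.1)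
       left_inv := fun w => by
         apply Prod.ext
         · exact sub_sub_cancel w.2 w.1
         · rfl
       right_inv := fun z => by
         apply Prod.ext
         · rfl
         · exact sub_sub_cancel z.1 z.2 }, fun _ => rfl⟩
  -- the family of the norms
  have hQ : Summable (fun z : (ℤ × ℤ) × (ℤ × ℤ) => ‖f z.1‖ * ‖g z.2‖) :=
    hf.mul_of_nonneg hg (fun _ => norm_nonneg _) (fun _ => norm_nonneg _)
  have hQφ : Summable (fun w : (ℤ × ℤ) × (ℤ × ℤ) => ‖f w.2‖ * ‖g (w.2 - w.1)‖) := by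
    have h := (φ.summable_iff).mpr hQ
    refine h.congr ?_
    intro w
    simp only [Function.comp_apply, hφ]
  have hfib : ∀ m : ℤ × ℤ,
      Summable (fun k : ℤ × ℤ => ‖f k * (starRingEnd ℂ) (g (k - m))‖) := by
    intro m
    have h := hQφ.prod_factor m
    refine h.congr ?_
    intro k
    rw [norm_mul, RCLike.norm_conj]
  refine ⟨?_, ?_⟩
  · refine Summable.of_nonneg_of_le (fun m => norm_nonneg _) (fun m => ?_) hQφ.prod
    refine (norm_tsum_le_tsum_norm (hfib m)).trans (le_of_eq ?_)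
    refine tsum_congr (fun k => ?_)
    rw [norm_mul, RCLike.norm_conj]
  · have hF : Summable (fun k => ‖f k * cauchy_E p k‖) := by
      refine hf.congr (fun k => ?_)
      rw [norm_mul, cauchy_E_norm, mul_one]
    have hG : Summable (fun l =>
        ‖(starRingEnd ℂ) (g l) * (starRingEnd ℂ) (cauchy_E p l)‖) := by
      refine hg.congr (fun l => ?_)
      rw [norm_mul, RCLike.norm_conj, RCLike.norm_conj, cauchy_E_norm, mul_one]
    have hSf : S f p = ∑' k, f k * cauchy_E p k := rfl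
    have hSg : (starRingEnd ℂ) (S g p)
        = ∑' l, (starRingEnd ℂ) (g l) * (starRingEnd ℂ) (cauchy_E p l) := by
      have h : S g p = ∑' l, g l * cauchy_E p l := rfl
      rw [h, Complex.conj_tsum]
      refine tsum_congr (fun l => ?_)
      rw [map_mul]
    have hpt : ∀ w : (ℤ × ℤ) × (ℤ × ℤ),
        (f (φ w).1 * cauchy_E p (φ w).1) *
          ((starRingEnd ℂ) (g (φ w).2) * (starRingEnd ℂ) (cauchy_E p (φ w).2))
        = f w.2 * (starRingEnd ℂ) (g (w.2 - w.1)) * cauchy_E p w.1 := by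
      intro w
      rw [hφ]
      have h := cauchy_E_mul_conj p w.2 (w.2 - w.1)
      rw [sub_sub_cancel] at h
      rw [← h]
      ring
    have hP : Summable (fun z : (ℤ × ℤ) × (ℤ × ℤ) => (f z.1 * cauchy_E p z.1) *
        ((starRingEnd ℂ) (g z.2) * (starRingEnd ℂ) (cauchy_E p z.2))) :=
      summable_mul_of_summable_norm (f := fun k => f k * cauchy_E p k)
        (g := fun l => (starRingEnd ℂ) (g l) * (starRingEnd ℂ) (cauchy_E p l)) hF hG
    have hPφ : Summable (fun w : (ℤ × ℤ) × (ℤ × ℤ) =>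
        f w.2 * (starRingEnd ℂ) (g (w.2 - w.1)) * cauchy_E p w.1) := by
      have h := (φ.summable_iff).mpr hP
      refine h.congr ?_
      intro w
      rw [Function.comp_apply]
      exact hpt w
    have hSr : S (fun m : ℤ × ℤ => ∑' k, f k * (starRingEnd ℂ) (g (k - m))) p
        = ∑' m : ℤ × ℤ, (∑' k, f k * (starRingEnd ℂ) (g (k - m))) * cauchy_E p m := rfl
    rw [hSf, hSg, tsum_mul_tsum_of_summable_norm hF hG, hSr,
      ← φ.tsum_eq (fun z : (ℤ × ℤ) × (ℤ × ℤ) => (f z.1 * cauchy_E p z.1) *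
        ((starRingEnd ℂ) (g z.2) * (starRingEnd ℂ) (cauchy_E p z.2))),
      tsum_congr hpt, hPφ.tsum_prod]
    refine tsum_congr (fun m => ?_)
    rw [← tsum_mul_right]

end Vale.Agent.Lib.P205.NF
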