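import Vale.Agent.Lib.P205.NF.Defs

/-!
# Bound for the master symbol `tauA`
-/

namespace Vale.Agent.Lib.P205.NF

private lemma symbA_abs_le_sq (n : ℤ) : |(n : ℝ)| ≤ (n : ℝ) ^ 2 := by
  rcases lt_trichotomy n 0 with h | h | h
  · have h0 : n ≤ -1 := by omega
    have h1 : (n : ℝ) ≤ -1 := by exact_mod_cast h0
    rw [abs_of_neg (by linarith)]
    nlinarith
  · subst h
    simp
  · have h0 : 1 ≤ n := by omega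
    have h1 : (1 : ℝ) ≤ n := by exact_mod_cast h0
    rw [abs_of_pos (by linarith)]
    nlinarith

private lemma symbA_one_le_abs {n : ℤ} (hn : n ≠ 0) : (1 : ℝ) ≤ |(n : ℝ)| := by
  have h : (1 : ℤ) ≤ |n| := Int.one_le_abs hn
  have h' : ((1 : ℤ) : ℝ) ≤ ((|n| : ℤ) : ℝ) := Int.cast_le.mpr h
  simpa using h'

private lemma symbA_sum_le_sq (a b : ℤ) :
    |(a : ℝ)| + |(b : ℝ)| ≤ (|(a : ℝ)| + |(b : ℝ)|) ^ 2 := by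
  have ha := symbA_abs_le_sq a
  have hb := symbA_abs_le_sq b
  nlinarith [sq_abs (a : ℝ), sq_abs (b : ℝ), mul_nonneg (abs_nonneg (a : ℝ)) (abs_nonneg (b : ℝ))]

private lemma symbA_real (k1 k2 l1 l2 : ℝ)
    (hK : |k1| + |k2| ≤ (|k1| + |k2|) ^ 2) (hL : |l1| + |l2| ≤ (|l1| + |l2|) ^ 2) :
    |(-(k2 * l1 - k1 * l2) ^ 2 + (k1 ^ 2 + k2 ^ 2) * l1 + k1 * (l1 ^ 2 + l2 ^ 2)) / 2|
      ≤ 3 / 2 * ((|k1| + |k2|) ^ 2 * (|l1| + |l2|) ^ 2) := by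
  have hk1 := abs_nonneg k1
  have hk2 := abs_nonneg k2
  have hl1 := abs_nonneg l1
  have hl2 := abs_nonneg l2
  have hK0 : 0 ≤ |k1| + |k2| := by positivity
  have hL0 : 0 ≤ |l1| + |l2| := by positivity
  have e1 : |k2 * l1 - k1 * l2| ≤ (|k1| + |k2|) * (|l1| + |l2|) := by
    calc |k2 * l1 - k1 * l2| ≤ |k2 * l1| + |k1 * l2| := abs_sub _ _
      _ = |k2| * |l1| + |k1| * |l2| := by rw [abs_mul, abs_mul]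
      _ ≤ (|k1| + |k2|) * (|l1| + |l2|) := by
          nlinarith [mul_nonneg hk1 hl1, mul_nonneg hk2 hl2]
  have e2 : (k2 * l1 - k1 * l2) ^ 2 ≤ (|k1| + |k2|) ^ 2 * (|l1| + |l2|) ^ 2 := by
    rw [← sq_abs (k2 * l1 - k1 * l2), ← mul_pow]
    exact pow_le_pow_left₀ (abs_nonneg _) e1 2
  have hsqk : k1 ^ 2 + k2 ^ 2 ≤ (|k1| + |k2|) ^ 2 := by
    nlinarith [sq_abs k1, sq_abs k2, mul_nonneg hk1 hk2]
  have hsql : l1 ^ 2 + l2 ^ 2 ≤ (|l1| + |l2|) ^ 2 := by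
    nlinarith [sq_abs l1, sq_abs l2, mul_nonneg hl1 hl2]
  have e3 : |(k1 ^ 2 + k2 ^ 2) * l1| ≤ (|k1| + |k2|) ^ 2 * (|l1| + |l2|) ^ 2 := by
    rw [abs_mul, abs_of_nonneg (by positivity : (0 : ℝ) ≤ k1 ^ 2 + k2 ^ 2)]
    have h1 : |l1| ≤ (|l1| + |l2|) ^ 2 := by linarith
    exact mul_le_mul hsqk h1 hl1 (by positivity)
  have e4 : |k1 * (l1 ^ 2 + l2 ^ 2)| ≤ (|k1| + |k2|) ^ 2 * (|l1| + |l2|) ^ 2 := by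
    rw [abs_mul, abs_of_nonneg (by positivity : (0 : ℝ) ≤ l1 ^ 2 + l2 ^ 2)]
    have h1 : |k1| ≤ (|k1| + |k2|) ^ 2 := by linarith
    exact mul_le_mul h1 hsql (by positivity) (by positivity)
  have e2' : 0 ≤ (k2 * l1 - k1 * l2) ^ 2 := sq_nonneg _
  obtain ⟨e3a, e3b⟩ := abs_le.mp e3
  obtain ⟨e4a, e4b⟩ := abs_le.mp e4
  rw [abs_le]
  constructor <;> linarith

theorem tauA_bound (m κ l : ℤ × ℤ) (h : κ + l = m) :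
    ‖tauA m κ l‖ * wt m ^ 2 ≤
      60 * ((|(κ.1 : ℝ)| + |(κ.2 : ℝ)|) ^ 2 * (|(l.1 : ℝ)| + |(l.2 : ℝ)|) ^ 2) := by
  obtain ⟨k1, k2⟩ := κ
  obtain ⟨l1, l2⟩ := l
  obtain ⟨m1, m2⟩ := m
  show ‖tauA (m1, m2) (k1, k2) (l1, l2)‖ * wt (m1, m2) ^ 2 ≤
      60 * ((|(k1 : ℝ)| + |(k2 : ℝ)|) ^ 2 * (|(l1 : ℝ)| + |(l2 : ℝ)|) ^ 2)
  have hK := symbA_sum_le_sq k1 k2
  have hL := symbA_sum_le_sq l1 l2
  have hK0 : 0 ≤ |(k1 : ℝ)| + |(k2 : ℝ)| := by positivity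
  have hL0 : 0 ≤ |(l1 : ℝ)| + |(l2 : ℝ)| := by positivity
  have hKL0 : 0 ≤ (|(k1 : ℝ)| + |(k2 : ℝ)|) ^ 2 * (|(l1 : ℝ)| + |(l2 : ℝ)|) ^ 2 := by positivity
  by_cases hm : ((m1, m2) : ℤ × ℤ) = 0
  · have hm' : m1 = 0 ∧ m2 = 0 := Prod.mk_eq_zero.mp hm
    obtain ⟨rfl, rfl⟩ := hm'
    have hwt : wt ((0, 0) : ℤ × ℤ) = 1 := by
      unfold wt
      simp
    have htau : tauA ((0, 0) : ℤ × ℤ) (k1, k2) (l1, l2)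
        = (((k1 : ℝ) * (l1 : ℝ) / 2 : ℝ) : ℂ) := by
      unfold tauA
      rw [if_pos hm]
      unfold Qs11
      push_cast
      ring
    rw [htau, hwt, Complex.norm_real, Real.norm_eq_abs, abs_div, abs_mul, abs_two]
    have h1 : |(k1 : ℝ)| * |(l1 : ℝ)| ≤ (|(k1 : ℝ)| + |(k2 : ℝ)|) * (|(l1 : ℝ)| + |(l2 : ℝ)|) := by
      nlinarith [abs_nonneg (k1 : ℝ), abs_nonneg (k2 : ℝ), abs_nonneg (l1 : ℝ),
        abs_nonneg (l2 : ℝ), mul_nonneg (abs_nonneg (k2 : ℝ)) (abs_nonneg (l1 : ℝ)),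
        mul_nonneg (abs_nonneg (k1 : ℝ)) (abs_nonneg (l2 : ℝ)),
        mul_nonneg (abs_nonneg (k2 : ℝ)) (abs_nonneg (l2 : ℝ))]
    have h2 : (|(k1 : ℝ)| + |(k2 : ℝ)|) * (|(l1 : ℝ)| + |(l2 : ℝ)|)
        ≤ (|(k1 : ℝ)| + |(k2 : ℝ)|) ^ 2 * (|(l1 : ℝ)| + |(l2 : ℝ)|) ^ 2 :=
      mul_le_mul hK hL hL0 (by positivity)
    nlinarith
  · have hD1 : (1 : ℝ) ≤ (m1 : ℝ) ^ 2 + (m2 : ℝ) ^ 2 := by
      by_cases h1 : m1 = 0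
      · have h2 : m2 ≠ 0 := fun h2 => hm (by rw [h1, h2]; rfl)
        have h3 := symbA_one_le_abs h2
        nlinarith [symbA_abs_le_sq m2, sq_nonneg (m1 : ℝ)]
      · have h3 := symbA_one_le_abs h1
        nlinarith [symbA_abs_le_sq m1, sq_nonneg (m2 : ℝ)]
    have hD0 : (0 : ℝ) < (m1 : ℝ) ^ 2 + (m2 : ℝ) ^ 2 := by linarith
    have hwt : wt (m1, m2) ^ 2 ≤ 6 * ((m1 : ℝ) ^ 2 + (m2 : ℝ) ^ 2) := by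
      unfold wt
      show (1 + |(m1 : ℝ)| + |(m2 : ℝ)|) ^ 2 ≤ 6 * ((m1 : ℝ) ^ 2 + (m2 : ℝ) ^ 2)
      nlinarith [symbA_abs_le_sq m1, symbA_abs_le_sq m2, sq_abs (m1 : ℝ), sq_abs (m2 : ℝ),
        sq_nonneg (|(m1 : ℝ)| - |(m2 : ℝ)|), abs_nonneg (m1 : ℝ), abs_nonneg (m2 : ℝ)]
    have hS12 : Ss12 (k1, k2) (l1, l2) = 0 := by
      unfold Ss12
      ring
    have hS11 : Ss11 (k1, k2) (l1, l2)
        = -((k2 : ℂ) * (l1 : ℂ) - (k1 : ℂ) * (l2 : ℂ)) ^ 2 / 2 := by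
      unfold Ss11
      ring
    have hR : Complex.I * Rs1 (k1, k2) (l1, l2)
        = (((k1 : ℂ) ^ 2 + (k2 : ℂ) ^ 2) * (l1 : ℂ) +
            (k1 : ℂ) * ((l1 : ℂ) ^ 2 + (l2 : ℂ) ^ 2)) / 2 := by
      unfold Rs1
      linear_combination (-(((k1 : ℂ) ^ 2 + (k2 : ℂ) ^ 2) * (l1 : ℂ) +
            (k1 : ℂ) * ((l1 : ℂ) ^ 2 + (l2 : ℂ) ^ 2)) / 2) * Complex.I_mul_I
    have htau : tauA (m1, m2) (k1, k2) (l1, l2)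
        = (((-((k2 : ℝ) * (l1 : ℝ) - (k1 : ℝ) * (l2 : ℝ)) ^ 2 +
            ((k1 : ℝ) ^ 2 + (k2 : ℝ) ^ 2) * (l1 : ℝ) +
            (k1 : ℝ) * ((l1 : ℝ) ^ 2 + (l2 : ℝ) ^ 2)) / 2 /
            ((m1 : ℝ) ^ 2 + (m2 : ℝ) ^ 2) : ℝ) : ℂ) := by
      unfold tauA
      rw [if_neg hm, hS12, hS11, hR]
      push_cast
      ring
    have hX := symbA_real (k1 : ℝ) (k2 : ℝ) (l1 : ℝ) (l2 : ℝ) hK hL
    rw [htau, Complex.norm_real, Real.norm_eq_abs, abs_div, abs_of_pos hD0]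
    set X : ℝ := |(-((k2 : ℝ) * (l1 : ℝ) - (k1 : ℝ) * (l2 : ℝ)) ^ 2 +
            ((k1 : ℝ) ^ 2 + (k2 : ℝ) ^ 2) * (l1 : ℝ) +
            (k1 : ℝ) * ((l1 : ℝ) ^ 2 + (l2 : ℝ) ^ 2)) / 2| with hXdef
    have hX0 : 0 ≤ X := abs_nonneg _
    calc X / ((m1 : ℝ) ^ 2 + (m2 : ℝ) ^ 2) * wt (m1, m2) ^ 2
        ≤ X / ((m1 : ℝ) ^ 2 + (m2 : ℝ) ^ 2) * (6 * ((m1 : ℝ) ^ 2 + (m2 : ℝ) ^ 2)) :=
          mul_le_mul_of_nonneg_left hwt (div_nonneg hX0 hD0.le)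
      _ = 6 * X := by
          field_simp
      _ ≤ 60 * ((|(k1 : ℝ)| + |(k2 : ℝ)|) ^ 2 * (|(l1 : ℝ)| + |(l2 : ℝ)|) ^ 2) := by
          linarith

end Vale.Agent.Lib.P205.NF
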