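import Vale.Agent.Lib.P205.NF.Defs

/-!
# Bound for the master symbol `tauB`
-/

namespace Vale.Agent.Lib.P205.NF

/-- In two variables the mixed symbol vanishes identically. -/
theorem symbB_Ss12_zero (κ l : ℤ × ℤ) : Ss12 κ l = 0 := by
  unfold Ss12
  ring

/-- The absolute value of an integer is at most its square. -/
theorem symbB_abs_le_sq (n : ℤ) : |(n : ℝ)| ≤ (n : ℝ) ^ 2 := by
  obtain ⟨k, hk⟩ : ∃ k : ℤ, k = |n| := ⟨_, rfl⟩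
  have h0 : 0 ≤ k := hk ▸ abs_nonneg n
  have h1 : k ≤ k ^ 2 := by
    rcases (by omega : k = 0 ∨ 1 ≤ k) with h | h
    · rw [h]
      norm_num
    · nlinarith
  have h2 : ((k : ℤ) : ℝ) ≤ ((k ^ 2 : ℤ) : ℝ) := by exact_mod_cast h1
  rw [hk, Int.cast_pow, Int.cast_abs, sq_abs] at h2
  exact h2

theorem symbB_one_le (m : ℤ × ℤ) (hm : m ≠ 0) : (1 : ℝ) ≤ (m.1 : ℝ) ^ 2 + (m.2 : ℝ) ^ 2 := by
  have h : m.1 ≠ 0 ∨ m.2 ≠ 0 := by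
    by_contra hcon
    push Not at hcon
    exact hm (Prod.ext hcon.1 hcon.2)
  have h1 : (1 : ℤ) ≤ m.1 ^ 2 + m.2 ^ 2 := by
    rcases h with h | h
    · have h2 : 1 ≤ m.1 ^ 2 := (one_le_sq_iff_one_le_abs _).mpr (Int.one_le_abs h)
      nlinarith [sq_nonneg m.2]
    · have h2 : 1 ≤ m.2 ^ 2 := (one_le_sq_iff_one_le_abs _).mpr (Int.one_le_abs h)
      nlinarith [sq_nonneg m.1]
  exact_mod_cast h1

theorem symbB_sum_le_sq (a b : ℝ) (ha : |a| ≤ a ^ 2) (hb : |b| ≤ b ^ 2) :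
    |a| + |b| ≤ (|a| + |b|) ^ 2 := by
  nlinarith [sq_abs a, sq_abs b, mul_nonneg (abs_nonneg a) (abs_nonneg b)]

/-- Bound for the symbol at output frequency zero. -/
theorem symbB_zero (a b c e : ℝ) (ha : |a| ≤ a ^ 2) (hb : |b| ≤ b ^ 2) (hc : |c| ≤ c ^ 2)
    (he : |e| ≤ e ^ 2) :
    |b * e / 2| ≤ 1 / 2 * ((|a| + |b|) ^ 2 * (|c| + |e|) ^ 2) := by
  have hK := symbB_sum_le_sq a b ha hb
  have hL := symbB_sum_le_sq c e hc he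
  have hA := abs_nonneg a
  have hB := abs_nonneg b
  have hC := abs_nonneg c
  have hE := abs_nonneg e
  have h1 : |b| * |e| ≤ (|a| + |b|) * (|c| + |e|) := by
    nlinarith [mul_nonneg hA hC, mul_nonneg hA hE, mul_nonneg hB hC]
  have h2 : (|a| + |b|) * (|c| + |e|) ≤ (|a| + |b|) ^ 2 * (|c| + |e|) ^ 2 :=
    mul_le_mul hK hL (by positivity) (by positivity)
  rw [abs_div, abs_mul, abs_two]
  linarith

/-- Bound for the numerator of the symbol at nonzero output frequency. -/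
theorem symbB_num (a b c e : ℝ) (ha : |a| ≤ a ^ 2) (hb : |b| ≤ b ^ 2) (hc : |c| ≤ c ^ 2)
    (he : |e| ≤ e ^ 2) :
    |-(a * e - b * c) ^ 2 / 2 + ((a ^ 2 + b ^ 2) * e + b * (c ^ 2 + e ^ 2)) / 2| ≤
      3 / 2 * ((|a| + |b|) ^ 2 * (|c| + |e|) ^ 2) := by
  have hK := symbB_sum_le_sq a b ha hb
  have hL := symbB_sum_le_sq c e hc he
  have hA := abs_nonneg a
  have hB := abs_nonneg b
  have hC := abs_nonneg c
  have hE := abs_nonneg e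
  have h1 : |a * e - b * c| ≤ (|a| + |b|) * (|c| + |e|) := by
    calc |a * e - b * c| ≤ |a * e| + |b * c| := abs_sub _ _
      _ = |a| * |e| + |b| * |c| := by rw [abs_mul, abs_mul]
      _ ≤ (|a| + |b|) * (|c| + |e|) := by
        nlinarith [mul_nonneg hA hC, mul_nonneg hB hE]
  have h2 : (a * e - b * c) ^ 2 ≤ ((|a| + |b|) * (|c| + |e|)) ^ 2 := by
    rw [← sq_abs (a * e - b * c)]
    exact pow_le_pow_left₀ (abs_nonneg _) h1 2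
  have h3 : |(a ^ 2 + b ^ 2) * e + b * (c ^ 2 + e ^ 2)| ≤
      (|a| + |b|) ^ 2 * (|c| + |e|) + (|a| + |b|) * (|c| + |e|) ^ 2 := by
    calc |(a ^ 2 + b ^ 2) * e + b * (c ^ 2 + e ^ 2)|
        ≤ |(a ^ 2 + b ^ 2) * e| + |b * (c ^ 2 + e ^ 2)| := abs_add_le _ _
      _ = (a ^ 2 + b ^ 2) * |e| + |b| * (c ^ 2 + e ^ 2) := by
        rw [abs_mul, abs_mul, abs_of_nonneg (by positivity : (0 : ℝ) ≤ a ^ 2 + b ^ 2),
          abs_of_nonneg (by positivity : (0 : ℝ) ≤ c ^ 2 + e ^ 2)]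
      _ = (|a| ^ 2 + |b| ^ 2) * |e| + |b| * (|c| ^ 2 + |e| ^ 2) := by
        rw [sq_abs, sq_abs, sq_abs, sq_abs]
      _ ≤ (|a| + |b|) ^ 2 * (|c| + |e|) + (|a| + |b|) * (|c| + |e|) ^ 2 := by
        nlinarith [mul_nonneg (mul_nonneg hA hB) hE, mul_nonneg (sq_nonneg (|a| + |b|)) hC,
          mul_nonneg hA (sq_nonneg (|c| + |e|)), mul_nonneg (mul_nonneg hB hC) hE]
  have h4 : (|a| + |b|) ^ 2 * (|c| + |e|) ≤ (|a| + |b|) ^ 2 * (|c| + |e|) ^ 2 :=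
    mul_le_mul_of_nonneg_left hL (sq_nonneg _)
  have h5 : (|a| + |b|) * (|c| + |e|) ^ 2 ≤ (|a| + |b|) ^ 2 * (|c| + |e|) ^ 2 :=
    mul_le_mul_of_nonneg_right hK (sq_nonneg _)
  have h6 : ((|a| + |b|) * (|c| + |e|)) ^ 2 = (|a| + |b|) ^ 2 * (|c| + |e|) ^ 2 :=
    mul_pow _ _ 2
  have h7 : 0 ≤ (|a| + |b|) ^ 2 * (|c| + |e|) ^ 2 := by positivity
  have h8 := abs_le.mp h3
  have h9 := sq_nonneg (a * e - b * c)
  rw [abs_le]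
  constructor
  · linarith [h8.1]
  · linarith [h8.2]

theorem tauB_bound (m κ l : ℤ × ℤ) (h : κ + l = m) :
    ‖tauB m κ l‖ * wt m ^ 2 ≤
      60 * ((|(κ.1 : ℝ)| + |(κ.2 : ℝ)|) ^ 2 * (|(l.1 : ℝ)| + |(l.2 : ℝ)|) ^ 2) := by
  have _hh := h
  have hX : 0 ≤ (|(κ.1 : ℝ)| + |(κ.2 : ℝ)|) ^ 2 * (|(l.1 : ℝ)| + |(l.2 : ℝ)|) ^ 2 := by
    positivity
  by_cases hm : m = 0
  · have h1 : tauB m κ l = (((κ.2 : ℝ) * (l.2 : ℝ) / 2 : ℝ) : ℂ) := by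
      unfold tauB Qs22
      rw [if_pos hm]
      push_cast
      ring
    have h2 : wt m = 1 := by
      rw [hm]
      unfold wt
      simp
    have h3 := symbB_zero (κ.1 : ℝ) (κ.2 : ℝ) (l.1 : ℝ) (l.2 : ℝ) (symbB_abs_le_sq _)
      (symbB_abs_le_sq _) (symbB_abs_le_sq _) (symbB_abs_le_sq _)
    rw [h1, Complex.norm_real, Real.norm_eq_abs, h2]
    linarith
  · have hD1 : (1 : ℝ) ≤ (m.1 : ℝ) ^ 2 + (m.2 : ℝ) ^ 2 := symbB_one_le m hm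
    have hD0 : (0 : ℝ) < (m.1 : ℝ) ^ 2 + (m.2 : ℝ) ^ 2 := by linarith
    have hS : Ss22 κ l =
        ((-((κ.1 : ℝ) * (l.2 : ℝ) - (κ.2 : ℝ) * (l.1 : ℝ)) ^ 2 / 2 : ℝ) : ℂ) := by
      unfold Ss22
      push_cast
      ring
    have hR : Complex.I * Rs2 κ l =
        (((((κ.1 : ℝ) ^ 2 + (κ.2 : ℝ) ^ 2) * (l.2 : ℝ) +
          (κ.2 : ℝ) * ((l.1 : ℝ) ^ 2 + (l.2 : ℝ) ^ 2)) / 2 : ℝ) : ℂ) := by
      unfold Rs2
      push_cast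
      linear_combination (-(((κ.1 : ℂ) ^ 2 + (κ.2 : ℂ) ^ 2) * (l.2 : ℂ) +
        (κ.2 : ℂ) * ((l.1 : ℂ) ^ 2 + (l.2 : ℂ) ^ 2)) / 2) * Complex.I_sq
    have hDc : (m.1 : ℂ) ^ 2 + (m.2 : ℂ) ^ 2 =
        (((m.1 : ℝ) ^ 2 + (m.2 : ℝ) ^ 2 : ℝ) : ℂ) := by
      push_cast
      ring
    have h1 : tauB m κ l =
        (((-((κ.1 : ℝ) * (l.2 : ℝ) - (κ.2 : ℝ) * (l.1 : ℝ)) ^ 2 / 2 +
          (((κ.1 : ℝ) ^ 2 + (κ.2 : ℝ) ^ 2) * (l.2 : ℝ) +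
            (κ.2 : ℝ) * ((l.1 : ℝ) ^ 2 + (l.2 : ℝ) ^ 2)) / 2) /
          ((m.1 : ℝ) ^ 2 + (m.2 : ℝ) ^ 2) : ℝ) : ℂ) := by
      unfold tauB
      rw [if_neg hm, symbB_Ss12_zero, hS, hR, hDc]
      push_cast
      ring
    have hT := symbB_num (κ.1 : ℝ) (κ.2 : ℝ) (l.1 : ℝ) (l.2 : ℝ) (symbB_abs_le_sq _)
      (symbB_abs_le_sq _) (symbB_abs_le_sq _) (symbB_abs_le_sq _)
    have hw : wt m ^ 2 ≤ 6 * ((m.1 : ℝ) ^ 2 + (m.2 : ℝ) ^ 2) := by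
      unfold wt
      nlinarith [sq_abs (m.1 : ℝ), sq_abs (m.2 : ℝ),
        sq_nonneg (|(m.1 : ℝ)| - |(m.2 : ℝ)|), sq_nonneg (|(m.1 : ℝ)| - 1),
        sq_nonneg (|(m.2 : ℝ)| - 1)]
    rw [h1, Complex.norm_real, Real.norm_eq_abs, abs_div, abs_of_pos hD0,
      div_mul_eq_mul_div, div_le_iff₀ hD0]
    calc |(-((κ.1 : ℝ) * (l.2 : ℝ) - (κ.2 : ℝ) * (l.1 : ℝ)) ^ 2 / 2 +
          (((κ.1 : ℝ) ^ 2 + (κ.2 : ℝ) ^ 2) * (l.2 : ℝ) +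
            (κ.2 : ℝ) * ((l.1 : ℝ) ^ 2 + (l.2 : ℝ) ^ 2)) / 2)| * wt m ^ 2
        ≤ (3 / 2 * ((|(κ.1 : ℝ)| + |(κ.2 : ℝ)|) ^ 2 * (|(l.1 : ℝ)| + |(l.2 : ℝ)|) ^ 2)) *
          (6 * ((m.1 : ℝ) ^ 2 + (m.2 : ℝ) ^ 2)) :=
          mul_le_mul hT hw (sq_nonneg _) (by positivity)
      _ ≤ 60 * ((|(κ.1 : ℝ)| + |(κ.2 : ℝ)|) ^ 2 * (|(l.1 : ℝ)| + |(l.2 : ℝ)|) ^ 2) *
          ((m.1 : ℝ) ^ 2 + (m.2 : ℝ) ^ 2) := by
          nlinarith [mul_nonneg hX hD0.le]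

end Vale.Agent.Lib.P205.NF
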