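import Vale.Agent.Lib.P205.NF.Defs

/-!
# Symbol identities for the `dx^2` coefficient
-/

namespace Vale.Agent.Lib.P205.NF

theorem sym11_den (m1 m2 : ℤ) (hm : ¬ ((m1, m2) : ℤ × ℤ) = 0) :
    ((m1 : ℂ) ^ 2 + (m2 : ℂ) ^ 2) ≠ 0 := by
  have h : m1 ^ 2 + m2 ^ 2 ≠ 0 := by
    intro h0
    apply hm
    have h1 : m1 = 0 := by nlinarith [sq_nonneg m1, sq_nonneg m2]
    have h2 : m2 = 0 := by nlinarith [sq_nonneg m1, sq_nonneg m2]
    rw [h1, h2]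
    rfl
  have h' : ((m1 ^ 2 + m2 ^ 2 : ℤ) : ℂ) ≠ 0 := by exact_mod_cast h
  simpa using h'

theorem sym11_IRs1 (κ l : ℤ × ℤ) : Complex.I * Rs1 κ l =
    (((κ.1 : ℂ) ^ 2 + (κ.2 : ℂ) ^ 2) * (l.1 : ℂ) +
      (κ.1 : ℂ) * ((l.1 : ℂ) ^ 2 + (l.2 : ℂ) ^ 2)) / 2 := by
  unfold Rs1
  linear_combination (-((((κ.1 : ℂ) ^ 2 + (κ.2 : ℂ) ^ 2) * (l.1 : ℂ) +
      (κ.1 : ℂ) * ((l.1 : ℂ) ^ 2 + (l.2 : ℂ) ^ 2)) / 2)) * Complex.I_sq

theorem sym11_1 (m k : ℤ × ℤ) :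
    ((m.1 : ℂ) + 1) * twm tauA e1 m k - ((m.1 : ℂ) - 1) * dag (twm tauA e1) m k +
      tw Qs11 e1 m k = 0 := by
  obtain ⟨m1, m2⟩ := m
  obtain ⟨k1, k2⟩ := k
  by_cases hm : ((m1, m2) : ℤ × ℤ) = 0
  · have h1 : m1 = 0 := congrArg Prod.fst hm
    have h2 : m2 = 0 := congrArg Prod.snd hm
    subst h1
    subst h2
    simp [twm, tw, dag, tauA, Qs11, e1, map_ofNat]
  · have hD := sym11_den m1 m2 hm
    have hm' : ¬ ((-m1, -m2) : ℤ × ℤ) = 0 := by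
      intro h
      apply hm
      have h1 : -m1 = 0 := congrArg Prod.fst h
      have h2 : -m2 = 0 := congrArg Prod.snd h
      rw [neg_eq_zero.mp h1, neg_eq_zero.mp h2]
      rfl
    simp only [twm, tw, dag, tauA, Prod.neg_mk, if_neg hm, if_neg hm', sym11_IRs1,
      Qs11, Ss11, Ss12, e1, Prod.mk_add_mk, Prod.mk_sub_mk,
      map_add, map_sub, map_mul, map_div₀, map_neg, map_pow, map_intCast,
      map_ofNat, map_one, map_zero, Int.cast_add, Int.cast_sub, Int.cast_neg, Int.cast_one,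
      Int.cast_zero, neg_sq]
    field_simp
    ring

theorem sym11_2 (m k : ℤ × ℤ) :
    ((m.1 : ℂ) + 1) * twm tauA e2 m k - ((m.1 : ℂ) - 1) * dag (twm tauA e2) m k +
      tw Qs11 e2 m k = 0 := by
  obtain ⟨m1, m2⟩ := m
  obtain ⟨k1, k2⟩ := k
  by_cases hm : ((m1, m2) : ℤ × ℤ) = 0
  · have h1 : m1 = 0 := congrArg Prod.fst hm
    have h2 : m2 = 0 := congrArg Prod.snd hm
    subst h1
    subst h2
    simp [twm, tw, dag, tauA, Qs11, e2, map_ofNat]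
  · have hD := sym11_den m1 m2 hm
    have hm' : ¬ ((-m1, -m2) : ℤ × ℤ) = 0 := by
      intro h
      apply hm
      have h1 : -m1 = 0 := congrArg Prod.fst h
      have h2 : -m2 = 0 := congrArg Prod.snd h
      rw [neg_eq_zero.mp h1, neg_eq_zero.mp h2]
      rfl
    simp only [twm, tw, dag, tauA, Prod.neg_mk, if_neg hm, if_neg hm', sym11_IRs1,
      Qs11, Ss11, Ss12, e2, Prod.mk_add_mk, Prod.mk_sub_mk,
      map_add, map_sub, map_mul, map_div₀, map_neg, map_pow, map_intCast,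
      map_ofNat, map_one, map_zero, Int.cast_add, Int.cast_sub, Int.cast_neg, Int.cast_one,
      Int.cast_zero, neg_sq]
    field_simp
    ring

end Vale.Agent.Lib.P205.NF
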