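import Vale.Agent.Lib.P205.NF.Defs

/-!
# Symbol identities for the `dx dy` coefficient
-/

namespace Vale.Agent.Lib.P205.NF

/-- The denominator of the master symbols does not vanish at a nonzero frequency. -/
theorem sym12_den (m1 m2 : ℤ) (hm : ((m1, m2) : ℤ × ℤ) ≠ 0) :
    (m1 : ℂ) ^ 2 + (m2 : ℂ) ^ 2 ≠ 0 := by
  have h : (0 : ℤ) < m1 ^ 2 + m2 ^ 2 := by
    by_contra hcon
    have h1 : m1 ^ 2 + m2 ^ 2 ≤ 0 := not_lt.mp hcon
    have h2 : m1 = 0 := by nlinarith [sq_nonneg m1, sq_nonneg m2]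
    have h3 : m2 = 0 := by nlinarith [sq_nonneg m1, sq_nonneg m2]
    exact hm (by rw [h2, h3]; rfl)
  have h' : ((m1 ^ 2 + m2 ^ 2 : ℤ) : ℂ) ≠ 0 := by
    exact_mod_cast h.ne'
  push_cast at h'
  exact h'

/-- The opposite of a nonzero frequency is nonzero. -/
theorem sym12_neg (m1 m2 : ℤ) (hm : ((m1, m2) : ℤ × ℤ) ≠ 0) :
    ((-m1, -m2) : ℤ × ℤ) ≠ 0 := by
  intro h
  apply hm
  have h1 : -m1 = 0 := congrArg Prod.fst h
  have h2 : -m2 = 0 := congrArg Prod.snd h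
  have h3 : m1 = 0 := by linarith
  have h4 : m2 = 0 := by linarith
  rw [h3, h4]; rfl

/-- Removal of the two factors `I` in the terms coming from the symbols `Rs1`, `Rs2`. -/
theorem sym12_I (X : ℂ) : Complex.I * (-(Complex.I / 2) * X) = X / 2 := by
  linear_combination (-X / 2) * Complex.I_sq

theorem sym12_1 (m k : ℤ × ℤ) (hm : m ≠ 0) :
    (m.2 : ℂ) / 2 * (twm tauA e1 m k - dag (twm tauA e1) m k) +
      (m.1 : ℂ) / 2 * (twm tauB e1 m k - dag (twm tauB e1) m k) + tw Qs12 e1 m k = 0 := by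
  obtain ⟨m1, m2⟩ := m
  obtain ⟨k1, k2⟩ := k
  have hD := sym12_den m1 m2 hm
  have hm' := sym12_neg m1 m2 hm
  simp only [twm, tw, dag, tauA, tauB, e1, if_neg hm, if_neg hm', Qs12, Ss11, Ss12, Ss22,
    Rs1, Rs2, Prod.mk_add_mk, Prod.mk_sub_mk, Prod.neg_mk]
  simp only [map_add, map_sub, map_mul, map_div₀, map_neg, map_pow,
    map_intCast, map_ofNat, map_one, Int.cast_add, Int.cast_sub, Int.cast_neg,
    Int.cast_one, neg_sq, add_zero, sub_zero, sym12_I]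
  field_simp
  ring

theorem sym12_2 (m k : ℤ × ℤ) (hm : m ≠ 0) :
    (m.2 : ℂ) / 2 * (twm tauA e2 m k - dag (twm tauA e2) m k) +
      (m.1 : ℂ) / 2 * (twm tauB e2 m k - dag (twm tauB e2) m k) + tw Qs12 e2 m k = 0 := by
  obtain ⟨m1, m2⟩ := m
  obtain ⟨k1, k2⟩ := k
  have hD := sym12_den m1 m2 hm
  have hm' := sym12_neg m1 m2 hm
  simp only [twm, tw, dag, tauA, tauB, e2, if_neg hm, if_neg hm', Qs12, Ss11, Ss12, Ss22,
    Rs1, Rs2, Prod.mk_add_mk, Prod.mk_sub_mk, Prod.neg_mk]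
  simp only [map_add, map_sub, map_mul, map_div₀, map_neg, map_pow,
    map_intCast, map_ofNat, map_one, Int.cast_add, Int.cast_sub, Int.cast_neg,
    Int.cast_one, neg_sq, add_zero, sub_zero, sym12_I]
  field_simp
  ring

end Vale.Agent.Lib.P205.NF
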