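import Vale.Agent.Lib.P205.NF.Defs

/-!
# Symbol identities for the `dy^2` coefficient
-/

namespace Vale.Agent.Lib.P205.NF

lemma sym22_den (m : ℤ × ℤ) (hm : m ≠ 0) : ((m.1 : ℂ) ^ 2 + (m.2 : ℂ) ^ 2) ≠ 0 := by
  have h : (m.1 ^ 2 + m.2 ^ 2 : ℤ) ≠ 0 := by
    intro h0
    apply hm
    have h1 : m.1 ^ 2 = 0 := by nlinarith [sq_nonneg m.1, sq_nonneg m.2]
    have h2 : m.2 ^ 2 = 0 := by nlinarith [sq_nonneg m.1, sq_nonneg m.2]
    exact Prod.ext ((pow_eq_zero_iff two_ne_zero).mp h1) ((pow_eq_zero_iff two_ne_zero).mp h2)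
  exact_mod_cast h

/-- The rational identity behind both statements, in the four wave numbers. -/
lemma sym22_alg (a b c d : ℂ) (hD : (a + c) ^ 2 + (b + d) ^ 2 ≠ 0) :
    ((b + d) + 1) *
      (-2 * (a + c) * (b + d) *
            ((a * c + b * d) * (a * d + b * c) / 2 -
              ((a ^ 2 + b ^ 2) * (c * d) + a * b * (c ^ 2 + d ^ 2)) / 2) /
            ((a + c) ^ 2 + (b + d) ^ 2) ^ 2 +
          ((a * c + b * d) * (b * d) -
              ((a ^ 2 + b ^ 2) * (d * d) + b * b * (c ^ 2 + d ^ 2)) / 2) /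
            ((a + c) ^ 2 + (b + d) ^ 2) +
          Complex.I * (-(Complex.I / 2) * ((a ^ 2 + b ^ 2) * d + b * (c ^ 2 + d ^ 2))) /
            ((a + c) ^ 2 + (b + d) ^ 2) +
        2 * (a + c) *
            ((a * c + b * d) * (a * d + b * c) / 2 -
              ((a ^ 2 + b ^ 2) * (c * d) + a * b * (c ^ 2 + d ^ 2)) / 2) /
          ((a + c) ^ 2 + (b + d) ^ 2) ^ 2) -
      ((b + d) - 1) *
        (-2 * (-(a + c)) * (-(b + d)) *
            (((-c) * (-a) + (-d) * (-b)) * ((-c) * (-b) + (-d) * (-a)) / 2 -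
              (((-c) ^ 2 + (-d) ^ 2) * ((-a) * (-b)) + (-c) * (-d) * ((-a) ^ 2 + (-b) ^ 2)) / 2) /
            ((-(a + c)) ^ 2 + (-(b + d)) ^ 2) ^ 2 +
          (((-c) * (-a) + (-d) * (-b)) * ((-d) * (-b)) -
              (((-c) ^ 2 + (-d) ^ 2) * ((-b) * (-b)) + (-d) * (-d) * ((-a) ^ 2 + (-b) ^ 2)) / 2) /
            ((-(a + c)) ^ 2 + (-(b + d)) ^ 2) +
          (-Complex.I) * (-(-Complex.I / 2) * (((-c) ^ 2 + (-d) ^ 2) * (-b) + (-d) * ((-a) ^ 2 + (-b) ^ 2))) /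
            ((-(a + c)) ^ 2 + (-(b + d)) ^ 2) +
        2 * (-(a + c)) *
            (((-c) * (-a) + (-d) * (-b)) * ((-c) * (-b) + (-d) * (-a)) / 2 -
              (((-c) ^ 2 + (-d) ^ 2) * ((-a) * (-b)) + (-c) * (-d) * ((-a) ^ 2 + (-b) ^ 2)) / 2) /
          ((-(a + c)) ^ 2 + (-(b + d)) ^ 2) ^ 2) +
      -(b * d) = 0 := by
  have hD' : (-(a + c)) ^ 2 + (-(b + d)) ^ 2 = (a + c) ^ 2 + (b + d) ^ 2 := by ring
  rw [hD']
  have hI : Complex.I * Complex.I = -1 := Complex.I_mul_I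
  generalize Complex.I = i at hI
  generalize hDd : (a + c) ^ 2 + (b + d) ^ 2 = D at hD
  field_simp
  subst hDd
  linear_combination (-(2 * (b + d) * ((a + c) ^ 2 + (b + d) ^ 2) *
    (d * (a ^ 2 + b ^ 2) + b * (c ^ 2 + d ^ 2)))) * hI

lemma sym22_aux (κ l : ℤ × ℤ) :
    (((κ + l).2 : ℂ) + 1) * tauB (κ + l) κ l
      - (((κ + l).2 : ℂ) - 1) * (starRingEnd ℂ) (tauB (-(κ + l)) (-l) (-κ)) + Qs22 κ l = 0 := by
  by_cases hm : κ + l = 0
  · have hm' : -(κ + l) = 0 := by rw [hm, neg_zero]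
    have h2 : (κ.2 : ℂ) + (l.2 : ℂ) = 0 := by
      have h3 := congrArg Prod.snd hm
      simp only [Prod.snd_add, Prod.snd_zero] at h3
      exact_mod_cast h3
    simp only [tauB, if_pos hm, if_pos hm', Qs22, Prod.snd_add, Prod.snd_neg, Int.cast_add,
      Int.cast_neg, map_mul, map_div₀, map_neg, map_intCast, map_ofNat]
    rw [h2]
    ring
  · have hD := sym22_den (κ + l) hm
    have hm' : ¬ (-(κ + l) = 0) := by
      intro h
      exact hm (neg_eq_zero.mp h)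
    simp only [Prod.fst_add, Prod.snd_add, Int.cast_add] at hD
    have key := sym22_alg (κ.1 : ℂ) (κ.2 : ℂ) (l.1 : ℂ) (l.2 : ℂ) hD
    simp only [tauB, if_neg hm, if_neg hm', Qs22, Ss22, Ss12, Rs2, Prod.fst_add, Prod.snd_add,
      Prod.fst_neg, Prod.snd_neg, Int.cast_add, Int.cast_neg, map_add, map_sub, map_mul,
      map_div₀, map_neg, map_pow, Complex.conj_I, map_intCast, map_ofNat]
    linear_combination key

theorem sym22_1 (m k : ℤ × ℤ) :
    ((m.2 : ℂ) + 1) * twm tauB e1 m k - ((m.2 : ℂ) - 1) * dag (twm tauB e1) m k +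
      tw Qs22 e1 m k = 0 := by
  have h := sym22_aux (k + e1) (m - k - e1)
  have e : k + e1 + (m - k - e1) = m := by abel
  have e' : -(m - k - e1) = k - m + e1 := by abel
  have e'' : -(k + e1) = -m - (k - m) - e1 := by abel
  rw [e, e', e''] at h
  exact h

theorem sym22_2 (m k : ℤ × ℤ) :
    ((m.2 : ℂ) + 1) * twm tauB e2 m k - ((m.2 : ℂ) - 1) * dag (twm tauB e2) m k +
      tw Qs22 e2 m k = 0 := by
  have h := sym22_aux (k + e2) (m - k - e2)
  have e : k + e2 + (m - k - e2) = m := by abel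
  have e' : -(m - k - e2) = k - m + e2 := by abel
  have e'' : -(k + e2) = -m - (k - m) - e2 := by abel
  rw [e, e', e''] at h
  exact h

end Vale.Agent.Lib.P205.NF
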