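import Vale.Agent.Lib.P205.NF.Young
import Vale.Agent.Lib.P205.NF.BconvAlg
import Vale.Agent.Lib.P205.NF.SymBoundA
import Vale.Agent.Lib.P205.NF.SymBoundB
import Vale.Agent.Lib.P205.NF.SymId11
import Vale.Agent.Lib.P205.NF.SymId22
import Vale.Agent.Lib.P205.NF.SymId12

/-!
# The metric coefficients of a fixed point, in terms of the linear data
-/

namespace Vale.Agent.Lib.P205.NF

theorem coefgen_wt_ge_one (k : ℤ × ℤ) : 1 ≤ wt k := by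
  unfold wt
  linarith [abs_nonneg (k.1 : ℝ), abs_nonneg (k.2 : ℝ)]

theorem coefgen_wt_neg (k : ℤ × ℤ) : wt (-k) = wt k := by
  simp [wt, abs_neg]

theorem coefgen_he1 : |((e1.1 : ℤ) : ℝ)| + |((e1.2 : ℤ) : ℝ)| ≤ 1 := by
  simp [e1]

theorem coefgen_he2 : |((e2.1 : ℤ) : ℝ)| + |((e2.2 : ℤ) : ℝ)| ≤ 1 := by
  simp [e2]

theorem coefgen_shift_add (k e : ℤ × ℤ) (he : |((e.1 : ℤ) : ℝ)| + |((e.2 : ℤ) : ℝ)| ≤ 1) :
    |(((k + e).1 : ℤ) : ℝ)| + |(((k + e).2 : ℤ) : ℝ)| ≤ wt k := by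
  simp only [Prod.fst_add, Prod.snd_add, Int.cast_add]
  unfold wt
  linarith [abs_add_le (k.1 : ℝ) (e.1 : ℝ), abs_add_le (k.2 : ℝ) (e.2 : ℝ)]

theorem coefgen_shift_sub (k e : ℤ × ℤ) (he : |((e.1 : ℤ) : ℝ)| + |((e.2 : ℤ) : ℝ)| ≤ 1) :
    |(((k - e).1 : ℤ) : ℝ)| + |(((k - e).2 : ℤ) : ℝ)| ≤ wt k := by
  have h := coefgen_shift_add k (-e) (by simpa [abs_neg] using he)
  rwa [← sub_eq_add_neg] at h

/-- A product bound in terms of the weights of the two untwisted wave vectors. -/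
theorem coefgen_AB (e : ℤ × ℤ) (he : |((e.1 : ℤ) : ℝ)| + |((e.2 : ℤ) : ℝ)| ≤ 1) (m k : ℤ × ℤ) :
    (|(((k + e).1 : ℤ) : ℝ)| + |(((k + e).2 : ℤ) : ℝ)|) ^ 2 *
        (|(((m - k - e).1 : ℤ) : ℝ)| + |(((m - k - e).2 : ℤ) : ℝ)|) ^ 2
      ≤ wt k ^ 2 * wt (m - k) ^ 2 := by
  have hA := coefgen_shift_add k e he
  have hB := coefgen_shift_sub (m - k) e he
  have hA0 : 0 ≤ |(((k + e).1 : ℤ) : ℝ)| + |(((k + e).2 : ℤ) : ℝ)| :=
    add_nonneg (abs_nonneg _) (abs_nonneg _)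
  have hB0 : 0 ≤ |(((m - k - e).1 : ℤ) : ℝ)| + |(((m - k - e).2 : ℤ) : ℝ)| :=
    add_nonneg (abs_nonneg _) (abs_nonneg _)
  exact mul_le_mul (pow_le_pow_left₀ hA0 hA 2) (pow_le_pow_left₀ hB0 hB 2)
    (sq_nonneg _) (sq_nonneg _)

/-- Bound of a twisted master symbol depending on the output frequency. -/
theorem coefgen_twm_bound (σ : ℤ × ℤ → ℤ × ℤ → ℤ × ℤ → ℂ)
    (hσ : ∀ m κ l : ℤ × ℤ, κ + l = m → ‖σ m κ l‖ * wt m ^ 2 ≤
      60 * ((|(κ.1 : ℝ)| + |(κ.2 : ℝ)|) ^ 2 * (|(l.1 : ℝ)| + |(l.2 : ℝ)|) ^ 2))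
    (e : ℤ × ℤ) (he : |((e.1 : ℤ) : ℝ)| + |((e.2 : ℤ) : ℝ)| ≤ 1) (m k : ℤ × ℤ) :
    ‖twm σ e m k‖ ≤ 60 * (wt k ^ 2 * wt (m - k) ^ 2) := by
  have h := hσ m (k + e) (m - k - e) (by abel)
  have hAB := coefgen_AB e he m k
  have hw : 1 ≤ wt m ^ 2 := one_le_pow₀ (coefgen_wt_ge_one m)
  have hn : 0 ≤ ‖σ m (k + e) (m - k - e)‖ := norm_nonneg _
  have h1 : ‖σ m (k + e) (m - k - e)‖ ≤ ‖σ m (k + e) (m - k - e)‖ * wt m ^ 2 :=
    le_mul_of_one_le_right hn hw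
  show ‖σ m (k + e) (m - k - e)‖ ≤ 60 * (wt k ^ 2 * wt (m - k) ^ 2)
  linarith

/-- The adjoint symbol satisfies the same bound. -/
theorem coefgen_dag_bound (τ : ℤ × ℤ → ℤ × ℤ → ℂ) (C : ℝ)
    (hτ : ∀ m k, ‖τ m k‖ ≤ C * (wt k ^ 2 * wt (m - k) ^ 2)) (m k : ℤ × ℤ) :
    ‖dag τ m k‖ ≤ C * (wt k ^ 2 * wt (m - k) ^ 2) := by
  have h := hτ (-m) (k - m)
  have e1' : -m - (k - m) = -k := by abel
  have e2' : k - m = -(m - k) := by abel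
  rw [e1', coefgen_wt_neg, e2', coefgen_wt_neg] at h
  unfold dag
  rw [RCLike.norm_conj, e2']
  linarith [mul_comm (wt (m - k) ^ 2) (wt k ^ 2)]

/-- Bound of a twisted master symbol not depending on the output frequency. -/
theorem coefgen_tw_bound (σ : ℤ × ℤ → ℤ × ℤ → ℂ)
    (hσ : ∀ κ l : ℤ × ℤ, ‖σ κ l‖ ≤
      (|(κ.1 : ℝ)| + |(κ.2 : ℝ)|) * (|(l.1 : ℝ)| + |(l.2 : ℝ)|))
    (e : ℤ × ℤ) (he : |((e.1 : ℤ) : ℝ)| + |((e.2 : ℤ) : ℝ)| ≤ 1) (m k : ℤ × ℤ) :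
    ‖tw σ e m k‖ ≤ 1 * (wt k ^ 2 * wt (m - k) ^ 2) := by
  have h := hσ (k + e) (m - k - e)
  have hA := coefgen_shift_add k e he
  have hB := coefgen_shift_sub (m - k) e he
  have hA0 : 0 ≤ |(((k + e).1 : ℤ) : ℝ)| + |(((k + e).2 : ℤ) : ℝ)| :=
    add_nonneg (abs_nonneg _) (abs_nonneg _)
  have hB0 : 0 ≤ |(((m - k - e).1 : ℤ) : ℝ)| + |(((m - k - e).2 : ℤ) : ℝ)| :=
    add_nonneg (abs_nonneg _) (abs_nonneg _)
  have hk := coefgen_wt_ge_one k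
  have hmk := coefgen_wt_ge_one (m - k)
  have h1 : (|(((k + e).1 : ℤ) : ℝ)| + |(((k + e).2 : ℤ) : ℝ)|) *
      (|(((m - k - e).1 : ℤ) : ℝ)| + |(((m - k - e).2 : ℤ) : ℝ)|) ≤ wt k * wt (m - k) :=
    mul_le_mul hA hB hB0 (by linarith)
  have h2 : wt k * wt (m - k) ≤ wt k ^ 2 * wt (m - k) ^ 2 := by
    have h3 : wt k ≤ wt k ^ 2 := by nlinarith
    have h4 : wt (m - k) ≤ wt (m - k) ^ 2 := by nlinarith
    exact mul_le_mul h3 h4 (by linarith) (by positivity)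
  show ‖σ (k + e) (m - k - e)‖ ≤ 1 * (wt k ^ 2 * wt (m - k) ^ 2)
  linarith

theorem coefgen_Qs11_bound (κ l : ℤ × ℤ) :
    ‖Qs11 κ l‖ ≤ (|(κ.1 : ℝ)| + |(κ.2 : ℝ)|) * (|(l.1 : ℝ)| + |(l.2 : ℝ)|) := by
  simp only [Qs11, norm_neg, norm_mul, Complex.norm_intCast]
  nlinarith [abs_nonneg (κ.1 : ℝ), abs_nonneg (κ.2 : ℝ), abs_nonneg (l.1 : ℝ),
    abs_nonneg (l.2 : ℝ), mul_nonneg (abs_nonneg (κ.1 : ℝ)) (abs_nonneg (l.2 : ℝ)),
    mul_nonneg (abs_nonneg (κ.2 : ℝ)) (abs_nonneg (l.1 : ℝ)),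
    mul_nonneg (abs_nonneg (κ.2 : ℝ)) (abs_nonneg (l.2 : ℝ))]

theorem coefgen_Qs22_bound (κ l : ℤ × ℤ) :
    ‖Qs22 κ l‖ ≤ (|(κ.1 : ℝ)| + |(κ.2 : ℝ)|) * (|(l.1 : ℝ)| + |(l.2 : ℝ)|) := by
  simp only [Qs22, norm_neg, norm_mul, Complex.norm_intCast]
  nlinarith [abs_nonneg (κ.1 : ℝ), abs_nonneg (κ.2 : ℝ), abs_nonneg (l.1 : ℝ),
    abs_nonneg (l.2 : ℝ), mul_nonneg (abs_nonneg (κ.1 : ℝ)) (abs_nonneg (l.2 : ℝ)),
    mul_nonneg (abs_nonneg (κ.2 : ℝ)) (abs_nonneg (l.1 : ℝ)),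
    mul_nonneg (abs_nonneg (κ.1 : ℝ)) (abs_nonneg (l.1 : ℝ))]

theorem coefgen_Qs12_bound (κ l : ℤ × ℤ) :
    ‖Qs12 κ l‖ ≤ (|(κ.1 : ℝ)| + |(κ.2 : ℝ)|) * (|(l.1 : ℝ)| + |(l.2 : ℝ)|) := by
  have h1 : ‖Qs12 κ l‖ ≤ (|(κ.1 : ℝ)| * |(l.2 : ℝ)| + |(κ.2 : ℝ)| * |(l.1 : ℝ)|) / 2 := by
    unfold Qs12
    rw [norm_div, norm_neg]
    have h2 : ‖(κ.1 : ℂ) * (l.2 : ℂ) + (κ.2 : ℂ) * (l.1 : ℂ)‖
        ≤ |(κ.1 : ℝ)| * |(l.2 : ℝ)| + |(κ.2 : ℝ)| * |(l.1 : ℝ)| := by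
      refine (norm_add_le _ _).trans ?_
      simp only [norm_mul, Complex.norm_intCast]
      exact le_rfl
    have h3 : ‖(2 : ℂ)‖ = 2 := by simp
    rw [h3]
    linarith
  nlinarith [abs_nonneg (κ.1 : ℝ), abs_nonneg (κ.2 : ℝ), abs_nonneg (l.1 : ℝ),
    abs_nonneg (l.2 : ℝ), mul_nonneg (abs_nonneg (κ.1 : ℝ)) (abs_nonneg (l.2 : ℝ)),
    mul_nonneg (abs_nonneg (κ.2 : ℝ)) (abs_nonneg (l.1 : ℝ)),
    mul_nonneg (abs_nonneg (κ.1 : ℝ)) (abs_nonneg (l.1 : ℝ)),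
    mul_nonneg (abs_nonneg (κ.2 : ℝ)) (abs_nonneg (l.2 : ℝ))]

/-- Pointwise summability of a convolution whose symbol is bounded by the squared weights. -/
theorem coefgen_summable (τ : ℤ × ℤ → ℤ × ℤ → ℂ) (C : ℝ) (m : ℤ × ℤ)
    (hτ : ∀ k, ‖τ m k‖ ≤ C * (wt k ^ 2 * wt (m - k) ^ 2)) (x y : ℤ × ℤ → ℂ)
    (hx : Summable fun k => wt k ^ 2 * ‖x k‖) (hy : Summable fun k => wt k ^ 2 * ‖y k‖) :
    Summable fun k => τ m k * x k * y (m - k) :=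
  bconv_summable_of_le τ (fun k => wt k ^ 2) (fun k => wt k ^ 2) C m (fun _ => sq_nonneg _)
    (fun _ => sq_nonneg _) hτ x y hx hy

/-- A vanishing linear combination of five symbols gives a vanishing linear combination of the
convolutions. -/
theorem coefgen_comb (σ₁ σ₂ σ₃ σ₄ σ₅ : ℤ × ℤ → ℤ × ℤ → ℂ) (x y : ℤ × ℤ → ℂ) (m : ℤ × ℤ)
    (c1 c2 c3 c4 : ℂ)
    (h1 : Summable fun k => σ₁ m k * x k * y (m - k))
    (h2 : Summable fun k => σ₂ m k * x k * y (m - k))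
    (h3 : Summable fun k => σ₃ m k * x k * y (m - k))
    (h4 : Summable fun k => σ₄ m k * x k * y (m - k))
    (h5 : Summable fun k => σ₅ m k * x k * y (m - k))
    (hz : ∀ k, c1 * σ₁ m k + c2 * σ₂ m k + c3 * σ₃ m k + c4 * σ₄ m k + σ₅ m k = 0) :
    c1 * bconv σ₁ x y m + c2 * bconv σ₂ x y m + c3 * bconv σ₃ x y m + c4 * bconv σ₄ x y m
      + bconv σ₅ x y m = 0 := by
  have H := ((((h1.hasSum.mul_left c1).add (h2.hasSum.mul_left c2)).add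
    (h3.hasSum.mul_left c3)).add (h4.hasSum.mul_left c4)).add h5.hasSum
  have hfun : (fun _ : ℤ × ℤ => (0 : ℂ)) = fun k => c1 * (σ₁ m k * x k * y (m - k))
      + c2 * (σ₂ m k * x k * y (m - k)) + c3 * (σ₃ m k * x k * y (m - k))
      + c4 * (σ₄ m k * x k * y (m - k)) + σ₅ m k * x k * y (m - k) := by
    funext k
    linear_combination -(x k * y (m - k)) * hz k
  have H0 : HasSum (fun _ : ℤ × ℤ => (0 : ℂ)) (c1 * bconv σ₁ x y m + c2 * bconv σ₂ x y m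
      + c3 * bconv σ₃ x y m + c4 * bconv σ₄ x y m + bconv σ₅ x y m) := by
    rw [hfun]
    exact H
  exact H0.unique hasSum_zero

theorem coef_gen (lA lB a b : ℤ × ℤ → ℂ) (ha : Summable fun k => wt k ^ 2 * ‖a k‖)
    (hb : Summable fun k => wt k ^ 2 * ‖b k‖) (hfa : TA lA a b = a) (hfb : TB lB a b = b) :
    (∀ m : ℤ × ℤ, c11 a b m = ((m.1 : ℂ) + 1) * lA m - ((m.1 : ℂ) - 1) * cstar lA m) ∧
    (∀ m : ℤ × ℤ, c22 a b m = ((m.2 : ℂ) + 1) * lB m - ((m.2 : ℂ) - 1) * cstar lB m) ∧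
    (∀ m : ℤ × ℤ, m ≠ 0 → c12 a b m =
      (m.2 : ℂ) / 2 * (lA m - cstar lA m) + (m.1 : ℂ) / 2 * (lB m - cstar lB m)) := by
  have hwe : ∀ k : ℤ × ℤ, wt (-k) ^ 2 = wt k ^ 2 := fun k => by rw [coefgen_wt_neg]
  have has : Summable fun k => wt k ^ 2 * ‖cstar a k‖ :=
    summable_cstar (fun k => wt k ^ 2) hwe a ha
  have hbs : Summable fun k => wt k ^ 2 * ‖cstar b k‖ :=
    summable_cstar (fun k => wt k ^ 2) hwe b hb
  -- summability of all the convolutions involved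
  have sA : ∀ (e : ℤ × ℤ) (_ : |((e.1 : ℤ) : ℝ)| + |((e.2 : ℤ) : ℝ)| ≤ 1)
      (x y : ℤ × ℤ → ℂ) (_ : Summable fun k => wt k ^ 2 * ‖x k‖)
      (_ : Summable fun k => wt k ^ 2 * ‖y k‖) (m : ℤ × ℤ),
      Summable fun k => twm tauA e m k * x k * y (m - k) := fun e he x y hx hy m =>
    coefgen_summable _ 60 m (fun k => coefgen_twm_bound tauA tauA_bound e he m k) x y hx hy
  have sAd : ∀ (e : ℤ × ℤ) (_ : |((e.1 : ℤ) : ℝ)| + |((e.2 : ℤ) : ℝ)| ≤ 1)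
      (x y : ℤ × ℤ → ℂ) (_ : Summable fun k => wt k ^ 2 * ‖x k‖)
      (_ : Summable fun k => wt k ^ 2 * ‖y k‖) (m : ℤ × ℤ),
      Summable fun k => dag (twm tauA e) m k * x k * y (m - k) := fun e he x y hx hy m =>
    coefgen_summable _ 60 m (fun k => coefgen_dag_bound _ 60
      (fun m k => coefgen_twm_bound tauA tauA_bound e he m k) m k) x y hx hy
  have sB : ∀ (e : ℤ × ℤ) (_ : |((e.1 : ℤ) : ℝ)| + |((e.2 : ℤ) : ℝ)| ≤ 1)
      (x y : ℤ × ℤ → ℂ) (_ : Summable fun k => wt k ^ 2 * ‖x k‖)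
      (_ : Summable fun k => wt k ^ 2 * ‖y k‖) (m : ℤ × ℤ),
      Summable fun k => twm tauB e m k * x k * y (m - k) := fun e he x y hx hy m =>
    coefgen_summable _ 60 m (fun k => coefgen_twm_bound tauB tauB_bound e he m k) x y hx hy
  have sBd : ∀ (e : ℤ × ℤ) (_ : |((e.1 : ℤ) : ℝ)| + |((e.2 : ℤ) : ℝ)| ≤ 1)
      (x y : ℤ × ℤ → ℂ) (_ : Summable fun k => wt k ^ 2 * ‖x k‖)
      (_ : Summable fun k => wt k ^ 2 * ‖y k‖) (m : ℤ × ℤ),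
      Summable fun k => dag (twm tauB e) m k * x k * y (m - k) := fun e he x y hx hy m =>
    coefgen_summable _ 60 m (fun k => coefgen_dag_bound _ 60
      (fun m k => coefgen_twm_bound tauB tauB_bound e he m k) m k) x y hx hy
  have sQ : ∀ (σ : ℤ × ℤ → ℤ × ℤ → ℂ)
      (_ : ∀ κ l : ℤ × ℤ, ‖σ κ l‖ ≤
        (|(κ.1 : ℝ)| + |(κ.2 : ℝ)|) * (|(l.1 : ℝ)| + |(l.2 : ℝ)|))
      (e : ℤ × ℤ) (_ : |((e.1 : ℤ) : ℝ)| + |((e.2 : ℤ) : ℝ)| ≤ 1)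
      (x y : ℤ × ℤ → ℂ) (_ : Summable fun k => wt k ^ 2 * ‖x k‖)
      (_ : Summable fun k => wt k ^ 2 * ‖y k‖) (m : ℤ × ℤ),
      Summable fun k => tw σ e m k * x k * y (m - k) := fun σ hσ e he x y hx hy m =>
    coefgen_summable _ 1 m (fun k => coefgen_tw_bound σ hσ e he m k) x y hx hy
  -- the fixed point equations and their conjugates
  have hA : ∀ m, a m = lA m + (bconv (twm tauA e1) a (cstar a) m
      + bconv (twm tauA e2) b (cstar b) m) := fun m => (congrFun hfa m).symm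
  have hB : ∀ m, b m = lB m + (bconv (twm tauB e1) a (cstar a) m
      + bconv (twm tauB e2) b (cstar b) m) := fun m => (congrFun hfb m).symm
  have hAs : ∀ m, cstar a m = cstar lA m + (bconv (dag (twm tauA e1)) a (cstar a) m
      + bconv (dag (twm tauA e2)) b (cstar b) m) := by
    intro m
    have h : cstar a m = cstar (TA lA a b) m := by rw [hfa]
    rw [h, ← bconv_star, ← bconv_star]
    simp only [cstar, TA, quad, map_add]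
  have hBs : ∀ m, cstar b m = cstar lB m + (bconv (dag (twm tauB e1)) a (cstar a) m
      + bconv (dag (twm tauB e2)) b (cstar b) m) := by
    intro m
    have h : cstar b m = cstar (TB lB a b) m := by rw [hfb]
    rw [h, ← bconv_star, ← bconv_star]
    simp only [cstar, TB, quad, map_add]
  refine ⟨fun m => ?_, fun m => ?_, fun m hm => ?_⟩
  · have k1 := coefgen_comb (twm tauA e1) (dag (twm tauA e1)) (twm tauA e1) (twm tauA e1)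
      (tw Qs11 e1) a (cstar a) m ((m.1 : ℂ) + 1) (-((m.1 : ℂ) - 1)) 0 0
      (sA e1 coefgen_he1 a _ ha has m) (sAd e1 coefgen_he1 a _ ha has m)
      (sA e1 coefgen_he1 a _ ha has m) (sA e1 coefgen_he1 a _ ha has m)
      (sQ Qs11 coefgen_Qs11_bound e1 coefgen_he1 a _ ha has m)
      (fun k => by linear_combination sym11_1 m k)
    have k2 := coefgen_comb (twm tauA e2) (dag (twm tauA e2)) (twm tauA e2) (twm tauA e2)
      (tw Qs11 e2) b (cstar b) m ((m.1 : ℂ) + 1) (-((m.1 : ℂ) - 1)) 0 0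
      (sA e2 coefgen_he2 b _ hb hbs m) (sAd e2 coefgen_he2 b _ hb hbs m)
      (sA e2 coefgen_he2 b _ hb hbs m) (sA e2 coefgen_he2 b _ hb hbs m)
      (sQ Qs11 coefgen_Qs11_bound e2 coefgen_he2 b _ hb hbs m)
      (fun k => by linear_combination sym11_2 m k)
    simp only [c11, quad]
    linear_combination ((m.1 : ℂ) + 1) * hA m - ((m.1 : ℂ) - 1) * hAs m + k1 + k2
  · have k1 := coefgen_comb (twm tauB e1) (dag (twm tauB e1)) (twm tauB e1) (twm tauB e1)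
      (tw Qs22 e1) a (cstar a) m ((m.2 : ℂ) + 1) (-((m.2 : ℂ) - 1)) 0 0
      (sB e1 coefgen_he1 a _ ha has m) (sBd e1 coefgen_he1 a _ ha has m)
      (sB e1 coefgen_he1 a _ ha has m) (sB e1 coefgen_he1 a _ ha has m)
      (sQ Qs22 coefgen_Qs22_bound e1 coefgen_he1 a _ ha has m)
      (fun k => by linear_combination sym22_1 m k)
    have k2 := coefgen_comb (twm tauB e2) (dag (twm tauB e2)) (twm tauB e2) (twm tauB e2)
      (tw Qs22 e2) b (cstar b) m ((m.2 : ℂ) + 1) (-((m.2 : ℂ) - 1)) 0 0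
      (sB e2 coefgen_he2 b _ hb hbs m) (sBd e2 coefgen_he2 b _ hb hbs m)
      (sB e2 coefgen_he2 b _ hb hbs m) (sB e2 coefgen_he2 b _ hb hbs m)
      (sQ Qs22 coefgen_Qs22_bound e2 coefgen_he2 b _ hb hbs m)
      (fun k => by linear_combination sym22_2 m k)
    simp only [c22, quad]
    linear_combination ((m.2 : ℂ) + 1) * hB m - ((m.2 : ℂ) - 1) * hBs m + k1 + k2
  · have k1 := coefgen_comb (twm tauA e1) (dag (twm tauA e1)) (twm tauB e1) (dag (twm tauB e1))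
      (tw Qs12 e1) a (cstar a) m ((m.2 : ℂ) / 2) (-((m.2 : ℂ) / 2)) ((m.1 : ℂ) / 2)
      (-((m.1 : ℂ) / 2))
      (sA e1 coefgen_he1 a _ ha has m) (sAd e1 coefgen_he1 a _ ha has m)
      (sB e1 coefgen_he1 a _ ha has m) (sBd e1 coefgen_he1 a _ ha has m)
      (sQ Qs12 coefgen_Qs12_bound e1 coefgen_he1 a _ ha has m)
      (fun k => by linear_combination sym12_1 m k hm)
    have k2 := coefgen_comb (twm tauA e2) (dag (twm tauA e2)) (twm tauB e2) (dag (twm tauB e2))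
      (tw Qs12 e2) b (cstar b) m ((m.2 : ℂ) / 2) (-((m.2 : ℂ) / 2)) ((m.1 : ℂ) / 2)
      (-((m.1 : ℂ) / 2))
      (sA e2 coefgen_he2 b _ hb hbs m) (sAd e2 coefgen_he2 b _ hb hbs m)
      (sB e2 coefgen_he2 b _ hb hbs m) (sBd e2 coefgen_he2 b _ hb hbs m)
      (sQ Qs12 coefgen_Qs12_bound e2 coefgen_he2 b _ hb hbs m)
      (fun k => by linear_combination sym12_2 m k hm)
    simp only [c12, quad]
    linear_combination (m.2 : ℂ) / 2 * hA m - (m.2 : ℂ) / 2 * hAs m + (m.1 : ℂ) / 2 * hB m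
      - (m.1 : ℂ) / 2 * hBs m + k1 + k2

end Vale.Agent.Lib.P205.NF
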