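import Vale.Agent.Lib.P205.NF.Defs

/-!
# Near-flat tori over a rectangular flat base: definitions

The base map is `(A exp(ix), B exp(iy))`; the unknowns are the coefficient sequences of
`A α` and `B β`, where `F = (A exp(ix) (1 + α), B exp(iy) (1 + β))`.
-/

namespace Vale.Agent.Lib.P205.NF

/-- Scaled fixed point map, first component. -/
noncomputable def TAw (s : ℝ) (lA a b : ℤ × ℤ → ℂ) : ℤ × ℤ → ℂ :=
  fun m => (s : ℂ) * TA lA a b m

/-- Scaled fixed point map, second component. -/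
noncomputable def TBw (t : ℝ) (lB a b : ℤ × ℤ → ℂ) : ℤ × ℤ → ℂ :=
  fun m => (t : ℂ) * TB lB a b m

/-- Coefficients of `|F_x|^2 - A^2`. -/
noncomputable def c11w (A : ℝ) (a b : ℤ × ℤ → ℂ) : ℤ × ℤ → ℂ := fun m =>
  (A : ℂ) * (((m.1 : ℂ) + 1) * a m - ((m.1 : ℂ) - 1) * cstar a m) +
    quad (tw Qs11 e1) (tw Qs11 e2) a b m

/-- Coefficients of `|F_y|^2 - B^2`. -/
noncomputable def c22w (B : ℝ) (a b : ℤ × ℤ → ℂ) : ℤ × ℤ → ℂ := fun m =>
  (B : ℂ) * (((m.2 : ℂ) + 1) * b m - ((m.2 : ℂ) - 1) * cstar b m) +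
    quad (tw Qs22 e1) (tw Qs22 e2) a b m

/-- Coefficients of `<F_x, F_y>`. -/
noncomputable def c12w (A B : ℝ) (a b : ℤ × ℤ → ℂ) : ℤ × ℤ → ℂ := fun m =>
  (A : ℂ) * ((m.2 : ℂ) / 2 * (a m - cstar a m)) +
    (B : ℂ) * ((m.1 : ℂ) / 2 * (b m - cstar b m)) +
    quad (tw Qs12 e1) (tw Qs12 e2) a b m

end Vale.Agent.Lib.P205.NF
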