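import Vale.Agent.Lib.P205.NF.CoefGen
import Vale.Agent.Lib.P205.NF.WDefs

/-!
# The metric coefficients of a fixed point of the scaled maps
-/

namespace Vale.Agent.Lib.P205.NF

/-- Conjugate form of a scaled fixed point equation. -/
theorem coefgenw_star (A : ℝ) (a T : ℤ × ℤ → ℂ) (h : ∀ m, T m = (A : ℂ) * a m) (m : ℤ × ℤ) :
    (A : ℂ) * cstar a m = cstar T m := by
  simp only [cstar]
  rw [h (-m), map_mul, Complex.conj_ofReal]

theorem coef_gen_w (A B : ℝ) (lA lB a b : ℤ × ℤ → ℂ)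
    (ha : Summable fun k => wt k ^ 2 * ‖a k‖) (hb : Summable fun k => wt k ^ 2 * ‖b k‖)
    (hfa : ∀ m, TA lA a b m = (A : ℂ) * a m) (hfb : ∀ m, TB lB a b m = (B : ℂ) * b m) :
    (∀ m : ℤ × ℤ, c11w A a b m = ((m.1 : ℂ) + 1) * lA m - ((m.1 : ℂ) - 1) * cstar lA m) ∧
    (∀ m : ℤ × ℤ, c22w B a b m = ((m.2 : ℂ) + 1) * lB m - ((m.2 : ℂ) - 1) * cstar lB m) ∧
    (∀ m : ℤ × ℤ, m ≠ 0 → c12w A B a b m =
      (m.2 : ℂ) / 2 * (lA m - cstar lA m) + (m.1 : ℂ) / 2 * (lB m - cstar lB m)) := by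
  have hwe : ∀ k : ℤ × ℤ, wt (-k) ^ 2 = wt k ^ 2 := fun k => by rw [coefgen_wt_neg]
  have has : Summable fun k => wt k ^ 2 * ‖cstar a k‖ :=
    summable_cstar (fun k => wt k ^ 2) hwe a ha
  have hbs : Summable fun k => wt k ^ 2 * ‖cstar b k‖ :=
    summable_cstar (fun k => wt k ^ 2) hwe b hb
  -- summability of all the convolutions involved
  have sA : ∀ (e : ℤ × ℤ) (_ : |((e.1 : ℤ) : ℝ)| + |((e.2 : ℤ) : ℝ)| ≤ 1)
      (x y : ℤ × ℤ → ℂ) (_ : Summable fun k => wt k ^ 2 * ‖x k‖)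
      (_ : Summable fun k => wt k ^ 2 * ‖y k‖) (m : ℤ × ℤ),
      Summable fun k => twm tauA e m k * x k * y (m - k) := fun e he x y hx hy m =>
    coefgen_summable _ 60 m (fun k => coefgen_twm_bound tauA tauA_bound e he m k) x y hx hy
  have sAd : ∀ (e : ℤ × ℤ) (_ : |((e.1 : ℤ) : ℝ)| + |((e.2 : ℤ) : ℝ)| ≤ 1)
      (x y : ℤ × ℤ → ℂ) (_ : Summable fun k => wt k ^ 2 * ‖x k‖)
      (_ : Summable fun k => wt k ^ 2 * ‖y k‖) (m : ℤ × ℤ),
      Summable fun k => dag (twm tauA e) m k * x k * y (m - k) := fun e he x y hx hy m =>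
    coefgen_summable _ 60 m (fun k => coefgen_dag_bound _ 60
      (fun m k => coefgen_twm_bound tauA tauA_bound e he m k) m k) x y hx hy
  have sB : ∀ (e : ℤ × ℤ) (_ : |((e.1 : ℤ) : ℝ)| + |((e.2 : ℤ) : ℝ)| ≤ 1)
      (x y : ℤ × ℤ → ℂ) (_ : Summable fun k => wt k ^ 2 * ‖x k‖)
      (_ : Summable fun k => wt k ^ 2 * ‖y k‖) (m : ℤ × ℤ),
      Summable fun k => twm tauB e m k * x k * y (m - k) := fun e he x y hx hy m =>
    coefgen_summable _ 60 m (fun k => coefgen_twm_bound tauB tauB_bound e he m k) x y hx hy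
  have sBd : ∀ (e : ℤ × ℤ) (_ : |((e.1 : ℤ) : ℝ)| + |((e.2 : ℤ) : ℝ)| ≤ 1)
      (x y : ℤ × ℤ → ℂ) (_ : Summable fun k => wt k ^ 2 * ‖x k‖)
      (_ : Summable fun k => wt k ^ 2 * ‖y k‖) (m : ℤ × ℤ),
      Summable fun k => dag (twm tauB e) m k * x k * y (m - k) := fun e he x y hx hy m =>
    coefgen_summable _ 60 m (fun k => coefgen_dag_bound _ 60
      (fun m k => coefgen_twm_bound tauB tauB_bound e he m k) m k) x y hx hy
  have sQ : ∀ (σ : ℤ × ℤ → ℤ × ℤ → ℂ)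
      (_ : ∀ κ l : ℤ × ℤ, ‖σ κ l‖ ≤
        (|(κ.1 : ℝ)| + |(κ.2 : ℝ)|) * (|(l.1 : ℝ)| + |(l.2 : ℝ)|))
      (e : ℤ × ℤ) (_ : |((e.1 : ℤ) : ℝ)| + |((e.2 : ℤ) : ℝ)| ≤ 1)
      (x y : ℤ × ℤ → ℂ) (_ : Summable fun k => wt k ^ 2 * ‖x k‖)
      (_ : Summable fun k => wt k ^ 2 * ‖y k‖) (m : ℤ × ℤ),
      Summable fun k => tw σ e m k * x k * y (m - k) := fun σ hσ e he x y hx hy m =>
    coefgen_summable _ 1 m (fun k => coefgen_tw_bound σ hσ e he m k) x y hx hy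
  -- the fixed point equations and their conjugates
  have hA : ∀ m, (A : ℂ) * a m = lA m + (bconv (twm tauA e1) a (cstar a) m
      + bconv (twm tauA e2) b (cstar b) m) := fun m => (hfa m).symm
  have hB : ∀ m, (B : ℂ) * b m = lB m + (bconv (twm tauB e1) a (cstar a) m
      + bconv (twm tauB e2) b (cstar b) m) := fun m => (hfb m).symm
  have hAs : ∀ m, (A : ℂ) * cstar a m = cstar lA m + (bconv (dag (twm tauA e1)) a (cstar a) m
      + bconv (dag (twm tauA e2)) b (cstar b) m) := by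
    intro m
    have h : (A : ℂ) * cstar a m = cstar (TA lA a b) m := coefgenw_star A a (TA lA a b) hfa m
    rw [h, ← bconv_star, ← bconv_star]
    simp only [cstar, TA, quad, map_add]
  have hBs : ∀ m, (B : ℂ) * cstar b m = cstar lB m + (bconv (dag (twm tauB e1)) a (cstar a) m
      + bconv (dag (twm tauB e2)) b (cstar b) m) := by
    intro m
    have h : (B : ℂ) * cstar b m = cstar (TB lB a b) m := coefgenw_star B b (TB lB a b) hfb m
    rw [h, ← bconv_star, ← bconv_star]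
    simp only [cstar, TB, quad, map_add]
  refine ⟨fun m => ?_, fun m => ?_, fun m hm => ?_⟩
  · have k1 := coefgen_comb (twm tauA e1) (dag (twm tauA e1)) (twm tauA e1) (twm tauA e1)
      (tw Qs11 e1) a (cstar a) m ((m.1 : ℂ) + 1) (-((m.1 : ℂ) - 1)) 0 0
      (sA e1 coefgen_he1 a _ ha has m) (sAd e1 coefgen_he1 a _ ha has m)
      (sA e1 coefgen_he1 a _ ha has m) (sA e1 coefgen_he1 a _ ha has m)
      (sQ Qs11 coefgen_Qs11_bound e1 coefgen_he1 a _ ha has m)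
      (fun k => by linear_combination sym11_1 m k)
    have k2 := coefgen_comb (twm tauA e2) (dag (twm tauA e2)) (twm tauA e2) (twm tauA e2)
      (tw Qs11 e2) b (cstar b) m ((m.1 : ℂ) + 1) (-((m.1 : ℂ) - 1)) 0 0
      (sA e2 coefgen_he2 b _ hb hbs m) (sAd e2 coefgen_he2 b _ hb hbs m)
      (sA e2 coefgen_he2 b _ hb hbs m) (sA e2 coefgen_he2 b _ hb hbs m)
      (sQ Qs11 coefgen_Qs11_bound e2 coefgen_he2 b _ hb hbs m)
      (fun k => by linear_combination sym11_2 m k)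
    simp only [c11w, quad]
    linear_combination ((m.1 : ℂ) + 1) * hA m - ((m.1 : ℂ) - 1) * hAs m + k1 + k2
  · have k1 := coefgen_comb (twm tauB e1) (dag (twm tauB e1)) (twm tauB e1) (twm tauB e1)
      (tw Qs22 e1) a (cstar a) m ((m.2 : ℂ) + 1) (-((m.2 : ℂ) - 1)) 0 0
      (sB e1 coefgen_he1 a _ ha has m) (sBd e1 coefgen_he1 a _ ha has m)
      (sB e1 coefgen_he1 a _ ha has m) (sB e1 coefgen_he1 a _ ha has m)
      (sQ Qs22 coefgen_Qs22_bound e1 coefgen_he1 a _ ha has m)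
      (fun k => by linear_combination sym22_1 m k)
    have k2 := coefgen_comb (twm tauB e2) (dag (twm tauB e2)) (twm tauB e2) (twm tauB e2)
      (tw Qs22 e2) b (cstar b) m ((m.2 : ℂ) + 1) (-((m.2 : ℂ) - 1)) 0 0
      (sB e2 coefgen_he2 b _ hb hbs m) (sBd e2 coefgen_he2 b _ hb hbs m)
      (sB e2 coefgen_he2 b _ hb hbs m) (sB e2 coefgen_he2 b _ hb hbs m)
      (sQ Qs22 coefgen_Qs22_bound e2 coefgen_he2 b _ hb hbs m)
      (fun k => by linear_combination sym22_2 m k)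
    simp only [c22w, quad]
    linear_combination ((m.2 : ℂ) + 1) * hB m - ((m.2 : ℂ) - 1) * hBs m + k1 + k2
  · have k1 := coefgen_comb (twm tauA e1) (dag (twm tauA e1)) (twm tauB e1) (dag (twm tauB e1))
      (tw Qs12 e1) a (cstar a) m ((m.2 : ℂ) / 2) (-((m.2 : ℂ) / 2)) ((m.1 : ℂ) / 2)
      (-((m.1 : ℂ) / 2))
      (sA e1 coefgen_he1 a _ ha has m) (sAd e1 coefgen_he1 a _ ha has m)
      (sB e1 coefgen_he1 a _ ha has m) (sBd e1 coefgen_he1 a _ ha has m)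
      (sQ Qs12 coefgen_Qs12_bound e1 coefgen_he1 a _ ha has m)
      (fun k => by linear_combination sym12_1 m k hm)
    have k2 := coefgen_comb (twm tauA e2) (dag (twm tauA e2)) (twm tauB e2) (dag (twm tauB e2))
      (tw Qs12 e2) b (cstar b) m ((m.2 : ℂ) / 2) (-((m.2 : ℂ) / 2)) ((m.1 : ℂ) / 2)
      (-((m.1 : ℂ) / 2))
      (sA e2 coefgen_he2 b _ hb hbs m) (sAd e2 coefgen_he2 b _ hb hbs m)
      (sB e2 coefgen_he2 b _ hb hbs m) (sBd e2 coefgen_he2 b _ hb hbs m)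
      (sQ Qs12 coefgen_Qs12_bound e2 coefgen_he2 b _ hb hbs m)
      (fun k => by linear_combination sym12_2 m k hm)
    simp only [c12w, quad]
    linear_combination (m.2 : ℂ) / 2 * hA m - (m.2 : ℂ) / 2 * hAs m + (m.1 : ℂ) / 2 * hB m
      - (m.1 : ℂ) / 2 * hBs m + k1 + k2

end Vale.Agent.Lib.P205.NF
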