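import Mathlib

/-!
# Choice of the constants for the rectangular near-flat theorem (real arithmetic)
-/

namespace Vale.Agent.Lib.P205.NF

theorem consts_w (s c : ℝ) (hs : 0 < s) (hsc : s ≤ c) :
    ∃ t₀ r₁ δ : ℝ, 0 < t₀ ∧ 0 < δ ∧ 0 ≤ r₁ ∧ r₁ ≤ 1 / (480 * c) ∧ 256 * c * t₀ ≤ r₁ ∧
      (∀ H : ℝ, 0 ≤ H → H < δ → 3 / 2 * H + 256 * t₀ < r₁ / (2 * c)) ∧
      (∀ H : ℝ, 0 ≤ H → H < δ →
        4 * r₁ * c * (3 / 2 * H + 120 * r₁ ^ 2) + δ < 12 * s ^ 2 * t₀ ^ 2) := by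
  have hc : 0 < c := lt_of_lt_of_le hs hsc
  have hc0 : c ≠ 0 := hc.ne'
  obtain ⟨t₀, ht₀def⟩ : ∃ t₀ : ℝ, t₀ = s ^ 2 / (2 * 10 ^ 11 * c ^ 4) := ⟨_, rfl⟩
  have ht : 0 < t₀ := by
    rw [ht₀def]
    positivity
  have hq4 : c ^ 4 * t₀ = s ^ 2 / (2 * 10 ^ 11) := by
    rw [ht₀def]
    field_simp
  have hsc2 : s ^ 2 ≤ c ^ 2 := pow_le_pow_left₀ hs.le hsc 2
  have hc2 : 0 < c ^ 2 := by positivity
  have hA : c ^ 2 * t₀ ≤ 1 / (2 * 10 ^ 11) := by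
    have h1 : c ^ 2 * (c ^ 2 * t₀) ≤ c ^ 2 * (1 / (2 * 10 ^ 11)) := by
      have e : c ^ 2 * (c ^ 2 * t₀) = c ^ 4 * t₀ := by ring
      rw [e, hq4]
      have h2 : s ^ 2 / (2 * 10 ^ 11) ≤ c ^ 2 / (2 * 10 ^ 11) :=
        div_le_div_of_nonneg_right hsc2 (by positivity)
      linarith
    exact le_of_mul_le_mul_left h1 hc2
  have hB : s ^ 2 * t₀ ≤ 1 / (2 * 10 ^ 11) :=
    le_trans (mul_le_mul_of_nonneg_right hsc2 ht.le) hA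
  have hδle : s ^ 2 * t₀ ^ 2 ≤ 1 / (2 * 10 ^ 11) * t₀ := by
    have e : s ^ 2 * t₀ ^ 2 = (s ^ 2 * t₀) * t₀ := by ring
    rw [e]
    exact mul_le_mul_of_nonneg_right hB ht.le
  refine ⟨t₀, 600 * c * t₀, s ^ 2 * t₀ ^ 2, ht, by positivity, by positivity, ?_, ?_, ?_, ?_⟩
  · rw [le_div_iff₀ (by positivity)]
    have e : 600 * c * t₀ * (480 * c) = 288000 * (c ^ 2 * t₀) := by ring
    rw [e]
    linarith
  · have hct := mul_pos hc ht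
    nlinarith
  · intro H _ hH
    have e : 600 * c * t₀ / (2 * c) = 300 * t₀ := by
      rw [div_eq_iff (by positivity)]
      ring
    rw [e]
    linarith
  · intro H hH0 hH
    have hLHS : 4 * (600 * c * t₀) * c * (3 / 2 * H + 120 * (600 * c * t₀) ^ 2)
          + s ^ 2 * t₀ ^ 2
        = 3600 * ((c ^ 2 * t₀) * H) + 103680000000 * (c ^ 4 * t₀) * t₀ ^ 2
          + s ^ 2 * t₀ ^ 2 := by ring
    rw [hLHS, hq4]
    have hAH : (c ^ 2 * t₀) * H ≤ 1 / (2 * 10 ^ 11) * (s ^ 2 * t₀ ^ 2) :=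
      mul_le_mul hA hH.le hH0 (by positivity)
    have hD : 0 < s ^ 2 * t₀ ^ 2 := by positivity
    linarith

end Vale.Agent.Lib.P205.NF
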