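import Vale.Agent.Lib.P205.NF.SynthDeriv

/-!
# Derivatives of the two complex components of the map
-/

namespace Vale.Agent.Lib.P205.NF

theorem fder_one_le_wt (k : ℤ × ℤ) : 1 ≤ wt k := by
  unfold wt
  have h1 := abs_nonneg (k.1 : ℝ)
  have h2 := abs_nonneg (k.2 : ℝ)
  linarith

theorem fder_sum0 (a : ℤ × ℤ → ℂ) (ha : Summable fun k => wt k * ‖a k‖) :
    Summable fun k => ‖Complex.I * a k‖ := by
  refine Summable.of_nonneg_of_le (fun k => norm_nonneg _) (fun k => ?_) ha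
  rw [norm_mul, Complex.norm_I, one_mul]
  have h1 := fder_one_le_wt k
  have h2 := norm_nonneg (a k)
  nlinarith

theorem fder_sum1 (a : ℤ × ℤ → ℂ) (ha : Summable fun k => wt k * ‖a k‖) :
    Summable fun k : ℤ × ℤ => ‖Complex.I * (k.1 : ℂ) * a k‖ := by
  refine Summable.of_nonneg_of_le (fun k => norm_nonneg _) (fun k => ?_) ha
  rw [norm_mul, norm_mul, Complex.norm_I, one_mul, Complex.norm_intCast]
  apply mul_le_mul_of_nonneg_right _ (norm_nonneg _)
  unfold wt
  have h2 := abs_nonneg (k.2 : ℝ)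
  linarith

theorem fder_sum2 (a : ℤ × ℤ → ℂ) (ha : Summable fun k => wt k * ‖a k‖) :
    Summable fun k : ℤ × ℤ => ‖Complex.I * (k.2 : ℂ) * a k‖ := by
  refine Summable.of_nonneg_of_le (fun k => norm_nonneg _) (fun k => ?_) ha
  rw [norm_mul, norm_mul, Complex.norm_I, one_mul, Complex.norm_intCast]
  apply mul_le_mul_of_nonneg_right _ (norm_nonneg _)
  unfold wt
  have h1 := abs_nonneg (k.1 : ℝ)
  linarith

theorem fder_shift1 (a : ℤ × ℤ → ℂ) (ha : Summable fun k => wt k * ‖a k‖) (p : ℝ × ℝ) :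
    S (fun k => Complex.I * ((k.1 : ℂ) + 1) * a k) p =
      Complex.I * S a p + S (fun k => Complex.I * (k.1 : ℂ) * a k) p := by
  have h1 : (fun k : ℤ × ℤ => Complex.I * ((k.1 : ℂ) + 1) * a k) =
      fun k => Complex.I * a k + Complex.I * (k.1 : ℂ) * a k := by
    funext k
    ring
  rw [h1, S_add (fun k => Complex.I * a k) (fun k => Complex.I * (k.1 : ℂ) * a k)
    (fder_sum0 a ha) (fder_sum1 a ha) p, S_const_mul]

theorem fder_shift2 (a : ℤ × ℤ → ℂ) (ha : Summable fun k => wt k * ‖a k‖) (p : ℝ × ℝ) :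
    S (fun k => Complex.I * ((k.2 : ℂ) + 1) * a k) p =
      Complex.I * S a p + S (fun k => Complex.I * (k.2 : ℂ) * a k) p := by
  have h1 : (fun k : ℤ × ℤ => Complex.I * ((k.2 : ℂ) + 1) * a k) =
      fun k => Complex.I * a k + Complex.I * (k.2 : ℂ) * a k := by
    funext k
    ring
  rw [h1, S_add (fun k => Complex.I * a k) (fun k => Complex.I * (k.2 : ℂ) * a k)
    (fder_sum0 a ha) (fder_sum2 a ha) p, S_const_mul]

theorem fder_exp1 (p : ℝ × ℝ) :
    HasFDerivAt (fun q : ℝ × ℝ => Complex.exp (Complex.I * (q.1 : ℂ)))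
      (Complex.exp (Complex.I * (p.1 : ℂ)) •
        (ContinuousLinearMap.fst ℝ ℝ ℝ).smulRight Complex.I) p := by
  have h1 : HasFDerivAt (fun q : ℝ × ℝ => Complex.I * (q.1 : ℂ))
      ((ContinuousLinearMap.fst ℝ ℝ ℝ).smulRight Complex.I) p := by
    have h2 := ((ContinuousLinearMap.fst ℝ ℝ ℝ).smulRight Complex.I).hasFDerivAt (x := p)
    refine h2.congr_of_eventuallyEq (Filter.Eventually.of_forall fun q => ?_)
    simp [mul_comm]
  exact h1.cexp

theorem fder_exp2 (p : ℝ × ℝ) :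
    HasFDerivAt (fun q : ℝ × ℝ => Complex.exp (Complex.I * (q.2 : ℂ)))
      (Complex.exp (Complex.I * (p.2 : ℂ)) •
        (ContinuousLinearMap.snd ℝ ℝ ℝ).smulRight Complex.I) p := by
  have h1 : HasFDerivAt (fun q : ℝ × ℝ => Complex.I * (q.2 : ℂ))
      ((ContinuousLinearMap.snd ℝ ℝ ℝ).smulRight Complex.I) p := by
    have h2 := ((ContinuousLinearMap.snd ℝ ℝ ℝ).smulRight Complex.I).hasFDerivAt (x := p)
    refine h2.congr_of_eventuallyEq (Filter.Eventually.of_forall fun q => ?_)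
    simp [mul_comm]
  exact h1.cexp

theorem F1_hasFDerivAt (a : ℤ × ℤ → ℂ) (ha : Summable fun k => wt k * ‖a k‖) (p : ℝ × ℝ) :
    HasFDerivAt (fun q : ℝ × ℝ => Complex.exp (Complex.I * (q.1 : ℂ)) * (1 + S a q))
      ((ContinuousLinearMap.fst ℝ ℝ ℝ).smulRight (Complex.exp (Complex.I * (p.1 : ℂ)) *
          (Complex.I + S (fun k => Complex.I * ((k.1 : ℂ) + 1) * a k) p)) +
        (ContinuousLinearMap.snd ℝ ℝ ℝ).smulRight (Complex.exp (Complex.I * (p.1 : ℂ)) *
          S (fun k => Complex.I * (k.2 : ℂ) * a k) p)) p := by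
  have hS := (S_hasFDerivAt a ha p).const_add 1
  have hmul := (fder_exp1 p).mul hS
  refine hmul.congr_fderiv ?_
  rw [fder_shift1 a ha p]
  refine ContinuousLinearMap.ext fun v => ?_
  simp only [add_apply, smul_apply,
    ContinuousLinearMap.smulRight_apply, ContinuousLinearMap.coe_fst', ContinuousLinearMap.coe_snd',
    smul_eq_mul, Complex.real_smul]
  ring

theorem F2_hasFDerivAt (b : ℤ × ℤ → ℂ) (hb : Summable fun k => wt k * ‖b k‖) (p : ℝ × ℝ) :
    HasFDerivAt (fun q : ℝ × ℝ => Complex.exp (Complex.I * (q.2 : ℂ)) * (1 + S b q))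
      ((ContinuousLinearMap.fst ℝ ℝ ℝ).smulRight (Complex.exp (Complex.I * (p.2 : ℂ)) *
          S (fun k => Complex.I * (k.1 : ℂ) * b k) p) +
        (ContinuousLinearMap.snd ℝ ℝ ℝ).smulRight (Complex.exp (Complex.I * (p.2 : ℂ)) *
          (Complex.I + S (fun k => Complex.I * ((k.2 : ℂ) + 1) * b k) p))) p := by
  have hS := (S_hasFDerivAt b hb p).const_add 1
  have hmul := (fder_exp2 p).mul hS
  refine hmul.congr_fderiv ?_
  rw [fder_shift2 b hb p]
  refine ContinuousLinearMap.ext fun v => ?_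
  simp only [add_apply, smul_apply,
    ContinuousLinearMap.smulRight_apply, ContinuousLinearMap.coe_fst', ContinuousLinearMap.coe_snd',
    smul_eq_mul, Complex.real_smul]
  ring

end Vale.Agent.Lib.P205.NF
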