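import Vale.Agent.Lib.P205.NF.Defs

/-!
# Weighted bounds for the linear data
-/

namespace Vale.Agent.Lib.P205.NF

theorem linb_abs_le_sq (y : ℤ) : |(y : ℝ)| ≤ (y : ℝ) ^ 2 := by
  have h1 : |y| ≤ y ^ 2 := by
    rcases abs_cases y with ⟨h, _⟩ | ⟨h, _⟩ <;> rw [h] <;> nlinarith
  have h2 : ((|y| : ℤ) : ℝ) ≤ ((y ^ 2 : ℤ) : ℝ) := by exact_mod_cast h1
  simpa using h2

theorem linb_mid (x y : ℤ) (h : ℂ) :
    ‖((y : ℂ) - (x : ℂ) * (y : ℂ)) * h / ((x : ℂ) ^ 2 + (y : ℂ) ^ 2)‖ ≤ 3 / 2 * ‖h‖ := by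
  have e1 : ((y : ℂ) - (x : ℂ) * (y : ℂ)) = (((y : ℝ) - (x : ℝ) * (y : ℝ) : ℝ) : ℂ) := by
    push_cast
    ring
  have e2 : ((x : ℂ) ^ 2 + (y : ℂ) ^ 2) = ((((x : ℝ) ^ 2 + (y : ℝ) ^ 2 : ℝ)) : ℂ) := by
    push_cast
    ring
  rw [e1, e2, norm_div, norm_mul, Complex.norm_real, Complex.norm_real, Real.norm_eq_abs,
    Real.norm_eq_abs]
  have hD : 0 ≤ (x : ℝ) ^ 2 + (y : ℝ) ^ 2 := by positivity
  rw [abs_of_nonneg hD]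
  rcases hD.lt_or_eq with hpos | hzero
  · rw [div_le_iff₀ hpos]
    have hN : |(y : ℝ) - (x : ℝ) * (y : ℝ)| ≤ 3 / 2 * ((x : ℝ) ^ 2 + (y : ℝ) ^ 2) := by
      have h1 : |(y : ℝ) - (x : ℝ) * (y : ℝ)| ≤ |(y : ℝ)| + |(x : ℝ) * (y : ℝ)| := abs_sub _ _
      have h2 := linb_abs_le_sq y
      have h3 : |(x : ℝ) * (y : ℝ)| ≤ ((x : ℝ) ^ 2 + (y : ℝ) ^ 2) / 2 := by
        rw [abs_le]
        constructor <;> nlinarith [sq_nonneg ((x : ℝ) - (y : ℝ)), sq_nonneg ((x : ℝ) + (y : ℝ))]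
      nlinarith [sq_nonneg (x : ℝ)]
    have hh : 0 ≤ ‖h‖ := norm_nonneg h
    nlinarith [mul_le_mul_of_nonneg_right hN hh]
  · rw [← hzero, div_zero]
    positivity

theorem linb_last (x y : ℤ) (p : ℂ) :
    ‖((x : ℂ) ^ 2 - (x : ℂ)) * p‖ ≤ (1 + |(x : ℝ)| + |(y : ℝ)|) ^ 2 * ‖p‖ := by
  have e1 : ((x : ℂ) ^ 2 - (x : ℂ)) = ((((x : ℝ) ^ 2 - (x : ℝ) : ℝ)) : ℂ) := by
    push_cast
    ring
  rw [e1, norm_mul, Complex.norm_real, Real.norm_eq_abs]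
  refine mul_le_mul_of_nonneg_right ?_ (norm_nonneg p)
  have h1 : |(x : ℝ) ^ 2 - (x : ℝ)| ≤ |(x : ℝ) ^ 2| + |(x : ℝ)| := abs_sub _ _
  have h2 : |(x : ℝ) ^ 2| = |(x : ℝ)| ^ 2 := abs_pow _ 2
  have h3 : 0 ≤ |(x : ℝ)| := abs_nonneg _
  have h4 : 0 ≤ |(y : ℝ)| := abs_nonneg _
  nlinarith

theorem linb_sum (ω : ℤ × ℤ → ℝ) (hω : ∀ k, 0 ≤ ω k) (F G1 G2 psi : ℤ × ℤ → ℂ)
    (hpt : ∀ m, ‖F m‖ ≤ ‖G1 m‖ / 2 + 3 / 2 * ‖G2 m‖ + wt m ^ 2 * ‖psi m‖)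
    (h1 : Summable fun k => ω k * ‖G1 k‖) (h2 : Summable fun k => ω k * ‖G2 k‖)
    (h3 : Summable fun k => ω k * (wt k ^ 2 * ‖psi k‖)) :
    Summable (fun k => ω k * ‖F k‖) ∧
    nrm ω F ≤ nrm ω G1 / 2 + 3 / 2 * nrm ω G2 + ∑' k, ω k * (wt k ^ 2 * ‖psi k‖) := by
  have hB : Summable fun k => ω k * ‖G1 k‖ / 2 + 3 / 2 * (ω k * ‖G2 k‖)
      + ω k * (wt k ^ 2 * ‖psi k‖) :=
    ((h1.div_const 2).add (h2.mul_left (3 / 2))).add h3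
  have hle : ∀ k, ω k * ‖F k‖ ≤ ω k * ‖G1 k‖ / 2 + 3 / 2 * (ω k * ‖G2 k‖)
      + ω k * (wt k ^ 2 * ‖psi k‖) := by
    intro k
    have h := mul_le_mul_of_nonneg_left (hpt k) (hω k)
    have e : ω k * (‖G1 k‖ / 2 + 3 / 2 * ‖G2 k‖ + wt k ^ 2 * ‖psi k‖)
        = ω k * ‖G1 k‖ / 2 + 3 / 2 * (ω k * ‖G2 k‖) + ω k * (wt k ^ 2 * ‖psi k‖) := by ring
    rw [e] at h
    exact h
  have hF : Summable fun k => ω k * ‖F k‖ :=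
    Summable.of_nonneg_of_le (fun k => mul_nonneg (hω k) (norm_nonneg _)) hle hB
  refine ⟨hF, ?_⟩
  have h4 := Summable.tsum_le_tsum hle hF hB
  rw [Summable.tsum_add ((h1.div_const 2).add (h2.mul_left (3 / 2))) h3,
    Summable.tsum_add (h1.div_const 2) (h2.mul_left (3 / 2)), tsum_div_const,
    tsum_mul_left] at h4
  exact h4

theorem linA_bound (ω : ℤ × ℤ → ℝ) (hω : ∀ k, 0 ≤ ω k) (h11 h12 psi : ℤ × ℤ → ℂ)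
    (h1 : Summable fun k => ω k * ‖h11 k‖) (h2 : Summable fun k => ω k * ‖h12 k‖)
    (h3 : Summable fun k => ω k * (wt k ^ 2 * ‖psi k‖)) :
    Summable (fun k => ω k * ‖linA h11 h12 psi k‖) ∧
    nrm ω (linA h11 h12 psi) ≤
      nrm ω h11 / 2 + 3 / 2 * nrm ω h12 + ∑' k, ω k * (wt k ^ 2 * ‖psi k‖) := by
  refine linb_sum ω hω (linA h11 h12 psi) h11 h12 psi ?_ h1 h2 h3
  intro m
  unfold linA wt
  refine le_trans (norm_add_le _ _) (add_le_add (le_trans (norm_add_le _ _) (add_le_add ?_ ?_)) ?_)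
  · rw [norm_div]
    simp
  · exact linb_mid m.1 m.2 (h12 m)
  · exact linb_last m.1 m.2 (psi m)

theorem linB_bound (ω : ℤ × ℤ → ℝ) (hω : ∀ k, 0 ≤ ω k) (h22 h12 psi : ℤ × ℤ → ℂ)
    (h1 : Summable fun k => ω k * ‖h22 k‖) (h2 : Summable fun k => ω k * ‖h12 k‖)
    (h3 : Summable fun k => ω k * (wt k ^ 2 * ‖psi k‖)) :
    Summable (fun k => ω k * ‖linB h22 h12 psi k‖) ∧
    nrm ω (linB h22 h12 psi) ≤
      nrm ω h22 / 2 + 3 / 2 * nrm ω h12 + ∑' k, ω k * (wt k ^ 2 * ‖psi k‖) := by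
  refine linb_sum ω hω (linB h22 h12 psi) h22 h12 psi ?_ h1 h2 h3
  intro m
  unfold linB wt
  refine le_trans (norm_add_le _ _) (add_le_add (le_trans (norm_add_le _ _) (add_le_add ?_ ?_)) ?_)
  · rw [norm_div]
    simp
  · have h := linb_mid m.2 m.1 (h12 m)
    rw [mul_comm (m.2 : ℂ) (m.1 : ℂ), add_comm ((m.2 : ℂ) ^ 2)] at h
    exact h
  · have h := linb_last m.2 m.1 (-(psi m))
    rw [norm_neg] at h
    have e : ((m.2 : ℂ) - (m.2 : ℂ) ^ 2) * psi m = ((m.2 : ℂ) ^ 2 - (m.2 : ℂ)) * -(psi m) := by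
      ring
    rw [e]
    have e2 : (1 + |(m.1 : ℝ)| + |(m.2 : ℝ)|) = (1 + |(m.2 : ℝ)| + |(m.1 : ℝ)|) := by ring
    rw [e2]
    exact h

end Vale.Agent.Lib.P205.NF
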