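import Vale.Agent.Lib.P205.NF.Defs

/-!
# The linear data reproduce the metric perturbation
-/

namespace Vale.Agent.Lib.P205.NF

/-- The conjugate sequence of the first linear datum. -/
theorem linid_cstarA (h11 h12 psi : ℤ × ℤ → ℂ)
    (H11 : ∀ k, h11 (-k) = (starRingEnd ℂ) (h11 k))
    (H12 : ∀ k, h12 (-k) = (starRingEnd ℂ) (h12 k))
    (Hpsi : ∀ k, psi (-k) = (starRingEnd ℂ) (psi k)) (m : ℤ × ℤ) :
    cstar (linA h11 h12 psi) m = h11 m / 2 +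
      (-(m.2 : ℂ) - (m.1 : ℂ) * (m.2 : ℂ)) * h12 m / ((m.1 : ℂ) ^ 2 + (m.2 : ℂ) ^ 2) +
      ((m.1 : ℂ) ^ 2 + (m.1 : ℂ)) * psi m := by
  unfold cstar linA
  rw [H11 m, H12 m, Hpsi m]
  simp only [map_add, map_sub, map_mul, map_div₀, map_pow, map_neg, Complex.conj_conj, map_intCast,
    map_ofNat, Prod.fst_neg, Prod.snd_neg, Int.cast_neg, neg_sq]
  ring

/-- The conjugate sequence of the second linear datum. -/
theorem linid_cstarB (h22 h12 psi : ℤ × ℤ → ℂ)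
    (H22 : ∀ k, h22 (-k) = (starRingEnd ℂ) (h22 k))
    (H12 : ∀ k, h12 (-k) = (starRingEnd ℂ) (h12 k))
    (Hpsi : ∀ k, psi (-k) = (starRingEnd ℂ) (psi k)) (m : ℤ × ℤ) :
    cstar (linB h22 h12 psi) m = h22 m / 2 +
      (-(m.1 : ℂ) - (m.1 : ℂ) * (m.2 : ℂ)) * h12 m / ((m.1 : ℂ) ^ 2 + (m.2 : ℂ) ^ 2) +
      (-(m.2 : ℂ) - (m.2 : ℂ) ^ 2) * psi m := by
  unfold cstar linB
  rw [H22 m, H12 m, Hpsi m]
  simp only [map_add, map_sub, map_mul, map_div₀, map_pow, map_neg, Complex.conj_conj, map_intCast,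
    map_ofNat, Prod.fst_neg, Prod.snd_neg, Int.cast_neg, neg_sq]
  ring

theorem lin_id (h11 h12 h22 psi : ℤ × ℤ → ℂ)
    (H11 : ∀ k, h11 (-k) = (starRingEnd ℂ) (h11 k))
    (H12 : ∀ k, h12 (-k) = (starRingEnd ℂ) (h12 k))
    (H22 : ∀ k, h22 (-k) = (starRingEnd ℂ) (h22 k))
    (Hpsi : ∀ k, psi (-k) = (starRingEnd ℂ) (psi k)) :
    (∀ m : ℤ × ℤ, ((m.1 : ℂ) + 1) * linA h11 h12 psi m -
      ((m.1 : ℂ) - 1) * cstar (linA h11 h12 psi) m = h11 m) ∧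
    (∀ m : ℤ × ℤ, ((m.2 : ℂ) + 1) * linB h22 h12 psi m -
      ((m.2 : ℂ) - 1) * cstar (linB h22 h12 psi) m = h22 m) ∧
    (∀ m : ℤ × ℤ, m ≠ 0 →
      (m.2 : ℂ) / 2 * (linA h11 h12 psi m - cstar (linA h11 h12 psi) m) +
        (m.1 : ℂ) / 2 * (linB h22 h12 psi m - cstar (linB h22 h12 psi) m) = h12 m) := by
  refine ⟨fun m => ?_, fun m => ?_, fun m hm => ?_⟩
  · rw [linid_cstarA h11 h12 psi H11 H12 Hpsi m]
    unfold linA
    by_cases hD : (m.1 : ℂ) ^ 2 + (m.2 : ℂ) ^ 2 = 0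
    · simp only [hD, div_zero]
      ring
    · field_simp
      ring
  · rw [linid_cstarB h22 h12 psi H22 H12 Hpsi m]
    unfold linB
    by_cases hD : (m.1 : ℂ) ^ 2 + (m.2 : ℂ) ^ 2 = 0
    · simp only [hD, div_zero]
      ring
    · field_simp
      ring
  · rw [linid_cstarA h11 h12 psi H11 H12 Hpsi m, linid_cstarB h22 h12 psi H22 H12 Hpsi m]
    unfold linA linB
    have hZ : m.1 ^ 2 + m.2 ^ 2 ≠ 0 := by
      intro h0
      have ha : m.1 ^ 2 = 0 := le_antisymm (by linarith [sq_nonneg m.2]) (sq_nonneg m.1)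
      have hb : m.2 ^ 2 = 0 := le_antisymm (by linarith [sq_nonneg m.1]) (sq_nonneg m.2)
      have h1 : m.1 = 0 := (pow_eq_zero_iff two_ne_zero).mp ha
      have h2 : m.2 = 0 := (pow_eq_zero_iff two_ne_zero).mp hb
      exact hm (Prod.ext h1 h2)
    have hD : (m.1 : ℂ) ^ 2 + (m.2 : ℂ) ^ 2 ≠ 0 := by exact_mod_cast hZ
    field_simp
    ring

end Vale.Agent.Lib.P205.NF
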