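import Vale.Agent.Lib.P205.NF.Cauchy

/-!
# The induced metric in terms of the coefficient sequences
-/

namespace Vale.Agent.Lib.P205.NF

theorem metric_ns_cstar (c : ℤ × ℤ → ℂ) (hc : Summable fun k => ‖c k‖) :
    Summable fun k => ‖cstar c k‖ := by
  have h := (Equiv.neg (ℤ × ℤ)).summable_iff.mpr hc
  refine h.congr (fun k => ?_)
  simp [cstar]

theorem metric_ns_add (c d : ℤ × ℤ → ℂ) (hc : Summable fun k => ‖c k‖)
    (hd : Summable fun k => ‖d k‖) : Summable fun k => ‖c k + d k‖ :=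
  Summable.of_nonneg_of_le (fun _ => norm_nonneg _) (fun _ => norm_add_le _ _) (hc.add hd)

theorem metric_ns_sub (c d : ℤ × ℤ → ℂ) (hc : Summable fun k => ‖c k‖)
    (hd : Summable fun k => ‖d k‖) : Summable fun k => ‖c k - d k‖ :=
  Summable.of_nonneg_of_le (fun _ => norm_nonneg _) (fun _ => norm_sub_le _ _) (hc.add hd)

theorem metric_ns_mul (z : ℂ) (c : ℤ × ℤ → ℂ) (hc : Summable fun k => ‖c k‖) :
    Summable fun k => ‖z * c k‖ := by
  simp only [norm_mul]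
  exact hc.mul_left _

theorem metric_ns_wt (a : ℤ × ℤ → ℂ) (ha : Summable fun k => wt k * ‖a k‖)
    (c : ℤ × ℤ → ℂ) (hc : ∀ k, ‖c k‖ ≤ wt k) :
    Summable fun k => ‖c k * a k‖ := by
  refine Summable.of_nonneg_of_le (fun _ => norm_nonneg _) (fun k => ?_) ha
  rw [norm_mul]
  exact mul_le_mul_of_nonneg_right (hc k) (norm_nonneg _)

theorem metric_pt_summable (f g : ℤ × ℤ → ℂ) (hf : Summable fun k => ‖f k‖)
    (hg : Summable fun k => ‖g k‖) (m : ℤ × ℤ) :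
    Summable fun k => f k * (starRingEnd ℂ) (g (k - m)) := by
  refine Summable.of_norm_bounded (hf.mul_right (∑' j, ‖g j‖)) (fun k => ?_)
  rw [norm_mul, RCLike.norm_conj]
  exact mul_le_mul_of_nonneg_left (hg.le_tsum (k - m) (fun j _ => norm_nonneg _)) (norm_nonneg _)

/-- Diagonal identity: linear part plus two squared moduli. -/
theorem metric_diag (f g : ℤ × ℤ → ℂ) (hf : Summable fun k => ‖f k‖)
    (hg : Summable fun k => ‖g k‖) (z : ℂ) (p : ℝ × ℝ) :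
    S (fun m => z * (f m - cstar f m) +
        ((∑' k, f k * (starRingEnd ℂ) (f (k - m))) +
          ∑' k, g k * (starRingEnd ℂ) (g (k - m)))) p =
      z * (S f p - (starRingEnd ℂ) (S f p)) +
        (S f p * (starRingEnd ℂ) (S f p) + S g p * (starRingEnd ℂ) (S g p)) := by
  obtain ⟨hff, hfe⟩ := S_mul_conj f f hf hf p
  obtain ⟨hgg, hge⟩ := S_mul_conj g g hg hg p
  have hcf := metric_ns_cstar f hf
  have h1 : Summable fun m => ‖z * (f m - cstar f m)‖ :=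
    metric_ns_mul z _ (metric_ns_sub f (cstar f) hf hcf)
  have h2 : Summable fun m => ‖(∑' k, f k * (starRingEnd ℂ) (f (k - m))) +
      ∑' k, g k * (starRingEnd ℂ) (g (k - m))‖ := metric_ns_add _ _ hff hgg
  have e1 : S (fun m => z * (f m - cstar f m) +
        ((∑' k, f k * (starRingEnd ℂ) (f (k - m))) +
          ∑' k, g k * (starRingEnd ℂ) (g (k - m)))) p =
      S (fun m => z * (f m - cstar f m)) p +
        S (fun m => (∑' k, f k * (starRingEnd ℂ) (f (k - m))) +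
          ∑' k, g k * (starRingEnd ℂ) (g (k - m))) p := S_add _ _ h1 h2 p
  have e2 : S (fun m => z * (f m - cstar f m)) p = z * S (fun m => f m - cstar f m) p :=
    S_const_mul z _ p
  have e3 : S (fun m => f m - cstar f m) p = S f p - S (cstar f) p := S_sub f (cstar f) hf hcf p
  have e4 : S (fun m => (∑' k, f k * (starRingEnd ℂ) (f (k - m))) +
          ∑' k, g k * (starRingEnd ℂ) (g (k - m))) p =
      S (fun m => ∑' k, f k * (starRingEnd ℂ) (f (k - m))) p +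
        S (fun m => ∑' k, g k * (starRingEnd ℂ) (g (k - m))) p := S_add _ _ hff hgg p
  rw [e1, e2, e3, e4, S_cstar, ← hfe, ← hge]

/-- Cross identity: two linear parts plus two symmetrised products. -/
theorem metric_cross (f₁ f₂ g₁ g₂ : ℤ × ℤ → ℂ) (hf₁ : Summable fun k => ‖f₁ k‖)
    (hf₂ : Summable fun k => ‖f₂ k‖) (hg₁ : Summable fun k => ‖g₁ k‖)
    (hg₂ : Summable fun k => ‖g₂ k‖) (z : ℂ) (p : ℝ × ℝ) :
    S (fun m => (z * (f₂ m - cstar f₂ m) + z * (g₁ m - cstar g₁ m)) +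
        ((1 / 2 : ℂ) * ((∑' k, f₁ k * (starRingEnd ℂ) (f₂ (k - m))) +
            ∑' k, f₂ k * (starRingEnd ℂ) (f₁ (k - m))) +
          (1 / 2 : ℂ) * ((∑' k, g₁ k * (starRingEnd ℂ) (g₂ (k - m))) +
            ∑' k, g₂ k * (starRingEnd ℂ) (g₁ (k - m))))) p =
      (z * (S f₂ p - (starRingEnd ℂ) (S f₂ p)) + z * (S g₁ p - (starRingEnd ℂ) (S g₁ p))) +
        ((1 / 2 : ℂ) * (S f₁ p * (starRingEnd ℂ) (S f₂ p) + S f₂ p * (starRingEnd ℂ) (S f₁ p)) +
          (1 / 2 : ℂ) * (S g₁ p * (starRingEnd ℂ) (S g₂ p) +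
            S g₂ p * (starRingEnd ℂ) (S g₁ p))) := by
  obtain ⟨hA, hAe⟩ := S_mul_conj f₁ f₂ hf₁ hf₂ p
  obtain ⟨hB, hBe⟩ := S_mul_conj f₂ f₁ hf₂ hf₁ p
  obtain ⟨hC, hCe⟩ := S_mul_conj g₁ g₂ hg₁ hg₂ p
  obtain ⟨hD, hDe⟩ := S_mul_conj g₂ g₁ hg₂ hg₁ p
  have hcf := metric_ns_cstar f₂ hf₂
  have hcg := metric_ns_cstar g₁ hg₁
  have h1 : Summable fun m => ‖z * (f₂ m - cstar f₂ m)‖ :=
    metric_ns_mul z _ (metric_ns_sub f₂ (cstar f₂) hf₂ hcf)
  have h2 : Summable fun m => ‖z * (g₁ m - cstar g₁ m)‖ :=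
    metric_ns_mul z _ (metric_ns_sub g₁ (cstar g₁) hg₁ hcg)
  have h3 : Summable fun m => ‖(∑' k, f₁ k * (starRingEnd ℂ) (f₂ (k - m))) +
      ∑' k, f₂ k * (starRingEnd ℂ) (f₁ (k - m))‖ := metric_ns_add _ _ hA hB
  have h4 : Summable fun m => ‖(∑' k, g₁ k * (starRingEnd ℂ) (g₂ (k - m))) +
      ∑' k, g₂ k * (starRingEnd ℂ) (g₁ (k - m))‖ := metric_ns_add _ _ hC hD
  have h5 := metric_ns_mul (1 / 2 : ℂ) _ h3
  have h6 := metric_ns_mul (1 / 2 : ℂ) _ h4
  have h12 := metric_ns_add _ _ h1 h2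
  have h56 := metric_ns_add _ _ h5 h6
  have e1 : S (fun m => (z * (f₂ m - cstar f₂ m) + z * (g₁ m - cstar g₁ m)) +
        ((1 / 2 : ℂ) * ((∑' k, f₁ k * (starRingEnd ℂ) (f₂ (k - m))) +
            ∑' k, f₂ k * (starRingEnd ℂ) (f₁ (k - m))) +
          (1 / 2 : ℂ) * ((∑' k, g₁ k * (starRingEnd ℂ) (g₂ (k - m))) +
            ∑' k, g₂ k * (starRingEnd ℂ) (g₁ (k - m))))) p =
      S (fun m => z * (f₂ m - cstar f₂ m) + z * (g₁ m - cstar g₁ m)) p +
        S (fun m => (1 / 2 : ℂ) * ((∑' k, f₁ k * (starRingEnd ℂ) (f₂ (k - m))) +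
            ∑' k, f₂ k * (starRingEnd ℂ) (f₁ (k - m))) +
          (1 / 2 : ℂ) * ((∑' k, g₁ k * (starRingEnd ℂ) (g₂ (k - m))) +
            ∑' k, g₂ k * (starRingEnd ℂ) (g₁ (k - m)))) p := S_add _ _ h12 h56 p
  have e2 : S (fun m => z * (f₂ m - cstar f₂ m) + z * (g₁ m - cstar g₁ m)) p =
      S (fun m => z * (f₂ m - cstar f₂ m)) p + S (fun m => z * (g₁ m - cstar g₁ m)) p :=
    S_add _ _ h1 h2 p
  have e3 : S (fun m => z * (f₂ m - cstar f₂ m)) p = z * S (fun m => f₂ m - cstar f₂ m) p :=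
    S_const_mul z _ p
  have e4 : S (fun m => z * (g₁ m - cstar g₁ m)) p = z * S (fun m => g₁ m - cstar g₁ m) p :=
    S_const_mul z _ p
  have e5 : S (fun m => f₂ m - cstar f₂ m) p = S f₂ p - S (cstar f₂) p :=
    S_sub f₂ (cstar f₂) hf₂ hcf p
  have e6 : S (fun m => g₁ m - cstar g₁ m) p = S g₁ p - S (cstar g₁) p :=
    S_sub g₁ (cstar g₁) hg₁ hcg p
  have e7 : S (fun m => (1 / 2 : ℂ) * ((∑' k, f₁ k * (starRingEnd ℂ) (f₂ (k - m))) +
            ∑' k, f₂ k * (starRingEnd ℂ) (f₁ (k - m))) +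
          (1 / 2 : ℂ) * ((∑' k, g₁ k * (starRingEnd ℂ) (g₂ (k - m))) +
            ∑' k, g₂ k * (starRingEnd ℂ) (g₁ (k - m)))) p =
      S (fun m => (1 / 2 : ℂ) * ((∑' k, f₁ k * (starRingEnd ℂ) (f₂ (k - m))) +
            ∑' k, f₂ k * (starRingEnd ℂ) (f₁ (k - m)))) p +
        S (fun m => (1 / 2 : ℂ) * ((∑' k, g₁ k * (starRingEnd ℂ) (g₂ (k - m))) +
            ∑' k, g₂ k * (starRingEnd ℂ) (g₁ (k - m)))) p := S_add _ _ h5 h6 p
  have e8 : S (fun m => (1 / 2 : ℂ) * ((∑' k, f₁ k * (starRingEnd ℂ) (f₂ (k - m))) +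
            ∑' k, f₂ k * (starRingEnd ℂ) (f₁ (k - m)))) p =
      (1 / 2 : ℂ) * S (fun m => (∑' k, f₁ k * (starRingEnd ℂ) (f₂ (k - m))) +
            ∑' k, f₂ k * (starRingEnd ℂ) (f₁ (k - m))) p := S_const_mul _ _ p
  have e9 : S (fun m => (1 / 2 : ℂ) * ((∑' k, g₁ k * (starRingEnd ℂ) (g₂ (k - m))) +
            ∑' k, g₂ k * (starRingEnd ℂ) (g₁ (k - m)))) p =
      (1 / 2 : ℂ) * S (fun m => (∑' k, g₁ k * (starRingEnd ℂ) (g₂ (k - m))) +
            ∑' k, g₂ k * (starRingEnd ℂ) (g₁ (k - m))) p := S_const_mul _ _ p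
  have e10 : S (fun m => (∑' k, f₁ k * (starRingEnd ℂ) (f₂ (k - m))) +
            ∑' k, f₂ k * (starRingEnd ℂ) (f₁ (k - m))) p =
      S (fun m => ∑' k, f₁ k * (starRingEnd ℂ) (f₂ (k - m))) p +
        S (fun m => ∑' k, f₂ k * (starRingEnd ℂ) (f₁ (k - m))) p := S_add _ _ hA hB p
  have e11 : S (fun m => (∑' k, g₁ k * (starRingEnd ℂ) (g₂ (k - m))) +
            ∑' k, g₂ k * (starRingEnd ℂ) (g₁ (k - m))) p =
      S (fun m => ∑' k, g₁ k * (starRingEnd ℂ) (g₂ (k - m))) p +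
        S (fun m => ∑' k, g₂ k * (starRingEnd ℂ) (g₁ (k - m))) p := S_add _ _ hC hD p
  rw [e1, e2, e3, e4, e5, e6, e7, e8, e9, e10, e11, S_cstar, S_cstar, ← hAe, ← hBe, ← hCe, ← hDe]

theorem metric_alg (x y A B : ℂ) (hy : (starRingEnd ℂ) y = y) :
    (Complex.I * x * A) * (starRingEnd ℂ) (Complex.I * y * B) =
      x * y * (A * (starRingEnd ℂ) B) := by
  rw [map_mul, map_mul, Complex.conj_I, hy]
  linear_combination (-(x * y * A * (starRingEnd ℂ) B)) * Complex.I_sq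

theorem metric_lin (z x y A B : ℂ) (hy : (starRingEnd ℂ) y = y) :
    z * (Complex.I * x * A - (starRingEnd ℂ) (Complex.I * y * B)) =
      (z * Complex.I) * (x * A + y * (starRingEnd ℂ) B) := by
  rw [map_mul, map_mul, Complex.conj_I, hy]
  ring

theorem metric_cf1 (k : ℤ × ℤ) : ‖Complex.I * ((k.1 : ℂ) + 1)‖ ≤ wt k := by
  rw [norm_mul, Complex.norm_I, one_mul]
  calc ‖(k.1 : ℂ) + 1‖ ≤ ‖(k.1 : ℂ)‖ + ‖(1 : ℂ)‖ := norm_add_le _ _
    _ = |(k.1 : ℝ)| + 1 := by rw [Complex.norm_intCast, norm_one]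
    _ ≤ wt k := by unfold wt; linarith [abs_nonneg (k.2 : ℝ)]

theorem metric_cf2 (k : ℤ × ℤ) : ‖Complex.I * (k.2 : ℂ)‖ ≤ wt k := by
  rw [norm_mul, Complex.norm_I, one_mul, Complex.norm_intCast]
  unfold wt; linarith [abs_nonneg (k.1 : ℝ)]

theorem metric_cf3 (k : ℤ × ℤ) : ‖Complex.I * (k.1 : ℂ)‖ ≤ wt k := by
  rw [norm_mul, Complex.norm_I, one_mul, Complex.norm_intCast]
  unfold wt; linarith [abs_nonneg (k.2 : ℝ)]

theorem metric_cf4 (k : ℤ × ℤ) : ‖Complex.I * ((k.2 : ℂ) + 1)‖ ≤ wt k := by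
  rw [norm_mul, Complex.norm_I, one_mul]
  calc ‖(k.2 : ℂ) + 1‖ ≤ ‖(k.2 : ℂ)‖ + ‖(1 : ℂ)‖ := norm_add_le _ _
    _ = |(k.2 : ℝ)| + 1 := by rw [Complex.norm_intCast, norm_one]
    _ ≤ wt k := by unfold wt; linarith [abs_nonneg (k.1 : ℝ)]

theorem metric_unit (e X Y : ℂ) (he : ‖e‖ = 1) :
    e * X * (starRingEnd ℂ) (e * Y) = X * (starRingEnd ℂ) Y := by
  rw [map_mul]
  have h : e * (starRingEnd ℂ) e = 1 := by
    rw [Complex.mul_conj, Complex.normSq_eq_norm_sq, he]; simp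
  calc e * X * ((starRingEnd ℂ) e * (starRingEnd ℂ) Y)
      = (e * (starRingEnd ℂ) e) * (X * (starRingEnd ℂ) Y) := by ring
    _ = X * (starRingEnd ℂ) Y := by rw [h, one_mul]

theorem metric_re1 (Z W : ℂ) :
    ‖Complex.I + Z‖ ^ 2 + ‖W‖ ^ 2 =
      1 + (-Complex.I * (Z - (starRingEnd ℂ) Z) +
        (Z * (starRingEnd ℂ) Z + W * (starRingEnd ℂ) W)).re := by
  rw [Complex.sq_norm, Complex.sq_norm, Complex.normSq_apply, Complex.normSq_apply]
  simp only [Complex.add_re, Complex.add_im, Complex.I_re, Complex.I_im, Complex.mul_re,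
    Complex.neg_re, Complex.neg_im, Complex.sub_re, Complex.sub_im,
    Complex.conj_re, Complex.conj_im]
  ring

theorem metric_re2 (Z₁ Z₂ W₁ W₂ : ℂ) :
    ((Complex.I + Z₁) * (starRingEnd ℂ) Z₂ + W₁ * (starRingEnd ℂ) (Complex.I + W₂)).re =
      ((-(Complex.I / 2) * (Z₂ - (starRingEnd ℂ) Z₂) +
          -(Complex.I / 2) * (W₁ - (starRingEnd ℂ) W₁)) +
        ((1 / 2 : ℂ) * (Z₁ * (starRingEnd ℂ) Z₂ + Z₂ * (starRingEnd ℂ) Z₁) +
          (1 / 2 : ℂ) * (W₁ * (starRingEnd ℂ) W₂ + W₂ * (starRingEnd ℂ) W₁))).re := by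
  have h2 : (Complex.I / 2 : ℂ) = ((1 / 2 : ℝ) : ℂ) * Complex.I := by push_cast; ring
  have h3 : (1 / 2 : ℂ) = ((1 / 2 : ℝ) : ℂ) := by push_cast; ring
  rw [h2, h3]
  simp only [Complex.add_re, Complex.add_im, Complex.I_re, Complex.I_im, Complex.mul_re,
    Complex.mul_im, Complex.neg_re, Complex.neg_im, Complex.sub_re, Complex.sub_im,
    Complex.conj_re, Complex.conj_im, Complex.ofReal_re, Complex.ofReal_im, map_add]
  ring

theorem metric_c11_eq (a b : ℤ × ℤ → ℂ) :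
    c11 a b = fun m =>
      -Complex.I * ((fun k : ℤ × ℤ => Complex.I * ((k.1 : ℂ) + 1) * a k) m -
          cstar (fun k : ℤ × ℤ => Complex.I * ((k.1 : ℂ) + 1) * a k) m) +
        ((∑' k : ℤ × ℤ, (fun k : ℤ × ℤ => Complex.I * ((k.1 : ℂ) + 1) * a k) k *
            (starRingEnd ℂ) ((fun k : ℤ × ℤ => Complex.I * ((k.1 : ℂ) + 1) * a k) (k - m))) +
          ∑' k : ℤ × ℤ, (fun k : ℤ × ℤ => Complex.I * (k.1 : ℂ) * b k) k *
            (starRingEnd ℂ) ((fun k : ℤ × ℤ => Complex.I * (k.1 : ℂ) * b k) (k - m))) := by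
  funext m
  unfold c11 quad bconv
  congr 1
  · simp only [cstar]
    rw [metric_lin _ _ _ _ _ (by simp)]
    simp only [Prod.fst_neg, Int.cast_neg, neg_mul, Complex.I_mul_I, neg_neg, one_mul]
    ring
  · congr 1
    · refine tsum_congr (fun k => ?_)
      simp only []
      rw [metric_alg _ _ _ _ (by simp)]
      simp only [tw, Qs11, e1, cstar, neg_sub, Prod.fst_add, Prod.fst_sub, Int.cast_add,
        Int.cast_sub, Int.cast_one]
      ring
    · refine tsum_congr (fun k => ?_)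
      simp only []
      rw [metric_alg _ _ _ _ (by simp)]
      simp only [tw, Qs11, e2, cstar, neg_sub, Prod.fst_add, Prod.fst_sub,
        Int.cast_sub, add_zero, sub_zero]
      ring

theorem metric_c22_eq (a b : ℤ × ℤ → ℂ) :
    c22 a b = fun m =>
      -Complex.I * ((fun k : ℤ × ℤ => Complex.I * ((k.2 : ℂ) + 1) * b k) m -
          cstar (fun k : ℤ × ℤ => Complex.I * ((k.2 : ℂ) + 1) * b k) m) +
        ((∑' k : ℤ × ℤ, (fun k : ℤ × ℤ => Complex.I * ((k.2 : ℂ) + 1) * b k) k *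
            (starRingEnd ℂ) ((fun k : ℤ × ℤ => Complex.I * ((k.2 : ℂ) + 1) * b k) (k - m))) +
          ∑' k : ℤ × ℤ, (fun k : ℤ × ℤ => Complex.I * (k.2 : ℂ) * a k) k *
            (starRingEnd ℂ) ((fun k : ℤ × ℤ => Complex.I * (k.2 : ℂ) * a k) (k - m))) := by
  funext m
  unfold c22 quad bconv
  congr 1
  · simp only [cstar]
    rw [metric_lin _ _ _ _ _ (by simp)]
    simp only [Prod.snd_neg, Int.cast_neg, neg_mul, Complex.I_mul_I, neg_neg, one_mul]
    ring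
  · rw [add_comm]
    congr 1
    · refine tsum_congr (fun k => ?_)
      simp only []
      rw [metric_alg _ _ _ _ (by simp)]
      simp only [tw, Qs22, e2, cstar, neg_sub, Prod.snd_add, Prod.snd_sub, Int.cast_add,
        Int.cast_sub, Int.cast_one]
      ring
    · refine tsum_congr (fun k => ?_)
      simp only []
      rw [metric_alg _ _ _ _ (by simp)]
      simp only [tw, Qs22, e1, cstar, neg_sub, Prod.snd_add, Prod.snd_sub,
        Int.cast_sub, add_zero, sub_zero]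
      ring

theorem metric_c12_eq (a b : ℤ × ℤ → ℂ)
    (hu1 : Summable fun k : ℤ × ℤ => ‖Complex.I * ((k.1 : ℂ) + 1) * a k‖)
    (hu2 : Summable fun k : ℤ × ℤ => ‖Complex.I * (k.2 : ℂ) * a k‖)
    (hv1 : Summable fun k : ℤ × ℤ => ‖Complex.I * (k.1 : ℂ) * b k‖)
    (hv2 : Summable fun k : ℤ × ℤ => ‖Complex.I * ((k.2 : ℂ) + 1) * b k‖) :
    c12 a b = fun m =>
      (-(Complex.I / 2) * ((fun k : ℤ × ℤ => Complex.I * (k.2 : ℂ) * a k) m -
            cstar (fun k : ℤ × ℤ => Complex.I * (k.2 : ℂ) * a k) m) +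
          -(Complex.I / 2) * ((fun k : ℤ × ℤ => Complex.I * (k.1 : ℂ) * b k) m -
            cstar (fun k : ℤ × ℤ => Complex.I * (k.1 : ℂ) * b k) m)) +
        ((1 / 2 : ℂ) *
            ((∑' k : ℤ × ℤ, (fun k : ℤ × ℤ => Complex.I * ((k.1 : ℂ) + 1) * a k) k *
                (starRingEnd ℂ) ((fun k : ℤ × ℤ => Complex.I * (k.2 : ℂ) * a k) (k - m))) +
              ∑' k : ℤ × ℤ, (fun k : ℤ × ℤ => Complex.I * (k.2 : ℂ) * a k) k *
                (starRingEnd ℂ) ((fun k : ℤ × ℤ => Complex.I * ((k.1 : ℂ) + 1) * a k) (k - m))) +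
          (1 / 2 : ℂ) *
            ((∑' k : ℤ × ℤ, (fun k : ℤ × ℤ => Complex.I * (k.1 : ℂ) * b k) k *
                (starRingEnd ℂ) ((fun k : ℤ × ℤ => Complex.I * ((k.2 : ℂ) + 1) * b k) (k - m))) +
              ∑' k : ℤ × ℤ, (fun k : ℤ × ℤ => Complex.I * ((k.2 : ℂ) + 1) * b k) k *
                (starRingEnd ℂ) ((fun k : ℤ × ℤ => Complex.I * (k.1 : ℂ) * b k) (k - m)))) := by
  have hz : -(Complex.I / 2) * Complex.I = 1 / 2 := by
    rw [neg_mul, div_mul_eq_mul_div, Complex.I_mul_I]; norm_num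
  funext m
  unfold c12 quad bconv
  congr 1
  · congr 1
    · simp only [cstar]
      rw [metric_lin _ _ _ _ _ (by simp), hz]
      simp only [Prod.snd_neg, Int.cast_neg]
      ring
    · simp only [cstar]
      rw [metric_lin _ _ _ _ _ (by simp), hz]
      simp only [Prod.fst_neg, Int.cast_neg]
      ring
  · congr 1
    · rw [← Summable.tsum_add (metric_pt_summable _ _ hu1 hu2 m)
        (metric_pt_summable _ _ hu2 hu1 m), ← tsum_mul_left]
      refine tsum_congr (fun k => ?_)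
      rw [metric_alg _ _ _ _ (by simp), metric_alg _ _ _ _ (by simp)]
      simp only [tw, Qs12, e1, cstar, neg_sub, Prod.fst_add, Prod.fst_sub, Prod.snd_add,
        Prod.snd_sub, Int.cast_add, Int.cast_sub, Int.cast_one, add_zero, sub_zero]
      ring
    · rw [← Summable.tsum_add (metric_pt_summable _ _ hv1 hv2 m)
        (metric_pt_summable _ _ hv2 hv1 m), ← tsum_mul_left]
      refine tsum_congr (fun k => ?_)
      rw [metric_alg _ _ _ _ (by simp), metric_alg _ _ _ _ (by simp)]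
      simp only [tw, Qs12, e2, cstar, neg_sub, Prod.fst_add, Prod.fst_sub, Prod.snd_add,
        Prod.snd_sub, Int.cast_add, Int.cast_sub, Int.cast_one, add_zero, sub_zero]
      ring

theorem metric_fun (a b : ℤ × ℤ → ℂ) (ha : Summable fun k => wt k * ‖a k‖)
    (hb : Summable fun k => wt k * ‖b k‖) (p : ℝ × ℝ) :
    ‖Complex.exp (Complex.I * (p.1 : ℂ)) *
        (Complex.I + S (fun k => Complex.I * ((k.1 : ℂ) + 1) * a k) p)‖ ^ 2 +
      ‖Complex.exp (Complex.I * (p.2 : ℂ)) * S (fun k => Complex.I * (k.1 : ℂ) * b k) p‖ ^ 2 =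
      1 + (S (c11 a b) p).re ∧
    (Complex.exp (Complex.I * (p.1 : ℂ)) *
          (Complex.I + S (fun k => Complex.I * ((k.1 : ℂ) + 1) * a k) p) *
        (starRingEnd ℂ) (Complex.exp (Complex.I * (p.1 : ℂ)) *
          S (fun k => Complex.I * (k.2 : ℂ) * a k) p) +
      Complex.exp (Complex.I * (p.2 : ℂ)) * S (fun k => Complex.I * (k.1 : ℂ) * b k) p *
        (starRingEnd ℂ) (Complex.exp (Complex.I * (p.2 : ℂ)) *
          (Complex.I + S (fun k => Complex.I * ((k.2 : ℂ) + 1) * b k) p))).re =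
      (S (c12 a b) p).re ∧
    ‖Complex.exp (Complex.I * (p.1 : ℂ)) * S (fun k => Complex.I * (k.2 : ℂ) * a k) p‖ ^ 2 +
      ‖Complex.exp (Complex.I * (p.2 : ℂ)) *
        (Complex.I + S (fun k => Complex.I * ((k.2 : ℂ) + 1) * b k) p)‖ ^ 2 =
      1 + (S (c22 a b) p).re := by
  have hu1 : Summable fun k : ℤ × ℤ => ‖Complex.I * ((k.1 : ℂ) + 1) * a k‖ :=
    metric_ns_wt a ha (fun k => Complex.I * ((k.1 : ℂ) + 1)) metric_cf1
  have hu2 : Summable fun k : ℤ × ℤ => ‖Complex.I * (k.2 : ℂ) * a k‖ :=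
    metric_ns_wt a ha (fun k => Complex.I * (k.2 : ℂ)) metric_cf2
  have hv1 : Summable fun k : ℤ × ℤ => ‖Complex.I * (k.1 : ℂ) * b k‖ :=
    metric_ns_wt b hb (fun k => Complex.I * (k.1 : ℂ)) metric_cf3
  have hv2 : Summable fun k : ℤ × ℤ => ‖Complex.I * ((k.2 : ℂ) + 1) * b k‖ :=
    metric_ns_wt b hb (fun k => Complex.I * ((k.2 : ℂ) + 1)) metric_cf4
  have he1 : ‖Complex.exp (Complex.I * (p.1 : ℂ))‖ = 1 := by
    rw [mul_comm]; exact Complex.norm_exp_ofReal_mul_I p.1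
  have he2 : ‖Complex.exp (Complex.I * (p.2 : ℂ))‖ = 1 := by
    rw [mul_comm]; exact Complex.norm_exp_ofReal_mul_I p.2
  refine ⟨?_, ?_, ?_⟩
  · rw [norm_mul, norm_mul, he1, he2, one_mul, one_mul, metric_c11_eq a b,
      metric_diag _ _ hu1 hv1]
    exact metric_re1 _ _
  · rw [metric_unit _ _ _ he1, metric_unit _ _ _ he2, metric_c12_eq a b hu1 hu2 hv1 hv2,
      metric_cross _ _ _ _ hu1 hu2 hv1 hv2]
    exact metric_re2 _ _ _ _
  · rw [norm_mul, norm_mul, he1, he2, one_mul, one_mul, metric_c22_eq a b,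
      metric_diag _ _ hv2 hu2]
    have h := metric_re1 (S (fun k => Complex.I * ((k.2 : ℂ) + 1) * b k) p)
      (S (fun k => Complex.I * (k.2 : ℂ) * a k) p)
    linarith

end Vale.Agent.Lib.P205.NF
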