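import Vale.Agent.Lib.P205.NF.SynthDeriv

/-!
# Smoothness of a synthesised function with rapidly decaying coefficients
-/

namespace Vale.Agent.Lib.P205.NF

open scoped ContDiff

theorem ssmooth_one_le_wt (k : ℤ × ℤ) : 1 ≤ wt k := by
  unfold wt
  have h1 : 0 ≤ |(k.1 : ℝ)| := abs_nonneg _
  have h2 : 0 ≤ |(k.2 : ℝ)| := abs_nonneg _
  linarith

theorem ssmooth_abs_fst_le_wt (k : ℤ × ℤ) : |(k.1 : ℝ)| ≤ wt k := by
  unfold wt
  have h2 : 0 ≤ |(k.2 : ℝ)| := abs_nonneg _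
  linarith

theorem ssmooth_abs_snd_le_wt (k : ℤ × ℤ) : |(k.2 : ℝ)| ≤ wt k := by
  unfold wt
  have h1 : 0 ≤ |(k.1 : ℝ)| := abs_nonneg _
  linarith

theorem ssmooth_norm_int_mul (z : ℤ) (w : ℂ) : ‖Complex.I * (z : ℂ) * w‖ = |(z : ℝ)| * ‖w‖ := by
  rw [norm_mul, norm_mul, Complex.norm_I, one_mul]
  congr 1
  have h : ((z : ℂ)) = ((z : ℝ) : ℂ) := by push_cast; rfl
  rw [h, Complex.norm_real, Real.norm_eq_abs]

theorem ssmooth_rd_fst (c : ℤ × ℤ → ℂ) (hc : ∀ n : ℕ, Summable fun k => wt k ^ n * ‖c k‖) :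
    ∀ n : ℕ, Summable fun k : ℤ × ℤ => wt k ^ n * ‖Complex.I * (k.1 : ℂ) * c k‖ := by
  intro n
  refine Summable.of_nonneg_of_le (fun k => ?_) (fun k => ?_) (hc (n + 1))
  · have h1 : 0 ≤ wt k := le_trans zero_le_one (ssmooth_one_le_wt k)
    positivity
  · have h1 : 0 ≤ wt k := le_trans zero_le_one (ssmooth_one_le_wt k)
    rw [ssmooth_norm_int_mul, pow_succ]
    have h2 : 0 ≤ wt k ^ n := pow_nonneg h1 n
    have h3 : 0 ≤ ‖c k‖ := norm_nonneg _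
    have h4 : wt k ^ n * (|(k.1 : ℝ)| * ‖c k‖) = wt k ^ n * |(k.1 : ℝ)| * ‖c k‖ := by ring
    rw [h4]
    exact mul_le_mul_of_nonneg_right
      (mul_le_mul_of_nonneg_left (ssmooth_abs_fst_le_wt k) h2) h3

theorem ssmooth_rd_snd (c : ℤ × ℤ → ℂ) (hc : ∀ n : ℕ, Summable fun k => wt k ^ n * ‖c k‖) :
    ∀ n : ℕ, Summable fun k : ℤ × ℤ => wt k ^ n * ‖Complex.I * (k.2 : ℂ) * c k‖ := by
  intro n
  refine Summable.of_nonneg_of_le (fun k => ?_) (fun k => ?_) (hc (n + 1))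
  · have h1 : 0 ≤ wt k := le_trans zero_le_one (ssmooth_one_le_wt k)
    positivity
  · have h1 : 0 ≤ wt k := le_trans zero_le_one (ssmooth_one_le_wt k)
    rw [ssmooth_norm_int_mul, pow_succ]
    have h2 : 0 ≤ wt k ^ n := pow_nonneg h1 n
    have h3 : 0 ≤ ‖c k‖ := norm_nonneg _
    have h4 : wt k ^ n * (|(k.2 : ℝ)| * ‖c k‖) = wt k ^ n * |(k.2 : ℝ)| * ‖c k‖ := by ring
    rw [h4]
    exact mul_le_mul_of_nonneg_right
      (mul_le_mul_of_nonneg_left (ssmooth_abs_snd_le_wt k) h2) h3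

theorem ssmooth_hasFDerivAt (c : ℤ × ℤ → ℂ) (hc : ∀ n : ℕ, Summable fun k => wt k ^ n * ‖c k‖)
    (p : ℝ × ℝ) :
    HasFDerivAt (S c)
      ((ContinuousLinearMap.fst ℝ ℝ ℝ).smulRight (S (fun k => Complex.I * (k.1 : ℂ) * c k) p) +
        (ContinuousLinearMap.snd ℝ ℝ ℝ).smulRight (S (fun k => Complex.I * (k.2 : ℂ) * c k) p))
      p := by
  refine S_hasFDerivAt c ?_ p
  have h := hc 1
  simpa using h

theorem ssmooth_nat : ∀ n : ℕ, ∀ c : ℤ × ℤ → ℂ,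
    (∀ j : ℕ, Summable fun k => wt k ^ j * ‖c k‖) → ContDiff ℝ (n : WithTop ℕ∞) (S c) := by
  intro n
  induction n with
  | zero =>
    intro c hc
    have hcont : Continuous (S c) :=
      continuous_iff_continuousAt.2 fun p => (ssmooth_hasFDerivAt c hc p).continuousAt
    have h0 : ((0 : ℕ) : WithTop ℕ∞) = 0 := by norm_cast
    rw [h0]
    exact contDiff_zero.2 hcont
  | succ n ih =>
    intro c hc
    have h1 : ((n + 1 : ℕ) : WithTop ℕ∞) = (n : WithTop ℕ∞) + 1 := by norm_cast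
    rw [h1, contDiff_succ_iff_fderiv]
    refine ⟨fun p => (ssmooth_hasFDerivAt c hc p).differentiableAt, ?_, ?_⟩
    · intro h
      exact absurd h (by simp)
    · have hfd : fderiv ℝ (S c) = fun p =>
          (ContinuousLinearMap.fst ℝ ℝ ℝ).smulRight
              (S (fun k => Complex.I * (k.1 : ℂ) * c k) p) +
            (ContinuousLinearMap.snd ℝ ℝ ℝ).smulRight
              (S (fun k => Complex.I * (k.2 : ℂ) * c k) p) := by
        funext p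
        exact (ssmooth_hasFDerivAt c hc p).fderiv
      rw [hfd]
      have e1 := ih _ (ssmooth_rd_fst c hc)
      have e2 := ih _ (ssmooth_rd_snd c hc)
      have l1 : ContDiff ℝ (n : WithTop ℕ∞) (fun z : ℂ =>
          (ContinuousLinearMap.fst ℝ ℝ ℝ).smulRight z) :=
        (ContinuousLinearMap.smulRightL ℝ (ℝ × ℝ) ℂ (ContinuousLinearMap.fst ℝ ℝ ℝ)).contDiff
      have l2 : ContDiff ℝ (n : WithTop ℕ∞) (fun z : ℂ =>
          (ContinuousLinearMap.snd ℝ ℝ ℝ).smulRight z) :=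
        (ContinuousLinearMap.smulRightL ℝ (ℝ × ℝ) ℂ (ContinuousLinearMap.snd ℝ ℝ ℝ)).contDiff
      exact (l1.comp e1).add (l2.comp e2)

theorem S_contDiff (c : ℤ × ℤ → ℂ) (hc : ∀ n : ℕ, Summable fun k => wt k ^ n * ‖c k‖) :
    ContDiff ℝ ∞ (S c) :=
  contDiff_infty.2 fun n => ssmooth_nat n c hc

end Vale.Agent.Lib.P205.NF
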