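import Vale.Agent.Lib.P205.NF.FDeriv

/-!
# Derivatives of the two complex components of the map over a rectangular flat base
-/

namespace Vale.Agent.Lib.P205.NF

theorem F1w_hasFDerivAt (A : ℝ) (a : ℤ × ℤ → ℂ) (ha : Summable fun k => wt k * ‖a k‖)
    (p : ℝ × ℝ) :
    HasFDerivAt (fun q : ℝ × ℝ => Complex.exp (Complex.I * (q.1 : ℂ)) * ((A : ℂ) + S a q))
      ((ContinuousLinearMap.fst ℝ ℝ ℝ).smulRight (Complex.exp (Complex.I * (p.1 : ℂ)) *
          (Complex.I * (A : ℂ) + S (fun k => Complex.I * ((k.1 : ℂ) + 1) * a k) p)) +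
        (ContinuousLinearMap.snd ℝ ℝ ℝ).smulRight (Complex.exp (Complex.I * (p.1 : ℂ)) *
          S (fun k => Complex.I * (k.2 : ℂ) * a k) p)) p := by
  have hS := (S_hasFDerivAt a ha p).const_add (A : ℂ)
  have hmul := (fder_exp1 p).mul hS
  refine hmul.congr_fderiv ?_
  rw [fder_shift1 a ha p]
  refine ContinuousLinearMap.ext fun v => ?_
  simp only [add_apply, smul_apply,
    ContinuousLinearMap.smulRight_apply, ContinuousLinearMap.coe_fst', ContinuousLinearMap.coe_snd',
    smul_eq_mul, Complex.real_smul]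
  ring

theorem F2w_hasFDerivAt (B : ℝ) (b : ℤ × ℤ → ℂ) (hb : Summable fun k => wt k * ‖b k‖)
    (p : ℝ × ℝ) :
    HasFDerivAt (fun q : ℝ × ℝ => Complex.exp (Complex.I * (q.2 : ℂ)) * ((B : ℂ) + S b q))
      ((ContinuousLinearMap.fst ℝ ℝ ℝ).smulRight (Complex.exp (Complex.I * (p.2 : ℂ)) *
          S (fun k => Complex.I * (k.1 : ℂ) * b k) p) +
        (ContinuousLinearMap.snd ℝ ℝ ℝ).smulRight (Complex.exp (Complex.I * (p.2 : ℂ)) *
          (Complex.I * (B : ℂ) + S (fun k => Complex.I * ((k.2 : ℂ) + 1) * b k) p))) p := by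
  have hS := (S_hasFDerivAt b hb p).const_add (B : ℂ)
  have hmul := (fder_exp2 p).mul hS
  refine hmul.congr_fderiv ?_
  rw [fder_shift2 b hb p]
  refine ContinuousLinearMap.ext fun v => ?_
  simp only [add_apply, smul_apply,
    ContinuousLinearMap.smulRight_apply, ContinuousLinearMap.coe_fst', ContinuousLinearMap.coe_snd',
    smul_eq_mul, Complex.real_smul]
  ring

end Vale.Agent.Lib.P205.NF
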