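import Vale.Agent.Lib.P205.NF.MetricFun
import Vale.Agent.Lib.P205.NF.WDefs

/-!
# The induced metric over a rectangular flat base, in terms of the coefficient sequences
-/

namespace Vale.Agent.Lib.P205.NF

theorem metricw_lin11 (a : ℤ × ℤ → ℂ) (m : ℤ × ℤ) :
    ((m.1 : ℂ) + 1) * a m - ((m.1 : ℂ) - 1) * cstar a m =
      -Complex.I * ((fun k : ℤ × ℤ => Complex.I * ((k.1 : ℂ) + 1) * a k) m -
          cstar (fun k : ℤ × ℤ => Complex.I * ((k.1 : ℂ) + 1) * a k) m) := by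
  simp only [cstar]
  rw [metric_lin _ _ _ _ _ (by simp)]
  simp only [Prod.fst_neg, Int.cast_neg, neg_mul, Complex.I_mul_I, neg_neg, one_mul]
  ring

theorem metricw_lin22 (b : ℤ × ℤ → ℂ) (m : ℤ × ℤ) :
    ((m.2 : ℂ) + 1) * b m - ((m.2 : ℂ) - 1) * cstar b m =
      -Complex.I * ((fun k : ℤ × ℤ => Complex.I * ((k.2 : ℂ) + 1) * b k) m -
          cstar (fun k : ℤ × ℤ => Complex.I * ((k.2 : ℂ) + 1) * b k) m) := by
  simp only [cstar]
  rw [metric_lin _ _ _ _ _ (by simp)]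
  simp only [Prod.snd_neg, Int.cast_neg, neg_mul, Complex.I_mul_I, neg_neg, one_mul]
  ring

theorem metricw_lin12a (a : ℤ × ℤ → ℂ) (m : ℤ × ℤ) :
    (m.2 : ℂ) / 2 * (a m - cstar a m) =
      -(Complex.I / 2) * ((fun k : ℤ × ℤ => Complex.I * (k.2 : ℂ) * a k) m -
          cstar (fun k : ℤ × ℤ => Complex.I * (k.2 : ℂ) * a k) m) := by
  have hz : -(Complex.I / 2) * Complex.I = 1 / 2 := by
    rw [neg_mul, div_mul_eq_mul_div, Complex.I_mul_I]; norm_num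
  simp only [cstar]
  rw [metric_lin _ _ _ _ _ (by simp), hz]
  simp only [Prod.snd_neg, Int.cast_neg]
  ring

theorem metricw_lin12b (b : ℤ × ℤ → ℂ) (m : ℤ × ℤ) :
    (m.1 : ℂ) / 2 * (b m - cstar b m) =
      -(Complex.I / 2) * ((fun k : ℤ × ℤ => Complex.I * (k.1 : ℂ) * b k) m -
          cstar (fun k : ℤ × ℤ => Complex.I * (k.1 : ℂ) * b k) m) := by
  have hz : -(Complex.I / 2) * Complex.I = 1 / 2 := by
    rw [neg_mul, div_mul_eq_mul_div, Complex.I_mul_I]; norm_num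
  simp only [cstar]
  rw [metric_lin _ _ _ _ _ (by simp), hz]
  simp only [Prod.fst_neg, Int.cast_neg]
  ring

theorem metricw_c11w_eq (A : ℝ) (a b : ℤ × ℤ → ℂ) :
    c11w A a b = fun m =>
      (-Complex.I * (A : ℂ)) * ((fun k : ℤ × ℤ => Complex.I * ((k.1 : ℂ) + 1) * a k) m -
          cstar (fun k : ℤ × ℤ => Complex.I * ((k.1 : ℂ) + 1) * a k) m) +
        ((∑' k : ℤ × ℤ, (fun k : ℤ × ℤ => Complex.I * ((k.1 : ℂ) + 1) * a k) k *
            (starRingEnd ℂ) ((fun k : ℤ × ℤ => Complex.I * ((k.1 : ℂ) + 1) * a k) (k - m))) +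
          ∑' k : ℤ × ℤ, (fun k : ℤ × ℤ => Complex.I * (k.1 : ℂ) * b k) k *
            (starRingEnd ℂ) ((fun k : ℤ × ℤ => Complex.I * (k.1 : ℂ) * b k) (k - m))) := by
  funext m
  have h0 := congrFun (metric_c11_eq a b) m
  have hL := metricw_lin11 a m
  have hdef : c11 a b m = (((m.1 : ℂ) + 1) * a m - ((m.1 : ℂ) - 1) * cstar a m) +
      quad (tw Qs11 e1) (tw Qs11 e2) a b m := rfl
  have hw : c11w A a b m = (A : ℂ) * (((m.1 : ℂ) + 1) * a m - ((m.1 : ℂ) - 1) * cstar a m) +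
      quad (tw Qs11 e1) (tw Qs11 e2) a b m := rfl
  rw [hdef, hL] at h0
  have hq := add_left_cancel h0
  rw [hw, hq, hL]
  ring

theorem metricw_c22w_eq (B : ℝ) (a b : ℤ × ℤ → ℂ) :
    c22w B a b = fun m =>
      (-Complex.I * (B : ℂ)) * ((fun k : ℤ × ℤ => Complex.I * ((k.2 : ℂ) + 1) * b k) m -
          cstar (fun k : ℤ × ℤ => Complex.I * ((k.2 : ℂ) + 1) * b k) m) +
        ((∑' k : ℤ × ℤ, (fun k : ℤ × ℤ => Complex.I * ((k.2 : ℂ) + 1) * b k) k *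
            (starRingEnd ℂ) ((fun k : ℤ × ℤ => Complex.I * ((k.2 : ℂ) + 1) * b k) (k - m))) +
          ∑' k : ℤ × ℤ, (fun k : ℤ × ℤ => Complex.I * (k.2 : ℂ) * a k) k *
            (starRingEnd ℂ) ((fun k : ℤ × ℤ => Complex.I * (k.2 : ℂ) * a k) (k - m))) := by
  funext m
  have h0 := congrFun (metric_c22_eq a b) m
  have hL := metricw_lin22 b m
  have hdef : c22 a b m = (((m.2 : ℂ) + 1) * b m - ((m.2 : ℂ) - 1) * cstar b m) +
      quad (tw Qs22 e1) (tw Qs22 e2) a b m := rfl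
  have hw : c22w B a b m = (B : ℂ) * (((m.2 : ℂ) + 1) * b m - ((m.2 : ℂ) - 1) * cstar b m) +
      quad (tw Qs22 e1) (tw Qs22 e2) a b m := rfl
  rw [hdef, hL] at h0
  have hq := add_left_cancel h0
  rw [hw, hq, hL]
  ring

theorem metricw_c12w_eq (A B : ℝ) (a b : ℤ × ℤ → ℂ)
    (hu1 : Summable fun k : ℤ × ℤ => ‖Complex.I * ((k.1 : ℂ) + 1) * a k‖)
    (hu2 : Summable fun k : ℤ × ℤ => ‖Complex.I * (k.2 : ℂ) * a k‖)
    (hv1 : Summable fun k : ℤ × ℤ => ‖Complex.I * (k.1 : ℂ) * b k‖)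
    (hv2 : Summable fun k : ℤ × ℤ => ‖Complex.I * ((k.2 : ℂ) + 1) * b k‖) :
    c12w A B a b = fun m =>
      ((-(Complex.I / 2) * (A : ℂ)) * ((fun k : ℤ × ℤ => Complex.I * (k.2 : ℂ) * a k) m -
            cstar (fun k : ℤ × ℤ => Complex.I * (k.2 : ℂ) * a k) m) +
          (-(Complex.I / 2) * (B : ℂ)) * ((fun k : ℤ × ℤ => Complex.I * (k.1 : ℂ) * b k) m -
            cstar (fun k : ℤ × ℤ => Complex.I * (k.1 : ℂ) * b k) m)) +
        ((1 / 2 : ℂ) *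
            ((∑' k : ℤ × ℤ, (fun k : ℤ × ℤ => Complex.I * ((k.1 : ℂ) + 1) * a k) k *
                (starRingEnd ℂ) ((fun k : ℤ × ℤ => Complex.I * (k.2 : ℂ) * a k) (k - m))) +
              ∑' k : ℤ × ℤ, (fun k : ℤ × ℤ => Complex.I * (k.2 : ℂ) * a k) k *
                (starRingEnd ℂ) ((fun k : ℤ × ℤ => Complex.I * ((k.1 : ℂ) + 1) * a k) (k - m))) +
          (1 / 2 : ℂ) *
            ((∑' k : ℤ × ℤ, (fun k : ℤ × ℤ => Complex.I * (k.1 : ℂ) * b k) k *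
                (starRingEnd ℂ) ((fun k : ℤ × ℤ => Complex.I * ((k.2 : ℂ) + 1) * b k) (k - m))) +
              ∑' k : ℤ × ℤ, (fun k : ℤ × ℤ => Complex.I * ((k.2 : ℂ) + 1) * b k) k *
                (starRingEnd ℂ) ((fun k : ℤ × ℤ => Complex.I * (k.1 : ℂ) * b k) (k - m)))) := by
  funext m
  have h0 := congrFun (metric_c12_eq a b hu1 hu2 hv1 hv2) m
  have hLa := metricw_lin12a a m
  have hLb := metricw_lin12b b m
  have hdef : c12 a b m = ((m.2 : ℂ) / 2 * (a m - cstar a m) +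
      (m.1 : ℂ) / 2 * (b m - cstar b m)) + quad (tw Qs12 e1) (tw Qs12 e2) a b m := rfl
  have hw : c12w A B a b m = (A : ℂ) * ((m.2 : ℂ) / 2 * (a m - cstar a m)) +
      (B : ℂ) * ((m.1 : ℂ) / 2 * (b m - cstar b m)) +
      quad (tw Qs12 e1) (tw Qs12 e2) a b m := rfl
  rw [hdef, hLa, hLb] at h0
  have hq := add_left_cancel h0
  rw [hw, hq, hLa, hLb]
  ring

theorem metricw_re1 (A : ℝ) (Z W : ℂ) :
    ‖Complex.I * (A : ℂ) + Z‖ ^ 2 + ‖W‖ ^ 2 =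
      A ^ 2 + ((-Complex.I * (A : ℂ)) * (Z - (starRingEnd ℂ) Z) +
        (Z * (starRingEnd ℂ) Z + W * (starRingEnd ℂ) W)).re := by
  rw [Complex.sq_norm, Complex.sq_norm, Complex.normSq_apply, Complex.normSq_apply]
  simp only [Complex.add_re, Complex.add_im, Complex.I_re, Complex.I_im, Complex.mul_re,
    Complex.mul_im, Complex.neg_re, Complex.neg_im, Complex.sub_re, Complex.sub_im,
    Complex.conj_re, Complex.conj_im, Complex.ofReal_re, Complex.ofReal_im]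
  ring

theorem metricw_re2 (A B : ℝ) (Z₁ Z₂ W₁ W₂ : ℂ) :
    ((Complex.I * (A : ℂ) + Z₁) * (starRingEnd ℂ) Z₂ +
        W₁ * (starRingEnd ℂ) (Complex.I * (B : ℂ) + W₂)).re =
      (((-(Complex.I / 2) * (A : ℂ)) * (Z₂ - (starRingEnd ℂ) Z₂) +
          (-(Complex.I / 2) * (B : ℂ)) * (W₁ - (starRingEnd ℂ) W₁)) +
        ((1 / 2 : ℂ) * (Z₁ * (starRingEnd ℂ) Z₂ + Z₂ * (starRingEnd ℂ) Z₁) +
          (1 / 2 : ℂ) * (W₁ * (starRingEnd ℂ) W₂ + W₂ * (starRingEnd ℂ) W₁))).re := by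
  have h2 : (Complex.I / 2 : ℂ) = ((1 / 2 : ℝ) : ℂ) * Complex.I := by push_cast; ring
  have h3 : (1 / 2 : ℂ) = ((1 / 2 : ℝ) : ℂ) := by push_cast; ring
  rw [h2, h3]
  simp only [Complex.add_re, Complex.add_im, Complex.I_re, Complex.I_im, Complex.mul_re,
    Complex.mul_im, Complex.neg_re, Complex.neg_im, Complex.sub_re, Complex.sub_im,
    Complex.conj_re, Complex.conj_im, Complex.ofReal_re, Complex.ofReal_im, map_add, map_mul]
  ring

/-- Cross identity with two different coefficients in the linear part. -/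
theorem metricw_cross (f₁ f₂ g₁ g₂ : ℤ × ℤ → ℂ) (hf₁ : Summable fun k => ‖f₁ k‖)
    (hf₂ : Summable fun k => ‖f₂ k‖) (hg₁ : Summable fun k => ‖g₁ k‖)
    (hg₂ : Summable fun k => ‖g₂ k‖) (z w : ℂ) (p : ℝ × ℝ) :
    S (fun m => (z * (f₂ m - cstar f₂ m) + w * (g₁ m - cstar g₁ m)) +
        ((1 / 2 : ℂ) * ((∑' k, f₁ k * (starRingEnd ℂ) (f₂ (k - m))) +
            ∑' k, f₂ k * (starRingEnd ℂ) (f₁ (k - m))) +
          (1 / 2 : ℂ) * ((∑' k, g₁ k * (starRingEnd ℂ) (g₂ (k - m))) +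
            ∑' k, g₂ k * (starRingEnd ℂ) (g₁ (k - m))))) p =
      (z * (S f₂ p - (starRingEnd ℂ) (S f₂ p)) + w * (S g₁ p - (starRingEnd ℂ) (S g₁ p))) +
        ((1 / 2 : ℂ) * (S f₁ p * (starRingEnd ℂ) (S f₂ p) + S f₂ p * (starRingEnd ℂ) (S f₁ p)) +
          (1 / 2 : ℂ) * (S g₁ p * (starRingEnd ℂ) (S g₂ p) +
            S g₂ p * (starRingEnd ℂ) (S g₁ p))) := by
  obtain ⟨hA, -⟩ := S_mul_conj f₁ f₂ hf₁ hf₂ p
  obtain ⟨hB, -⟩ := S_mul_conj f₂ f₁ hf₂ hf₁ p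
  obtain ⟨hC, -⟩ := S_mul_conj g₁ g₂ hg₁ hg₂ p
  obtain ⟨hD, -⟩ := S_mul_conj g₂ g₁ hg₂ hg₁ p
  have hcf := metric_ns_cstar f₂ hf₂
  have hcg := metric_ns_cstar g₁ hg₁
  have h1 : Summable fun m => ‖z * (f₂ m - cstar f₂ m)‖ :=
    metric_ns_mul z _ (metric_ns_sub f₂ (cstar f₂) hf₂ hcf)
  have h2 : Summable fun m => ‖w * (g₁ m - cstar g₁ m)‖ :=
    metric_ns_mul w _ (metric_ns_sub g₁ (cstar g₁) hg₁ hcg)
  have h3 : Summable fun m => ‖(∑' k, f₁ k * (starRingEnd ℂ) (f₂ (k - m))) +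
      ∑' k, f₂ k * (starRingEnd ℂ) (f₁ (k - m))‖ := metric_ns_add _ _ hA hB
  have h4 : Summable fun m => ‖(∑' k, g₁ k * (starRingEnd ℂ) (g₂ (k - m))) +
      ∑' k, g₂ k * (starRingEnd ℂ) (g₁ (k - m))‖ := metric_ns_add _ _ hC hD
  have h5 := metric_ns_mul (1 / 2 : ℂ) _ h3
  have h6 := metric_ns_mul (1 / 2 : ℂ) _ h4
  have h12 := metric_ns_add _ _ h1 h2
  have h56 := metric_ns_add _ _ h5 h6
  have e1 : S (fun m => (z * (f₂ m - cstar f₂ m) + w * (g₁ m - cstar g₁ m)) +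
        ((1 / 2 : ℂ) * ((∑' k, f₁ k * (starRingEnd ℂ) (f₂ (k - m))) +
            ∑' k, f₂ k * (starRingEnd ℂ) (f₁ (k - m))) +
          (1 / 2 : ℂ) * ((∑' k, g₁ k * (starRingEnd ℂ) (g₂ (k - m))) +
            ∑' k, g₂ k * (starRingEnd ℂ) (g₁ (k - m))))) p =
      S (fun m => z * (f₂ m - cstar f₂ m) + w * (g₁ m - cstar g₁ m)) p +
        S (fun m => (1 / 2 : ℂ) * ((∑' k, f₁ k * (starRingEnd ℂ) (f₂ (k - m))) +
            ∑' k, f₂ k * (starRingEnd ℂ) (f₁ (k - m))) +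
          (1 / 2 : ℂ) * ((∑' k, g₁ k * (starRingEnd ℂ) (g₂ (k - m))) +
            ∑' k, g₂ k * (starRingEnd ℂ) (g₁ (k - m)))) p := S_add _ _ h12 h56 p
  have e2 : S (fun m => z * (f₂ m - cstar f₂ m) + w * (g₁ m - cstar g₁ m)) p =
      S (fun m => z * (f₂ m - cstar f₂ m)) p + S (fun m => w * (g₁ m - cstar g₁ m)) p :=
    S_add _ _ h1 h2 p
  have e3 : S (fun m => z * (f₂ m - cstar f₂ m)) p = z * S (fun m => f₂ m - cstar f₂ m) p :=
    S_const_mul z _ p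
  have e4 : S (fun m => w * (g₁ m - cstar g₁ m)) p = w * S (fun m => g₁ m - cstar g₁ m) p :=
    S_const_mul w _ p
  have e5 : S (fun m => f₂ m - cstar f₂ m) p = S f₂ p - S (cstar f₂) p :=
    S_sub f₂ (cstar f₂) hf₂ hcf p
  have e6 : S (fun m => g₁ m - cstar g₁ m) p = S g₁ p - S (cstar g₁) p :=
    S_sub g₁ (cstar g₁) hg₁ hcg p
  have e7 := metric_cross f₁ f₂ g₁ g₂ hf₁ hf₂ hg₁ hg₂ 0 p
  simp only [zero_mul, zero_add] at e7
  rw [e1, e2, e3, e4, e5, e6, e7, S_cstar, S_cstar]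

theorem metric_fun_w (A B : ℝ) (a b : ℤ × ℤ → ℂ) (ha : Summable fun k => wt k * ‖a k‖)
    (hb : Summable fun k => wt k * ‖b k‖) (p : ℝ × ℝ) :
    ‖Complex.exp (Complex.I * (p.1 : ℂ)) *
        (Complex.I * (A : ℂ) + S (fun k => Complex.I * ((k.1 : ℂ) + 1) * a k) p)‖ ^ 2 +
      ‖Complex.exp (Complex.I * (p.2 : ℂ)) * S (fun k => Complex.I * (k.1 : ℂ) * b k) p‖ ^ 2 =
      A ^ 2 + (S (c11w A a b) p).re ∧
    (Complex.exp (Complex.I * (p.1 : ℂ)) *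
          (Complex.I * (A : ℂ) + S (fun k => Complex.I * ((k.1 : ℂ) + 1) * a k) p) *
        (starRingEnd ℂ) (Complex.exp (Complex.I * (p.1 : ℂ)) *
          S (fun k => Complex.I * (k.2 : ℂ) * a k) p) +
      Complex.exp (Complex.I * (p.2 : ℂ)) * S (fun k => Complex.I * (k.1 : ℂ) * b k) p *
        (starRingEnd ℂ) (Complex.exp (Complex.I * (p.2 : ℂ)) *
          (Complex.I * (B : ℂ) + S (fun k => Complex.I * ((k.2 : ℂ) + 1) * b k) p))).re =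
      (S (c12w A B a b) p).re ∧
    ‖Complex.exp (Complex.I * (p.1 : ℂ)) * S (fun k => Complex.I * (k.2 : ℂ) * a k) p‖ ^ 2 +
      ‖Complex.exp (Complex.I * (p.2 : ℂ)) *
        (Complex.I * (B : ℂ) + S (fun k => Complex.I * ((k.2 : ℂ) + 1) * b k) p)‖ ^ 2 =
      B ^ 2 + (S (c22w B a b) p).re := by
  have hu1 : Summable fun k : ℤ × ℤ => ‖Complex.I * ((k.1 : ℂ) + 1) * a k‖ :=
    metric_ns_wt a ha (fun k => Complex.I * ((k.1 : ℂ) + 1)) metric_cf1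
  have hu2 : Summable fun k : ℤ × ℤ => ‖Complex.I * (k.2 : ℂ) * a k‖ :=
    metric_ns_wt a ha (fun k => Complex.I * (k.2 : ℂ)) metric_cf2
  have hv1 : Summable fun k : ℤ × ℤ => ‖Complex.I * (k.1 : ℂ) * b k‖ :=
    metric_ns_wt b hb (fun k => Complex.I * (k.1 : ℂ)) metric_cf3
  have hv2 : Summable fun k : ℤ × ℤ => ‖Complex.I * ((k.2 : ℂ) + 1) * b k‖ :=
    metric_ns_wt b hb (fun k => Complex.I * ((k.2 : ℂ) + 1)) metric_cf4
  have he1 : ‖Complex.exp (Complex.I * (p.1 : ℂ))‖ = 1 := by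
    rw [mul_comm]; exact Complex.norm_exp_ofReal_mul_I p.1
  have he2 : ‖Complex.exp (Complex.I * (p.2 : ℂ))‖ = 1 := by
    rw [mul_comm]; exact Complex.norm_exp_ofReal_mul_I p.2
  refine ⟨?_, ?_, ?_⟩
  · rw [norm_mul, norm_mul, he1, he2, one_mul, one_mul, metricw_c11w_eq A a b,
      metric_diag _ _ hu1 hv1]
    exact metricw_re1 A _ _
  · rw [metric_unit _ _ _ he1, metric_unit _ _ _ he2, metricw_c12w_eq A B a b hu1 hu2 hv1 hv2,
      metricw_cross _ _ _ _ hu1 hu2 hv1 hv2]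
    exact metricw_re2 A B _ _ _ _
  · rw [norm_mul, norm_mul, he1, he2, one_mul, one_mul, metricw_c22w_eq B a b,
      metric_diag _ _ hv2 hu2]
    have h := metricw_re1 B (S (fun k => Complex.I * ((k.2 : ℂ) + 1) * b k) p)
      (S (fun k => Complex.I * (k.2 : ℂ) * a k) p)
    linarith

end Vale.Agent.Lib.P205.NF
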