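import Vale.Agent.Lib.P205.NF.ExistW

/-!
# Rapid decay of the fixed point of the scaled maps, and base-weight forms
-/

namespace Vale.Agent.Lib.P205.NF

theorem exists_fixed_base_w (s t c : ℝ) (hs0 : 0 ≤ s) (hsc : s ≤ c) (ht0 : 0 ≤ t)
    (htc : t ≤ c) (hc : 0 < c) (lA lB : ℤ × ℤ → ℂ) (r : ℝ) (hr0 : 0 ≤ r)
    (hr : r ≤ 1 / (480 * c))
    (hA : InBall (fun k => wt k ^ 2) (r / (2 * c)) lA)
    (hB : InBall (fun k => wt k ^ 2) (r / (2 * c)) lB) :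
    ∃ a b, InBall (fun k => wt k ^ 2) r a ∧ InBall (fun k => wt k ^ 2) r b ∧
      TAw s lA a b = a ∧ TBw t lB a b = b := by
  have h := exists_fixed_w (fun _ => (1 : ℝ)) (fun _ => le_refl _) (fun _ _ => by norm_num)
    (fun _ => rfl) s t c hs0 hsc ht0 htc hc lA lB r hr0 hr
  simp only [one_mul] at h
  exact h hA hB

theorem fixed_lipschitz_base_w (s t c : ℝ) (hs0 : 0 ≤ s) (hsc : s ≤ c) (ht0 : 0 ≤ t)
    (htc : t ≤ c) (hc : 0 < c) (lA lB lA' lB' : ℤ × ℤ → ℂ) (r : ℝ)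
    (hr : r ≤ 1 / (480 * c)) (a b a' b' : ℤ × ℤ → ℂ)
    (ha : InBall (fun k => wt k ^ 2) r a) (hb : InBall (fun k => wt k ^ 2) r b)
    (ha' : InBall (fun k => wt k ^ 2) r a') (hb' : InBall (fun k => wt k ^ 2) r b')
    (hfa : TAw s lA a b = a) (hfb : TBw t lB a b = b) (hfa' : TAw s lA' a' b' = a')
    (hfb' : TBw t lB' a' b' = b')
    (hlA : Summable (fun k => wt k ^ 2 * ‖lA k - lA' k‖))
    (hlB : Summable (fun k => wt k ^ 2 * ‖lB k - lB' k‖)) :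
    max (nrm (fun k => wt k ^ 2) (fun k => a k - a' k))
        (nrm (fun k => wt k ^ 2) (fun k => b k - b' k)) ≤
      2 * c * max (nrm (fun k => wt k ^ 2) (fun k => lA k - lA' k))
        (nrm (fun k => wt k ^ 2) (fun k => lB k - lB' k)) := by
  have h := fixed_lipschitz_w (fun _ => (1 : ℝ)) (fun _ => le_refl _)
    (fun _ _ => by norm_num) (fun _ => rfl) s t c hs0 hsc ht0 htc hc lA lB lA' lB' r hr
    a b a' b'
  simp only [one_mul] at h
  exact h ha hb ha' hb' hfa hfb hfa' hfb' hlA hlB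

private lemma regw_wt_one_le (k : ℤ × ℤ) : 1 ≤ wt k := by
  unfold wt
  have h1 := abs_nonneg (k.1 : ℝ)
  have h2 := abs_nonneg (k.2 : ℝ)
  linarith

private lemma regw_wt_neg (k : ℤ × ℤ) : wt (-k) = wt k := by
  unfold wt
  simp only [Prod.fst_neg, Prod.snd_neg, Int.cast_neg, abs_neg]

private lemma regw_wt_add (k l : ℤ × ℤ) : wt (k + l) - 1 ≤ (wt k - 1) + (wt l - 1) := by
  unfold wt
  simp only [Prod.fst_add, Prod.snd_add, Int.cast_add]
  have h1 := abs_add_le (k.1 : ℝ) (l.1 : ℝ)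
  have h2 := abs_add_le (k.2 : ℝ) (l.2 : ℝ)
  linarith

private lemma regw_pow_le (ε x : ℝ) (hε0 : 0 ≤ ε) (hε1 : ε ≤ 1) (hx : 0 ≤ x) (n : ℕ) :
    (1 + ε * x) ^ n ≤ 1 + ε * ((1 + x) ^ n - 1) := by
  induction n with
  | zero => simp
  | succ n ih =>
    have hc : 0 ≤ (1 + x) ^ n - 1 := by
      have h : (1 : ℝ) ≤ (1 + x) ^ n := one_le_pow₀ (by linarith)
      linarith
    have h1 : 0 ≤ 1 + ε * x := by
      have h := mul_nonneg hε0 hx
      linarith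
    have h2 : (1 + ε * x) ^ (n + 1) ≤ (1 + ε * ((1 + x) ^ n - 1)) * (1 + ε * x) := by
      rw [pow_succ]
      exact mul_le_mul_of_nonneg_right ih h1
    have h3 : 1 + ε * ((1 + x) ^ (n + 1) - 1) - (1 + ε * ((1 + x) ^ n - 1)) * (1 + ε * x)
        = ε * ((1 + x) ^ n - 1) * x * (1 - ε) := by ring
    have h4 : 0 ≤ ε * ((1 + x) ^ n - 1) * x * (1 - ε) :=
      mul_nonneg (mul_nonneg (mul_nonneg hε0 hc) hx) (by linarith)
    linarith

private lemma regw_pow_ge (ε x : ℝ) (hε0 : 0 < ε) (hε1 : ε ≤ 1) (hx : 0 ≤ x) (n : ℕ) :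
    (1 + x) ^ n ≤ ε⁻¹ ^ n * (1 + ε * x) ^ n := by
  rw [← mul_pow]
  apply pow_le_pow_left₀ (by linarith)
  have h1 : ε⁻¹ * (1 + ε * x) = ε⁻¹ + x := by
    field_simp
  rw [h1]
  have h2 : 1 ≤ ε⁻¹ := (one_le_inv₀ hε0).mpr hε1
  linarith

private lemma regw_data (l : ℤ × ℤ → ℂ) (n : ℕ)
    (h2 : Summable fun k => wt k ^ 2 * ‖l k‖)
    (hn : Summable fun k => wt k ^ (n + 2) * ‖l k‖) (ε : ℝ) (hε0 : 0 ≤ ε) (hε1 : ε ≤ 1) :
    Summable (fun k => (1 + ε * (wt k - 1)) ^ n * wt k ^ 2 * ‖l k‖) ∧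
      nrm (fun k => (1 + ε * (wt k - 1)) ^ n * wt k ^ 2) l ≤
        nrm (fun k => wt k ^ 2) l + ε * ∑' k, wt k ^ (n + 2) * ‖l k‖ := by
  have hx : ∀ k, 0 ≤ wt k - 1 := fun k => by linarith [regw_wt_one_le k]
  have hle : ∀ k, (1 + ε * (wt k - 1)) ^ n * wt k ^ 2 * ‖l k‖ ≤
      wt k ^ 2 * ‖l k‖ + ε * (wt k ^ (n + 2) * ‖l k‖) := by
    intro k
    have h1 := regw_pow_le ε (wt k - 1) hε0 hε1 (hx k) n
    have h3 : (1 + (wt k - 1)) = wt k := by ring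
    rw [h3] at h1
    have h4 : (1 + ε * (wt k - 1)) ^ n ≤ 1 + ε * wt k ^ n := by
      have h := mul_nonneg hε0 zero_le_one
      linarith
    have h5 : 0 ≤ wt k ^ 2 * ‖l k‖ := mul_nonneg (sq_nonneg _) (norm_nonneg _)
    calc (1 + ε * (wt k - 1)) ^ n * wt k ^ 2 * ‖l k‖
        = (1 + ε * (wt k - 1)) ^ n * (wt k ^ 2 * ‖l k‖) := by ring
      _ ≤ (1 + ε * wt k ^ n) * (wt k ^ 2 * ‖l k‖) := mul_le_mul_of_nonneg_right h4 h5
      _ = wt k ^ 2 * ‖l k‖ + ε * (wt k ^ (n + 2) * ‖l k‖) := by ring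
  have hnn : ∀ k, 0 ≤ (1 + ε * (wt k - 1)) ^ n * wt k ^ 2 * ‖l k‖ := by
    intro k
    have h : 0 ≤ 1 + ε * (wt k - 1) := by
      have h' := mul_nonneg hε0 (hx k)
      linarith
    exact mul_nonneg (mul_nonneg (pow_nonneg h _) (sq_nonneg _)) (norm_nonneg _)
  have hsum2 : Summable (fun k => wt k ^ 2 * ‖l k‖ + ε * (wt k ^ (n + 2) * ‖l k‖)) :=
    h2.add (hn.mul_left ε)
  have hs : Summable (fun k => (1 + ε * (wt k - 1)) ^ n * wt k ^ 2 * ‖l k‖) :=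
    Summable.of_nonneg_of_le hnn hle hsum2
  refine ⟨hs, ?_⟩
  unfold nrm
  calc ∑' k, (1 + ε * (wt k - 1)) ^ n * wt k ^ 2 * ‖l k‖
      ≤ ∑' k, (wt k ^ 2 * ‖l k‖ + ε * (wt k ^ (n + 2) * ‖l k‖)) :=
        Summable.tsum_le_tsum hle hs hsum2
    _ = ∑' k, wt k ^ 2 * ‖l k‖ + ε * ∑' k, wt k ^ (n + 2) * ‖l k‖ := by
      rw [h2.tsum_add (hn.mul_left ε), tsum_mul_left]

private lemma regw_core (s t c : ℝ) (hs0 : 0 ≤ s) (hsc : s ≤ c) (ht0 : 0 ≤ t)
    (htc : t ≤ c) (hc : 0 < c) (lA lB : ℤ × ℤ → ℂ) (n : ℕ) (ε : ℝ) (hε0 : 0 < ε)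
    (hε1 : ε ≤ 1) (r : ℝ) (hr0 : 0 ≤ r) (hr : r ≤ 1 / (480 * c))
    (hAω : InBall (fun k => (1 + ε * (wt k - 1)) ^ n * wt k ^ 2) (r / (2 * c)) lA)
    (hBω : InBall (fun k => (1 + ε * (wt k - 1)) ^ n * wt k ^ 2) (r / (2 * c)) lB)
    (a b : ℤ × ℤ → ℂ) (ha : InBall (fun k => wt k ^ 2) r a)
    (hb : InBall (fun k => wt k ^ 2) r b) (hfa : TAw s lA a b = a)
    (hfb : TBw t lB a b = b) :
    Summable (fun k => wt k ^ n * ‖a k‖) ∧ Summable (fun k => wt k ^ n * ‖b k‖) := by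
  obtain ⟨W, hWdef⟩ : ∃ W : ℤ × ℤ → ℝ, W = fun k => (1 + ε * (wt k - 1)) ^ n := ⟨_, rfl⟩
  have hWk : ∀ k, W k = (1 + ε * (wt k - 1)) ^ n := fun k => by rw [hWdef]
  have hx : ∀ k, 0 ≤ wt k - 1 := fun k => by linarith [regw_wt_one_le k]
  have hbase : ∀ k, 1 ≤ 1 + ε * (wt k - 1) := fun k => by
    have h := mul_nonneg hε0.le (hx k)
    linarith
  have hW1 : ∀ k, 1 ≤ W k := fun k => by
    rw [hWk]
    exact one_le_pow₀ (hbase k)
  have hWm : ∀ k l, W (k + l) ≤ W k * W l := by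
    intro k l
    rw [hWk, hWk, hWk, ← mul_pow]
    apply pow_le_pow_left₀ (by linarith [hbase (k + l)])
    have h1 := regw_wt_add k l
    have h2 : ε * (wt (k + l) - 1) ≤ ε * ((wt k - 1) + (wt l - 1)) :=
      mul_le_mul_of_nonneg_left h1 hε0.le
    have h3 : 0 ≤ ε * (wt k - 1) * (ε * (wt l - 1)) :=
      mul_nonneg (mul_nonneg hε0.le (hx k)) (mul_nonneg hε0.le (hx l))
    have h4 : (1 + ε * (wt k - 1)) * (1 + ε * (wt l - 1))
        = 1 + ε * ((wt k - 1) + (wt l - 1)) + ε * (wt k - 1) * (ε * (wt l - 1)) := by ring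
    linarith
  have hWe : ∀ k, W (-k) = W k := fun k => by rw [hWk, hWk, regw_wt_neg]
  have hAω' : InBall (fun k => W k * wt k ^ 2) (r / (2 * c)) lA := by
    rw [hWdef]
    exact hAω
  have hBω' : InBall (fun k => W k * wt k ^ 2) (r / (2 * c)) lB := by
    rw [hWdef]
    exact hBω
  obtain ⟨a', b', ha', hb', hfa', hfb'⟩ :=
    exists_fixed_w W hW1 hWm hWe s t c hs0 hsc ht0 htc hc lA lB r hr0 hr hAω' hBω'
  have hdown : ∀ d : ℤ × ℤ → ℂ, InBall (fun k => W k * wt k ^ 2) r d →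
      InBall (fun k => (fun _ : ℤ × ℤ => (1 : ℝ)) k * wt k ^ 2) r d := by
    intro d hd
    have hle : ∀ k, 1 * wt k ^ 2 * ‖d k‖ ≤ W k * wt k ^ 2 * ‖d k‖ := by
      intro k
      apply mul_le_mul_of_nonneg_right _ (norm_nonneg _)
      exact mul_le_mul_of_nonneg_right (hW1 k) (sq_nonneg _)
    have hnn : ∀ k, 0 ≤ 1 * wt k ^ 2 * ‖d k‖ := fun k =>
      mul_nonneg (mul_nonneg zero_le_one (sq_nonneg _)) (norm_nonneg _)
    have hs : Summable (fun k => 1 * wt k ^ 2 * ‖d k‖) :=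
      Summable.of_nonneg_of_le hnn hle hd.1
    exact ⟨hs, le_trans (Summable.tsum_le_tsum hle hs hd.1) hd.2⟩
  have hup : ∀ d : ℤ × ℤ → ℂ, InBall (fun k => wt k ^ 2) r d →
      InBall (fun k => (fun _ : ℤ × ℤ => (1 : ℝ)) k * wt k ^ 2) r d := by
    intro d hd
    simpa only [one_mul] using hd
  obtain ⟨haa, hbb⟩ := fixed_unique_w (fun _ => (1 : ℝ)) (fun _ => le_refl _)
    (fun _ _ => by norm_num) (fun _ => rfl) s t c hs0 hsc ht0 htc hc lA lB r hr a b a' b'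
    (hup a ha) (hup b hb) (hdown a' ha') (hdown b' hb') hfa hfb hfa' hfb'
  have hfin : ∀ d : ℤ × ℤ → ℂ, InBall (fun k => W k * wt k ^ 2) r d →
      Summable (fun k => wt k ^ n * ‖d k‖) := by
    intro d hd
    have hle : ∀ k, wt k ^ n * ‖d k‖ ≤ ε⁻¹ ^ n * (W k * wt k ^ 2 * ‖d k‖) := by
      intro k
      have h1 := regw_pow_ge ε (wt k - 1) hε0 hε1 (hx k) n
      have h3 : (1 + (wt k - 1)) = wt k := by ring
      rw [h3, ← hWk] at h1
      have h4 : (1 : ℝ) ≤ wt k ^ 2 := one_le_pow₀ (regw_wt_one_le k)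
      have h5 : 0 ≤ ε⁻¹ ^ n * W k :=
        mul_nonneg (pow_nonneg (inv_nonneg.mpr hε0.le) _) (le_trans zero_le_one (hW1 k))
      calc wt k ^ n * ‖d k‖ ≤ ε⁻¹ ^ n * W k * ‖d k‖ :=
            mul_le_mul_of_nonneg_right h1 (norm_nonneg _)
        _ = ε⁻¹ ^ n * W k * 1 * ‖d k‖ := by ring
        _ ≤ ε⁻¹ ^ n * W k * wt k ^ 2 * ‖d k‖ := by
          apply mul_le_mul_of_nonneg_right _ (norm_nonneg _)
          exact mul_le_mul_of_nonneg_left h4 h5
        _ = ε⁻¹ ^ n * (W k * wt k ^ 2 * ‖d k‖) := by ring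
    have hnn : ∀ k, 0 ≤ wt k ^ n * ‖d k‖ := fun k =>
      mul_nonneg (pow_nonneg (le_trans zero_le_one (regw_wt_one_le k)) _) (norm_nonneg _)
    exact Summable.of_nonneg_of_le hnn hle (hd.1.mul_left _)
  rw [haa, hbb]
  exact ⟨hfin a' ha', hfin b' hb'⟩

/-- A fixed point of the scaled maps in the small ball of the base space is rapidly decaying
as soon as the data are rapidly decaying and strictly inside the data ball. -/
theorem fixed_smooth_w (s t c : ℝ) (hs0 : 0 ≤ s) (hsc : s ≤ c) (ht0 : 0 ≤ t)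
    (htc : t ≤ c) (hc : 0 < c) (lA lB : ℤ × ℤ → ℂ)
    (hA : ∀ n : ℕ, Summable fun k => wt k ^ n * ‖lA k‖)
    (hB : ∀ n : ℕ, Summable fun k => wt k ^ n * ‖lB k‖)
    (r : ℝ) (hr : r ≤ 1 / (480 * c))
    (hAs : nrm (fun k => wt k ^ 2) lA < r / (2 * c))
    (hBs : nrm (fun k => wt k ^ 2) lB < r / (2 * c))
    (a b : ℤ × ℤ → ℂ) (ha : InBall (fun k => wt k ^ 2) r a)
    (hb : InBall (fun k => wt k ^ 2) r b) (hfa : TAw s lA a b = a) (hfb : TBw t lB a b = b) :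
    (∀ n : ℕ, Summable fun k => wt k ^ n * ‖a k‖) ∧
    (∀ n : ℕ, Summable fun k => wt k ^ n * ‖b k‖) := by
  have hnA : 0 ≤ nrm (fun k => wt k ^ 2) lA :=
    tsum_nonneg (fun k => mul_nonneg (sq_nonneg _) (norm_nonneg _))
  have hnB : 0 ≤ nrm (fun k => wt k ^ 2) lB :=
    tsum_nonneg (fun k => mul_nonneg (sq_nonneg _) (norm_nonneg _))
  have hr0 : 0 < r := by
    by_contra hneg
    have h1 : r ≤ 0 := not_lt.mp hneg
    have h2 : r / (2 * c) ≤ 0 := div_nonpos_of_nonpos_of_nonneg h1 (by positivity)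
    linarith
  have key : ∀ n : ℕ, Summable (fun k => wt k ^ n * ‖a k‖) ∧
      Summable (fun k => wt k ^ n * ‖b k‖) := by
    intro n
    obtain ⟨MA, hMA⟩ : ∃ MA : ℝ, MA = ∑' k, wt k ^ (n + 2) * ‖lA k‖ := ⟨_, rfl⟩
    obtain ⟨MB, hMB⟩ : ∃ MB : ℝ, MB = ∑' k, wt k ^ (n + 2) * ‖lB k‖ := ⟨_, rfl⟩
    have hMA0 : 0 ≤ MA := by
      rw [hMA]
      exact tsum_nonneg (fun k => mul_nonneg
        (pow_nonneg (le_trans zero_le_one (regw_wt_one_le k)) _) (norm_nonneg _))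
    have hMB0 : 0 ≤ MB := by
      rw [hMB]
      exact tsum_nonneg (fun k => mul_nonneg
        (pow_nonneg (le_trans zero_le_one (regw_wt_one_le k)) _) (norm_nonneg _))
    obtain ⟨gap, hgap⟩ : ∃ gap : ℝ, gap = min (r / (2 * c) - nrm (fun k => wt k ^ 2) lA)
        (r / (2 * c) - nrm (fun k => wt k ^ 2) lB) := ⟨_, rfl⟩
    have hgap0 : 0 < gap := by
      rw [hgap]
      exact lt_min (by linarith) (by linarith)
    have hgapA : gap ≤ r / (2 * c) - nrm (fun k => wt k ^ 2) lA := by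
      rw [hgap]
      exact min_le_left _ _
    have hgapB : gap ≤ r / (2 * c) - nrm (fun k => wt k ^ 2) lB := by
      rw [hgap]
      exact min_le_right _ _
    have hden : 0 < MA + MB + 1 := by linarith
    obtain ⟨ε, hε⟩ : ∃ ε : ℝ, ε = min 1 (gap / (MA + MB + 1)) := ⟨_, rfl⟩
    have hε0 : 0 < ε := by
      rw [hε]
      exact lt_min one_pos (div_pos hgap0 hden)
    have hε1 : ε ≤ 1 := by
      rw [hε]
      exact min_le_left _ _
    have hε2 : ε ≤ gap / (MA + MB + 1) := by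
      rw [hε]
      exact min_le_right _ _
    have hεA : ε * MA ≤ gap := by
      calc ε * MA ≤ gap / (MA + MB + 1) * MA := mul_le_mul_of_nonneg_right hε2 hMA0
        _ = gap * (MA / (MA + MB + 1)) := by ring
        _ ≤ gap * 1 := by
          apply mul_le_mul_of_nonneg_left _ hgap0.le
          rw [div_le_one hden]
          linarith
        _ = gap := mul_one _
    have hεB : ε * MB ≤ gap := by
      calc ε * MB ≤ gap / (MA + MB + 1) * MB := mul_le_mul_of_nonneg_right hε2 hMB0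
        _ = gap * (MB / (MA + MB + 1)) := by ring
        _ ≤ gap * 1 := by
          apply mul_le_mul_of_nonneg_left _ hgap0.le
          rw [div_le_one hden]
          linarith
        _ = gap := mul_one _
    have hdA := regw_data lA n (hA 2) (hA (n + 2)) ε hε0.le hε1
    have hdB := regw_data lB n (hB 2) (hB (n + 2)) ε hε0.le hε1
    rw [← hMA] at hdA
    rw [← hMB] at hdB
    have hAω : InBall (fun k => (1 + ε * (wt k - 1)) ^ n * wt k ^ 2) (r / (2 * c)) lA :=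
      ⟨hdA.1, by linarith [hdA.2]⟩
    have hBω : InBall (fun k => (1 + ε * (wt k - 1)) ^ n * wt k ^ 2) (r / (2 * c)) lB :=
      ⟨hdB.1, by linarith [hdB.2]⟩
    exact regw_core s t c hs0 hsc ht0 htc hc lA lB n ε hε0 hε1 r hr0.le hr hAω hBω a b ha hb
      hfa hfb
  exact ⟨fun n => (key n).1, fun n => (key n).2⟩

end Vale.Agent.Lib.P205.NF
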