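import Vale.Agent.Lib.P205.NF.Core
import Vale.Agent.Lib.P205.NF.RegularW
import Vale.Agent.Lib.P205.NF.CoefGenW
import Vale.Agent.Lib.P205.NF.MetricFunW
import Vale.Agent.Lib.P205.NF.FDerivW

/-!
# From a fixed point of the scaled maps to the immersion (rectangular flat base)
-/

namespace Vale.Agent.Lib.P205.NF

open scoped ContDiff

/-- The map attached to a fixed point of the scaled coefficient equations induces the
prescribed metric near `A^2 dx^2 + B^2 dy^2`, up to the mean value of the mixed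
coefficient. -/
theorem core_w (A B : ℝ) (hA : 0 < A) (hB : 0 < B) (c : ℝ) (hcA : 1 / A ≤ c)
    (hcB : 1 / B ≤ c) (e f g psi : ℤ × ℤ → ℂ)
    (he : ∀ k, e (-k) = (starRingEnd ℂ) (e k)) (hf : ∀ k, f (-k) = (starRingEnd ℂ) (f k))
    (hg : ∀ k, g (-k) = (starRingEnd ℂ) (g k)) (hpsi : ∀ k, psi (-k) = (starRingEnd ℂ) (psi k))
    (de : ∀ n : ℕ, Summable fun k => wt k ^ n * ‖e k‖)
    (df : ∀ n : ℕ, Summable fun k => wt k ^ n * ‖f k‖)
    (dg : ∀ n : ℕ, Summable fun k => wt k ^ n * ‖g k‖)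
    (dpsi : ∀ n : ℕ, Summable fun k => wt k ^ n * ‖psi k‖)
    (r : ℝ) (hr : r ≤ 1 / (480 * c))
    (hAs : nrm (fun k => wt k ^ 2) (linA e f psi) < r / (2 * c))
    (hBs : nrm (fun k => wt k ^ 2) (linB g f psi) < r / (2 * c))
    (a b : ℤ × ℤ → ℂ) (ha : InBall (fun k => wt k ^ 2) r a)
    (hb : InBall (fun k => wt k ^ 2) r b)
    (hfa : TAw (1 / A) (linA e f psi) a b = a) (hfb : TBw (1 / B) (linB g f psi) a b = b) :
    ∃ Ψ : ℝ × ℝ → EuclideanSpace ℝ (Fin 4), ContDiff ℝ ∞ Ψ ∧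
      (∀ p : ℝ × ℝ, Ψ (p.1 + 2 * Real.pi, p.2) = Ψ p) ∧
      (∀ p : ℝ × ℝ, Ψ (p.1, p.2 + 2 * Real.pi) = Ψ p) ∧
      ∀ p v w : ℝ × ℝ, inner ℝ (fderiv ℝ Ψ p v) (fderiv ℝ Ψ p w) =
        (A ^ 2 + (S e p).re) * v.1 * w.1 +
        ((S f p).re + ((c12w A B a b 0).re - (f 0).re)) * (v.1 * w.2 + v.2 * w.1) +
        (B ^ 2 + (S g p).re) * v.2 * w.2 := by
  have hA1 : 0 < 1 / A := one_div_pos.mpr hA
  have hB1 : 0 < 1 / B := one_div_pos.mpr hB
  have hc : 0 < c := lt_of_lt_of_le hA1 hcA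
  -- rapid decay of the linear data
  have dpsi' : ∀ n : ℕ, Summable fun k => wt k ^ n * (wt k ^ 2 * ‖psi k‖) := by
    intro n
    have := dpsi (n + 2)
    refine this.congr (fun k => ?_)
    ring
  have wn : ∀ n : ℕ, ∀ k : ℤ × ℤ, 0 ≤ wt k ^ n := fun n k => by
    have := wt_pos k
    positivity
  have dA : ∀ n : ℕ, Summable fun k => wt k ^ n * ‖linA e f psi k‖ := fun n =>
    (linA_bound (fun k => wt k ^ n) (wn n) e f psi (de n) (df n) (dpsi' n)).1
  have dB : ∀ n : ℕ, Summable fun k => wt k ^ n * ‖linB g f psi k‖ := fun n =>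
    (linB_bound (fun k => wt k ^ n) (wn n) g f psi (dg n) (df n) (dpsi' n)).1
  -- rapid decay of the fixed point
  obtain ⟨da, db⟩ := fixed_smooth_w (1 / A) (1 / B) c hA1.le hcA hB1.le hcB hc
    (linA e f psi) (linB g f psi) dA dB r hr hAs hBs a b ha hb hfa hfb
  have da1 : Summable fun k => wt k * ‖a k‖ := by simpa using da 1
  have db1 : Summable fun k => wt k * ‖b k‖ := by simpa using db 1
  -- the fixed point equations in multiplicative form
  have hfa' : ∀ m, TA (linA e f psi) a b m = (A : ℂ) * a m := by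
    intro m
    have h1 := congrFun hfa m
    simp only [TAw] at h1
    have hne : (A : ℂ) ≠ 0 := by exact_mod_cast hA.ne'
    rw [← h1]
    push_cast
    field_simp
  have hfb' : ∀ m, TB (linB g f psi) a b m = (B : ℂ) * b m := by
    intro m
    have h1 := congrFun hfb m
    simp only [TBw] at h1
    have hne : (B : ℂ) ≠ 0 := by exact_mod_cast hB.ne'
    rw [← h1]
    push_cast
    field_simp
  -- coefficient identities
  obtain ⟨g11, g22, g12⟩ := coef_gen_w A B (linA e f psi) (linB g f psi) a b ha.1 hb.1 hfa' hfb'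
  obtain ⟨l11, l22, l12⟩ := lin_id e f g psi he hf hg hpsi
  have k11 : c11w A a b = e := funext fun m => (g11 m).trans (l11 m)
  have k22 : c22w B a b = g := funext fun m => (g22 m).trans (l22 m)
  have k12 : c12w A B a b = fun k => f k + (if k = 0 then c12w A B a b 0 - f 0 else 0) := by
    funext m
    by_cases hm : m = 0
    · subst hm
      simp
    · simp only [hm, if_false, add_zero]
      exact (g12 m hm).trans (l12 m hm)
  -- the two components
  set F₁ : ℝ × ℝ → ℂ := fun q => Complex.exp (Complex.I * (q.1 : ℂ)) * ((A : ℂ) + S a q)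
    with hF₁
  set F₂ : ℝ × ℝ → ℂ := fun q => Complex.exp (Complex.I * (q.2 : ℂ)) * ((B : ℂ) + S b q)
    with hF₂
  have sa : ContDiff ℝ ∞ (S a) := S_contDiff a da
  have sb : ContDiff ℝ ∞ (S b) := S_contDiff b db
  have e1s : ContDiff ℝ ∞ fun q : ℝ × ℝ => Complex.exp (Complex.I * (q.1 : ℂ)) := by
    have h1 : ContDiff ℝ ∞ fun q : ℝ × ℝ => (q.1 : ℂ) :=
      Complex.ofRealCLM.contDiff.comp contDiff_fst
    exact Complex.contDiff_exp.comp (contDiff_const.mul h1)
  have e2s : ContDiff ℝ ∞ fun q : ℝ × ℝ => Complex.exp (Complex.I * (q.2 : ℂ)) := by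
    have h1 : ContDiff ℝ ∞ fun q : ℝ × ℝ => (q.2 : ℂ) :=
      Complex.ofRealCLM.contDiff.comp contDiff_snd
    exact Complex.contDiff_exp.comp (contDiff_const.mul h1)
  have hF₁s : ContDiff ℝ ∞ F₁ := e1s.mul (contDiff_const.add sa)
  have hF₂s : ContDiff ℝ ∞ F₂ := e2s.mul (contDiff_const.add sb)
  obtain ⟨hsm, hmet⟩ := toR4_spec F₁ F₂ _ _ _ _ hF₁s hF₂s
    (fun p => F1w_hasFDerivAt A a da1 p) (fun p => F2w_hasFDerivAt B b db1 p)
  have per : ∀ x : ℝ, Complex.exp (Complex.I * ((x + 2 * Real.pi : ℝ) : ℂ)) =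
      Complex.exp (Complex.I * (x : ℂ)) := by
    intro x
    have : Complex.I * ((x + 2 * Real.pi : ℝ) : ℂ) =
        Complex.I * (x : ℂ) + 2 * Real.pi * Complex.I := by
      push_cast
      ring
    rw [this, Complex.exp_add, Complex.exp_two_pi_mul_I, mul_one]
  refine ⟨toR4 F₁ F₂, hsm, ?_, ?_, ?_⟩
  · intro p
    have h1 : F₁ (p.1 + 2 * Real.pi, p.2) = F₁ p := by
      simp only [hF₁]
      rw [S_periodic1, per]
    have h2 : F₂ (p.1 + 2 * Real.pi, p.2) = F₂ p := by
      simp only [hF₂]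
      rw [S_periodic1]
    simp only [toR4, h1, h2]
  · intro p
    have h1 : F₁ (p.1, p.2 + 2 * Real.pi) = F₁ p := by
      simp only [hF₁]
      rw [S_periodic2]
    have h2 : F₂ (p.1, p.2 + 2 * Real.pi) = F₂ p := by
      simp only [hF₂]
      rw [S_periodic2, per]
    simp only [toR4, h1, h2]
  · intro p v w
    rw [hmet p v w]
    obtain ⟨m1, m2, m3⟩ := metric_fun_w A B a b da1 db1 p
    rw [m1, m2, m3, k11, k22]
    have hs12 : S (c12w A B a b) p = S f p + (c12w A B a b 0 - f 0) := by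
      have sf : Summable fun k => ‖f k‖ := by simpa using df 0
      have sd : Summable fun k : ℤ × ℤ =>
          ‖(if k = 0 then c12w A B a b 0 - f 0 else 0 : ℂ)‖ := by
        refine summable_of_ne_finset_zero (s := {0}) (fun k hk => ?_)
        have : k ≠ 0 := by simpa using hk
        simp [this]
      have h0 := congrArg (fun c => S c p) k12
      rw [h0, S_add f _ sf sd p, S_single]
    rw [hs12]
    simp only [Complex.add_re, Complex.sub_re]

end Vale.Agent.Lib.P205.NF
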