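import Mathlib

/-!
# Near-flat tori in four-space: definitions

Coefficient-space set-up for the perturbation argument.  A doubly periodic function is
represented by its sequence of Fourier coefficients `c : ℤ × ℤ → ℂ`; the map is
`F = (exp(ix) (1 + α), exp(iy) (1 + β))` with `α = S a`, `β = S b`.
-/

namespace Vale.Agent.Lib.P205.NF

/-- The weight `1 + |k1| + |k2|`. -/
noncomputable def wt (k : ℤ × ℤ) : ℝ := 1 + |(k.1 : ℝ)| + |(k.2 : ℝ)|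

/-- The coefficient sequence of the complex conjugate function. -/
noncomputable def cstar (c : ℤ × ℤ → ℂ) : ℤ × ℤ → ℂ := fun k => (starRingEnd ℂ) (c (-k))

/-- Bilinear convolution with a symbol. -/
noncomputable def bconv (τ : ℤ × ℤ → ℤ × ℤ → ℂ) (a b : ℤ × ℤ → ℂ) : ℤ × ℤ → ℂ :=
  fun m => ∑' k, τ m k * a k * b (m - k)

/-- Weighted `l1` norm. -/
noncomputable def nrm (ω : ℤ × ℤ → ℝ) (c : ℤ × ℤ → ℂ) : ℝ := ∑' k, ω k * ‖c k‖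

/-- Membership in the closed ball of radius `r` of the weighted `l1` space. -/
def InBall (ω : ℤ × ℤ → ℝ) (r : ℝ) (c : ℤ × ℤ → ℂ) : Prop :=
  Summable (fun k => ω k * ‖c k‖) ∧ nrm ω c ≤ r

/-- The adjoint symbol: `cstar (bconv τ a (cstar a)) = bconv (dag τ) a (cstar a)`. -/
noncomputable def dag (τ : ℤ × ℤ → ℤ × ℤ → ℂ) : ℤ × ℤ → ℤ × ℤ → ℂ :=
  fun m k => (starRingEnd ℂ) (τ (-m) (k - m))

/-- Quadratic map built from two symbols. -/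
noncomputable def quad (τ₁ τ₂ : ℤ × ℤ → ℤ × ℤ → ℂ) (a b : ℤ × ℤ → ℂ) : ℤ × ℤ → ℂ :=
  fun m => bconv τ₁ a (cstar a) m + bconv τ₂ b (cstar b) m

/-! ### Master symbols, as functions of the two (twisted) wave vectors `κ`, `l` -/

/-- Symbol of `<v_x, v_x>`. -/
noncomputable def Qs11 (κ l : ℤ × ℤ) : ℂ := -((κ.1 : ℂ) * (l.1 : ℂ))

/-- Symbol of `<v_y, v_y>`. -/
noncomputable def Qs22 (κ l : ℤ × ℤ) : ℂ := -((κ.2 : ℂ) * (l.2 : ℂ))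

/-- Symbol of `<v_x, v_y>`. -/
noncomputable def Qs12 (κ l : ℤ × ℤ) : ℂ :=
  -((κ.1 : ℂ) * (l.2 : ℂ) + (κ.2 : ℂ) * (l.1 : ℂ)) / 2

/-- Symbol of `<Δ v, v_x>`. -/
noncomputable def Rs1 (κ l : ℤ × ℤ) : ℂ :=
  -(Complex.I / 2) * (((κ.1 : ℂ) ^ 2 + (κ.2 : ℂ) ^ 2) * (l.1 : ℂ) +
    (κ.1 : ℂ) * ((l.1 : ℂ) ^ 2 + (l.2 : ℂ) ^ 2))

/-- Symbol of `<Δ v, v_y>`. -/
noncomputable def Rs2 (κ l : ℤ × ℤ) : ℂ :=
  -(Complex.I / 2) * (((κ.1 : ℂ) ^ 2 + (κ.2 : ℂ) ^ 2) * (l.2 : ℂ) +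
    (κ.2 : ℂ) * ((l.1 : ℂ) ^ 2 + (l.2 : ℂ) ^ 2))

/-- Symbol of `<∇ v_x, ∇ v_x> - <Δ v, v_xx>`. -/
noncomputable def Ss11 (κ l : ℤ × ℤ) : ℂ :=
  ((κ.1 : ℂ) * (l.1 : ℂ) + (κ.2 : ℂ) * (l.2 : ℂ)) * ((κ.1 : ℂ) * (l.1 : ℂ)) -
    (((κ.1 : ℂ) ^ 2 + (κ.2 : ℂ) ^ 2) * ((l.1 : ℂ) * (l.1 : ℂ)) +
      (κ.1 : ℂ) * (κ.1 : ℂ) * ((l.1 : ℂ) ^ 2 + (l.2 : ℂ) ^ 2)) / 2

/-- Symbol of `<∇ v_y, ∇ v_y> - <Δ v, v_yy>`. -/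
noncomputable def Ss22 (κ l : ℤ × ℤ) : ℂ :=
  ((κ.1 : ℂ) * (l.1 : ℂ) + (κ.2 : ℂ) * (l.2 : ℂ)) * ((κ.2 : ℂ) * (l.2 : ℂ)) -
    (((κ.1 : ℂ) ^ 2 + (κ.2 : ℂ) ^ 2) * ((l.2 : ℂ) * (l.2 : ℂ)) +
      (κ.2 : ℂ) * (κ.2 : ℂ) * ((l.1 : ℂ) ^ 2 + (l.2 : ℂ) ^ 2)) / 2

/-- Symbol of `<∇ v_x, ∇ v_y> - <Δ v, v_xy>`. -/
noncomputable def Ss12 (κ l : ℤ × ℤ) : ℂ :=
  ((κ.1 : ℂ) * (l.1 : ℂ) + (κ.2 : ℂ) * (l.2 : ℂ)) *
      ((κ.1 : ℂ) * (l.2 : ℂ) + (κ.2 : ℂ) * (l.1 : ℂ)) / 2 -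
    (((κ.1 : ℂ) ^ 2 + (κ.2 : ℂ) ^ 2) * ((l.1 : ℂ) * (l.2 : ℂ)) +
      (κ.1 : ℂ) * (κ.2 : ℂ) * ((l.1 : ℂ) ^ 2 + (l.2 : ℂ) ^ 2)) / 2

/-- Master symbol of the quadratic part of the equation for `α`, at output frequency `m`
(used with `κ + l = m`). -/
noncomputable def tauA (m κ l : ℤ × ℤ) : ℂ :=
  if m = 0 then -Qs11 κ l / 2 else
    -2 * (m.1 : ℂ) * (m.2 : ℂ) * Ss12 κ l / ((m.1 : ℂ) ^ 2 + (m.2 : ℂ) ^ 2) ^ 2 +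
      Ss11 κ l / ((m.1 : ℂ) ^ 2 + (m.2 : ℂ) ^ 2) +
      Complex.I * Rs1 κ l / ((m.1 : ℂ) ^ 2 + (m.2 : ℂ) ^ 2) +
      2 * (m.2 : ℂ) * Ss12 κ l / ((m.1 : ℂ) ^ 2 + (m.2 : ℂ) ^ 2) ^ 2

/-- Master symbol of the quadratic part of the equation for `β`. -/
noncomputable def tauB (m κ l : ℤ × ℤ) : ℂ :=
  if m = 0 then -Qs22 κ l / 2 else
    -2 * (m.1 : ℂ) * (m.2 : ℂ) * Ss12 κ l / ((m.1 : ℂ) ^ 2 + (m.2 : ℂ) ^ 2) ^ 2 +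
      Ss22 κ l / ((m.1 : ℂ) ^ 2 + (m.2 : ℂ) ^ 2) +
      Complex.I * Rs2 κ l / ((m.1 : ℂ) ^ 2 + (m.2 : ℂ) ^ 2) +
      2 * (m.1 : ℂ) * Ss12 κ l / ((m.1 : ℂ) ^ 2 + (m.2 : ℂ) ^ 2) ^ 2

/-- First twist vector (the frequency of `exp(ix)`). -/
def e1 : ℤ × ℤ := (1, 0)

/-- Second twist vector (the frequency of `exp(iy)`). -/
def e2 : ℤ × ℤ := (0, 1)

/-- Twist a master symbol that depends on the output frequency. -/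
noncomputable def twm (σ : ℤ × ℤ → ℤ × ℤ → ℤ × ℤ → ℂ) (e : ℤ × ℤ) : ℤ × ℤ → ℤ × ℤ → ℂ :=
  fun m k => σ m (k + e) (m - k - e)

/-- Twist a master symbol that does not depend on the output frequency. -/
noncomputable def tw (σ : ℤ × ℤ → ℤ × ℤ → ℂ) (e : ℤ × ℤ) : ℤ × ℤ → ℤ × ℤ → ℂ :=
  fun m k => σ (k + e) (m - k - e)

/-- The fixed point map, first component; `lA` is the linear (data) part. -/
noncomputable def TA (lA a b : ℤ × ℤ → ℂ) : ℤ × ℤ → ℂ :=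
  fun m => lA m + quad (twm tauA e1) (twm tauA e2) a b m

/-- The fixed point map, second component; `lB` is the linear (data) part. -/
noncomputable def TB (lB a b : ℤ × ℤ → ℂ) : ℤ × ℤ → ℂ :=
  fun m => lB m + quad (twm tauB e1) (twm tauB e2) a b m

/-- Linear part for `α` built from the metric perturbation and the gauge function. -/
noncomputable def linA (h11 h12 psi : ℤ × ℤ → ℂ) : ℤ × ℤ → ℂ := fun m =>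
  h11 m / 2 + ((m.2 : ℂ) - (m.1 : ℂ) * (m.2 : ℂ)) * h12 m / ((m.1 : ℂ) ^ 2 + (m.2 : ℂ) ^ 2) +
    ((m.1 : ℂ) ^ 2 - (m.1 : ℂ)) * psi m

/-- Linear part for `β` built from the metric perturbation and the gauge function. -/
noncomputable def linB (h22 h12 psi : ℤ × ℤ → ℂ) : ℤ × ℤ → ℂ := fun m =>
  h22 m / 2 + ((m.1 : ℂ) - (m.1 : ℂ) * (m.2 : ℂ)) * h12 m / ((m.1 : ℂ) ^ 2 + (m.2 : ℂ) ^ 2) +
    ((m.2 : ℂ) - (m.2 : ℂ) ^ 2) * psi m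

/-- Coefficients of `|F_x|^2 - 1`. -/
noncomputable def c11 (a b : ℤ × ℤ → ℂ) : ℤ × ℤ → ℂ := fun m =>
  ((m.1 : ℂ) + 1) * a m - ((m.1 : ℂ) - 1) * cstar a m + quad (tw Qs11 e1) (tw Qs11 e2) a b m

/-- Coefficients of `|F_y|^2 - 1`. -/
noncomputable def c22 (a b : ℤ × ℤ → ℂ) : ℤ × ℤ → ℂ := fun m =>
  ((m.2 : ℂ) + 1) * b m - ((m.2 : ℂ) - 1) * cstar b m + quad (tw Qs22 e1) (tw Qs22 e2) a b m

/-- Coefficients of `<F_x, F_y>`. -/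
noncomputable def c12 (a b : ℤ × ℤ → ℂ) : ℤ × ℤ → ℂ := fun m =>
  (m.2 : ℂ) / 2 * (a m - cstar a m) + (m.1 : ℂ) / 2 * (b m - cstar b m) +
    quad (tw Qs12 e1) (tw Qs12 e2) a b m

/-- Synthesis: the function with Fourier coefficients `c`. -/
noncomputable def S (c : ℤ × ℤ → ℂ) (p : ℝ × ℝ) : ℂ :=
  ∑' k : ℤ × ℤ, c k * Complex.exp (Complex.I * ((k.1 : ℂ) * (p.1 : ℂ) + (k.2 : ℂ) * (p.2 : ℂ)))

/-- The map into four-space with complex components `F₁`, `F₂`. -/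
noncomputable def toR4 (F₁ F₂ : ℝ × ℝ → ℂ) : ℝ × ℝ → EuclideanSpace ℝ (Fin 4) :=
  fun q => WithLp.toLp 2 ![(F₁ q).re, (F₁ q).im, (F₂ q).re, (F₂ q).im]

end Vale.Agent.Lib.P205.NF
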