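import Vale.Agent.Lib.P205.NF.GaugeDefs

/-!
# Properties of the gauge family
-/

namespace Vale.Agent.Lib.P205.NF

private lemma gauge_off (s t : ℝ) (k : ℤ × ℤ)
    (hk : k ∉ ({(2, 1), (-2, -1), (2, -1), (-2, 1)} : Finset (ℤ × ℤ))) : psiG s t k = 0 := by
  simp only [Finset.mem_insert, Finset.mem_singleton, not_or] at hk
  obtain ⟨h1, h2, h3, h4⟩ := hk
  unfold psiG
  rw [if_neg (by tauto), if_neg (by tauto), add_zero]

private lemma gauge_v1 (s t : ℝ) : psiG s t (2, 1) = ((s / 2 : ℝ) : ℂ) := by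
  unfold psiG
  rw [if_pos (Or.inl rfl), if_neg (by decide), add_zero]

private lemma gauge_v2 (s t : ℝ) : psiG s t (-2, -1) = ((s / 2 : ℝ) : ℂ) := by
  unfold psiG
  rw [if_pos (Or.inr rfl), if_neg (by decide), add_zero]

private lemma gauge_v3 (s t : ℝ) : psiG s t (2, -1) = ((t / 2 : ℝ) : ℂ) := by
  unfold psiG
  rw [if_neg (by decide), if_pos (Or.inl rfl), zero_add]

private lemma gauge_v4 (s t : ℝ) : psiG s t (-2, 1) = ((t / 2 : ℝ) : ℂ) := by
  unfold psiG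
  rw [if_neg (by decide), if_pos (Or.inr rfl), zero_add]

private lemma gauge_wt1 : wt (2, 1) = 4 := by
  unfold wt
  norm_num

private lemma gauge_wt2 : wt (-2, -1) = 4 := by
  unfold wt
  norm_num

private lemma gauge_wt3 : wt (2, -1) = 4 := by
  unfold wt
  norm_num

private lemma gauge_wt4 : wt (-2, 1) = 4 := by
  unfold wt
  norm_num

private lemma gauge_norm (x : ℝ) : ‖((x / 2 : ℝ) : ℂ)‖ = |x| / 2 := by
  rw [Complex.norm_real, Real.norm_eq_abs, abs_div, abs_two]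

private lemma gauge_sq (x : ℝ) : ‖((x : ℝ) : ℂ)‖ ^ 2 = x ^ 2 := by
  rw [Complex.norm_real, Real.norm_eq_abs, sq_abs]

theorem psiG_herm (s t : ℝ) (k : ℤ × ℤ) : psiG s t (-k) = (starRingEnd ℂ) (psiG s t k) := by
  have e1 : -(((2 : ℤ), (1 : ℤ))) = (-2, -1) := rfl
  have e2 : -(((-2 : ℤ), (-1 : ℤ))) = (2, 1) := rfl
  have e3 : -(((2 : ℤ), (-1 : ℤ))) = (-2, 1) := rfl
  have e4 : -(((-2 : ℤ), (1 : ℤ))) = (2, -1) := rfl
  have h1 : (-k = (2, 1) ∨ -k = (-2, -1)) ↔ (k = (2, 1) ∨ k = (-2, -1)) := by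
    rw [neg_eq_iff_eq_neg, neg_eq_iff_eq_neg, e1, e2]
    exact or_comm
  have h2 : (-k = (2, -1) ∨ -k = (-2, 1)) ↔ (k = (2, -1) ∨ k = (-2, 1)) := by
    rw [neg_eq_iff_eq_neg, neg_eq_iff_eq_neg, e3, e4]
    exact or_comm
  unfold psiG
  rw [if_congr h1 rfl rfl, if_congr h2 rfl rfl, map_add]
  congr 1
  · split_ifs
    · exact (Complex.conj_ofReal _).symm
    · exact (map_zero _).symm
  · split_ifs
    · exact (Complex.conj_ofReal _).symm
    · exact (map_zero _).symm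

theorem psiG_decay (s t : ℝ) (n : ℕ) : Summable fun k => wt k ^ n * ‖psiG s t k‖ := by
  apply summable_of_ne_finset_zero
    (s := ({(2, 1), (-2, -1), (2, -1), (-2, 1)} : Finset (ℤ × ℤ)))
  intro k hk
  rw [gauge_off s t k hk, norm_zero, mul_zero]

theorem psiG_norm (s t : ℝ) :
    (Summable fun k => wt k ^ 2 * (wt k ^ 2 * ‖psiG s t k‖)) ∧
    ∑' k, wt k ^ 2 * (wt k ^ 2 * ‖psiG s t k‖) = 256 * (|s| + |t|) := by
  have hoff : ∀ k ∉ ({(2, 1), (-2, -1), (2, -1), (-2, 1)} : Finset (ℤ × ℤ)),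
      wt k ^ 2 * (wt k ^ 2 * ‖psiG s t k‖) = 0 := by
    intro k hk
    rw [gauge_off s t k hk, norm_zero, mul_zero, mul_zero]
  refine ⟨summable_of_ne_finset_zero hoff, ?_⟩
  rw [tsum_eq_sum hoff, Finset.sum_insert (by decide), Finset.sum_insert (by decide),
    Finset.sum_insert (by decide), Finset.sum_singleton, gauge_v1, gauge_v2, gauge_v3, gauge_v4,
    gauge_wt1, gauge_wt2, gauge_wt3, gauge_wt4, gauge_norm, gauge_norm]
  ring

theorem psiG_sub (s t s' t' : ℝ) (k : ℤ × ℤ) :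
    psiG s t k - psiG s' t' k = psiG (s - s') (t - t') k := by
  unfold psiG
  split_ifs <;> push_cast <;> ring

theorem linA_gauge (e f psi : ℤ × ℤ → ℂ) (k : ℤ × ℤ) :
    linA e f psi k = linA e f 0 k + linA 0 0 psi k := by
  simp only [linA, Pi.zero_apply]
  ring

theorem linB_gauge (g f psi : ℤ × ℤ → ℂ) (k : ℤ × ℤ) :
    linB g f psi k = linB g f 0 k + linB 0 0 psi k := by
  simp only [linB, Pi.zero_apply]
  ring

private lemma gauge_A (s t : ℝ) (m : ℤ × ℤ) :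
    linA 0 0 (psiG s t) m = ((m.1 : ℂ) ^ 2 - (m.1 : ℂ)) * psiG s t m := by
  simp only [linA, Pi.zero_apply]
  ring

private lemma gauge_B (s t : ℝ) (m : ℤ × ℤ) :
    linB 0 0 (psiG s t) m = ((m.2 : ℂ) - (m.2 : ℂ) ^ 2) * psiG s t m := by
  simp only [linB, Pi.zero_apply]
  ring

private lemma gauge_A1 (s t : ℝ) : linA 0 0 (psiG s t) (2, 1) = ((s : ℝ) : ℂ) := by
  rw [gauge_A, gauge_v1]
  push_cast
  ring

private lemma gauge_A2 (s t : ℝ) : linA 0 0 (psiG s t) (-2, -1) = ((3 * s : ℝ) : ℂ) := by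
  rw [gauge_A, gauge_v2]
  push_cast
  ring

private lemma gauge_A3 (s t : ℝ) : linA 0 0 (psiG s t) (2, -1) = ((t : ℝ) : ℂ) := by
  rw [gauge_A, gauge_v3]
  push_cast
  ring

private lemma gauge_A4 (s t : ℝ) : linA 0 0 (psiG s t) (-2, 1) = ((3 * t : ℝ) : ℂ) := by
  rw [gauge_A, gauge_v4]
  push_cast
  ring

private lemma gauge_B1 (s t : ℝ) : linB 0 0 (psiG s t) (2, 1) = ((0 : ℝ) : ℂ) := by
  rw [gauge_B, gauge_v1]
  push_cast
  ring

private lemma gauge_B2 (s t : ℝ) : linB 0 0 (psiG s t) (-2, -1) = ((-s : ℝ) : ℂ) := by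
  rw [gauge_B, gauge_v2]
  push_cast
  ring

private lemma gauge_B3 (s t : ℝ) : linB 0 0 (psiG s t) (2, -1) = ((-t : ℝ) : ℂ) := by
  rw [gauge_B, gauge_v3]
  push_cast
  ring

private lemma gauge_B4 (s t : ℝ) : linB 0 0 (psiG s t) (-2, 1) = ((0 : ℝ) : ℂ) := by
  rw [gauge_B, gauge_v4]
  push_cast
  ring

/-- The mean shear produced by the pure gauge solution. -/
theorem shear_gauge (s t : ℝ) :
    shear (linA 0 0 (psiG s t)) (linB 0 0 (psiG s t)) = 12 * (s ^ 2 - t ^ 2) := by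
  have hoff : ∀ k ∉ ({(2, 1), (-2, -1), (2, -1), (-2, 1)} : Finset (ℤ × ℤ)),
      (((k.1 : ℝ) + 1) * (k.2 : ℝ) * ‖linA 0 0 (psiG s t) k‖ ^ 2 +
        (k.1 : ℝ) * ((k.2 : ℝ) + 1) * ‖linB 0 0 (psiG s t) k‖ ^ 2) = 0 := by
    intro k hk
    rw [gauge_A, gauge_B, gauge_off s t k hk, mul_zero, mul_zero, norm_zero]
    ring
  unfold shear
  rw [tsum_eq_sum hoff, Finset.sum_insert (by decide), Finset.sum_insert (by decide),
    Finset.sum_insert (by decide), Finset.sum_singleton, gauge_A1, gauge_A2, gauge_A3, gauge_A4,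
    gauge_B1, gauge_B2, gauge_B3, gauge_B4]
  simp only [gauge_sq]
  push_cast
  ring

end Vale.Agent.Lib.P205.NF
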