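import Vale.Agent.Lib.P205.NF.GaugeDefs

/-!
# The mean shear of a pair of coefficient sequences
-/

namespace Vale.Agent.Lib.P205.NF

private lemma shear_wt_one_le (k : ℤ × ℤ) : 1 ≤ wt k := by
  unfold wt
  have h1 := abs_nonneg (k.1 : ℝ)
  have h2 := abs_nonneg (k.2 : ℝ)
  linarith

private lemma shear_wt_sq_one_le (k : ℤ × ℤ) : 1 ≤ wt k ^ 2 := by
  have h := shear_wt_one_le k
  nlinarith

private lemma shear_sym1_le (k : ℤ × ℤ) : |((k.1 : ℝ) + 1) * (k.2 : ℝ)| ≤ wt k ^ 2 := by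
  unfold wt
  rw [abs_mul]
  have h1 := abs_nonneg (k.1 : ℝ)
  have h2 := abs_nonneg (k.2 : ℝ)
  have h3 : |(k.1 : ℝ) + 1| ≤ |(k.1 : ℝ)| + 1 := by
    have := abs_add_le (k.1 : ℝ) 1
    rwa [abs_one] at this
  have h4 : |(k.1 : ℝ) + 1| * |(k.2 : ℝ)| ≤ (|(k.1 : ℝ)| + 1) * |(k.2 : ℝ)| :=
    mul_le_mul_of_nonneg_right h3 h2
  nlinarith

private lemma shear_sym2_le (k : ℤ × ℤ) : |(k.1 : ℝ) * ((k.2 : ℝ) + 1)| ≤ wt k ^ 2 := by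
  unfold wt
  rw [abs_mul]
  have h1 := abs_nonneg (k.1 : ℝ)
  have h2 := abs_nonneg (k.2 : ℝ)
  have h3 : |(k.2 : ℝ) + 1| ≤ |(k.2 : ℝ)| + 1 := by
    have := abs_add_le (k.2 : ℝ) 1
    rwa [abs_one] at this
  have h4 : |(k.1 : ℝ)| * |(k.2 : ℝ) + 1| ≤ |(k.1 : ℝ)| * (|(k.2 : ℝ)| + 1) :=
    mul_le_mul_of_nonneg_left h3 h1
  nlinarith

private lemma shear_norm_le_tsum (c : ℤ × ℤ → ℂ) (hc : Summable fun k => wt k ^ 2 * ‖c k‖)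
    (k : ℤ × ℤ) : ‖c k‖ ≤ ∑' j, wt j ^ 2 * ‖c j‖ := by
  have h1 : wt k ^ 2 * ‖c k‖ ≤ ∑' j, wt j ^ 2 * ‖c j‖ :=
    hc.le_tsum k (fun j _ => mul_nonneg (by positivity) (norm_nonneg _))
  have h2 : ‖c k‖ ≤ wt k ^ 2 * ‖c k‖ := by
    have := shear_wt_sq_one_le k
    have := norm_nonneg (c k)
    nlinarith
  linarith

private lemma shear_summable (p : ℤ × ℤ → ℝ) (hp : ∀ k, |p k| ≤ wt k ^ 2) (c : ℤ × ℤ → ℂ)
    (hc : Summable fun k => wt k ^ 2 * ‖c k‖) : Summable fun k => p k * ‖c k‖ ^ 2 := by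
  have hg : Summable (fun k => (∑' j, wt j ^ 2 * ‖c j‖) * (wt k ^ 2 * ‖c k‖)) :=
    hc.mul_left (∑' j, wt j ^ 2 * ‖c j‖)
  refine Summable.of_norm_bounded hg (fun k => ?_)
  rw [Real.norm_eq_abs, abs_mul, abs_of_nonneg (by positivity : (0 : ℝ) ≤ ‖c k‖ ^ 2)]
  have h1 := shear_norm_le_tsum c hc k
  have h2 := hp k
  have h3 := norm_nonneg (c k)
  have h4 : |p k| * ‖c k‖ ^ 2 ≤ wt k ^ 2 * ‖c k‖ ^ 2 := by
    apply mul_le_mul_of_nonneg_right h2 (by positivity)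
  have h5 : wt k ^ 2 * ‖c k‖ ^ 2 = ‖c k‖ * (wt k ^ 2 * ‖c k‖) := by ring
  have h6 : ‖c k‖ * (wt k ^ 2 * ‖c k‖) ≤ (∑' j, wt j ^ 2 * ‖c j‖) * (wt k ^ 2 * ‖c k‖) :=
    mul_le_mul_of_nonneg_right h1 (by positivity)
  linarith

private lemma shear_bconv1 (a : ℤ × ℤ → ℂ) :
    bconv (tw Qs12 e1) a (cstar a) 0 =
      ((∑' k : ℤ × ℤ, ((k.1 : ℝ) + 1) * (k.2 : ℝ) * ‖a k‖ ^ 2 : ℝ) : ℂ) := by
  unfold bconv
  rw [Complex.ofReal_tsum]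
  congr 1
  funext k
  have h1 : cstar a (0 - k) = (starRingEnd ℂ) (a k) := by
    unfold cstar
    rw [zero_sub, neg_neg]
  have h2 : tw Qs12 e1 0 k = ((k.1 : ℂ) + 1) * (k.2 : ℂ) := by
    unfold tw Qs12 e1
    simp only [Prod.fst_add, Prod.snd_add, Prod.fst_sub, Prod.snd_sub, Prod.fst_zero,
      Prod.snd_zero]
    push_cast
    ring
  rw [h1, h2, mul_assoc, Complex.mul_conj, Complex.normSq_eq_norm_sq]
  push_cast
  ring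

private lemma shear_bconv2 (b : ℤ × ℤ → ℂ) :
    bconv (tw Qs12 e2) b (cstar b) 0 =
      ((∑' k : ℤ × ℤ, (k.1 : ℝ) * ((k.2 : ℝ) + 1) * ‖b k‖ ^ 2 : ℝ) : ℂ) := by
  unfold bconv
  rw [Complex.ofReal_tsum]
  congr 1
  funext k
  have h1 : cstar b (0 - k) = (starRingEnd ℂ) (b k) := by
    unfold cstar
    rw [zero_sub, neg_neg]
  have h2 : tw Qs12 e2 0 k = (k.1 : ℂ) * ((k.2 : ℂ) + 1) := by
    unfold tw Qs12 e2
    simp only [Prod.fst_add, Prod.snd_add, Prod.fst_sub, Prod.snd_sub, Prod.fst_zero,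
      Prod.snd_zero]
    push_cast
    ring
  rw [h1, h2, mul_assoc, Complex.mul_conj, Complex.normSq_eq_norm_sq]
  push_cast
  ring

theorem shear_eq (a b : ℤ × ℤ → ℂ) (ha : Summable fun k => wt k ^ 2 * ‖a k‖)
    (hb : Summable fun k => wt k ^ 2 * ‖b k‖) : (c12 a b 0).re = shear a b := by
  have hsa := shear_summable (fun k => ((k.1 : ℝ) + 1) * (k.2 : ℝ)) shear_sym1_le a ha
  have hsb := shear_summable (fun k => (k.1 : ℝ) * ((k.2 : ℝ) + 1)) shear_sym2_le b hb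
  have h0 : c12 a b 0 = bconv (tw Qs12 e1) a (cstar a) 0 + bconv (tw Qs12 e2) b (cstar b) 0 := by
    unfold c12 quad
    simp only [Prod.fst_zero, Prod.snd_zero, Int.cast_zero, zero_div, zero_mul, zero_add]
  rw [h0, shear_bconv1, shear_bconv2, Complex.add_re, Complex.ofReal_re, Complex.ofReal_re]
  unfold shear
  exact (Summable.tsum_add hsa hsb).symm

theorem shear_lip (r : ℝ) (a b a' b' : ℤ × ℤ → ℂ) (ha : InBall (fun k => wt k ^ 2) r a)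
    (hb : InBall (fun k => wt k ^ 2) r b) (ha' : InBall (fun k => wt k ^ 2) r a')
    (hb' : InBall (fun k => wt k ^ 2) r b') :
    |shear a b - shear a' b'| ≤
      2 * r * (nrm (fun k => wt k ^ 2) (fun k => a k - a' k) +
        nrm (fun k => wt k ^ 2) (fun k => b k - b' k)) := by
  have hsa : Summable (fun k => wt k ^ 2 * ‖a k‖) := ha.1
  have hsb : Summable (fun k => wt k ^ 2 * ‖b k‖) := hb.1
  have hsa' : Summable (fun k => wt k ^ 2 * ‖a' k‖) := ha'.1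
  have hsb' : Summable (fun k => wt k ^ 2 * ‖b' k‖) := hb'.1
  have hna : ∀ k, ‖a k‖ ≤ r := fun k => (shear_norm_le_tsum a hsa k).trans ha.2
  have hnb : ∀ k, ‖b k‖ ≤ r := fun k => (shear_norm_le_tsum b hsb k).trans hb.2
  have hna' : ∀ k, ‖a' k‖ ≤ r := fun k => (shear_norm_le_tsum a' hsa' k).trans ha'.2
  have hnb' : ∀ k, ‖b' k‖ ≤ r := fun k => (shear_norm_le_tsum b' hsb' k).trans hb'.2
  have hr : 0 ≤ r := (norm_nonneg (a 0)).trans (hna 0)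
  have hF : Summable (fun k : ℤ × ℤ => ((k.1 : ℝ) + 1) * (k.2 : ℝ) * ‖a k‖ ^ 2 +
      (k.1 : ℝ) * ((k.2 : ℝ) + 1) * ‖b k‖ ^ 2) :=
    (shear_summable (fun k => ((k.1 : ℝ) + 1) * (k.2 : ℝ)) shear_sym1_le a hsa).add
      (shear_summable (fun k => (k.1 : ℝ) * ((k.2 : ℝ) + 1)) shear_sym2_le b hsb)
  have hF' : Summable (fun k : ℤ × ℤ => ((k.1 : ℝ) + 1) * (k.2 : ℝ) * ‖a' k‖ ^ 2 +
      (k.1 : ℝ) * ((k.2 : ℝ) + 1) * ‖b' k‖ ^ 2) :=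
    (shear_summable (fun k => ((k.1 : ℝ) + 1) * (k.2 : ℝ)) shear_sym1_le a' hsa').add
      (shear_summable (fun k => (k.1 : ℝ) * ((k.2 : ℝ) + 1)) shear_sym2_le b' hsb')
  have hDa : Summable (fun k => wt k ^ 2 * ‖a k - a' k‖) := by
    refine Summable.of_nonneg_of_le (fun k => mul_nonneg (by positivity) (norm_nonneg _))
      (fun k => ?_) (hsa.add hsa')
    have h1 := norm_sub_le (a k) (a' k)
    have h2 : (0 : ℝ) ≤ wt k ^ 2 := by positivity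
    nlinarith
  have hDb : Summable (fun k => wt k ^ 2 * ‖b k - b' k‖) := by
    refine Summable.of_nonneg_of_le (fun k => mul_nonneg (by positivity) (norm_nonneg _))
      (fun k => ?_) (hsb.add hsb')
    have h1 := norm_sub_le (b k) (b' k)
    have h2 : (0 : ℝ) ≤ wt k ^ 2 := by positivity
    nlinarith
  have hG : Summable (fun k => 2 * r * (wt k ^ 2 * ‖a k - a' k‖ + wt k ^ 2 * ‖b k - b' k‖)) :=
    (hDa.add hDb).mul_left (2 * r)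
  have hsq : ∀ x y : ℂ, ‖x‖ ≤ r → ‖y‖ ≤ r → |‖x‖ ^ 2 - ‖y‖ ^ 2| ≤ 2 * r * ‖x - y‖ := by
    intro x y hx hy
    have h1 : ‖x‖ ^ 2 - ‖y‖ ^ 2 = (‖x‖ - ‖y‖) * (‖x‖ + ‖y‖) := by ring
    rw [h1, abs_mul, abs_of_nonneg (by positivity : (0 : ℝ) ≤ ‖x‖ + ‖y‖)]
    have h2 := abs_norm_sub_norm_le x y
    have h3 : ‖x‖ + ‖y‖ ≤ 2 * r := by linarith
    calc |‖x‖ - ‖y‖| * (‖x‖ + ‖y‖) ≤ ‖x - y‖ * (2 * r) :=
          mul_le_mul h2 h3 (by positivity) (norm_nonneg _)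
      _ = 2 * r * ‖x - y‖ := by ring
  have hdiff : shear a b - shear a' b' =
      ∑' k : ℤ × ℤ, ((((k.1 : ℝ) + 1) * (k.2 : ℝ) * ‖a k‖ ^ 2 +
        (k.1 : ℝ) * ((k.2 : ℝ) + 1) * ‖b k‖ ^ 2) -
        (((k.1 : ℝ) + 1) * (k.2 : ℝ) * ‖a' k‖ ^ 2 +
        (k.1 : ℝ) * ((k.2 : ℝ) + 1) * ‖b' k‖ ^ 2)) := by
    unfold shear
    exact (Summable.tsum_sub hF hF').symm
  have hbound := tsum_of_norm_bounded hG.hasSum
    (f := fun k : ℤ × ℤ => ((((k.1 : ℝ) + 1) * (k.2 : ℝ) * ‖a k‖ ^ 2 +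
        (k.1 : ℝ) * ((k.2 : ℝ) + 1) * ‖b k‖ ^ 2) -
        (((k.1 : ℝ) + 1) * (k.2 : ℝ) * ‖a' k‖ ^ 2 +
        (k.1 : ℝ) * ((k.2 : ℝ) + 1) * ‖b' k‖ ^ 2))) (fun k => by
      rw [Real.norm_eq_abs]
      have e1 : (((k.1 : ℝ) + 1) * (k.2 : ℝ) * ‖a k‖ ^ 2 +
          (k.1 : ℝ) * ((k.2 : ℝ) + 1) * ‖b k‖ ^ 2) -
          (((k.1 : ℝ) + 1) * (k.2 : ℝ) * ‖a' k‖ ^ 2 +
          (k.1 : ℝ) * ((k.2 : ℝ) + 1) * ‖b' k‖ ^ 2) =
          ((k.1 : ℝ) + 1) * (k.2 : ℝ) * (‖a k‖ ^ 2 - ‖a' k‖ ^ 2) +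
          (k.1 : ℝ) * ((k.2 : ℝ) + 1) * (‖b k‖ ^ 2 - ‖b' k‖ ^ 2) := by ring
      rw [e1]
      have h1 := abs_add_le (((k.1 : ℝ) + 1) * (k.2 : ℝ) * (‖a k‖ ^ 2 - ‖a' k‖ ^ 2))
        ((k.1 : ℝ) * ((k.2 : ℝ) + 1) * (‖b k‖ ^ 2 - ‖b' k‖ ^ 2))
      rw [abs_mul, abs_mul (_ * _)] at h1
      have h2 := hsq (a k) (a' k) (hna k) (hna' k)
      have h3 := hsq (b k) (b' k) (hnb k) (hnb' k)
      have h4 := shear_sym1_le k
      have h5 := shear_sym2_le k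
      have h6 : |((k.1 : ℝ) + 1) * (k.2 : ℝ)| * |‖a k‖ ^ 2 - ‖a' k‖ ^ 2| ≤
          wt k ^ 2 * (2 * r * ‖a k - a' k‖) :=
        mul_le_mul h4 h2 (abs_nonneg _) (by positivity)
      have h7 : |(k.1 : ℝ) * ((k.2 : ℝ) + 1)| * |‖b k‖ ^ 2 - ‖b' k‖ ^ 2| ≤
          wt k ^ 2 * (2 * r * ‖b k - b' k‖) :=
        mul_le_mul h5 h3 (abs_nonneg _) (by positivity)
      nlinarith)
  rw [hdiff, ← Real.norm_eq_abs]
  refine hbound.trans (le_of_eq ?_)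
  rw [tsum_mul_left, Summable.tsum_add hDa hDb]
  rfl

end Vale.Agent.Lib.P205.NF
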