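import Vale.Agent.Lib.P205.NF.Final
import Vale.Agent.Lib.P205.NF.Gauge
import Vale.Agent.Lib.P205.NF.Shear

/-!
# Near-flat tori: every metric near the flat square metric, exactly

The mean value of the mixed coefficient is adjusted by a gauge parameter and the
intermediate value theorem.
-/

namespace Vale.Agent.Lib.P205.NF

open scoped ContDiff

theorem nrm_add_le_sq (x y : ℤ × ℤ → ℂ) (hx : Summable fun k => wt k ^ 2 * ‖x k‖)
    (hy : Summable fun k => wt k ^ 2 * ‖y k‖) :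
    Summable (fun k => wt k ^ 2 * ‖x k + y k‖) ∧
    nrm (fun k => wt k ^ 2) (fun k => x k + y k) ≤
      nrm (fun k => wt k ^ 2) x + nrm (fun k => wt k ^ 2) y := by
  have hle : ∀ k, wt k ^ 2 * ‖x k + y k‖ ≤ wt k ^ 2 * ‖x k‖ + wt k ^ 2 * ‖y k‖ := fun k => by
    have h0 : 0 ≤ wt k ^ 2 := by positivity
    have := mul_le_mul_of_nonneg_left (norm_add_le (x k) (y k)) h0
    linarith
  have hs : Summable (fun k => wt k ^ 2 * ‖x k + y k‖) :=
    Summable.of_nonneg_of_le (fun k => by positivity) hle (hx.add hy)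
  refine ⟨hs, ?_⟩
  unfold nrm
  rw [← Summable.tsum_add hx hy]
  exact Summable.tsum_le_tsum hle hs (hx.add hy)

/-- Bounds for the quadratic parts at the base weight. -/
theorem quad_base (r : ℝ) (a b : ℤ × ℤ → ℂ) (ha : InBall (fun k => wt k ^ 2) r a)
    (hb : InBall (fun k => wt k ^ 2) r b) :
    (Summable (fun k => wt k ^ 2 * ‖quad (twm tauA e1) (twm tauA e2) a b k‖) ∧
      nrm (fun k => wt k ^ 2) (quad (twm tauA e1) (twm tauA e2) a b) ≤ 120 * r ^ 2) ∧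
    (Summable (fun k => wt k ^ 2 * ‖quad (twm tauB e1) (twm tauB e2) a b k‖) ∧
      nrm (fun k => wt k ^ 2) (quad (twm tauB e1) (twm tauB e2) a b) ≤ 120 * r ^ 2) := by
  obtain ⟨b1, b2, b3, b4⟩ := twm_bound (fun _ => 1) (fun _ => le_rfl) (fun _ _ => by norm_num)
  simp only [one_mul] at b1 b2 b3 b4
  have hω : ∀ k : ℤ × ℤ, 0 < wt k ^ 2 := fun k => by
    have := wt_pos k
    positivity
  have hωe : ∀ k : ℤ × ℤ, wt (-k) ^ 2 = wt k ^ 2 := fun k => by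
    simp [wt]
  obtain ⟨q1, q2, -, -⟩ := quad_est (fun k => wt k ^ 2) hω hωe (twm tauA e1) (twm tauA e2) 60
    (by norm_num) b1 b2 r a b a b ha hb ha hb
  obtain ⟨q3, q4, -, -⟩ := quad_est (fun k => wt k ^ 2) hω hωe (twm tauB e1) (twm tauB e2) 60
    (by norm_num) b3 b4 r a b a b ha hb ha hb
  refine ⟨⟨q1, ?_⟩, ⟨q3, ?_⟩⟩
  · linarith
  · linarith

/-- The linear data of a pure gauge function, in the base norm. -/
theorem gauge_lin_bound (s t : ℝ) :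
    InBall (fun k => wt k ^ 2) (256 * (|s| + |t|)) (linA 0 0 (psiG s t)) ∧
    InBall (fun k => wt k ^ 2) (256 * (|s| + |t|)) (linB 0 0 (psiG s t)) := by
  have w2 : ∀ k : ℤ × ℤ, 0 ≤ wt k ^ 2 := fun k => by positivity
  have z : Summable fun k : ℤ × ℤ => wt k ^ 2 * ‖(0 : ℤ × ℤ → ℂ) k‖ := by
    simpa using (summable_zero : Summable fun _ : ℤ × ℤ => (0 : ℝ))
  have hz : nrm (fun k => wt k ^ 2) (0 : ℤ × ℤ → ℂ) = 0 := by
    simp [nrm]
  obtain ⟨p1, p2⟩ := psiG_norm s t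
  obtain ⟨sA, bA⟩ := linA_bound (fun k => wt k ^ 2) w2 0 0 (psiG s t) z z p1
  obtain ⟨sB, bB⟩ := linB_bound (fun k => wt k ^ 2) w2 0 0 (psiG s t) z z p1
  rw [hz, p2] at bA bB
  refine ⟨⟨sA, ?_⟩, ⟨sB, ?_⟩⟩
  · linarith
  · linarith

/-- The mean shear of the fixed point is close to that of the pure gauge solution. -/
theorem shear_near (e f g : ℤ × ℤ → ℂ) (de : Summable fun k => wt k ^ 2 * ‖e k‖)
    (df : Summable fun k => wt k ^ 2 * ‖f k‖) (dg : Summable fun k => wt k ^ 2 * ‖g k‖)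
    (s t r : ℝ) (a b : ℤ × ℤ → ℂ) (ha : InBall (fun k => wt k ^ 2) r a)
    (hb : InBall (fun k => wt k ^ 2) r b)
    (hfa : TA (linA e f (psiG s t)) a b = a) (hfb : TB (linB g f (psiG s t)) a b = b)
    (hst : 256 * (|s| + |t|) ≤ r) :
    |shear a b - 12 * (s ^ 2 - t ^ 2)| ≤
      4 * r * (3 / 2 * (nrm (fun k => wt k ^ 2) e + nrm (fun k => wt k ^ 2) f +
        nrm (fun k => wt k ^ 2) g) + 120 * r ^ 2) := by
  have w2 : ∀ k : ℤ × ℤ, 0 ≤ wt k ^ 2 := fun k => by positivity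
  have n1 := nrm_nonneg_sq e
  have n2 := nrm_nonneg_sq f
  have n3 := nrm_nonneg_sq g
  have hr0 : 0 ≤ r := le_trans (nrm_nonneg_sq a) ha.2
  have dz' : Summable fun k : ℤ × ℤ => wt k ^ 2 * (wt k ^ 2 * ‖(0 : ℤ × ℤ → ℂ) k‖) := by
    simpa using (summable_zero : Summable fun _ : ℤ × ℤ => (0 : ℝ))
  have hz0 : ∑' k : ℤ × ℤ, wt k ^ 2 * (wt k ^ 2 * ‖(0 : ℤ × ℤ → ℂ) k‖) = 0 := by
    simp
  obtain ⟨sA, bA⟩ := linA_bound (fun k => wt k ^ 2) w2 e f 0 de df dz'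
  obtain ⟨sB, bB⟩ := linB_bound (fun k => wt k ^ 2) w2 g f 0 dg df dz'
  rw [hz0] at bA bB
  obtain ⟨gA, gB⟩ := gauge_lin_bound s t
  have gA' : InBall (fun k => wt k ^ 2) r (linA 0 0 (psiG s t)) := ⟨gA.1, le_trans gA.2 hst⟩
  have gB' : InBall (fun k => wt k ^ 2) r (linB 0 0 (psiG s t)) := ⟨gB.1, le_trans gB.2 hst⟩
  obtain ⟨⟨qA1, qA2⟩, ⟨qB1, qB2⟩⟩ := quad_base r a b ha hb
  have eA : (fun k => a k - linA 0 0 (psiG s t) k) =
      fun k => linA e f 0 k + quad (twm tauA e1) (twm tauA e2) a b k := by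
    funext k
    have h1 := congrFun hfa k
    simp only [TA] at h1
    rw [linA_gauge e f (psiG s t) k] at h1
    rw [← h1]
    ring
  have eB : (fun k => b k - linB 0 0 (psiG s t) k) =
      fun k => linB g f 0 k + quad (twm tauB e1) (twm tauB e2) a b k := by
    funext k
    have h1 := congrFun hfb k
    simp only [TB] at h1
    rw [linB_gauge g f (psiG s t) k] at h1
    rw [← h1]
    ring
  have dA := (nrm_add_le_sq _ _ sA qA1).2
  have dB := (nrm_add_le_sq _ _ sB qB1).2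
  have hl := shear_lip r a b _ _ ha hb gA' gB'
  rw [shear_gauge s t, eA, eB] at hl
  refine le_trans hl ?_
  have h5 : nrm (fun k => wt k ^ 2)
      (fun k => linA e f 0 k + quad (twm tauA e1) (twm tauA e2) a b k) +
      nrm (fun k => wt k ^ 2)
      (fun k => linB g f 0 k + quad (twm tauB e1) (twm tauB e2) a b k) ≤
      2 * (3 / 2 * (nrm (fun k => wt k ^ 2) e + nrm (fun k => wt k ^ 2) f +
        nrm (fun k => wt k ^ 2) g) + 120 * r ^ 2) := by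
    linarith
  calc 2 * r * (nrm (fun k => wt k ^ 2)
        (fun k => linA e f 0 k + quad (twm tauA e1) (twm tauA e2) a b k) +
        nrm (fun k => wt k ^ 2)
        (fun k => linB g f 0 k + quad (twm tauB e1) (twm tauB e2) a b k))
      ≤ 2 * r * (2 * (3 / 2 * (nrm (fun k => wt k ^ 2) e + nrm (fun k => wt k ^ 2) f +
        nrm (fun k => wt k ^ 2) g) + 120 * r ^ 2)) :=
        mul_le_mul_of_nonneg_left h5 (by positivity)
    _ = _ := by ring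

/-- Difference of the linear data along the gauge family. -/
theorem gauge_diff (e f g : ℤ × ℤ → ℂ) (s t s' t' : ℝ) :
    ((fun k => linA e f (psiG s t) k - linA e f (psiG s' t') k) =
      linA 0 0 (psiG (s - s') (t - t'))) ∧
    ((fun k => linB g f (psiG s t) k - linB g f (psiG s' t') k) =
      linB 0 0 (psiG (s - s') (t - t'))) := by
  constructor
  · funext k
    rw [linA_gauge e f (psiG s t) k, linA_gauge e f (psiG s' t') k]
    simp only [linA, ← psiG_sub s t s' t' k, Pi.zero_apply]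
    ring
  · funext k
    rw [linB_gauge g f (psiG s t) k, linB_gauge g f (psiG s' t') k]
    simp only [linB, ← psiG_sub s t s' t' k, Pi.zero_apply]
    ring

/-- Every smooth metric on the torus close to the flat square metric is induced by a smooth
doubly periodic map into four-space (internal form). -/
theorem near_flat_aux (e f g : ℤ × ℤ → ℂ)
    (he : ∀ k, e (-k) = (starRingEnd ℂ) (e k)) (hf : ∀ k, f (-k) = (starRingEnd ℂ) (f k))
    (hg : ∀ k, g (-k) = (starRingEnd ℂ) (g k))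
    (de : ∀ n : ℕ, Summable fun k => wt k ^ n * ‖e k‖)
    (df : ∀ n : ℕ, Summable fun k => wt k ^ n * ‖f k‖)
    (dg : ∀ n : ℕ, Summable fun k => wt k ^ n * ‖g k‖)
    (hH : nrm (fun k => wt k ^ 2) e + nrm (fun k => wt k ^ 2) f + nrm (fun k => wt k ^ 2) g <
      1 / 10 ^ 22) :
    ∃ Ψ : ℝ × ℝ → EuclideanSpace ℝ (Fin 4), ContDiff ℝ ∞ Ψ ∧
      (∀ p : ℝ × ℝ, Ψ (p.1 + 2 * Real.pi, p.2) = Ψ p) ∧
      (∀ p : ℝ × ℝ, Ψ (p.1, p.2 + 2 * Real.pi) = Ψ p) ∧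
      ∀ p v w : ℝ × ℝ, inner ℝ (fderiv ℝ Ψ p v) (fderiv ℝ Ψ p w) =
        (1 + (S e p).re) * v.1 * w.1 + (S f p).re * (v.1 * w.2 + v.2 * w.1) +
        (1 + (S g p).re) * v.2 * w.2 := by
  obtain ⟨t₀, ht₀⟩ : ∃ t₀ : ℝ, t₀ = 1 / 10 ^ 11 := ⟨_, rfl⟩
  obtain ⟨r₁, hr₁⟩ : ∃ r₁ : ℝ, r₁ = 6 / 10 ^ 9 := ⟨_, rfl⟩
  have ht₀pos : 0 < t₀ := by rw [ht₀]; norm_num
  have hr₁le : r₁ ≤ 1 / 480 := by rw [hr₁]; norm_num
  have hr₁pos : 0 ≤ r₁ := by rw [hr₁]; norm_num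
  have n1 := nrm_nonneg_sq e
  have n2 := nrm_nonneg_sq f
  have n3 := nrm_nonneg_sq g
  have w2 : ∀ k : ℤ × ℤ, 0 ≤ wt k ^ 2 := fun k => by positivity
  -- smallness of the data along the gauge family
  have data : ∀ s t : ℝ, |s| + |t| ≤ t₀ →
      (Summable fun k => wt k ^ 2 * ‖linA e f (psiG s t) k‖) ∧
      nrm (fun k => wt k ^ 2) (linA e f (psiG s t)) < r₁ / 2 ∧
      (Summable fun k => wt k ^ 2 * ‖linB g f (psiG s t) k‖) ∧
      nrm (fun k => wt k ^ 2) (linB g f (psiG s t)) < r₁ / 2 := by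
    intro s t hst
    obtain ⟨p1, p2⟩ := psiG_norm s t
    obtain ⟨sA, bA⟩ := linA_bound (fun k => wt k ^ 2) w2 e f (psiG s t) (de 2) (df 2) p1
    obtain ⟨sB, bB⟩ := linB_bound (fun k => wt k ^ 2) w2 g f (psiG s t) (dg 2) (df 2) p1
    rw [p2] at bA bB
    rw [ht₀] at hst
    rw [hr₁]
    refine ⟨sA, ?_, sB, ?_⟩
    · linarith
    · linarith
  have hpath : ∀ τ ∈ Set.Icc (0 : ℝ) 1, |t₀ * τ| + |t₀ * (1 - τ)| ≤ t₀ := by
    intro τ hτ
    rw [abs_of_nonneg (mul_nonneg ht₀pos.le hτ.1),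
      abs_of_nonneg (mul_nonneg ht₀pos.le (by linarith [hτ.2]))]
    linarith
  -- the family of fixed points
  have ex : ∀ τ : ℝ, ∃ a b : ℤ × ℤ → ℂ, τ ∈ Set.Icc (0 : ℝ) 1 →
      InBall (fun k => wt k ^ 2) r₁ a ∧ InBall (fun k => wt k ^ 2) r₁ b ∧
      TA (linA e f (psiG (t₀ * τ) (t₀ * (1 - τ)))) a b = a ∧
      TB (linB g f (psiG (t₀ * τ) (t₀ * (1 - τ)))) a b = b := by
    intro τ
    by_cases hτ : τ ∈ Set.Icc (0 : ℝ) 1
    · obtain ⟨sA, bA, sB, bB⟩ := data _ _ (hpath τ hτ)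
      obtain ⟨a, b, h1, h2, h3, h4⟩ := exists_fixed_base _ _ r₁ hr₁pos hr₁le ⟨sA, bA.le⟩
        ⟨sB, bB.le⟩
      exact ⟨a, b, fun _ => ⟨h1, h2, h3, h4⟩⟩
    · exact ⟨0, 0, fun h => absurd h hτ⟩
  choose a b hab using ex
  -- the mean shear along the family is Lipschitz
  have lip : ∀ τ ∈ Set.Icc (0 : ℝ) 1, ∀ τ' ∈ Set.Icc (0 : ℝ) 1,
      |shear (a τ) (b τ) - shear (a τ') (b τ')| ≤ 1 * |τ - τ'| := by
    intro τ hτ τ' hτ'
    obtain ⟨ha, hb, hfa, hfb⟩ := hab τ hτ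
    obtain ⟨ha', hb', hfa', hfb'⟩ := hab τ' hτ'
    obtain ⟨-, -, hmax⟩ := fixed_lipschitz_base _ _ _ _ r₁ hr₁le (a τ) (b τ) (a τ') (b τ')
      ha hb ha' hb' hfa hfb hfa' hfb'
    obtain ⟨dA, dB⟩ := gauge_diff e f g (t₀ * τ) (t₀ * (1 - τ)) (t₀ * τ') (t₀ * (1 - τ'))
    rw [dA, dB] at hmax
    obtain ⟨gA, gB⟩ := gauge_lin_bound (t₀ * τ - t₀ * τ') (t₀ * (1 - τ) - t₀ * (1 - τ'))
    have e1 : |t₀ * τ - t₀ * τ'| = t₀ * |τ - τ'| := by
      rw [← mul_sub, abs_mul, abs_of_pos ht₀pos]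
    have e2 : |t₀ * (1 - τ) - t₀ * (1 - τ')| = t₀ * |τ - τ'| := by
      have : t₀ * (1 - τ) - t₀ * (1 - τ') = -(t₀ * (τ - τ')) := by ring
      rw [this, abs_neg, abs_mul, abs_of_pos ht₀pos]
    have g1 := gA.2
    have g2 := gB.2
    rw [e1, e2] at g1 g2
    have hl := shear_lip r₁ (a τ) (b τ) (a τ') (b τ') ha hb ha' hb'
    have m1 := le_max_left (nrm (fun k => wt k ^ 2) (fun k => a τ k - a τ' k))
      (nrm (fun k => wt k ^ 2) (fun k => b τ k - b τ' k))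
    have m2 := le_max_right (nrm (fun k => wt k ^ 2) (fun k => a τ k - a τ' k))
      (nrm (fun k => wt k ^ 2) (fun k => b τ k - b τ' k))
    have m3 : max (nrm (fun k => wt k ^ 2) (linA 0 0 (psiG (t₀ * τ - t₀ * τ')
        (t₀ * (1 - τ) - t₀ * (1 - τ')))))
        (nrm (fun k => wt k ^ 2) (linB 0 0 (psiG (t₀ * τ - t₀ * τ')
        (t₀ * (1 - τ) - t₀ * (1 - τ'))))) ≤ 256 * (t₀ * |τ - τ'| + t₀ * |τ - τ'|) :=
      max_le g1 g2
    have habs := abs_nonneg (τ - τ')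
    have hsum : nrm (fun k => wt k ^ 2) (fun k => a τ k - a τ' k) +
        nrm (fun k => wt k ^ 2) (fun k => b τ k - b τ' k) ≤
        4 * (256 * (t₀ * |τ - τ'| + t₀ * |τ - τ'|)) := by linarith
    have h3 : 2 * r₁ * (nrm (fun k => wt k ^ 2) (fun k => a τ k - a τ' k) +
        nrm (fun k => wt k ^ 2) (fun k => b τ k - b τ' k)) ≤
        2 * r₁ * (4 * (256 * (t₀ * |τ - τ'| + t₀ * |τ - τ'|))) :=
      mul_le_mul_of_nonneg_left hsum (by positivity)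
    refine le_trans hl (le_trans h3 ?_)
    rw [hr₁, ht₀]
    have : 2 * (6 / 10 ^ 9 : ℝ) * (4 * (256 * (1 / 10 ^ 11 * |τ - τ'| + 1 / 10 ^ 11 * |τ - τ'|)))
        = (2 * (6 / 10 ^ 9) * (4 * (256 * (2 / 10 ^ 11)))) * |τ - τ'| := by ring
    rw [this]
    exact mul_le_mul_of_nonneg_right (by norm_num) habs
  have hcont : ContinuousOn (fun τ => shear (a τ) (b τ)) (Set.Icc (0 : ℝ) 1) := by
    have hL : LipschitzOnWith 1 (fun τ => shear (a τ) (b τ)) (Set.Icc (0 : ℝ) 1) := by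
      refine LipschitzOnWith.of_dist_le_mul (fun x hx y hy => ?_)
      rw [Real.dist_eq, Real.dist_eq]
      simpa using lip x hx y hy
    exact hL.continuousOn
  -- the two ends of the family
  have hend : ∀ s t : ℝ, |s| + |t| = t₀ → ∀ a' b' : ℤ × ℤ → ℂ,
      InBall (fun k => wt k ^ 2) r₁ a' → InBall (fun k => wt k ^ 2) r₁ b' →
      TA (linA e f (psiG s t)) a' b' = a' → TB (linB g f (psiG s t)) a' b' = b' →
      |shear a' b' - 12 * (s ^ 2 - t ^ 2)| ≤ 2 / 10 ^ 22 := by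
    intro s t hst a' b' ha' hb' hfa' hfb'
    have hb := shear_near e f g (de 2) (df 2) (dg 2) s t r₁ a' b' ha' hb' hfa' hfb'
      (by rw [hst, ht₀, hr₁]; norm_num)
    refine le_trans hb ?_
    rw [hr₁]
    nlinarith
  have h1 : 1 / 10 ^ 22 < shear (a 1) (b 1) := by
    obtain ⟨ha1, hb1, hfa1, hfb1⟩ := hab 1 ⟨by norm_num, le_rfl⟩
    have e1 : t₀ * (1 - 1) = 0 := by ring
    rw [mul_one, e1] at hfa1 hfb1
    have := hend t₀ 0 (by simp [abs_of_pos ht₀pos]) (a 1) (b 1) ha1 hb1 hfa1 hfb1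
    have h' := (abs_le.mp this).1
    rw [ht₀] at h'
    norm_num at h'
    linarith
  have h0 : shear (a 0) (b 0) < -(1 / 10 ^ 22) := by
    obtain ⟨ha0, hb0, hfa0, hfb0⟩ := hab 0 ⟨le_rfl, by norm_num⟩
    have e1 : t₀ * (1 - 0) = t₀ := by ring
    rw [mul_zero, e1] at hfa0 hfb0
    have := hend 0 t₀ (by simp [abs_of_pos ht₀pos]) (a 0) (b 0) ha0 hb0 hfa0 hfb0
    have h' := (abs_le.mp this).2
    rw [ht₀] at h'
    norm_num at h'
    linarith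
  -- the target mean value
  have hμ : |(f 0).re| < 1 / 10 ^ 22 := by
    have h2 : ‖f 0‖ ≤ nrm (fun k => wt k ^ 2) f := by
      have h3 := Summable.le_tsum (df 2) 0 (fun j _ => by positivity)
      have h4 : wt 0 ^ 2 * ‖f 0‖ = ‖f 0‖ := by simp [wt]
      rw [h4] at h3
      exact h3
    have h5 := Complex.abs_re_le_norm (f 0)
    linarith
  have hmem : (f 0).re ∈ Set.Icc (shear (a 0) (b 0)) (shear (a 1) (b 1)) :=
    ⟨by linarith [(abs_lt.mp hμ).1], by linarith [(abs_lt.mp hμ).2]⟩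
  obtain ⟨τ, hτ, hστ⟩ := intermediate_value_Icc (by norm_num : (0 : ℝ) ≤ 1) hcont hmem
  obtain ⟨ha, hb, hfa, hfb⟩ := hab τ hτ
  obtain ⟨sA, bA, sB, bB⟩ := data _ _ (hpath τ hτ)
  obtain ⟨Ψ, c1, c2, c3, c4⟩ := core e f g (psiG (t₀ * τ) (t₀ * (1 - τ))) he hf hg
    (psiG_herm _ _) de df dg (psiG_decay _ _) r₁ hr₁le bA bB (a τ) (b τ) ha hb hfa hfb
  refine ⟨Ψ, c1, c2, c3, ?_⟩
  intro p v w
  have hs : shear (a τ) (b τ) = (f 0).re := hστ
  rw [c4 p v w, shear_eq (a τ) (b τ) ha.1 hb.1, hs]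
  ring

/-- Every smooth metric on the torus close to the flat square metric is induced by a smooth
doubly periodic map into four-space. -/
theorem near_flat : ∃ δ : ℝ, 0 < δ ∧ ∀ e f g : ℤ × ℤ → ℂ,
    (∀ k, e (-k) = (starRingEnd ℂ) (e k)) → (∀ k, f (-k) = (starRingEnd ℂ) (f k)) →
    (∀ k, g (-k) = (starRingEnd ℂ) (g k)) →
    (∀ n : ℕ, Summable fun k : ℤ × ℤ =>
      (1 + |(k.1 : ℝ)| + |(k.2 : ℝ)|) ^ n * (‖e k‖ + ‖f k‖ + ‖g k‖)) →
    (∑' k : ℤ × ℤ, (1 + |(k.1 : ℝ)| + |(k.2 : ℝ)|) ^ 2 * (‖e k‖ + ‖f k‖ + ‖g k‖)) < δ →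
    ∃ Ψ : ℝ × ℝ → EuclideanSpace ℝ (Fin 4), ContDiff ℝ ∞ Ψ ∧
      (∀ p : ℝ × ℝ, Ψ (p.1 + 2 * Real.pi, p.2) = Ψ p) ∧
      (∀ p : ℝ × ℝ, Ψ (p.1, p.2 + 2 * Real.pi) = Ψ p) ∧
      ∀ p v w : ℝ × ℝ, inner ℝ (fderiv ℝ Ψ p v) (fderiv ℝ Ψ p w) =
        (1 + (∑' k : ℤ × ℤ, e k * Complex.exp (Complex.I *
          ((k.1 : ℂ) * (p.1 : ℂ) + (k.2 : ℂ) * (p.2 : ℂ)))).re) * v.1 * w.1 +
        (∑' k : ℤ × ℤ, f k * Complex.exp (Complex.I *
          ((k.1 : ℂ) * (p.1 : ℂ) + (k.2 : ℂ) * (p.2 : ℂ)))).re * (v.1 * w.2 + v.2 * w.1) +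
        (1 + (∑' k : ℤ × ℤ, g k * Complex.exp (Complex.I *
          ((k.1 : ℂ) * (p.1 : ℂ) + (k.2 : ℂ) * (p.2 : ℂ)))).re) * v.2 * w.2 := by
  refine ⟨1 / 10 ^ 22, by norm_num, ?_⟩
  intro e f g he hf hg hdec hsmall
  have de : ∀ n : ℕ, Summable fun k => wt k ^ n * ‖e k‖ := fun n =>
    (split_decay e f g n (hdec n)).1
  have df : ∀ n : ℕ, Summable fun k => wt k ^ n * ‖f k‖ := fun n =>
    (split_decay e f g n (hdec n)).2.1
  have dg : ∀ n : ℕ, Summable fun k => wt k ^ n * ‖g k‖ := fun n =>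
    (split_decay e f g n (hdec n)).2.2
  rw [split_norm e f g (hdec 2)] at hsmall
  exact near_flat_aux e f g he hf hg de df dg hsmall

end Vale.Agent.Lib.P205.NF
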