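import Vale.Agent.Lib.P205.NF.Gauge

/-!
# Scaling of the pure gauge solution and its mean shear
-/

namespace Vale.Agent.Lib.P205.NF

private lemma gaugew_off (s t : ℝ) (k : ℤ × ℤ)
    (hk : k ∉ ({(2, 1), (-2, -1), (2, -1), (-2, 1)} : Finset (ℤ × ℤ))) : psiG s t k = 0 := by
  simp only [Finset.mem_insert, Finset.mem_singleton, not_or] at hk
  obtain ⟨h1, h2, h3, h4⟩ := hk
  unfold psiG
  rw [if_neg (by tauto), if_neg (by tauto), add_zero]

private lemma gaugew_v1 (s t : ℝ) : psiG s t (2, 1) = ((s / 2 : ℝ) : ℂ) := by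
  unfold psiG
  rw [if_pos (Or.inl rfl), if_neg (by decide), add_zero]

private lemma gaugew_v2 (s t : ℝ) : psiG s t (-2, -1) = ((s / 2 : ℝ) : ℂ) := by
  unfold psiG
  rw [if_pos (Or.inr rfl), if_neg (by decide), add_zero]

private lemma gaugew_v3 (s t : ℝ) : psiG s t (2, -1) = ((t / 2 : ℝ) : ℂ) := by
  unfold psiG
  rw [if_neg (by decide), if_pos (Or.inl rfl), zero_add]

private lemma gaugew_v4 (s t : ℝ) : psiG s t (-2, 1) = ((t / 2 : ℝ) : ℂ) := by
  unfold psiG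
  rw [if_neg (by decide), if_pos (Or.inr rfl), zero_add]

private lemma gaugew_sq (x : ℝ) : ‖((x : ℝ) : ℂ)‖ ^ 2 = x ^ 2 := by
  rw [Complex.norm_real, Real.norm_eq_abs, sq_abs]

private lemma gaugew_psi (c s t : ℝ) (k : ℤ × ℤ) :
    psiG (c * s) (c * t) k = (c : ℂ) * psiG s t k := by
  unfold psiG
  split_ifs <;> push_cast <;> ring

private lemma gaugew_A (s t : ℝ) (m : ℤ × ℤ) :
    linA 0 0 (psiG s t) m = ((m.1 : ℂ) ^ 2 - (m.1 : ℂ)) * psiG s t m := by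
  simp only [linA, Pi.zero_apply]
  ring

private lemma gaugew_B (s t : ℝ) (m : ℤ × ℤ) :
    linB 0 0 (psiG s t) m = ((m.2 : ℂ) - (m.2 : ℂ) ^ 2) * psiG s t m := by
  simp only [linB, Pi.zero_apply]
  ring

theorem gaugeA_scale (c s t : ℝ) (k : ℤ × ℤ) :
    (c : ℂ) * linA 0 0 (psiG s t) k = linA 0 0 (psiG (c * s) (c * t)) k := by
  rw [gaugew_A, gaugew_A, gaugew_psi]
  ring

theorem gaugeB_scale (c s t : ℝ) (k : ℤ × ℤ) :
    (c : ℂ) * linB 0 0 (psiG s t) k = linB 0 0 (psiG (c * s) (c * t)) k := by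
  rw [gaugew_B, gaugew_B, gaugew_psi]
  ring

private lemma gaugew_A1 (s t : ℝ) : linA 0 0 (psiG s t) (2, 1) = ((s : ℝ) : ℂ) := by
  rw [gaugew_A, gaugew_v1]
  push_cast
  ring

private lemma gaugew_A2 (s t : ℝ) : linA 0 0 (psiG s t) (-2, -1) = ((3 * s : ℝ) : ℂ) := by
  rw [gaugew_A, gaugew_v2]
  push_cast
  ring

private lemma gaugew_A3 (s t : ℝ) : linA 0 0 (psiG s t) (2, -1) = ((t : ℝ) : ℂ) := by
  rw [gaugew_A, gaugew_v3]
  push_cast
  ring

private lemma gaugew_A4 (s t : ℝ) : linA 0 0 (psiG s t) (-2, 1) = ((3 * t : ℝ) : ℂ) := by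
  rw [gaugew_A, gaugew_v4]
  push_cast
  ring

private lemma gaugew_B1 (s t : ℝ) : linB 0 0 (psiG s t) (2, 1) = ((0 : ℝ) : ℂ) := by
  rw [gaugew_B, gaugew_v1]
  push_cast
  ring

private lemma gaugew_B2 (s t : ℝ) : linB 0 0 (psiG s t) (-2, -1) = ((-s : ℝ) : ℂ) := by
  rw [gaugew_B, gaugew_v2]
  push_cast
  ring

private lemma gaugew_B3 (s t : ℝ) : linB 0 0 (psiG s t) (2, -1) = ((-t : ℝ) : ℂ) := by
  rw [gaugew_B, gaugew_v3]
  push_cast
  ring

private lemma gaugew_B4 (s t : ℝ) : linB 0 0 (psiG s t) (-2, 1) = ((0 : ℝ) : ℂ) := by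
  rw [gaugew_B, gaugew_v4]
  push_cast
  ring

/-- The mean shear of a pure gauge pair with independent amplitudes in the two components:
only the first component contributes. -/
theorem shear_gauge2 (s t s' t' : ℝ) :
    shear (linA 0 0 (psiG s t)) (linB 0 0 (psiG s' t')) = 12 * (s ^ 2 - t ^ 2) := by
  have hoff : ∀ k ∉ ({(2, 1), (-2, -1), (2, -1), (-2, 1)} : Finset (ℤ × ℤ)),
      (((k.1 : ℝ) + 1) * (k.2 : ℝ) * ‖linA 0 0 (psiG s t) k‖ ^ 2 +
        (k.1 : ℝ) * ((k.2 : ℝ) + 1) * ‖linB 0 0 (psiG s' t') k‖ ^ 2) = 0 := by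
    intro k hk
    rw [gaugew_A, gaugew_B, gaugew_off s t k hk, gaugew_off s' t' k hk, mul_zero, mul_zero,
      norm_zero]
    ring
  unfold shear
  rw [tsum_eq_sum hoff, Finset.sum_insert (by decide), Finset.sum_insert (by decide),
    Finset.sum_insert (by decide), Finset.sum_singleton, gaugew_A1, gaugew_A2, gaugew_A3,
    gaugew_A4, gaugew_B1, gaugew_B2, gaugew_B3, gaugew_B4]
  simp only [gaugew_sq]
  push_cast
  ring

end Vale.Agent.Lib.P205.NF
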