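import Vale.Agent.Lib.P205.NF.Exact
import Vale.Agent.Lib.P205.NF.CoreW
import Vale.Agent.Lib.P205.NF.ConstsW
import Vale.Agent.Lib.P205.NF.GaugeW

/-!
# Near-flat tori over a rectangular flat base: every nearby metric, exactly
-/

namespace Vale.Agent.Lib.P205.NF

open scoped ContDiff

theorem nrm_smul_sq (c : ℝ) (hc : 0 ≤ c) (x : ℤ × ℤ → ℂ)
    (hx : Summable fun k => wt k ^ 2 * ‖x k‖) :
    Summable (fun k => wt k ^ 2 * ‖(c : ℂ) * x k‖) ∧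
    nrm (fun k => wt k ^ 2) (fun k => (c : ℂ) * x k) = c * nrm (fun k => wt k ^ 2) x := by
  have h : ∀ k, wt k ^ 2 * ‖(c : ℂ) * x k‖ = c * (wt k ^ 2 * ‖x k‖) := fun k => by
    rw [norm_mul, Complex.norm_real, Real.norm_of_nonneg hc]
    ring
  constructor
  · simp only [h]
    exact hx.mul_left c
  · unfold nrm
    simp only [h]
    exact tsum_mul_left

/-- The mean shear of the fixed point of the scaled maps is close to that of the pure gauge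
solution. -/
theorem shear_near_w (A B c : ℝ) (hA : 0 < A) (hB : 0 < B) (hcA : 1 / A ≤ c) (hcB : 1 / B ≤ c)
    (e f g : ℤ × ℤ → ℂ) (de : Summable fun k => wt k ^ 2 * ‖e k‖)
    (df : Summable fun k => wt k ^ 2 * ‖f k‖) (dg : Summable fun k => wt k ^ 2 * ‖g k‖)
    (s t r : ℝ) (a b : ℤ × ℤ → ℂ) (ha : InBall (fun k => wt k ^ 2) r a)
    (hb : InBall (fun k => wt k ^ 2) r b)
    (hfa : TAw (1 / A) (linA e f (psiG s t)) a b = a)
    (hfb : TBw (1 / B) (linB g f (psiG s t)) a b = b)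
    (hst : 256 * c * (|s| + |t|) ≤ r) :
    |shear a b - 12 * (1 / A) ^ 2 * (s ^ 2 - t ^ 2)| ≤
      4 * r * c * (3 / 2 * (nrm (fun k => wt k ^ 2) e + nrm (fun k => wt k ^ 2) f +
        nrm (fun k => wt k ^ 2) g) + 120 * r ^ 2) := by
  have hA1 : 0 < 1 / A := one_div_pos.mpr hA
  have hB1 : 0 < 1 / B := one_div_pos.mpr hB
  have hc : 0 < c := lt_of_lt_of_le hA1 hcA
  have w2 : ∀ k : ℤ × ℤ, 0 ≤ wt k ^ 2 := fun k => by positivity
  have n1 := nrm_nonneg_sq e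
  have n2 := nrm_nonneg_sq f
  have n3 := nrm_nonneg_sq g
  have hr0 : 0 ≤ r := le_trans (nrm_nonneg_sq a) ha.2
  have dz' : Summable fun k : ℤ × ℤ => wt k ^ 2 * (wt k ^ 2 * ‖(0 : ℤ × ℤ → ℂ) k‖) := by
    simp
  have hz0 : ∑' k : ℤ × ℤ, wt k ^ 2 * (wt k ^ 2 * ‖(0 : ℤ × ℤ → ℂ) k‖) = 0 := by
    simp
  obtain ⟨sA, bA⟩ := linA_bound (fun k => wt k ^ 2) w2 e f 0 de df dz'
  obtain ⟨sB, bB⟩ := linB_bound (fun k => wt k ^ 2) w2 g f 0 dg df dz'
  rw [hz0] at bA bB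
  have hsum : 0 ≤ |s| + |t| := by positivity
  obtain ⟨gA, -⟩ := gauge_lin_bound (1 / A * s) (1 / A * t)
  obtain ⟨-, gB⟩ := gauge_lin_bound (1 / B * s) (1 / B * t)
  have eabsA : |1 / A * s| + |1 / A * t| = 1 / A * (|s| + |t|) := by
    rw [abs_mul, abs_mul, abs_of_pos hA1]
    ring
  have eabsB : |1 / B * s| + |1 / B * t| = 1 / B * (|s| + |t|) := by
    rw [abs_mul, abs_mul, abs_of_pos hB1]
    ring
  have gA' : InBall (fun k => wt k ^ 2) r (linA 0 0 (psiG (1 / A * s) (1 / A * t))) := by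
    refine ⟨gA.1, le_trans gA.2 (le_trans ?_ hst)⟩
    rw [eabsA]
    have := mul_le_mul_of_nonneg_right hcA hsum
    linarith
  have gB' : InBall (fun k => wt k ^ 2) r (linB 0 0 (psiG (1 / B * s) (1 / B * t))) := by
    refine ⟨gB.1, le_trans gB.2 (le_trans ?_ hst)⟩
    rw [eabsB]
    have := mul_le_mul_of_nonneg_right hcB hsum
    linarith
  obtain ⟨⟨qA1, qA2⟩, ⟨qB1, qB2⟩⟩ := quad_base r a b ha hb
  have eA : (fun k => a k - linA 0 0 (psiG (1 / A * s) (1 / A * t)) k) =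
      fun k => ((1 / A : ℝ) : ℂ) *
        (linA e f 0 k + quad (twm tauA e1) (twm tauA e2) a b k) := by
    funext k
    have h1 := congrFun hfa k
    simp only [TAw, TA] at h1
    rw [linA_gauge e f (psiG s t) k] at h1
    rw [← gaugeA_scale (1 / A) s t k]
    nth_rewrite 1 [← h1]
    ring
  have eB : (fun k => b k - linB 0 0 (psiG (1 / B * s) (1 / B * t)) k) =
      fun k => ((1 / B : ℝ) : ℂ) *
        (linB g f 0 k + quad (twm tauB e1) (twm tauB e2) a b k) := by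
    funext k
    have h1 := congrFun hfb k
    simp only [TBw, TB] at h1
    rw [linB_gauge g f (psiG s t) k] at h1
    rw [← gaugeB_scale (1 / B) s t k]
    nth_rewrite 1 [← h1]
    ring
  obtain ⟨dAs, dA⟩ := nrm_add_le_sq _ _ sA qA1
  obtain ⟨dBs, dB⟩ := nrm_add_le_sq _ _ sB qB1
  obtain ⟨-, mA⟩ := nrm_smul_sq (1 / A) hA1.le _ dAs
  obtain ⟨-, mB⟩ := nrm_smul_sq (1 / B) hB1.le _ dBs
  have hl := shear_lip r a b _ _ ha hb gA' gB'
  rw [shear_gauge2, eA, eB, mA, mB] at hl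
  have hgoal : 12 * (1 / A) ^ 2 * (s ^ 2 - t ^ 2) = 12 * ((1 / A * s) ^ 2 - (1 / A * t) ^ 2) := by
    ring
  rw [hgoal]
  refine le_trans hl ?_
  set X := nrm (fun k => wt k ^ 2)
      (fun k => linA e f 0 k + quad (twm tauA e1) (twm tauA e2) a b k) with hX
  set Y := nrm (fun k => wt k ^ 2)
      (fun k => linB g f 0 k + quad (twm tauB e1) (twm tauB e2) a b k) with hY
  set H := nrm (fun k => wt k ^ 2) e + nrm (fun k => wt k ^ 2) f +
        nrm (fun k => wt k ^ 2) g with hH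
  have hX0 : 0 ≤ X := nrm_nonneg_sq _
  have hY0 : 0 ≤ Y := nrm_nonneg_sq _
  have hXle : X ≤ 3 / 2 * H + 120 * r ^ 2 := by
    rw [hH]
    linarith
  have hYle : Y ≤ 3 / 2 * H + 120 * r ^ 2 := by
    rw [hH]
    linarith
  have hZ0 : 0 ≤ 3 / 2 * H + 120 * r ^ 2 := le_trans hX0 hXle
  have h5 : 1 / A * X + 1 / B * Y ≤ 2 * (c * (3 / 2 * H + 120 * r ^ 2)) := by
    have t1 : 1 / A * X ≤ c * (3 / 2 * H + 120 * r ^ 2) :=
      mul_le_mul hcA hXle hX0 hc.le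
    have t2 : 1 / B * Y ≤ c * (3 / 2 * H + 120 * r ^ 2) :=
      mul_le_mul hcB hYle hY0 hc.le
    linarith
  calc 2 * r * (1 / A * X + 1 / B * Y)
      ≤ 2 * r * (2 * (c * (3 / 2 * H + 120 * r ^ 2))) :=
        mul_le_mul_of_nonneg_left h5 (by positivity)
    _ = _ := by ring

/-- Every smooth metric on the torus close to the flat rectangular metric
`A^2 dx^2 + B^2 dy^2` is induced by a smooth doubly periodic map into four-space
(coefficient form). -/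
theorem near_flat_w (A B : ℝ) (hA : 0 < A) (hB : 0 < B) : ∃ δ : ℝ, 0 < δ ∧
    ∀ e f g : ℤ × ℤ → ℂ,
    (∀ k, e (-k) = (starRingEnd ℂ) (e k)) → (∀ k, f (-k) = (starRingEnd ℂ) (f k)) →
    (∀ k, g (-k) = (starRingEnd ℂ) (g k)) →
    (∀ n : ℕ, Summable fun k => wt k ^ n * ‖e k‖) →
    (∀ n : ℕ, Summable fun k => wt k ^ n * ‖f k‖) →
    (∀ n : ℕ, Summable fun k => wt k ^ n * ‖g k‖) →
    nrm (fun k => wt k ^ 2) e + nrm (fun k => wt k ^ 2) f + nrm (fun k => wt k ^ 2) g < δ →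
    ∃ Ψ : ℝ × ℝ → EuclideanSpace ℝ (Fin 4), ContDiff ℝ ∞ Ψ ∧
      (∀ p : ℝ × ℝ, Ψ (p.1 + 2 * Real.pi, p.2) = Ψ p) ∧
      (∀ p : ℝ × ℝ, Ψ (p.1, p.2 + 2 * Real.pi) = Ψ p) ∧
      ∀ p v w : ℝ × ℝ, inner ℝ (fderiv ℝ Ψ p v) (fderiv ℝ Ψ p w) =
        (A ^ 2 + (S e p).re) * v.1 * w.1 + (S f p).re * (v.1 * w.2 + v.2 * w.1) +
        (B ^ 2 + (S g p).re) * v.2 * w.2 := by
  have hA1 : 0 < 1 / A := one_div_pos.mpr hA
  have hB1 : 0 < 1 / B := one_div_pos.mpr hB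
  obtain ⟨c, hcdef⟩ : ∃ c : ℝ, c = max (1 / A) (1 / B) := ⟨_, rfl⟩
  have hcA : 1 / A ≤ c := by rw [hcdef]; exact le_max_left _ _
  have hcB : 1 / B ≤ c := by rw [hcdef]; exact le_max_right _ _
  have hc : 0 < c := lt_of_lt_of_le hA1 hcA
  obtain ⟨t₀, r₁, δ, ht₀pos, hδ, hr₁pos, hr₁le, hgr, hdata, hsh⟩ := consts_w (1 / A) c hA1 hcA
  refine ⟨δ, hδ, ?_⟩
  intro e f g he hf hg de df dg hH
  have n1 := nrm_nonneg_sq e
  have n2 := nrm_nonneg_sq f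
  have n3 := nrm_nonneg_sq g
  have hH0 : 0 ≤ nrm (fun k => wt k ^ 2) e + nrm (fun k => wt k ^ 2) f +
      nrm (fun k => wt k ^ 2) g := by linarith
  have hd1 := hdata _ hH0 hH
  have hs1 := hsh _ hH0 hH
  have w2 : ∀ k : ℤ × ℤ, 0 ≤ wt k ^ 2 := fun k => by positivity
  -- smallness of the data along the gauge family
  have data : ∀ s t : ℝ, |s| + |t| ≤ t₀ →
      (Summable fun k => wt k ^ 2 * ‖linA e f (psiG s t) k‖) ∧
      nrm (fun k => wt k ^ 2) (linA e f (psiG s t)) < r₁ / (2 * c) ∧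
      (Summable fun k => wt k ^ 2 * ‖linB g f (psiG s t) k‖) ∧
      nrm (fun k => wt k ^ 2) (linB g f (psiG s t)) < r₁ / (2 * c) := by
    intro s t hst
    obtain ⟨p1, p2⟩ := psiG_norm s t
    obtain ⟨sA, bA⟩ := linA_bound (fun k => wt k ^ 2) w2 e f (psiG s t) (de 2) (df 2) p1
    obtain ⟨sB, bB⟩ := linB_bound (fun k => wt k ^ 2) w2 g f (psiG s t) (dg 2) (df 2) p1
    rw [p2] at bA bB
    refine ⟨sA, ?_, sB, ?_⟩
    · linarith
    · linarith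
  have hpath : ∀ τ ∈ Set.Icc (0 : ℝ) 1, |t₀ * τ| + |t₀ * (1 - τ)| ≤ t₀ := by
    intro τ hτ
    rw [abs_of_nonneg (mul_nonneg ht₀pos.le hτ.1),
      abs_of_nonneg (mul_nonneg ht₀pos.le (by linarith [hτ.2]))]
    linarith
  -- the family of fixed points
  have ex : ∀ τ : ℝ, ∃ a b : ℤ × ℤ → ℂ, τ ∈ Set.Icc (0 : ℝ) 1 →
      InBall (fun k => wt k ^ 2) r₁ a ∧ InBall (fun k => wt k ^ 2) r₁ b ∧
      TAw (1 / A) (linA e f (psiG (t₀ * τ) (t₀ * (1 - τ)))) a b = a ∧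
      TBw (1 / B) (linB g f (psiG (t₀ * τ) (t₀ * (1 - τ)))) a b = b := by
    intro τ
    by_cases hτ : τ ∈ Set.Icc (0 : ℝ) 1
    · obtain ⟨sA, bA, sB, bB⟩ := data _ _ (hpath τ hτ)
      obtain ⟨a, b, h1, h2, h3, h4⟩ := exists_fixed_base_w (1 / A) (1 / B) c hA1.le hcA hB1.le
        hcB hc _ _ r₁ hr₁pos hr₁le ⟨sA, bA.le⟩ ⟨sB, bB.le⟩
      exact ⟨a, b, fun _ => ⟨h1, h2, h3, h4⟩⟩
    · exact ⟨0, 0, fun h => absurd h hτ⟩
  choose a b hab using ex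
  -- the mean shear along the family is Lipschitz
  obtain ⟨L, hLdef⟩ : ∃ L : ℝ, L = 2 * r₁ * (4 * c * (256 * (2 * t₀))) := ⟨_, rfl⟩
  have hL0 : 0 ≤ L := by rw [hLdef]; positivity
  have lip : ∀ τ ∈ Set.Icc (0 : ℝ) 1, ∀ τ' ∈ Set.Icc (0 : ℝ) 1,
      |shear (a τ) (b τ) - shear (a τ') (b τ')| ≤ L * |τ - τ'| := by
    intro τ hτ τ' hτ'
    obtain ⟨ha, hb, hfa, hfb⟩ := hab τ hτ
    obtain ⟨ha', hb', hfa', hfb'⟩ := hab τ' hτ'
    obtain ⟨dA, dB⟩ := gauge_diff e f g (t₀ * τ) (t₀ * (1 - τ)) (t₀ * τ') (t₀ * (1 - τ'))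
    obtain ⟨gA, gB⟩ := gauge_lin_bound (t₀ * τ - t₀ * τ') (t₀ * (1 - τ) - t₀ * (1 - τ'))
    have hmax := fixed_lipschitz_base_w (1 / A) (1 / B) c hA1.le hcA hB1.le hcB hc
      _ _ _ _ r₁ hr₁le (a τ) (b τ) (a τ') (b τ')
      ha hb ha' hb' hfa hfb hfa' hfb'
      (by
        have h := gA.1
        rw [← dA] at h
        exact h)
      (by
        have h := gB.1
        rw [← dB] at h
        exact h)
    rw [dA, dB] at hmax
    have e1 : |t₀ * τ - t₀ * τ'| = t₀ * |τ - τ'| := by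
      rw [← mul_sub, abs_mul, abs_of_pos ht₀pos]
    have e2 : |t₀ * (1 - τ) - t₀ * (1 - τ')| = t₀ * |τ - τ'| := by
      have : t₀ * (1 - τ) - t₀ * (1 - τ') = -(t₀ * (τ - τ')) := by ring
      rw [this, abs_neg, abs_mul, abs_of_pos ht₀pos]
    have g1 := gA.2
    have g2 := gB.2
    rw [e1, e2] at g1 g2
    have hl := shear_lip r₁ (a τ) (b τ) (a τ') (b τ') ha hb ha' hb'
    have m1 := le_max_left (nrm (fun k => wt k ^ 2) (fun k => a τ k - a τ' k))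
      (nrm (fun k => wt k ^ 2) (fun k => b τ k - b τ' k))
    have m2 := le_max_right (nrm (fun k => wt k ^ 2) (fun k => a τ k - a τ' k))
      (nrm (fun k => wt k ^ 2) (fun k => b τ k - b τ' k))
    have m3 : max (nrm (fun k => wt k ^ 2) (linA 0 0 (psiG (t₀ * τ - t₀ * τ')
        (t₀ * (1 - τ) - t₀ * (1 - τ')))))
        (nrm (fun k => wt k ^ 2) (linB 0 0 (psiG (t₀ * τ - t₀ * τ')
        (t₀ * (1 - τ) - t₀ * (1 - τ'))))) ≤ 256 * (t₀ * |τ - τ'| + t₀ * |τ - τ'|) :=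
      max_le g1 g2
    have habs := abs_nonneg (τ - τ')
    have m4 : 2 * c * max (nrm (fun k => wt k ^ 2) (linA 0 0 (psiG (t₀ * τ - t₀ * τ')
        (t₀ * (1 - τ) - t₀ * (1 - τ')))))
        (nrm (fun k => wt k ^ 2) (linB 0 0 (psiG (t₀ * τ - t₀ * τ')
        (t₀ * (1 - τ) - t₀ * (1 - τ'))))) ≤
        2 * c * (256 * (t₀ * |τ - τ'| + t₀ * |τ - τ'|)) :=
      mul_le_mul_of_nonneg_left m3 (by positivity)
    have hsum : nrm (fun k => wt k ^ 2) (fun k => a τ k - a τ' k) +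
        nrm (fun k => wt k ^ 2) (fun k => b τ k - b τ' k) ≤
        4 * c * (256 * (t₀ * |τ - τ'| + t₀ * |τ - τ'|)) := by linarith
    have h3 : 2 * r₁ * (nrm (fun k => wt k ^ 2) (fun k => a τ k - a τ' k) +
        nrm (fun k => wt k ^ 2) (fun k => b τ k - b τ' k)) ≤
        2 * r₁ * (4 * c * (256 * (t₀ * |τ - τ'| + t₀ * |τ - τ'|))) :=
      mul_le_mul_of_nonneg_left hsum (by positivity)
    refine le_trans hl (le_trans h3 (le_of_eq ?_))
    rw [hLdef]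
    ring
  have hcont : ContinuousOn (fun τ => shear (a τ) (b τ)) (Set.Icc (0 : ℝ) 1) := by
    have hL : LipschitzOnWith (Real.toNNReal L) (fun τ => shear (a τ) (b τ))
        (Set.Icc (0 : ℝ) 1) := by
      refine LipschitzOnWith.of_dist_le_mul (fun x hx y hy => ?_)
      rw [Real.dist_eq, Real.dist_eq, Real.coe_toNNReal L hL0]
      exact lip x hx y hy
    exact hL.continuousOn
  -- the two ends of the family
  have hend : ∀ s t : ℝ, |s| + |t| = t₀ → ∀ a' b' : ℤ × ℤ → ℂ,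
      InBall (fun k => wt k ^ 2) r₁ a' → InBall (fun k => wt k ^ 2) r₁ b' →
      TAw (1 / A) (linA e f (psiG s t)) a' b' = a' →
      TBw (1 / B) (linB g f (psiG s t)) a' b' = b' →
      |shear a' b' - 12 * (1 / A) ^ 2 * (s ^ 2 - t ^ 2)| ≤
        4 * r₁ * c * (3 / 2 * (nrm (fun k => wt k ^ 2) e + nrm (fun k => wt k ^ 2) f +
          nrm (fun k => wt k ^ 2) g) + 120 * r₁ ^ 2) := by
    intro s t hst a' b' ha' hb' hfa' hfb'
    refine shear_near_w A B c hA hB hcA hcB e f g (de 2) (df 2) (dg 2) s t r₁ a' b' ha' hb'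
      hfa' hfb' ?_
    rw [hst]
    exact hgr
  have h1 : δ < shear (a 1) (b 1) := by
    obtain ⟨ha1, hb1, hfa1, hfb1⟩ := hab 1 ⟨by norm_num, le_rfl⟩
    have e1 : t₀ * (1 - 1) = 0 := by ring
    rw [mul_one, e1] at hfa1 hfb1
    have := hend t₀ 0 (by simp [abs_of_pos ht₀pos]) (a 1) (b 1) ha1 hb1 hfa1 hfb1
    have h' := (abs_le.mp this).1
    have e2 : 12 * (1 / A) ^ 2 * (t₀ ^ 2 - 0 ^ 2) = 12 * (1 / A) ^ 2 * t₀ ^ 2 := by ring
    rw [e2] at h'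
    linarith
  have h0 : shear (a 0) (b 0) < -δ := by
    obtain ⟨ha0, hb0, hfa0, hfb0⟩ := hab 0 ⟨le_rfl, by norm_num⟩
    have e1 : t₀ * (1 - 0) = t₀ := by ring
    rw [mul_zero, e1] at hfa0 hfb0
    have := hend 0 t₀ (by simp [abs_of_pos ht₀pos]) (a 0) (b 0) ha0 hb0 hfa0 hfb0
    have h' := (abs_le.mp this).2
    have e2 : 12 * (1 / A) ^ 2 * (0 ^ 2 - t₀ ^ 2) = -(12 * (1 / A) ^ 2 * t₀ ^ 2) := by ring
    rw [e2] at h'
    linarith
  -- the target mean value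
  have hμ : |(f 0).re| < δ := by
    have h2 : ‖f 0‖ ≤ nrm (fun k => wt k ^ 2) f := by
      have h3 := Summable.le_tsum (df 2) 0 (fun j _ => by positivity)
      have h4 : wt 0 ^ 2 * ‖f 0‖ = ‖f 0‖ := by simp [wt]
      rw [h4] at h3
      exact h3
    have h5 := Complex.abs_re_le_norm (f 0)
    linarith
  have hmem : (f 0).re ∈ Set.Icc (shear (a 0) (b 0)) (shear (a 1) (b 1)) :=
    ⟨by linarith [(abs_lt.mp hμ).1], by linarith [(abs_lt.mp hμ).2]⟩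
  obtain ⟨τ, hτ, hστ⟩ := intermediate_value_Icc (by norm_num : (0 : ℝ) ≤ 1) hcont hmem
  obtain ⟨ha, hb, hfa, hfb⟩ := hab τ hτ
  obtain ⟨sA, bA, sB, bB⟩ := data _ _ (hpath τ hτ)
  obtain ⟨Ψ, c1, c2, c3, c4⟩ := core_w A B hA hB c hcA hcB e f g
    (psiG (t₀ * τ) (t₀ * (1 - τ))) he hf hg
    (psiG_herm _ _) de df dg (psiG_decay _ _) r₁ hr₁le bA bB (a τ) (b τ) ha hb hfa hfb
  refine ⟨Ψ, c1, c2, c3, ?_⟩
  intro p v w
  have hs : shear (a τ) (b τ) = (f 0).re := hστ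
  have h12 : c12w A B (a τ) (b τ) 0 = c12 (a τ) (b τ) 0 := by
    simp [c12w, c12]
  rw [c4 p v w, h12, shear_eq (a τ) (b τ) ha.1 hb.1, hs]
  ring

end Vale.Agent.Lib.P205.NF
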