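import Vale.Agent.Lib.P205.NF.Defs

/-!
# Banach fixed point theorem on a ball of pairs of weighted `l1` sequences
-/

namespace Vale.Agent.Lib.P205.NF

open scoped ENNReal NNReal

/-- The norm of an element of `l1` as a sum. -/
lemma fp_norm (u : lp (fun _ : ℤ × ℤ => ℂ) 1) : ‖u‖ = ∑' k, ‖u k‖ := by
  have h := lp.norm_eq_tsum_rpow (p := 1) (by simp) u
  simpa using h

/-- Elements of `l1` are absolutely summable. -/
lemma fp_summable (u : lp (fun _ : ℤ × ℤ => ℂ) 1) : Summable (fun k => ‖u k‖) := by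
  have h := (lp.memℓp u).summable (by simp)
  simpa using h

/-- Divide by the weight. -/
noncomputable def fp_dn (ω : ℤ × ℤ → ℝ) (u : lp (fun _ : ℤ × ℤ => ℂ) 1) : ℤ × ℤ → ℂ :=
  fun k => u k / (ω k : ℂ)

lemma fp_dn_norm (ω : ℤ × ℤ → ℝ) (hω : ∀ k, 0 < ω k) (u : lp (fun _ : ℤ × ℤ => ℂ) 1)
    (k : ℤ × ℤ) : ω k * ‖fp_dn ω u k‖ = ‖u k‖ := by
  unfold fp_dn
  rw [norm_div, Complex.norm_real, Real.norm_eq_abs, abs_of_pos (hω k)]
  field_simp [(hω k).ne']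

lemma fp_dn_sub_norm (ω : ℤ × ℤ → ℝ) (hω : ∀ k, 0 < ω k)
    (u u' : lp (fun _ : ℤ × ℤ => ℂ) 1) (k : ℤ × ℤ) :
    ω k * ‖fp_dn ω u k - fp_dn ω u' k‖ = ‖(u - u') k‖ := by
  have h := fp_dn_norm ω hω (u - u') k
  rw [← h]
  congr 2
  unfold fp_dn
  rw [lp.coeFn_sub, Pi.sub_apply, sub_div]

lemma fp_dn_inBall (ω : ℤ × ℤ → ℝ) (hω : ∀ k, 0 < ω k) (r : ℝ)
    (u : lp (fun _ : ℤ × ℤ => ℂ) 1) (hu : ‖u‖ ≤ r) : InBall ω r (fp_dn ω u) := by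
  have h1 : (fun k => ω k * ‖fp_dn ω u k‖) = fun k => ‖u k‖ :=
    funext (fun k => fp_dn_norm ω hω u k)
  refine ⟨?_, ?_⟩
  · rw [h1]
    exact fp_summable u
  · unfold nrm
    rw [h1, ← fp_norm]
    exact hu

lemma fp_nrm_dn_sub (ω : ℤ × ℤ → ℝ) (hω : ∀ k, 0 < ω k)
    (u u' : lp (fun _ : ℤ × ℤ => ℂ) 1) :
    nrm ω (fun k => fp_dn ω u k - fp_dn ω u' k) = ‖u - u'‖ := by
  unfold nrm
  rw [fp_norm]
  exact tsum_congr (fun k => fp_dn_sub_norm ω hω u u' k)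

/-- Multiply by the weight. -/
noncomputable def fp_up (ω : ℤ × ℤ → ℝ) (a : ℤ × ℤ → ℂ)
    (h : Summable (fun k => ω k * ‖a k‖)) : lp (fun _ : ℤ × ℤ => ℂ) 1 :=
  ⟨fun k => (ω k : ℂ) * a k, by
    have h1 : Memℓp (fun k => (ω k : ℂ) * a k) 1 := by
      rw [memℓp_gen_iff (by simp)]
      have h2 : (fun k => ‖(ω k : ℂ) * a k‖ ^ (1 : ℝ≥0∞).toReal) =
          fun k => |ω k| * ‖a k‖ := by
        funext k
        simp
      rw [h2]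
      refine Summable.of_norm_bounded (g := fun k => |ω k * ‖a k‖|) h.abs ?_
      intro k
      rw [Real.norm_eq_abs, abs_mul, abs_mul, abs_abs, abs_norm]
    exact h1⟩

lemma fp_up_apply (ω : ℤ × ℤ → ℝ) (a : ℤ × ℤ → ℂ)
    (h : Summable (fun k => ω k * ‖a k‖)) (k : ℤ × ℤ) :
    fp_up ω a h k = (ω k : ℂ) * a k := rfl

lemma fp_dn_up (ω : ℤ × ℤ → ℝ) (hω : ∀ k, 0 < ω k) (a : ℤ × ℤ → ℂ)
    (h : Summable (fun k => ω k * ‖a k‖)) : fp_dn ω (fp_up ω a h) = a := by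
  funext k
  unfold fp_dn
  rw [fp_up_apply]
  have h1 : (ω k : ℂ) ≠ 0 := by
    exact_mod_cast (hω k).ne'
  field_simp

lemma fp_up_norm (ω : ℤ × ℤ → ℝ) (hω : ∀ k, 0 < ω k) (a : ℤ × ℤ → ℂ)
    (h : Summable (fun k => ω k * ‖a k‖)) : ‖fp_up ω a h‖ = nrm ω a := by
  rw [fp_norm]
  unfold nrm
  refine tsum_congr (fun k => ?_)
  rw [fp_up_apply, norm_mul, Complex.norm_real, Real.norm_eq_abs, abs_of_pos (hω k)]

lemma fp_up_sub_norm (ω : ℤ × ℤ → ℝ) (hω : ∀ k, 0 < ω k) (a a' : ℤ × ℤ → ℂ)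
    (h : Summable (fun k => ω k * ‖a k‖)) (h' : Summable (fun k => ω k * ‖a' k‖)) :
    ‖fp_up ω a h - fp_up ω a' h'‖ = nrm ω (fun k => a k - a' k) := by
  rw [fp_norm]
  unfold nrm
  refine tsum_congr (fun k => ?_)
  rw [lp.coeFn_sub, Pi.sub_apply, fp_up_apply, fp_up_apply, ← mul_sub, norm_mul,
    Complex.norm_real, Real.norm_eq_abs, abs_of_pos (hω k)]

theorem fp2 (ω : ℤ × ℤ → ℝ) (hω : ∀ k, 0 < ω k) (r q : ℝ) (hr : 0 ≤ r) (hq0 : 0 ≤ q)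
    (hq1 : q < 1) (FA FB : (ℤ × ℤ → ℂ) → (ℤ × ℤ → ℂ) → (ℤ × ℤ → ℂ))
    (hmap : ∀ a b, InBall ω r a → InBall ω r b → InBall ω r (FA a b) ∧ InBall ω r (FB a b))
    (hlip : ∀ a b a' b', InBall ω r a → InBall ω r b → InBall ω r a' → InBall ω r b' →
      nrm ω (fun k => FA a b k - FA a' b' k) ≤
          q * max (nrm ω (fun k => a k - a' k)) (nrm ω (fun k => b k - b' k)) ∧
      nrm ω (fun k => FB a b k - FB a' b' k) ≤
          q * max (nrm ω (fun k => a k - a' k)) (nrm ω (fun k => b k - b' k))) :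
    ∃ a b, InBall ω r a ∧ InBall ω r b ∧ FA a b = a ∧ FB a b = b := by
  classical
  -- the map on pairs of `l1` sequences
  let G : lp (fun _ : ℤ × ℤ => ℂ) 1 × lp (fun _ : ℤ × ℤ => ℂ) 1 →
      lp (fun _ : ℤ × ℤ => ℂ) 1 × lp (fun _ : ℤ × ℤ => ℂ) 1 := fun y =>
    if h : ‖y.1‖ ≤ r ∧ ‖y.2‖ ≤ r then
      (fp_up ω (FA (fp_dn ω y.1) (fp_dn ω y.2))
          (hmap _ _ (fp_dn_inBall ω hω r y.1 h.1) (fp_dn_inBall ω hω r y.2 h.2)).1.1,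
        fp_up ω (FB (fp_dn ω y.1) (fp_dn ω y.2))
          (hmap _ _ (fp_dn_inBall ω hω r y.1 h.1) (fp_dn_inBall ω hω r y.2 h.2)).2.1)
    else 0
  have hG : ∀ y : lp (fun _ : ℤ × ℤ => ℂ) 1 × lp (fun _ : ℤ × ℤ => ℂ) 1,
      ∀ h : ‖y.1‖ ≤ r ∧ ‖y.2‖ ≤ r, G y =
      (fp_up ω (FA (fp_dn ω y.1) (fp_dn ω y.2))
          (hmap _ _ (fp_dn_inBall ω hω r y.1 h.1) (fp_dn_inBall ω hω r y.2 h.2)).1.1,
        fp_up ω (FB (fp_dn ω y.1) (fp_dn ω y.2))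
          (hmap _ _ (fp_dn_inBall ω hω r y.1 h.1) (fp_dn_inBall ω hω r y.2 h.2)).2.1) := by
    intro y h
    exact dif_pos h
  set s : Set (lp (fun _ : ℤ × ℤ => ℂ) 1 × lp (fun _ : ℤ × ℤ => ℂ) 1) :=
    Metric.closedBall 0 r with hs
  have hmem : ∀ y, y ∈ s ↔ ‖y.1‖ ≤ r ∧ ‖y.2‖ ≤ r := by
    intro y
    rw [hs, mem_closedBall_zero_iff, Prod.norm_def, max_le_iff]
  have hsc : IsComplete s := Metric.isClosed_closedBall.isComplete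
  have hsf : Set.MapsTo G s s := by
    intro y hy
    have hy' := (hmem y).mp hy
    rw [hmem, hG y hy']
    have h1 := hmap _ _ (fp_dn_inBall ω hω r y.1 hy'.1) (fp_dn_inBall ω hω r y.2 hy'.2)
    exact ⟨(fp_up_norm ω hω _ h1.1.1).le.trans h1.1.2,
      (fp_up_norm ω hω _ h1.2.1).le.trans h1.2.2⟩
  have hcontr : ContractingWith ⟨q, hq0⟩ (hsf.restrict G s s) := by
    refine ⟨by exact_mod_cast hq1, ?_⟩
    apply LipschitzWith.of_dist_le_mul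
    rintro ⟨y, hy⟩ ⟨y', hy'⟩
    have hyr := (hmem y).mp hy
    have hyr' := (hmem y').mp hy'
    rw [Subtype.dist_eq, Subtype.dist_eq]
    show dist (G y) (G y') ≤ q * dist y y'
    rw [hG y hyr, hG y' hyr', Prod.dist_eq, Prod.dist_eq, dist_eq_norm, dist_eq_norm,
      dist_eq_norm, dist_eq_norm]
    have h1 := hlip _ _ _ _ (fp_dn_inBall ω hω r y.1 hyr.1) (fp_dn_inBall ω hω r y.2 hyr.2)
      (fp_dn_inBall ω hω r y'.1 hyr'.1) (fp_dn_inBall ω hω r y'.2 hyr'.2)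
    rw [fp_nrm_dn_sub ω hω, fp_nrm_dn_sub ω hω] at h1
    have h2 := hmap _ _ (fp_dn_inBall ω hω r y.1 hyr.1) (fp_dn_inBall ω hω r y.2 hyr.2)
    have h3 := hmap _ _ (fp_dn_inBall ω hω r y'.1 hyr'.1) (fp_dn_inBall ω hω r y'.2 hyr'.2)
    exact max_le ((fp_up_sub_norm ω hω _ _ h2.1.1 h3.1.1).le.trans h1.1)
      ((fp_up_sub_norm ω hω _ _ h2.2.1 h3.2.1).le.trans h1.2)
  have h0 : (0 : lp (fun _ : ℤ × ℤ => ℂ) 1 × lp (fun _ : ℤ × ℤ => ℂ) 1) ∈ s := by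
    rw [hs, mem_closedBall_zero_iff, norm_zero]
    exact hr
  obtain ⟨y, hys, hfix, -⟩ :=
    ContractingWith.exists_fixedPoint' hsc hsf hcontr h0 (edist_ne_top _ _)
  have hyr := (hmem y).mp hys
  have hfix' : G y = y := hfix
  rw [hG y hyr] at hfix'
  have h1 := hmap _ _ (fp_dn_inBall ω hω r y.1 hyr.1) (fp_dn_inBall ω hω r y.2 hyr.2)
  refine ⟨fp_dn ω y.1, fp_dn ω y.2, fp_dn_inBall ω hω r y.1 hyr.1,
    fp_dn_inBall ω hω r y.2 hyr.2, ?_, ?_⟩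
  · have h2 := congrArg Prod.fst hfix'
    simp only at h2
    have h3 := fp_dn_up ω hω _ h1.1.1
    rw [h2] at h3
    exact h3.symm
  · have h2 := congrArg Prod.snd hfix'
    simp only at h2
    have h3 := fp_dn_up ω hω _ h1.2.1
    rw [h2] at h3
    exact h3.symm

end Vale.Agent.Lib.P205.NF
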