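import Vale.Agent.Lib.P205.NF.QuadEst
import Vale.Agent.Lib.P205.NF.SymBoundA
import Vale.Agent.Lib.P205.NF.SymBoundB
import Vale.Agent.Lib.P205.NF.FixedPt

/-!
# Existence, uniqueness and Lipschitz dependence of the fixed point
-/

namespace Vale.Agent.Lib.P205.NF

lemma exist_wt_ge_one (k : ℤ × ℤ) : 1 ≤ wt k := by
  unfold wt
  have h1 := abs_nonneg (k.1 : ℝ)
  have h2 := abs_nonneg (k.2 : ℝ)
  linarith

lemma exist_wt_neg (k : ℤ × ℤ) : wt (-k) = wt k := by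
  unfold wt
  simp

lemma exist_omega_pos (W : ℤ × ℤ → ℝ) (hW1 : ∀ k, 1 ≤ W k) (k : ℤ × ℤ) :
    0 < W k * wt k ^ 2 := by
  have h1 := hW1 k
  have h2 := exist_wt_ge_one k
  exact mul_pos (by linarith) (pow_pos (by linarith) 2)

lemma exist_omega_even (W : ℤ × ℤ → ℝ) (hWe : ∀ k, W (-k) = W k) (k : ℤ × ℤ) :
    W (-k) * wt (-k) ^ 2 = W k * wt k ^ 2 := by
  rw [hWe, exist_wt_neg]

lemma exist_nrm_nonneg (ω : ℤ × ℤ → ℝ) (hω : ∀ k, 0 ≤ ω k) (c : ℤ × ℤ → ℂ) :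
    0 ≤ nrm ω c := by
  unfold nrm
  exact tsum_nonneg (fun k => mul_nonneg (hω k) (norm_nonneg _))

lemma exist_nrm_le (ω : ℤ × ℤ → ℝ) (hω : ∀ k, 0 ≤ ω k) (f g h : ℤ × ℤ → ℂ)
    (hf : ∀ k, ‖f k‖ ≤ ‖g k‖ + ‖h k‖) (hg : Summable (fun k => ω k * ‖g k‖))
    (hh : Summable (fun k => ω k * ‖h k‖)) :
    Summable (fun k => ω k * ‖f k‖) ∧ nrm ω f ≤ nrm ω g + nrm ω h := by
  have hle : ∀ k, ω k * ‖f k‖ ≤ ω k * ‖g k‖ + ω k * ‖h k‖ := by
    intro k
    have := mul_le_mul_of_nonneg_left (hf k) (hω k)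
    linarith
  have hs : Summable (fun k => ω k * ‖f k‖) :=
    Summable.of_nonneg_of_le (fun k => mul_nonneg (hω k) (norm_nonneg _)) hle (hg.add hh)
  refine ⟨hs, ?_⟩
  unfold nrm
  rw [← Summable.tsum_add hg hh]
  exact Summable.tsum_le_tsum hle hs (hg.add hh)

lemma exist_twm_aux (σ : ℤ × ℤ → ℤ × ℤ → ℤ × ℤ → ℂ)
    (hσ : ∀ m κ l : ℤ × ℤ, κ + l = m → ‖σ m κ l‖ * wt m ^ 2 ≤
      60 * ((|(κ.1 : ℝ)| + |(κ.2 : ℝ)|) ^ 2 * (|(l.1 : ℝ)| + |(l.2 : ℝ)|) ^ 2))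
    (e : ℤ × ℤ) (he : |(e.1 : ℝ)| + |(e.2 : ℝ)| = 1)
    (W : ℤ × ℤ → ℝ) (hW1 : ∀ k, 1 ≤ W k) (hWm : ∀ k l, W (k + l) ≤ W k * W l)
    (m k : ℤ × ℤ) :
    ‖twm σ e m k‖ * (W m * wt m ^ 2) ≤
      60 * ((W k * wt k ^ 2) * (W (m - k) * wt (m - k) ^ 2)) := by
  have hs := hσ m (k + e) (m - k - e) (by abel)
  have c1 : (((k + e).1 : ℤ) : ℝ) = (k.1 : ℝ) + (e.1 : ℝ) := by simp
  have c2 : (((k + e).2 : ℤ) : ℝ) = (k.2 : ℝ) + (e.2 : ℝ) := by simp
  have c3 : (((m - k - e).1 : ℤ) : ℝ) = (((m - k).1 : ℤ) : ℝ) - (e.1 : ℝ) := by simp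
  have c4 : (((m - k - e).2 : ℤ) : ℝ) = (((m - k).2 : ℤ) : ℝ) - (e.2 : ℝ) := by simp
  have hK : |(((k + e).1 : ℤ) : ℝ)| + |(((k + e).2 : ℤ) : ℝ)| ≤ wt k := by
    unfold wt
    rw [c1, c2]
    have h1 := abs_add_le (k.1 : ℝ) (e.1 : ℝ)
    have h2 := abs_add_le (k.2 : ℝ) (e.2 : ℝ)
    linarith
  have hL : |(((m - k - e).1 : ℤ) : ℝ)| + |(((m - k - e).2 : ℤ) : ℝ)| ≤ wt (m - k) := by
    unfold wt
    rw [c3, c4]
    have h1 := abs_sub (((m - k).1 : ℤ) : ℝ) (e.1 : ℝ)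
    have h2 := abs_sub (((m - k).2 : ℤ) : ℝ) (e.2 : ℝ)
    linarith
  have hK0 : 0 ≤ |(((k + e).1 : ℤ) : ℝ)| + |(((k + e).2 : ℤ) : ℝ)| := by positivity
  have hL0 : 0 ≤ |(((m - k - e).1 : ℤ) : ℝ)| + |(((m - k - e).2 : ℤ) : ℝ)| := by positivity
  have hK2 := pow_le_pow_left₀ hK0 hK 2
  have hL2 := pow_le_pow_left₀ hL0 hL 2
  have hKL := mul_le_mul hK2 hL2 (sq_nonneg _) (sq_nonneg (wt k))
  have h1 : ‖σ m (k + e) (m - k - e)‖ * wt m ^ 2 ≤ 60 * (wt k ^ 2 * wt (m - k) ^ 2) :=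
    le_trans hs (mul_le_mul_of_nonneg_left hKL (by norm_num))
  have hWm' : W m ≤ W k * W (m - k) := by
    have h3 := hWm k (m - k)
    rwa [add_sub_cancel] at h3
  have hW0 : 0 ≤ W m := by linarith [hW1 m]
  have hWk : 0 ≤ W k := by linarith [hW1 k]
  have hWmk : 0 ≤ W (m - k) := by linarith [hW1 (m - k)]
  have hn0 : 0 ≤ ‖σ m (k + e) (m - k - e)‖ * wt m ^ 2 := by positivity
  have h2 : W m * (‖σ m (k + e) (m - k - e)‖ * wt m ^ 2)
      ≤ (W k * W (m - k)) * (60 * (wt k ^ 2 * wt (m - k) ^ 2)) :=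
    mul_le_mul hWm' h1 hn0 (mul_nonneg hWk hWmk)
  show ‖σ m (k + e) (m - k - e)‖ * (W m * wt m ^ 2) ≤ _
  calc ‖σ m (k + e) (m - k - e)‖ * (W m * wt m ^ 2)
      = W m * (‖σ m (k + e) (m - k - e)‖ * wt m ^ 2) := by ring
    _ ≤ (W k * W (m - k)) * (60 * (wt k ^ 2 * wt (m - k) ^ 2)) := h2
    _ = 60 * ((W k * wt k ^ 2) * (W (m - k) * wt (m - k) ^ 2)) := by ring

lemma exist_e1 : |((e1.1 : ℤ) : ℝ)| + |((e1.2 : ℤ) : ℝ)| = 1 := by
  simp [e1]

lemma exist_e2 : |((e2.1 : ℤ) : ℝ)| + |((e2.2 : ℤ) : ℝ)| = 1 := by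
  simp [e2]

/-- The twisted symbols satisfy the hypothesis of the Young-type inequality for every
weight `W k * wt k ^ 2` with `W ≥ 1` submultiplicative. -/
theorem twm_bound (W : ℤ × ℤ → ℝ) (hW1 : ∀ k, 1 ≤ W k) (hWm : ∀ k l, W (k + l) ≤ W k * W l) :
    (∀ m k, ‖twm tauA e1 m k‖ * (W m * wt m ^ 2) ≤
      60 * ((W k * wt k ^ 2) * (W (m - k) * wt (m - k) ^ 2))) ∧
    (∀ m k, ‖twm tauA e2 m k‖ * (W m * wt m ^ 2) ≤
      60 * ((W k * wt k ^ 2) * (W (m - k) * wt (m - k) ^ 2))) ∧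
    (∀ m k, ‖twm tauB e1 m k‖ * (W m * wt m ^ 2) ≤
      60 * ((W k * wt k ^ 2) * (W (m - k) * wt (m - k) ^ 2))) ∧
    (∀ m k, ‖twm tauB e2 m k‖ * (W m * wt m ^ 2) ≤
      60 * ((W k * wt k ^ 2) * (W (m - k) * wt (m - k) ^ 2))) :=
  ⟨exist_twm_aux tauA tauA_bound e1 exist_e1 W hW1 hWm,
    exist_twm_aux tauA tauA_bound e2 exist_e2 W hW1 hWm,
    exist_twm_aux tauB tauB_bound e1 exist_e1 W hW1 hWm,
    exist_twm_aux tauB tauB_bound e2 exist_e2 W hW1 hWm⟩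

/-- The map `l + Q` sends the ball into itself when `l` is in the half ball and `Q` in the
quarter ball. -/
lemma exist_map_aux (ω : ℤ × ℤ → ℝ) (hω : ∀ k, 0 < ω k) (l Qf : ℤ × ℤ → ℂ) (r : ℝ)
    (hr0 : 0 ≤ r) (hl : InBall ω (r / 2) l) (hQs : Summable (fun k => ω k * ‖Qf k‖))
    (hQ : nrm ω Qf ≤ r / 4) : InBall ω r (fun m => l m + Qf m) := by
  have h := exist_nrm_le ω (fun k => (hω k).le) (fun m => l m + Qf m) l Qf
    (fun k => norm_add_le _ _) hl.1 hQs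
  refine ⟨h.1, ?_⟩
  have h2 := hl.2
  linarith [h.2]

theorem exists_fixed (W : ℤ × ℤ → ℝ) (hW1 : ∀ k, 1 ≤ W k)
    (hWm : ∀ k l, W (k + l) ≤ W k * W l) (hWe : ∀ k, W (-k) = W k)
    (lA lB : ℤ × ℤ → ℂ) (r : ℝ) (hr0 : 0 ≤ r) (hr : r ≤ 1 / 480)
    (hA : InBall (fun k => W k * wt k ^ 2) (r / 2) lA)
    (hB : InBall (fun k => W k * wt k ^ 2) (r / 2) lB) :
    ∃ a b, InBall (fun k => W k * wt k ^ 2) r a ∧ InBall (fun k => W k * wt k ^ 2) r b ∧
      TA lA a b = a ∧ TB lB a b = b := by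
  have hω : ∀ k, 0 < (fun k => W k * wt k ^ 2) k := fun k => exist_omega_pos W hW1 k
  have hωe : ∀ k, (fun k => W k * wt k ^ 2) (-k) = (fun k => W k * wt k ^ 2) k :=
    fun k => exist_omega_even W hWe k
  obtain ⟨t1, t2, t3, t4⟩ := twm_bound W hW1 hWm
  have hsmall : 2 * 60 * r ^ 2 ≤ r / 4 := by nlinarith
  refine fp2 (fun k => W k * wt k ^ 2) hω r (1 / 2) hr0 (by norm_num) (by norm_num)
    (TA lA) (TB lB) ?_ ?_
  · intro a b ha hb
    have qa := quad_est (fun k => W k * wt k ^ 2) hω hωe (twm tauA e1) (twm tauA e2) 60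
      (by norm_num) t1 t2 r a b a b ha hb ha hb
    have qb := quad_est (fun k => W k * wt k ^ 2) hω hωe (twm tauB e1) (twm tauB e2) 60
      (by norm_num) t3 t4 r a b a b ha hb ha hb
    exact ⟨exist_map_aux _ hω lA _ r hr0 hA qa.1 (le_trans qa.2.1 hsmall),
      exist_map_aux _ hω lB _ r hr0 hB qb.1 (le_trans qb.2.1 hsmall)⟩
  · intro a b a' b' ha hb ha' hb'
    have qa := quad_est (fun k => W k * wt k ^ 2) hω hωe (twm tauA e1) (twm tauA e2) 60
      (by norm_num) t1 t2 r a b a' b' ha hb ha' hb'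
    have qb := quad_est (fun k => W k * wt k ^ 2) hω hωe (twm tauB e1) (twm tauB e2) 60
      (by norm_num) t3 t4 r a b a' b' ha hb ha' hb'
    have hM : 0 ≤ max (nrm (fun k => W k * wt k ^ 2) (fun k => a k - a' k))
        (nrm (fun k => W k * wt k ^ 2) (fun k => b k - b' k)) :=
      le_max_of_le_left (exist_nrm_nonneg _ (fun k => (hω k).le) _)
    have eA : (fun k => TA lA a b k - TA lA a' b' k)
        = fun k => quad (twm tauA e1) (twm tauA e2) a b k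
          - quad (twm tauA e1) (twm tauA e2) a' b' k := by
      funext k
      unfold TA
      ring
    have eB : (fun k => TB lB a b k - TB lB a' b' k)
        = fun k => quad (twm tauB e1) (twm tauB e2) a b k
          - quad (twm tauB e1) (twm tauB e2) a' b' k := by
      funext k
      unfold TB
      ring
    rw [eA, eB]
    have hcoef : 4 * 60 * r ≤ 1 / 2 := by linarith
    have hc := mul_le_mul_of_nonneg_right hcoef hM
    exact ⟨le_trans qa.2.2.2 hc, le_trans qb.2.2.2 hc⟩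

theorem fixed_lipschitz (W : ℤ × ℤ → ℝ) (hW1 : ∀ k, 1 ≤ W k)
    (hWm : ∀ k l, W (k + l) ≤ W k * W l) (hWe : ∀ k, W (-k) = W k)
    (lA lB lA' lB' : ℤ × ℤ → ℂ) (r : ℝ) (hr : r ≤ 1 / 480) (a b a' b' : ℤ × ℤ → ℂ)
    (ha : InBall (fun k => W k * wt k ^ 2) r a) (hb : InBall (fun k => W k * wt k ^ 2) r b)
    (ha' : InBall (fun k => W k * wt k ^ 2) r a') (hb' : InBall (fun k => W k * wt k ^ 2) r b')
    (hfa : TA lA a b = a) (hfb : TB lB a b = b) (hfa' : TA lA' a' b' = a')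
    (hfb' : TB lB' a' b' = b') :
    Summable (fun k => W k * wt k ^ 2 * ‖lA k - lA' k‖) ∧
    Summable (fun k => W k * wt k ^ 2 * ‖lB k - lB' k‖) ∧
    max (nrm (fun k => W k * wt k ^ 2) (fun k => a k - a' k))
        (nrm (fun k => W k * wt k ^ 2) (fun k => b k - b' k)) ≤
      2 * max (nrm (fun k => W k * wt k ^ 2) (fun k => lA k - lA' k))
        (nrm (fun k => W k * wt k ^ 2) (fun k => lB k - lB' k)) := by
  have hω : ∀ k, 0 < (fun k => W k * wt k ^ 2) k := fun k => exist_omega_pos W hW1 k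
  have hω0 : ∀ k, 0 ≤ (fun k => W k * wt k ^ 2) k := fun k => (hω k).le
  have hωe : ∀ k, (fun k => W k * wt k ^ 2) (-k) = (fun k => W k * wt k ^ 2) k :=
    fun k => exist_omega_even W hWe k
  obtain ⟨t1, t2, t3, t4⟩ := twm_bound W hW1 hWm
  have hr0 : 0 ≤ r := le_trans (exist_nrm_nonneg _ hω0 a) ha.2
  have qa := quad_est (fun k => W k * wt k ^ 2) hω hωe (twm tauA e1) (twm tauA e2) 60
    (by norm_num) t1 t2 r a b a' b' ha hb ha' hb'
  have qb := quad_est (fun k => W k * wt k ^ 2) hω hωe (twm tauB e1) (twm tauB e2) 60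
    (by norm_num) t3 t4 r a b a' b' ha hb ha' hb'
  -- the differences of the fixed points are summable
  have sa := exist_nrm_le _ hω0 (fun k => a k - a' k) a a' (fun k => norm_sub_le _ _) ha.1 ha'.1
  have sb := exist_nrm_le _ hω0 (fun k => b k - b' k) b b' (fun k => norm_sub_le _ _) hb.1 hb'.1
  -- pointwise identities
  have pA : ∀ k, lA k - lA' k = (a k - a' k) - (quad (twm tauA e1) (twm tauA e2) a b k
      - quad (twm tauA e1) (twm tauA e2) a' b' k) := by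
    intro k
    have h1 := congrFun hfa k
    have h2 := congrFun hfa' k
    unfold TA at h1 h2
    rw [← h1, ← h2]
    ring
  have pB : ∀ k, lB k - lB' k = (b k - b' k) - (quad (twm tauB e1) (twm tauB e2) a b k
      - quad (twm tauB e1) (twm tauB e2) a' b' k) := by
    intro k
    have h1 := congrFun hfb k
    have h2 := congrFun hfb' k
    unfold TB at h1 h2
    rw [← h1, ← h2]
    ring
  have lA_s := exist_nrm_le _ hω0 (fun k => lA k - lA' k) (fun k => a k - a' k)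
    (fun k => quad (twm tauA e1) (twm tauA e2) a b k - quad (twm tauA e1) (twm tauA e2) a' b' k)
    (fun k => by rw [pA k]; exact norm_sub_le _ _) sa.1 qa.2.2.1
  have lB_s := exist_nrm_le _ hω0 (fun k => lB k - lB' k) (fun k => b k - b' k)
    (fun k => quad (twm tauB e1) (twm tauB e2) a b k - quad (twm tauB e1) (twm tauB e2) a' b' k)
    (fun k => by rw [pB k]; exact norm_sub_le _ _) sb.1 qb.2.2.1
  have nA := exist_nrm_le _ hω0 (fun k => a k - a' k) (fun k => lA k - lA' k)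
    (fun k => quad (twm tauA e1) (twm tauA e2) a b k - quad (twm tauA e1) (twm tauA e2) a' b' k)
    (fun k => by
      have e : a k - a' k = (lA k - lA' k) + (quad (twm tauA e1) (twm tauA e2) a b k
          - quad (twm tauA e1) (twm tauA e2) a' b' k) := by rw [pA k]; ring
      rw [e]
      exact norm_add_le _ _) lA_s.1 qa.2.2.1
  have nB := exist_nrm_le _ hω0 (fun k => b k - b' k) (fun k => lB k - lB' k)
    (fun k => quad (twm tauB e1) (twm tauB e2) a b k - quad (twm tauB e1) (twm tauB e2) a' b' k)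
    (fun k => by
      have e : b k - b' k = (lB k - lB' k) + (quad (twm tauB e1) (twm tauB e2) a b k
          - quad (twm tauB e1) (twm tauB e2) a' b' k) := by rw [pB k]; ring
      rw [e]
      exact norm_add_le _ _) lB_s.1 qb.2.2.1
  refine ⟨lA_s.1, lB_s.1, ?_⟩
  have hM : 0 ≤ max (nrm (fun k => W k * wt k ^ 2) (fun k => a k - a' k))
      (nrm (fun k => W k * wt k ^ 2) (fun k => b k - b' k)) :=
    le_max_of_le_left (exist_nrm_nonneg _ hω0 _)
  have hcoef : 4 * 60 * r ≤ 1 / 2 := by linarith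
  have hc := mul_le_mul_of_nonneg_right hcoef hM
  have hqa := le_trans qa.2.2.2 hc
  have hqb := le_trans qb.2.2.2 hc
  have hDa := le_max_left (nrm (fun k => W k * wt k ^ 2) (fun k => lA k - lA' k))
    (nrm (fun k => W k * wt k ^ 2) (fun k => lB k - lB' k))
  have hDb := le_max_right (nrm (fun k => W k * wt k ^ 2) (fun k => lA k - lA' k))
    (nrm (fun k => W k * wt k ^ 2) (fun k => lB k - lB' k))
  have hmax : max (nrm (fun k => W k * wt k ^ 2) (fun k => a k - a' k))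
      (nrm (fun k => W k * wt k ^ 2) (fun k => b k - b' k))
      ≤ max (nrm (fun k => W k * wt k ^ 2) (fun k => lA k - lA' k))
          (nrm (fun k => W k * wt k ^ 2) (fun k => lB k - lB' k))
        + 1 / 2 * max (nrm (fun k => W k * wt k ^ 2) (fun k => a k - a' k))
          (nrm (fun k => W k * wt k ^ 2) (fun k => b k - b' k)) := by
    apply max_le
    · linarith [nA.2]
    · linarith [nB.2]
  linarith

theorem fixed_unique (W : ℤ × ℤ → ℝ) (hW1 : ∀ k, 1 ≤ W k)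
    (hWm : ∀ k l, W (k + l) ≤ W k * W l) (hWe : ∀ k, W (-k) = W k)
    (lA lB : ℤ × ℤ → ℂ) (r : ℝ) (hr : r ≤ 1 / 480) (a b a' b' : ℤ × ℤ → ℂ)
    (ha : InBall (fun k => W k * wt k ^ 2) r a) (hb : InBall (fun k => W k * wt k ^ 2) r b)
    (ha' : InBall (fun k => W k * wt k ^ 2) r a') (hb' : InBall (fun k => W k * wt k ^ 2) r b')
    (hfa : TA lA a b = a) (hfb : TB lB a b = b) (hfa' : TA lA a' b' = a')
    (hfb' : TB lB a' b' = b') : a = a' ∧ b = b' := by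
  have hω : ∀ k, 0 < (fun k => W k * wt k ^ 2) k := fun k => exist_omega_pos W hW1 k
  have hω0 : ∀ k, 0 ≤ (fun k => W k * wt k ^ 2) k := fun k => (hω k).le
  have hl := (fixed_lipschitz W hW1 hWm hWe lA lB lA lB r hr a b a' b' ha hb ha' hb'
    hfa hfb hfa' hfb').2.2
  have z1 : nrm (fun k => W k * wt k ^ 2) (fun k => lA k - lA k) = 0 := by simp [nrm]
  have z2 : nrm (fun k => W k * wt k ^ 2) (fun k => lB k - lB k) = 0 := by simp [nrm]
  rw [z1, z2, max_self, mul_zero] at hl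
  have sa := exist_nrm_le _ hω0 (fun k => a k - a' k) a a' (fun k => norm_sub_le _ _) ha.1 ha'.1
  have sb := exist_nrm_le _ hω0 (fun k => b k - b' k) b b' (fun k => norm_sub_le _ _) hb.1 hb'.1
  have hza : nrm (fun k => W k * wt k ^ 2) (fun k => a k - a' k) ≤ 0 :=
    le_trans (le_max_left _ _) hl
  have hzb : nrm (fun k => W k * wt k ^ 2) (fun k => b k - b' k) ≤ 0 :=
    le_trans (le_max_right _ _) hl
  have key : ∀ (c c' : ℤ × ℤ → ℂ), Summable (fun k => W k * wt k ^ 2 * ‖c k - c' k‖) →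
      nrm (fun k => W k * wt k ^ 2) (fun k => c k - c' k) ≤ 0 → c = c' := by
    intro c c' hs hz
    funext k
    have h1 : W k * wt k ^ 2 * ‖c k - c' k‖ ≤ ∑' j, W j * wt j ^ 2 * ‖c j - c' j‖ :=
      hs.le_tsum k (fun j _ => mul_nonneg (hω0 j) (norm_nonneg _))
    have h2 : W k * wt k ^ 2 * ‖c k - c' k‖ ≤ 0 := le_trans h1 hz
    have h3 : ‖c k - c' k‖ ≤ 0 := by
      by_contra hcon
      rw [not_le] at hcon
      have := mul_pos (hω k) hcon
      linarith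
    have h4 : c k - c' k = 0 := norm_le_zero_iff.mp h3
    exact sub_eq_zero.mp h4
  exact ⟨key a a' sa.1 hza, key b b' sb.1 hzb⟩

end Vale.Agent.Lib.P205.NF
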