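import Vale.Agent.Lib.P205.NF.FDefs

/-!
# Fourier coefficients: sup bound and Hermitian symmetry
-/

namespace Vale.Agent.Lib.P205.NF

/-- The character has modulus one. -/
lemma fbasic_norm_exp (n : ℤ) (x : ℝ) :
    ‖Complex.exp (-(Complex.I * ((n : ℂ) * (x : ℂ))))‖ = 1 := by
  have e : -(Complex.I * ((n : ℂ) * (x : ℂ))) = ((-(n * x) : ℝ) : ℂ) * Complex.I := by
    push_cast
    ring
  rw [e, Complex.norm_exp_ofReal_mul_I]

theorem fc1_norm_le (u : ℝ → ℂ) (M : ℝ) (hM : ∀ x, ‖u x‖ ≤ M) (n : ℤ) : ‖fc1 u n‖ ≤ M := by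
  have hpi : 0 < 2 * Real.pi := by positivity
  unfold fc1
  rw [norm_smul, Real.norm_of_nonneg (by positivity)]
  have hb : ‖∫ x in (0 : ℝ)..(2 * Real.pi),
      u x * Complex.exp (-(Complex.I * ((n : ℂ) * (x : ℂ))))‖ ≤ M * |2 * Real.pi - 0| := by
    apply intervalIntegral.norm_integral_le_of_norm_le_const
    intro x _
    rw [norm_mul, fbasic_norm_exp, mul_one]
    exact hM x
  rw [sub_zero, abs_of_pos hpi] at hb
  calc 1 / (2 * Real.pi) * ‖∫ x in (0 : ℝ)..(2 * Real.pi),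
        u x * Complex.exp (-(Complex.I * ((n : ℂ) * (x : ℂ))))‖
      ≤ 1 / (2 * Real.pi) * (M * (2 * Real.pi)) :=
        mul_le_mul_of_nonneg_left hb (by positivity)
    _ = M := by field_simp

theorem fcoef_norm_le (H : ℝ × ℝ → ℂ) (M : ℝ) (hM : ∀ p, ‖H p‖ ≤ M) (k : ℤ × ℤ) :
    ‖fcoef H k‖ ≤ M := by
  unfold fcoef
  exact fc1_norm_le _ M (fun x => fc1_norm_le _ M (fun y => hM (x, y)) k.2) k.1

/-- Conjugation commutes with the interval integral. -/
lemma fbasic_integral_conj (f : ℝ → ℂ) (a b : ℝ) :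
    (starRingEnd ℂ) (∫ x in a..b, f x) = ∫ x in a..b, (starRingEnd ℂ) (f x) := by
  simp only [intervalIntegral, map_sub, integral_conj]

/-- Conjugate of the integrand of a Fourier coefficient. -/
lemma fbasic_pt (u : ℝ → ℂ) (n : ℤ) (x : ℝ) :
    (starRingEnd ℂ) (u x * Complex.exp (-(Complex.I * ((n : ℂ) * (x : ℂ)))))
      = (starRingEnd ℂ) (u x) * Complex.exp (-(Complex.I * (((-n : ℤ) : ℂ) * (x : ℂ)))) := by
  rw [map_mul, ← Complex.exp_conj]
  congr 2
  simp only [map_neg, map_mul, Complex.conj_I, Complex.conj_ofReal, map_intCast, Int.cast_neg]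
  ring

/-- Conjugate of a one-dimensional Fourier coefficient. -/
lemma fbasic_fc1_conj (u : ℝ → ℂ) (n : ℤ) :
    (starRingEnd ℂ) (fc1 u n) = fc1 (fun x => (starRingEnd ℂ) (u x)) (-n) := by
  unfold fc1
  rw [Complex.real_smul, Complex.real_smul, map_mul, Complex.conj_ofReal, fbasic_integral_conj]
  congr 1
  apply intervalIntegral.integral_congr
  intro x _
  exact fbasic_pt u n x

theorem fcoef_conj (h : ℝ × ℝ → ℝ) (k : ℤ × ℤ) :
    fcoef (fun p => (h p : ℂ)) (-k) = (starRingEnd ℂ) (fcoef (fun p => (h p : ℂ)) k) := by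
  unfold fcoef
  rw [fbasic_fc1_conj]
  have e : (fun x => (starRingEnd ℂ) (fc1 (fun y => ((h (x, y) : ℝ) : ℂ)) k.2))
      = fun x => fc1 (fun y => ((h (x, y) : ℝ) : ℂ)) (-k.2) := by
    funext x
    rw [fbasic_fc1_conj]
    simp only [Complex.conj_ofReal]
  rw [e]
  rfl

end Vale.Agent.Lib.P205.NF
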