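import Vale.Agent.Lib.P205.NF.Defs

/-!
# From monomial bounds on a coefficient family to weighted summability
-/

namespace Vale.Agent.Lib.P205.NF

/-- The comparison family on the integers. -/
theorem fdecay_summable_int : Summable (fun n : ℤ => 1 / (1 + (n : ℝ) ^ 2)) := by
  have h1 : Summable (fun n : ℤ => 1 / (n : ℝ) ^ 2) :=
    Real.summable_one_div_int_pow.mpr (by norm_num)
  have h2 : Summable (fun n : ℤ => if n = 0 then (1 : ℝ) else 0) :=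
    (hasSum_ite_eq (0 : ℤ) (1 : ℝ)).summable
  refine Summable.of_nonneg_of_le (fun n => by positivity) (fun n => ?_) (h1.add h2)
  by_cases hn : n = 0
  · subst hn
    simp
  · simp only [hn, if_false, add_zero]
    have hn' : (n : ℝ) ≠ 0 := by exact_mod_cast hn
    have hpos : (0 : ℝ) < (n : ℝ) ^ 2 := by positivity
    apply one_div_le_one_div_of_le hpos
    linarith

/-- The comparison family on pairs of integers. -/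
noncomputable def fdecay_g (k : ℤ × ℤ) : ℝ :=
  1 / ((1 + |(k.1 : ℝ)| ^ 2) * (1 + |(k.2 : ℝ)| ^ 2))

theorem fdecay_g_nonneg (k : ℤ × ℤ) : 0 ≤ fdecay_g k := by
  unfold fdecay_g
  positivity

theorem fdecay_summable_g : Summable fdecay_g := by
  have h := Summable.mul_of_nonneg fdecay_summable_int fdecay_summable_int
    (fun n => by positivity) (fun n => by positivity)
  refine h.congr (fun k => ?_)
  unfold fdecay_g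
  rw [sq_abs, sq_abs, one_div_mul_one_div]

theorem fdecay_pow_le (x y : ℝ) (hx : 0 ≤ x) (hy : 0 ≤ y) (n : ℕ) :
    (1 + x + y) ^ n ≤ 3 ^ n * (1 + x ^ n + y ^ n) := by
  have hxn : 0 ≤ x ^ n := pow_nonneg hx n
  have hyn : 0 ≤ y ^ n := pow_nonneg hy n
  have h3 : (0 : ℝ) ≤ 3 ^ n := by positivity
  have h0 : 0 ≤ 1 + x + y := by linarith
  by_cases h1 : x ≤ 1 ∧ y ≤ 1
  · have : (1 + x + y) ^ n ≤ 3 ^ n := pow_le_pow_left₀ h0 (by linarith [h1.1, h1.2]) n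
    nlinarith
  · by_cases hxy : y ≤ x
    · have hx1 : 1 ≤ x := by
        by_contra hlt
        push Not at hlt
        exact h1 ⟨hlt.le, hxy.trans hlt.le⟩
      have : (1 + x + y) ^ n ≤ (3 * x) ^ n := pow_le_pow_left₀ h0 (by linarith) n
      rw [mul_pow] at this
      nlinarith
    · push Not at hxy
      have hy1 : 1 ≤ y := by
        by_contra hlt
        push Not at hlt
        exact h1 ⟨hxy.le.trans hlt.le, hlt.le⟩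
      have : (1 + x + y) ^ n ≤ (3 * y) ^ n := pow_le_pow_left₀ h0 (by linarith) n
      rw [mul_pow] at this
      nlinarith

theorem decay_summable (c : ℤ × ℤ → ℂ)
    (h : ∀ a b : ℕ, ∃ M : ℝ, ∀ k : ℤ × ℤ, |(k.1 : ℝ)| ^ a * |(k.2 : ℝ)| ^ b * ‖c k‖ ≤ M)
    (n : ℕ) : Summable fun k => wt k ^ n * ‖c k‖ := by
  choose M hM using h
  refine Summable.of_nonneg_of_le (fun k => ?_) (fun k => ?_)
    (fdecay_summable_g.mul_left (3 ^ n * (M 0 0 + M 2 0 + M 0 2 + M 2 2 + M n 0 + M (n + 2) 0 +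
      M n 2 + M (n + 2) 2 + M 0 n + M 2 n + M 0 (n + 2) + M 2 (n + 2))))
  · have : 0 ≤ wt k := by
      unfold wt
      positivity
    positivity
  · have hx : 0 ≤ |(k.1 : ℝ)| := abs_nonneg _
    have hy : 0 ≤ |(k.2 : ℝ)| := abs_nonneg _
    have hN : 0 ≤ ‖c k‖ := norm_nonneg _
    have hD : 0 < (1 + |(k.1 : ℝ)| ^ 2) * (1 + |(k.2 : ℝ)| ^ 2) := by positivity
    have hw : wt k ^ n ≤ 3 ^ n * (1 + |(k.1 : ℝ)| ^ n + |(k.2 : ℝ)| ^ n) :=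
      fdecay_pow_le _ _ hx hy n
    unfold fdecay_g
    rw [mul_one_div, le_div_iff₀ hD]
    have e1 : 3 ^ n * (1 + |(k.1 : ℝ)| ^ n + |(k.2 : ℝ)| ^ n) * ‖c k‖ *
        ((1 + |(k.1 : ℝ)| ^ 2) * (1 + |(k.2 : ℝ)| ^ 2)) =
        3 ^ n * (|(k.1 : ℝ)| ^ 0 * |(k.2 : ℝ)| ^ 0 * ‖c k‖ +
          |(k.1 : ℝ)| ^ 2 * |(k.2 : ℝ)| ^ 0 * ‖c k‖ +
          |(k.1 : ℝ)| ^ 0 * |(k.2 : ℝ)| ^ 2 * ‖c k‖ +
          |(k.1 : ℝ)| ^ 2 * |(k.2 : ℝ)| ^ 2 * ‖c k‖ +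
          |(k.1 : ℝ)| ^ n * |(k.2 : ℝ)| ^ 0 * ‖c k‖ +
          |(k.1 : ℝ)| ^ (n + 2) * |(k.2 : ℝ)| ^ 0 * ‖c k‖ +
          |(k.1 : ℝ)| ^ n * |(k.2 : ℝ)| ^ 2 * ‖c k‖ +
          |(k.1 : ℝ)| ^ (n + 2) * |(k.2 : ℝ)| ^ 2 * ‖c k‖ +
          |(k.1 : ℝ)| ^ 0 * |(k.2 : ℝ)| ^ n * ‖c k‖ +
          |(k.1 : ℝ)| ^ 2 * |(k.2 : ℝ)| ^ n * ‖c k‖ +
          |(k.1 : ℝ)| ^ 0 * |(k.2 : ℝ)| ^ (n + 2) * ‖c k‖ +
          |(k.1 : ℝ)| ^ 2 * |(k.2 : ℝ)| ^ (n + 2) * ‖c k‖) := by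
      ring
    have e2 : wt k ^ n * ‖c k‖ * ((1 + |(k.1 : ℝ)| ^ 2) * (1 + |(k.2 : ℝ)| ^ 2)) ≤
        3 ^ n * (1 + |(k.1 : ℝ)| ^ n + |(k.2 : ℝ)| ^ n) * ‖c k‖ *
        ((1 + |(k.1 : ℝ)| ^ 2) * (1 + |(k.2 : ℝ)| ^ 2)) := by
      gcongr
    refine e2.trans ?_
    rw [e1]
    have h3 : (0 : ℝ) ≤ 3 ^ n := by positivity
    apply mul_le_mul_of_nonneg_left _ h3
    linarith [hM 0 0 k, hM 2 0 k, hM 0 2 k, hM 2 2 k, hM n 0 k, hM (n + 2) 0 k, hM n 2 k,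
      hM (n + 2) 2 k, hM 0 n k, hM 2 n k, hM 0 (n + 2) k, hM 2 (n + 2) k]

theorem wiener_bound : ∃ K : ℝ, 0 < K ∧ ∀ (c : ℤ × ℤ → ℂ) (ε : ℝ),
    (∀ a b : ℕ, a + b ≤ 6 → ∀ k : ℤ × ℤ, |(k.1 : ℝ)| ^ a * |(k.2 : ℝ)| ^ b * ‖c k‖ ≤ ε) →
    (Summable fun k => wt k ^ 2 * ‖c k‖) ∧ ∑' k, wt k ^ 2 * ‖c k‖ ≤ K * ε := by
  have hG : 0 ≤ ∑' k, fdecay_g k := tsum_nonneg fdecay_g_nonneg
  refine ⟨36 * (∑' k, fdecay_g k) + 1, by linarith, fun c ε h => ?_⟩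
  have hε : 0 ≤ ε := by
    have h0 := h 0 0 (by norm_num) (0, 0)
    simp only [pow_zero, one_mul] at h0
    exact (norm_nonneg _).trans h0
  have hle : ∀ k : ℤ × ℤ, wt k ^ 2 * ‖c k‖ ≤ 36 * ε * fdecay_g k := by
    intro k
    have hx : 0 ≤ |(k.1 : ℝ)| := abs_nonneg _
    have hy : 0 ≤ |(k.2 : ℝ)| := abs_nonneg _
    have hN : 0 ≤ ‖c k‖ := norm_nonneg _
    have hD : 0 < (1 + |(k.1 : ℝ)| ^ 2) * (1 + |(k.2 : ℝ)| ^ 2) := by positivity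
    have hw : wt k ^ 2 ≤ 3 * (1 + |(k.1 : ℝ)| ^ 2 + |(k.2 : ℝ)| ^ 2) := by
      unfold wt
      nlinarith [sq_nonneg (1 - |(k.1 : ℝ)|), sq_nonneg (1 - |(k.2 : ℝ)|),
        sq_nonneg (|(k.1 : ℝ)| - |(k.2 : ℝ)|)]
    unfold fdecay_g
    rw [mul_one_div, le_div_iff₀ hD]
    have e1 : 3 * (1 + |(k.1 : ℝ)| ^ 2 + |(k.2 : ℝ)| ^ 2) * ‖c k‖ *
        ((1 + |(k.1 : ℝ)| ^ 2) * (1 + |(k.2 : ℝ)| ^ 2)) =
        3 * (|(k.1 : ℝ)| ^ 0 * |(k.2 : ℝ)| ^ 0 * ‖c k‖ +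
          2 * (|(k.1 : ℝ)| ^ 2 * |(k.2 : ℝ)| ^ 0 * ‖c k‖) +
          2 * (|(k.1 : ℝ)| ^ 0 * |(k.2 : ℝ)| ^ 2 * ‖c k‖) +
          3 * (|(k.1 : ℝ)| ^ 2 * |(k.2 : ℝ)| ^ 2 * ‖c k‖) +
          |(k.1 : ℝ)| ^ 4 * |(k.2 : ℝ)| ^ 0 * ‖c k‖ +
          |(k.1 : ℝ)| ^ 0 * |(k.2 : ℝ)| ^ 4 * ‖c k‖ +
          |(k.1 : ℝ)| ^ 4 * |(k.2 : ℝ)| ^ 2 * ‖c k‖ +
          |(k.1 : ℝ)| ^ 2 * |(k.2 : ℝ)| ^ 4 * ‖c k‖) := by
      ring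
    have e2 : wt k ^ 2 * ‖c k‖ * ((1 + |(k.1 : ℝ)| ^ 2) * (1 + |(k.2 : ℝ)| ^ 2)) ≤
        3 * (1 + |(k.1 : ℝ)| ^ 2 + |(k.2 : ℝ)| ^ 2) * ‖c k‖ *
        ((1 + |(k.1 : ℝ)| ^ 2) * (1 + |(k.2 : ℝ)| ^ 2)) := by
      gcongr
    refine e2.trans ?_
    rw [e1]
    linarith [h 0 0 (by norm_num) k, h 2 0 (by norm_num) k, h 0 2 (by norm_num) k,
      h 2 2 (by norm_num) k, h 4 0 (by norm_num) k, h 0 4 (by norm_num) k,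
      h 4 2 (by norm_num) k, h 2 4 (by norm_num) k]
  have hsum' : Summable fun k => 36 * ε * fdecay_g k := fdecay_summable_g.mul_left _
  have hnn : ∀ k : ℤ × ℤ, 0 ≤ wt k ^ 2 * ‖c k‖ := by
    intro k
    positivity
  have hsum : Summable fun k => wt k ^ 2 * ‖c k‖ := Summable.of_nonneg_of_le hnn hle hsum'
  refine ⟨hsum, ?_⟩
  have h1 : ∑' k, wt k ^ 2 * ‖c k‖ ≤ ∑' k, 36 * ε * fdecay_g k :=
    Summable.tsum_le_tsum hle hsum hsum'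
  rw [tsum_mul_left] at h1
  nlinarith

end Vale.Agent.Lib.P205.NF
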