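import Vale.Agent.Lib.P205.NF.Defs

/-!
# Fourier coefficients of doubly periodic functions: definitions
-/

namespace Vale.Agent.Lib.P205.NF

/-- One-dimensional Fourier coefficient of a `2 pi`-periodic function. -/
noncomputable def fc1 (u : ℝ → ℂ) (n : ℤ) : ℂ :=
  (1 / (2 * Real.pi) : ℝ) • ∫ x in (0 : ℝ)..(2 * Real.pi),
    u x * Complex.exp (-(Complex.I * ((n : ℂ) * (x : ℂ))))

/-- Two-dimensional Fourier coefficient of a doubly `2 pi`-periodic function. -/
noncomputable def fcoef (H : ℝ × ℝ → ℂ) (k : ℤ × ℤ) : ℂ :=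
  fc1 (fun x => fc1 (fun y => H (x, y)) k.2) k.1

/-- Partial derivative in the first variable. -/
noncomputable def pd1 (H : ℝ × ℝ → ℂ) : ℝ × ℝ → ℂ := fun p => fderiv ℝ H p (1, 0)

/-- Partial derivative in the second variable. -/
noncomputable def pd2 (H : ℝ × ℝ → ℂ) : ℝ × ℝ → ℂ := fun p => fderiv ℝ H p (0, 1)

/-- Iterated partial derivative: `a` times in the first and `b` times in the second
variable. -/
noncomputable def pd (a b : ℕ) (H : ℝ × ℝ → ℂ) : ℝ × ℝ → ℂ := pd1^[a] (pd2^[b] H)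

/-- Double `2 pi`-periodicity. -/
def Per (H : ℝ × ℝ → ℂ) : Prop :=
  (∀ p : ℝ × ℝ, H (p.1 + 2 * Real.pi, p.2) = H p) ∧
    (∀ p : ℝ × ℝ, H (p.1, p.2 + 2 * Real.pi) = H p)

end Vale.Agent.Lib.P205.NF
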