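import Vale.Agent.Lib.P205.NF.FInv1

/-!
# Fourier inversion in two variables
-/

namespace Vale.Agent.Lib.P205.NF

theorem finv2_norm_exp (t : ℂ) (ht : t.im = 0) : ‖Complex.exp (Complex.I * t)‖ = 1 := by
  rw [Complex.norm_exp]
  simp [Complex.mul_re, ht]

theorem finv2_cont (H : ℝ × ℝ → ℂ) (hc : Continuous H) (l : ℤ) :
    Continuous (fun x : ℝ => fc1 (fun y => H (x, y)) l) := by
  unfold fc1
  have h1 : Continuous (Function.uncurry fun (x : ℝ) (y : ℝ) =>
      H (x, y) * Complex.exp (-(Complex.I * ((l : ℂ) * (y : ℂ))))) := by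
    have hH : Continuous fun p : ℝ × ℝ => H (p.1, p.2) := by simpa using hc
    have hE : Continuous fun p : ℝ × ℝ =>
        Complex.exp (-(Complex.I * ((l : ℂ) * (p.2 : ℂ)))) := by fun_prop
    exact hH.mul hE
  have h2 : Continuous fun x : ℝ => ∫ y in (0 : ℝ)..(2 * Real.pi),
      H (x, y) * Complex.exp (-(Complex.I * ((l : ℂ) * (y : ℂ)))) :=
    intervalIntegral.continuous_parametric_intervalIntegral_of_continuous'
      (μ := MeasureTheory.volume) h1 0 (2 * Real.pi)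
  exact h2.const_smul (1 / (2 * Real.pi) : ℝ)

theorem fcoef_inversion (H : ℝ × ℝ → ℂ) (hc : Continuous H) (hp : Per H)
    (hs : Summable fun k : ℤ × ℤ => ‖fcoef H k‖) (p : ℝ × ℝ) : S (fcoef H) p = H p := by
  obtain ⟨x, y⟩ := p
  have hcol : ∀ l : ℤ, Summable fun n : ℤ => ‖fcoef H (n, l)‖ := fun l =>
    hs.comp_injective (i := fun n : ℤ => (n, l)) (fun a b h => (Prod.mk.inj h).1)
  have h3 : ∀ l : ℤ, HasSum (fun n : ℤ =>
      fcoef H (n, l) * Complex.exp (Complex.I * ((n : ℂ) * (x : ℂ))))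
      (fc1 (fun y' => H (x, y')) l) := by
    intro l
    exact fc1_inversion (fun x' : ℝ => fc1 (fun y' => H (x', y')) l) (finv2_cont H hc l)
      (fun x' => congrArg (fun u => fc1 u l) (funext fun y' => hp.1 (x', y'))) (hcol l) x
  have h4 : ∀ l : ℤ, ‖fc1 (fun y' => H (x, y')) l‖ ≤ ∑' n : ℤ, ‖fcoef H (n, l)‖ := by
    intro l
    rw [← (h3 l).tsum_eq]
    have he : (fun n : ℤ =>
        ‖fcoef H (n, l) * Complex.exp (Complex.I * ((n : ℂ) * (x : ℂ)))‖)
        = fun n : ℤ => ‖fcoef H (n, l)‖ := by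
      funext n
      rw [norm_mul, finv2_norm_exp _ (by simp), mul_one]
    have hn : Summable fun n : ℤ =>
        ‖fcoef H (n, l) * Complex.exp (Complex.I * ((n : ℂ) * (x : ℂ)))‖ := by
      rw [he]
      exact hcol l
    refine le_trans (norm_tsum_le_tsum_norm hn) (le_of_eq ?_)
    rw [he]
  have h5 : Summable fun l : ℤ => ∑' n : ℤ, ‖fcoef H (n, l)‖ := hs.prod_symm.prod
  have h6s : Summable fun l : ℤ => ‖fc1 (fun y' => H (x, y')) l‖ :=
    Summable.of_nonneg_of_le (fun l => norm_nonneg _) h4 h5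
  have h6 : HasSum (fun l : ℤ =>
      fc1 (fun y' => H (x, y')) l * Complex.exp (Complex.I * ((l : ℂ) * (y : ℂ))))
      (H (x, y)) :=
    fc1_inversion (fun y' => H (x, y')) (hc.comp (by fun_prop)) (fun y' => hp.2 (x, y')) h6s y
  have hg : Summable fun q : ℤ × ℤ => fcoef H q.swap *
      Complex.exp (Complex.I * ((q.swap.1 : ℂ) * (x : ℂ) + (q.swap.2 : ℂ) * (y : ℂ))) := by
    apply Summable.of_norm
    have he : (fun q : ℤ × ℤ => ‖fcoef H q.swap *
        Complex.exp (Complex.I * ((q.swap.1 : ℂ) * (x : ℂ) + (q.swap.2 : ℂ) * (y : ℂ)))‖)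
        = fun q : ℤ × ℤ => ‖fcoef H q.swap‖ := by
      funext q
      rw [norm_mul, finv2_norm_exp _ (by simp), mul_one]
    rw [he]
    exact hs.prod_symm
  have hfib : ∀ l : ℤ, HasSum (fun n : ℤ => fcoef H (n, l) *
      Complex.exp (Complex.I * ((n : ℂ) * (x : ℂ) + (l : ℂ) * (y : ℂ))))
      (fc1 (fun y' => H (x, y')) l * Complex.exp (Complex.I * ((l : ℂ) * (y : ℂ)))) := by
    intro l
    have h := (h3 l).mul_right (Complex.exp (Complex.I * ((l : ℂ) * (y : ℂ))))
    have he : (fun n : ℤ => fcoef H (n, l) *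
        Complex.exp (Complex.I * ((n : ℂ) * (x : ℂ) + (l : ℂ) * (y : ℂ))))
        = fun n : ℤ => fcoef H (n, l) * Complex.exp (Complex.I * ((n : ℂ) * (x : ℂ))) *
          Complex.exp (Complex.I * ((l : ℂ) * (y : ℂ))) := by
      funext n
      rw [mul_assoc, ← Complex.exp_add, mul_add]
    rw [he]
    exact h
  have hall := hg.hasSum.prod_fiberwise (fun l => hfib l)
  have heq := hall.unique h6
  unfold S
  rw [← heq]
  exact ((Equiv.prodComm ℤ ℤ).tsum_eq (fun k : ℤ × ℤ => fcoef H k *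
    Complex.exp (Complex.I * ((k.1 : ℂ) * (x : ℂ) + (k.2 : ℂ) * (y : ℂ))))).symm

end Vale.Agent.Lib.P205.NF
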