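import Vale.Agent.Lib.P205.NF.FParts

/-!
# Iterated partial derivatives of smooth doubly periodic functions
-/

namespace Vale.Agent.Lib.P205.NF

open scoped ContDiff

theorem fiter_pd1_contDiff (H : ℝ × ℝ → ℂ) (hH : ContDiff ℝ ∞ H) : ContDiff ℝ ∞ (pd1 H) := by
  have h1 : ContDiff ℝ ∞ (fderiv ℝ H) := hH.fderiv_right (m := ∞) (by simp)
  exact h1.clm_apply contDiff_const

theorem fiter_pd2_contDiff (H : ℝ × ℝ → ℂ) (hH : ContDiff ℝ ∞ H) : ContDiff ℝ ∞ (pd2 H) := by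
  have h1 : ContDiff ℝ ∞ (fderiv ℝ H) := hH.fderiv_right (m := ∞) (by simp)
  exact h1.clm_apply contDiff_const

/-- A property preserved by an operator is preserved by its iterates. -/
theorem fiter_iterate {Q : (ℝ × ℝ → ℂ) → Prop} (F : (ℝ × ℝ → ℂ) → (ℝ × ℝ → ℂ))
    (hF : ∀ G, Q G → Q (F G)) (n : ℕ) (G : ℝ × ℝ → ℂ) (hG : Q G) : Q (F^[n] G) := by
  induction n with
  | zero => exact hG
  | succ n ih =>
    rw [Function.iterate_succ_apply']
    exact hF _ ih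

theorem fiter_fderiv_shift (H : ℝ × ℝ → ℂ) (c : ℝ × ℝ) (h : ∀ p, H (p + c) = H p)
    (p : ℝ × ℝ) : fderiv ℝ H (p + c) = fderiv ℝ H p := by
  have h1 : (fun x => H (x + c)) = H := funext h
  have h2 : fderiv ℝ (fun x => H (x + c)) p = fderiv ℝ H (p + c) := fderiv_comp_add_right c
  rw [h1] at h2
  exact h2.symm

theorem fiter_fderiv_per (H : ℝ × ℝ → ℂ) (hp : Per H) :
    (∀ p : ℝ × ℝ, fderiv ℝ H (p.1 + 2 * Real.pi, p.2) = fderiv ℝ H p) ∧
      (∀ p : ℝ × ℝ, fderiv ℝ H (p.1, p.2 + 2 * Real.pi) = fderiv ℝ H p) := by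
  have e1 : ∀ q : ℝ × ℝ, q + (2 * Real.pi, (0 : ℝ)) = (q.1 + 2 * Real.pi, q.2) :=
    fun q => Prod.ext rfl (add_zero _)
  have e2 : ∀ q : ℝ × ℝ, q + ((0 : ℝ), 2 * Real.pi) = (q.1, q.2 + 2 * Real.pi) :=
    fun q => Prod.ext (add_zero _) rfl
  constructor
  · intro p
    have h := fiter_fderiv_shift H (2 * Real.pi, 0) (fun q => by rw [e1 q]; exact hp.1 q) p
    rw [e1 p] at h
    exact h
  · intro p
    have h := fiter_fderiv_shift H (0, 2 * Real.pi) (fun q => by rw [e2 q]; exact hp.2 q) p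
    rw [e2 p] at h
    exact h

theorem fiter_pd1_per (H : ℝ × ℝ → ℂ) (hp : Per H) : Per (pd1 H) := by
  obtain ⟨h1, h2⟩ := fiter_fderiv_per H hp
  constructor
  · intro p
    show fderiv ℝ H (p.1 + 2 * Real.pi, p.2) (1, 0) = fderiv ℝ H p (1, 0)
    rw [h1 p]
  · intro p
    show fderiv ℝ H (p.1, p.2 + 2 * Real.pi) (1, 0) = fderiv ℝ H p (1, 0)
    rw [h2 p]

theorem fiter_pd2_per (H : ℝ × ℝ → ℂ) (hp : Per H) : Per (pd2 H) := by
  obtain ⟨h1, h2⟩ := fiter_fderiv_per H hp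
  constructor
  · intro p
    show fderiv ℝ H (p.1 + 2 * Real.pi, p.2) (0, 1) = fderiv ℝ H p (0, 1)
    rw [h1 p]
  · intro p
    show fderiv ℝ H (p.1, p.2 + 2 * Real.pi) (0, 1) = fderiv ℝ H p (0, 1)
    rw [h2 p]

theorem pd_contDiff (a b : ℕ) (H : ℝ × ℝ → ℂ) (hH : ContDiff ℝ ∞ H) :
    ContDiff ℝ ∞ (pd a b H) := by
  unfold pd
  exact fiter_iterate (Q := fun G => ContDiff ℝ ∞ G) pd1 fiter_pd1_contDiff a _
    (fiter_iterate (Q := fun G => ContDiff ℝ ∞ G) pd2 fiter_pd2_contDiff b H hH)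

theorem pd_per (a b : ℕ) (H : ℝ × ℝ → ℂ) (hp : Per H) : Per (pd a b H) := by
  unfold pd
  exact fiter_iterate (Q := Per) pd1 fiter_pd1_per a _
    (fiter_iterate (Q := Per) pd2 fiter_pd2_per b H hp)

theorem fiter_fcoef_pd2_iter (b : ℕ) (H : ℝ × ℝ → ℂ) (hH : ContDiff ℝ ∞ H) (hp : Per H)
    (k : ℤ × ℤ) :
    fcoef (pd2^[b] H) k = (Complex.I * (k.2 : ℂ)) ^ b * fcoef H k := by
  induction b with
  | zero => simp
  | succ b ih =>
    have h1 : ContDiff ℝ ∞ (pd2^[b] H) :=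
      fiter_iterate (Q := fun G => ContDiff ℝ ∞ G) pd2 fiter_pd2_contDiff b H hH
    have h2 : Per (pd2^[b] H) := fiter_iterate (Q := Per) pd2 fiter_pd2_per b H hp
    rw [Function.iterate_succ_apply', fcoef_pd2 _ (h1.of_le (by exact_mod_cast le_top)) h2 k,
      ih, pow_succ]
    ring

theorem fiter_fcoef_pd1_iter (a : ℕ) (H : ℝ × ℝ → ℂ) (hH : ContDiff ℝ ∞ H) (hp : Per H)
    (k : ℤ × ℤ) :
    fcoef (pd1^[a] H) k = (Complex.I * (k.1 : ℂ)) ^ a * fcoef H k := by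
  induction a with
  | zero => simp
  | succ a ih =>
    have h1 : ContDiff ℝ ∞ (pd1^[a] H) :=
      fiter_iterate (Q := fun G => ContDiff ℝ ∞ G) pd1 fiter_pd1_contDiff a H hH
    have h2 : Per (pd1^[a] H) := fiter_iterate (Q := Per) pd1 fiter_pd1_per a H hp
    rw [Function.iterate_succ_apply', fcoef_pd1 _ (h1.of_le (by exact_mod_cast le_top)) h2 k,
      ih, pow_succ]
    ring

theorem fcoef_pd (a b : ℕ) (H : ℝ × ℝ → ℂ) (hH : ContDiff ℝ ∞ H) (hp : Per H) (k : ℤ × ℤ) :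
    fcoef (pd a b H) k =
      (Complex.I * (k.1 : ℂ)) ^ a * (Complex.I * (k.2 : ℂ)) ^ b * fcoef H k := by
  have h1 : ContDiff ℝ ∞ (pd2^[b] H) :=
    fiter_iterate (Q := fun G => ContDiff ℝ ∞ G) pd2 fiter_pd2_contDiff b H hH
  have h2 : Per (pd2^[b] H) := fiter_iterate (Q := Per) pd2 fiter_pd2_per b H hp
  unfold pd
  rw [fiter_fcoef_pd1_iter a _ h1 h2 k, fiter_fcoef_pd2_iter b H hH hp k]
  ring

theorem per_bounded (H : ℝ × ℝ → ℂ) (hc : Continuous H) (hp : Per H) :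
    ∃ M : ℝ, ∀ p, ‖H p‖ ≤ M := by
  have hpi : 0 < 2 * Real.pi := by positivity
  obtain ⟨M, hM⟩ := (isCompact_Icc.prod isCompact_Icc :
    IsCompact (Set.Icc (0 : ℝ) (2 * Real.pi) ×ˢ Set.Icc (0 : ℝ) (2 * Real.pi))).exists_bound_of_continuousOn
      hc.continuousOn
  refine ⟨M, fun p => ?_⟩
  have h1 : Function.Periodic (fun x => H (x, p.2)) (2 * Real.pi) := fun x => hp.1 (x, p.2)
  obtain ⟨x, hx, hx'⟩ := h1.exists_mem_Ico₀ hpi p.1
  have h2 : Function.Periodic (fun y => H (x, y)) (2 * Real.pi) := fun y => hp.2 (x, y)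
  obtain ⟨y, hy, hy'⟩ := h2.exists_mem_Ico₀ hpi p.2
  have h3 : H p = H (x, y) := by
    have h4 : H p = H (x, p.2) := hx'
    have h5 : H (x, p.2) = H (x, y) := hy'
    rw [h4, h5]
  rw [h3]
  exact hM (x, y) ⟨Set.Ico_subset_Icc_self hx, Set.Ico_subset_Icc_self hy⟩

end Vale.Agent.Lib.P205.NF
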