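import Vale.Agent.Lib.P205.NF.FDefs

/-!
# Iterated partial derivatives are bounded by the iterated Frechet derivative
-/

namespace Vale.Agent.Lib.P205.NF

open scoped ContDiff

/-- Differentiating the evaluation of the iterated derivative at fixed vectors `m` in the
direction `v` gives the next iterated derivative evaluated at `v` followed by `m`. -/
private lemma fpdn_step (H : ℝ × ℝ → ℂ) (hH : ContDiff ℝ ∞ H) (n : ℕ) (m : Fin n → ℝ × ℝ)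
    (v p : ℝ × ℝ) :
    fderiv ℝ (fun q => iteratedFDeriv ℝ n H q m) p v =
      iteratedFDeriv ℝ (n + 1) H p (Fin.cons v m) := by
  have hd : Differentiable ℝ (fun q => iteratedFDeriv ℝ n H q) :=
    hH.differentiable_iteratedFDeriv (by exact_mod_cast ENat.natCast_lt_top n)
  rw [iteratedFDeriv_succ_apply_left, Fin.cons_zero, Fin.tail_cons]
  exact fderiv_continuousMultilinear_apply_const_apply (hd p) m v

/-- One more derivative in a direction `v` of norm at most one. -/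
private lemma fpdn_one (H : ℝ × ℝ → ℂ) (hH : ContDiff ℝ ∞ H) (v : ℝ × ℝ) (hv : ‖v‖ ≤ 1)
    (N : ℕ) (G : ℝ × ℝ → ℂ)
    (hG : ∃ m : Fin N → ℝ × ℝ, (∀ i, ‖m i‖ ≤ 1) ∧ G = fun q => iteratedFDeriv ℝ N H q m) :
    ∃ m : Fin (N + 1) → ℝ × ℝ, (∀ i, ‖m i‖ ≤ 1) ∧
      (fun q => fderiv ℝ G q v) = fun q => iteratedFDeriv ℝ (N + 1) H q m := by
  obtain ⟨m, hm, rfl⟩ := hG
  refine ⟨Fin.cons v m, ?_, ?_⟩
  · intro i
    induction i using Fin.cases with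
    | zero =>
      rw [Fin.cons_zero]
      exact hv
    | succ j =>
      rw [Fin.cons_succ]
      exact hm j
  · funext q
    exact fpdn_step H hH N m v q

/-- Iterating an operator that adds one derivative. -/
private lemma fpdn_iter (H : ℝ × ℝ → ℂ) (D : (ℝ × ℝ → ℂ) → (ℝ × ℝ → ℂ))
    (hD : ∀ (N : ℕ) (G : ℝ × ℝ → ℂ),
      (∃ m : Fin N → ℝ × ℝ, (∀ i, ‖m i‖ ≤ 1) ∧ G = fun q => iteratedFDeriv ℝ N H q m) →
      ∃ m : Fin (N + 1) → ℝ × ℝ, (∀ i, ‖m i‖ ≤ 1) ∧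
        D G = fun q => iteratedFDeriv ℝ (N + 1) H q m)
    (a N : ℕ) (G : ℝ × ℝ → ℂ)
    (hG : ∃ m : Fin N → ℝ × ℝ, (∀ i, ‖m i‖ ≤ 1) ∧ G = fun q => iteratedFDeriv ℝ N H q m) :
    ∃ M : ℕ, M = a + N ∧ ∃ m : Fin M → ℝ × ℝ, (∀ i, ‖m i‖ ≤ 1) ∧
      D^[a] G = fun q => iteratedFDeriv ℝ M H q m := by
  induction a with
  | zero => exact ⟨N, (Nat.zero_add N).symm, hG⟩
  | succ a ih =>
    obtain ⟨M, hM, hm⟩ := ih
    refine ⟨M + 1, by omega, ?_⟩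
    rw [Function.iterate_succ_apply']
    exact hD M _ hm

theorem pd_norm_le (a b : ℕ) (H : ℝ × ℝ → ℂ) (hH : ContDiff ℝ ∞ H) (p : ℝ × ℝ) :
    ‖pd a b H p‖ ≤ ‖iteratedFDeriv ℝ (a + b) H p‖ := by
  have h0 : ∃ m : Fin 0 → ℝ × ℝ, (∀ i, ‖m i‖ ≤ 1) ∧
      H = fun q => iteratedFDeriv ℝ 0 H q m :=
    ⟨fun i => i.elim0, fun i => i.elim0, rfl⟩
  have hv1 : ‖((1 : ℝ), (0 : ℝ))‖ ≤ 1 := by simp [Prod.norm_def]
  have hv2 : ‖((0 : ℝ), (1 : ℝ))‖ ≤ 1 := by simp [Prod.norm_def]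
  obtain ⟨M, hM, hm⟩ :=
    fpdn_iter H pd2 (fun N G hG => fpdn_one H hH (0, 1) hv2 N G hG) b 0 H h0
  obtain ⟨M', hM', m', hm', heq⟩ :=
    fpdn_iter H pd1 (fun N G hG => fpdn_one H hH (1, 0) hv1 N G hG) a M _ hm
  have hMab : M' = a + b := by omega
  subst hMab
  unfold pd
  rw [heq]
  calc ‖iteratedFDeriv ℝ (a + b) H p m'‖
      ≤ ‖iteratedFDeriv ℝ (a + b) H p‖ * ∏ i, ‖m' i‖ :=
        ContinuousMultilinearMap.le_opNorm _ _
    _ ≤ ‖iteratedFDeriv ℝ (a + b) H p‖ * 1 := by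
        apply mul_le_mul_of_nonneg_left _ (norm_nonneg _)
        exact Finset.prod_le_one (fun i _ => norm_nonneg _) (fun i _ => hm' i)
    _ = ‖iteratedFDeriv ℝ (a + b) H p‖ := mul_one _

end Vale.Agent.Lib.P205.NF
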