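import Vale.Agent.Lib.P205.NF.FBasic
import Vale.Agent.Lib.P205.NF.FIter
import Vale.Agent.Lib.P205.NF.FPdNorm
import Vale.Agent.Lib.P205.NF.FDecay
import Vale.Agent.Lib.P205.NF.FInv2

/-!
# From smooth doubly periodic functions to coefficient families

A smooth doubly periodic real function that is small in the `C^6` norm has Hermitian,
rapidly decaying Fourier coefficients that are small in the weighted norm, and it is the
real part of its Fourier series.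
-/

namespace Vale.Agent.Lib.P205.NF

open scoped ContDiff

theorem fourier_bridge : ∃ K : ℝ, 0 < K ∧ ∀ (h : ℝ × ℝ → ℝ) (ε : ℝ),
    ContDiff ℝ ∞ h → (∀ p : ℝ × ℝ, h (p.1 + 2 * Real.pi, p.2) = h p) →
    (∀ p : ℝ × ℝ, h (p.1, p.2 + 2 * Real.pi) = h p) →
    (∀ p : ℝ × ℝ, ∀ j : ℕ, j ≤ 6 → ‖iteratedFDeriv ℝ j h p‖ ≤ ε) →
    (∀ k, fcoef (fun p => (h p : ℂ)) (-k) = (starRingEnd ℂ) (fcoef (fun p => (h p : ℂ)) k)) ∧
    (∀ n : ℕ, Summable fun k => wt k ^ n * ‖fcoef (fun p => (h p : ℂ)) k‖) ∧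
    nrm (fun k => wt k ^ 2) (fcoef (fun p => (h p : ℂ))) ≤ K * ε ∧
    ∀ p : ℝ × ℝ, (S (fcoef (fun p => (h p : ℂ))) p).re = h p := by
  obtain ⟨K, hK, hW⟩ := wiener_bound
  refine ⟨K, hK, ?_⟩
  intro h ε hh hp1 hp2 hsmall
  set H : ℝ × ℝ → ℂ := fun p => (h p : ℂ) with hHdef
  have hHs : ContDiff ℝ ∞ H := Complex.ofRealCLM.contDiff.comp hh
  have hHp : Per H := ⟨fun p => by simp only [hHdef, hp1 p], fun p => by simp only [hHdef, hp2 p]⟩
  -- coefficients of the derivatives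
  have hco : ∀ (a b : ℕ) (k : ℤ × ℤ),
      |(k.1 : ℝ)| ^ a * |(k.2 : ℝ)| ^ b * ‖fcoef H k‖ = ‖fcoef (pd a b H) k‖ := by
    intro a b k
    rw [fcoef_pd a b H hHs hHp k, norm_mul, norm_mul, norm_pow, norm_pow, norm_mul, norm_mul,
      Complex.norm_I, one_mul, one_mul]
    simp only [Complex.norm_intCast]
  -- monomial bounds
  have hmono : ∀ a b : ℕ, ∃ M : ℝ, ∀ k : ℤ × ℤ,
      |(k.1 : ℝ)| ^ a * |(k.2 : ℝ)| ^ b * ‖fcoef H k‖ ≤ M := by
    intro a b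
    obtain ⟨M, hM⟩ := per_bounded (pd a b H) (pd_contDiff a b H hHs).continuous
      (pd_per a b H hHp)
    exact ⟨M, fun k => by rw [hco a b k]; exact fcoef_norm_le _ M hM k⟩
  have hdec : ∀ n : ℕ, Summable fun k => wt k ^ n * ‖fcoef H k‖ := decay_summable _ hmono
  -- small monomial bounds
  have hiso : ∀ (j : ℕ) (p : ℝ × ℝ), ‖iteratedFDeriv ℝ j H p‖ = ‖iteratedFDeriv ℝ j h p‖ := by
    intro j p
    have := Complex.ofRealLI.norm_iteratedFDeriv_comp_left (n := ∞) (i := j)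
      (hh.contDiffAt (x := p)) (by exact_mod_cast le_top)
    exact this
  have hsm : ∀ a b : ℕ, a + b ≤ 6 → ∀ k : ℤ × ℤ,
      |(k.1 : ℝ)| ^ a * |(k.2 : ℝ)| ^ b * ‖fcoef H k‖ ≤ ε := by
    intro a b hab k
    rw [hco a b k]
    refine fcoef_norm_le _ ε (fun p => ?_) k
    exact le_trans (pd_norm_le a b H hHs p) (by rw [hiso]; exact hsmall p (a + b) hab)
  obtain ⟨-, hsum⟩ := hW (fcoef H) ε hsm
  have hs0 : Summable fun k : ℤ × ℤ => ‖fcoef H k‖ := by simpa using hdec 0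
  refine ⟨fun k => fcoef_conj h k, hdec, hsum, fun p => ?_⟩
  rw [fcoef_inversion H hHs.continuous hHp hs0 p]
  simp [hHdef]

end Vale.Agent.Lib.P205.NF
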