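import Vale.Agent.Lib.P205.NF.FDefs

/-!
# Fourier inversion in one variable
-/

namespace Vale.Agent.Lib.P205.NF

theorem fc1_inversion (u : ℝ → ℂ) (hc : Continuous u) (hp : ∀ x, u (x + 2 * Real.pi) = u x)
    (hs : Summable fun n : ℤ => ‖fc1 u n‖) (x : ℝ) :
    HasSum (fun n : ℤ => fc1 u n * Complex.exp (Complex.I * ((n : ℂ) * (x : ℂ)))) (u x) := by
  have : Fact ((0 : ℝ) < 2 * Real.pi) := ⟨Real.two_pi_pos⟩
  have hper : Function.Periodic u (2 * Real.pi) := hp
  have hf0 : ∀ y : ℝ, hper.lift (y : AddCircle (2 * Real.pi)) = u y := fun y => hper.lift_coe y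
  have hq : Topology.IsQuotientMap
      (QuotientAddGroup.mk : ℝ → AddCircle (2 * Real.pi)) := isQuotientMap_quotient_mk'
  have hcont : Continuous (hper.lift : AddCircle (2 * Real.pi) → ℂ) := by
    rw [hq.continuous_iff]
    have h1 : (hper.lift : AddCircle (2 * Real.pi) → ℂ) ∘
        (QuotientAddGroup.mk : ℝ → AddCircle (2 * Real.pi)) = u := funext hf0
    rw [h1]
    exact hc
  let f : C(AddCircle (2 * Real.pi), ℂ) := ⟨hper.lift, hcont⟩
  have hfx : ∀ y : ℝ, f (y : AddCircle (2 * Real.pi)) = u y := hf0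
  have hexp : ∀ (n : ℤ) (y : ℝ), fourier n (y : AddCircle (2 * Real.pi))
      = Complex.exp (Complex.I * ((n : ℂ) * (y : ℂ))) := by
    intro n y
    rw [fourier_coe_apply]
    congr 1
    have hpi : (Real.pi : ℂ) ≠ 0 := by exact_mod_cast Real.pi_ne_zero
    push_cast
    field_simp
  have hcoef : ∀ n : ℤ, fourierCoeff f n = fc1 u n := by
    intro n
    rw [fourierCoeff_eq_intervalIntegral (⇑f) n 0, fc1, zero_add]
    congr 1
    apply intervalIntegral.integral_congr
    intro y _
    simp only
    rw [hexp (-n) y, hfx y, smul_eq_mul, mul_comm]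
    congr 2
    push_cast
    ring
  have hsum : Summable (fourierCoeff f) := by
    have h2 : (fourierCoeff f) = fun n => fc1 u n := funext hcoef
    rw [h2]
    exact Summable.of_norm hs
  have hmain := has_pointwise_sum_fourier_series_of_summable hsum (x : AddCircle (2 * Real.pi))
  rw [hfx x] at hmain
  convert hmain using 1
  funext n
  rw [hcoef n, hexp n x, smul_eq_mul]

end Vale.Agent.Lib.P205.NF
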