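import Vale.Agent.Lib.P205.NF.FDefs

/-!
# Fourier coefficients of coordinate derivatives (integration by parts)
-/

namespace Vale.Agent.Lib.P205.NF

open MeasureTheory

/-- Derivative of the exponential factor. -/
theorem fparts_exp_hasDerivAt (n : ℤ) (x : ℝ) :
    HasDerivAt (fun x : ℝ => Complex.exp (-(Complex.I * ((n : ℂ) * (x : ℂ)))))
      (Complex.exp (-(Complex.I * ((n : ℂ) * (x : ℂ)))) * (-(Complex.I * (n : ℂ)))) x := by
  have h0 : HasDerivAt (fun x : ℝ => (x : ℂ)) 1 x := by
    simpa using (hasDerivAt_id x).ofReal_comp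
  have h1 : HasDerivAt (fun x : ℝ => -(Complex.I * ((n : ℂ) * (x : ℂ))))
      (-(Complex.I * (n : ℂ))) x := by
    exact (((h0.const_mul (n : ℂ)).const_mul Complex.I).neg).congr_deriv (by simp)
  exact h1.cexp

/-- The exponential factor is continuous. -/
theorem fparts_exp_continuous (n : ℤ) :
    Continuous (fun x : ℝ => Complex.exp (-(Complex.I * ((n : ℂ) * (x : ℂ))))) :=
  continuous_iff_continuousAt.2 fun x => (fparts_exp_hasDerivAt n x).continuousAt

/-- The exponential factor equals one at `2 pi`. -/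
theorem fparts_exp_two_pi (n : ℤ) :
    Complex.exp (-(Complex.I * ((n : ℂ) * ((2 * Real.pi : ℝ) : ℂ)))) = 1 := by
  have h := Complex.exp_int_mul_two_pi_mul_I (-n)
  rw [← h]
  congr 1
  push_cast
  ring

/-- One-dimensional integration by parts for Fourier coefficients. -/
theorem fparts_one (u u' : ℝ → ℂ) (hu : ∀ x, HasDerivAt u (u' x) x) (hu' : Continuous u')
    (hper : u (2 * Real.pi) = u 0) (n : ℤ) :
    fc1 u' n = Complex.I * (n : ℂ) * fc1 u n := by
  unfold fc1
  have hcu : Continuous u := continuous_iff_continuousAt.2 fun x => (hu x).continuousAt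
  have hce := fparts_exp_continuous n
  have key := intervalIntegral.integral_deriv_mul_eq_sub (a := 0) (b := 2 * Real.pi)
    (u := u) (v := fun x : ℝ => Complex.exp (-(Complex.I * ((n : ℂ) * (x : ℂ)))))
    (u' := u')
    (v' := fun x : ℝ => Complex.exp (-(Complex.I * ((n : ℂ) * (x : ℂ)))) *
      (-(Complex.I * (n : ℂ))))
    (fun x _ => hu x) (fun x _ => fparts_exp_hasDerivAt n x)
    (hu'.intervalIntegrable _ _) ((hce.mul continuous_const).intervalIntegrable _ _)
  have he0 : Complex.exp (-(Complex.I * ((n : ℂ) * ((0 : ℝ) : ℂ)))) = 1 := by simp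
  rw [he0, fparts_exp_two_pi n, hper, sub_self] at key
  have hi1 : IntervalIntegrable
      (fun x : ℝ => u' x * Complex.exp (-(Complex.I * ((n : ℂ) * (x : ℂ)))))
      volume 0 (2 * Real.pi) := (hu'.mul hce).intervalIntegrable _ _
  have hi2 : IntervalIntegrable
      (fun x : ℝ => u x * (Complex.exp (-(Complex.I * ((n : ℂ) * (x : ℂ)))) *
        (-(Complex.I * (n : ℂ)))))
      volume 0 (2 * Real.pi) := (hcu.mul (hce.mul continuous_const)).intervalIntegrable _ _
  rw [intervalIntegral.integral_add hi1 hi2] at key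
  have h2 : (∫ x in (0 : ℝ)..(2 * Real.pi), u x *
      (Complex.exp (-(Complex.I * ((n : ℂ) * (x : ℂ)))) * (-(Complex.I * (n : ℂ))))) =
      -(Complex.I * (n : ℂ)) * ∫ x in (0 : ℝ)..(2 * Real.pi),
        u x * Complex.exp (-(Complex.I * ((n : ℂ) * (x : ℂ)))) := by
    rw [← intervalIntegral.integral_const_mul]
    congr 1
    funext x
    ring
  rw [h2] at key
  have h3 : (∫ x in (0 : ℝ)..(2 * Real.pi),
      u' x * Complex.exp (-(Complex.I * ((n : ℂ) * (x : ℂ))))) =
      Complex.I * (n : ℂ) * ∫ x in (0 : ℝ)..(2 * Real.pi),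
        u x * Complex.exp (-(Complex.I * ((n : ℂ) * (x : ℂ)))) := by
    linear_combination key
  rw [h3, mul_smul_comm]

/-- A constant factor can be pulled out of a one-dimensional coefficient. -/
theorem fparts_const_mul (c : ℂ) (u : ℝ → ℂ) (n : ℤ) :
    fc1 (fun x => c * u x) n = c * fc1 u n := by
  unfold fc1
  rw [mul_smul_comm, ← intervalIntegral.integral_const_mul]
  congr 2
  funext x
  ring

/-- The two-dimensional coefficient with the order of integration exchanged. -/
theorem fparts_swap (H : ℝ × ℝ → ℂ) (hc : Continuous H) (k : ℤ × ℤ) :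
    fcoef H k = fc1 (fun y => fc1 (fun x => H (x, y)) k.1) k.2 := by
  unfold fcoef fc1
  simp only [smul_mul_assoc, intervalIntegral.integral_smul]
  congr 2
  simp_rw [← intervalIntegral.integral_mul_const]
  rw [MeasureTheory.intervalIntegral_intervalIntegral_swap]
  · congr 1
    funext y
    congr 1
    funext x
    ring
  · have hF : Continuous (Function.uncurry (fun (x y : ℝ) =>
        H (x, y) * Complex.exp (-(Complex.I * ((k.2 : ℂ) * (y : ℂ)))) *
          Complex.exp (-(Complex.I * ((k.1 : ℂ) * (x : ℂ)))))) := by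
      have h1 : Continuous (fun p : ℝ × ℝ => H (p.1, p.2)) := by simpa using hc
      have h2 : Continuous (fun p : ℝ × ℝ =>
          Complex.exp (-(Complex.I * ((k.2 : ℂ) * ((p.2 : ℝ) : ℂ))))) :=
        (fparts_exp_continuous k.2).comp continuous_snd
      have h3 : Continuous (fun p : ℝ × ℝ =>
          Complex.exp (-(Complex.I * ((k.1 : ℂ) * ((p.1 : ℝ) : ℂ))))) :=
        (fparts_exp_continuous k.1).comp continuous_fst
      exact (h1.mul h2).mul h3
    exact (hF.continuousOn.integrableOn_compact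
      (isCompact_uIcc.prod isCompact_uIcc)).mono_set
      (Set.prod_mono Set.uIoc_subset_uIcc Set.uIoc_subset_uIcc)

theorem fcoef_pd2 (H : ℝ × ℝ → ℂ) (hH : ContDiff ℝ 1 H) (hp : Per H) (k : ℤ × ℤ) :
    fcoef (pd2 H) k = Complex.I * (k.2 : ℂ) * fcoef H k := by
  have hdiff : Differentiable ℝ H := hH.differentiable (by norm_num)
  have hcf : Continuous (fderiv ℝ H) := hH.continuous_fderiv (by norm_num)
  have hc2 : Continuous (pd2 H) := by
    unfold pd2
    exact hcf.clm_apply continuous_const
  have hinner : ∀ x : ℝ, fc1 (fun y => pd2 H (x, y)) k.2 =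
      Complex.I * (k.2 : ℂ) * fc1 (fun y => H (x, y)) k.2 := by
    intro x
    apply fparts_one (fun y => H (x, y)) (fun y => pd2 H (x, y))
    · intro y
      have h1 : HasFDerivAt H (fderiv ℝ H (x, y)) (x, y) := (hdiff (x, y)).hasFDerivAt
      have h2 : HasDerivAt (fun y : ℝ => ((x, y) : ℝ × ℝ)) ((0 : ℝ), (1 : ℝ)) y :=
        (hasDerivAt_const y x).prodMk (hasDerivAt_id y)
      exact h1.comp_hasDerivAt y h2
    · exact hc2.comp (Continuous.prodMk_right x)
    · simpa using hp.2 (x, 0)
  unfold fcoef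
  simp_rw [hinner]
  exact fparts_const_mul _ _ _

theorem fcoef_pd1 (H : ℝ × ℝ → ℂ) (hH : ContDiff ℝ 1 H) (hp : Per H) (k : ℤ × ℤ) :
    fcoef (pd1 H) k = Complex.I * (k.1 : ℂ) * fcoef H k := by
  have hdiff : Differentiable ℝ H := hH.differentiable (by norm_num)
  have hcf : Continuous (fderiv ℝ H) := hH.continuous_fderiv (by norm_num)
  have hc1 : Continuous (pd1 H) := by
    unfold pd1
    exact hcf.clm_apply continuous_const
  rw [fparts_swap (pd1 H) hc1 k, fparts_swap H hH.continuous k]
  have hinner : ∀ y : ℝ, fc1 (fun x => pd1 H (x, y)) k.1 =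
      Complex.I * (k.1 : ℂ) * fc1 (fun x => H (x, y)) k.1 := by
    intro y
    apply fparts_one (fun x => H (x, y)) (fun x => pd1 H (x, y))
    · intro x
      have h1 : HasFDerivAt H (fderiv ℝ H (x, y)) (x, y) := (hdiff (x, y)).hasFDerivAt
      have h2 : HasDerivAt (fun x : ℝ => ((x, y) : ℝ × ℝ)) ((1 : ℝ), (0 : ℝ)) x :=
        (hasDerivAt_id x).prodMk (hasDerivAt_const x y)
      exact h1.comp_hasDerivAt x h2
    · exact hc1.comp (Continuous.prodMk_left y)
    · simpa using hp.1 (0, y)
  simp_rw [hinner]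
  exact fparts_const_mul _ _ _

end Vale.Agent.Lib.P205.NF
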