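import Vale.Agent.Lib.P205.NF.Core

/-!
# Near-flat tori: every metric near the flat square metric, up to a constant shear
-/

namespace Vale.Agent.Lib.P205.NF

open scoped ContDiff

/-- Splitting the combined decay hypothesis. -/
theorem split_decay (e f g : ℤ × ℤ → ℂ) (n : ℕ)
    (h : Summable fun k : ℤ × ℤ =>
      (1 + |(k.1 : ℝ)| + |(k.2 : ℝ)|) ^ n * (‖e k‖ + ‖f k‖ + ‖g k‖)) :
    (Summable fun k => wt k ^ n * ‖e k‖) ∧ (Summable fun k => wt k ^ n * ‖f k‖) ∧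
    (Summable fun k => wt k ^ n * ‖g k‖) := by
  have h' : Summable fun k : ℤ × ℤ => wt k ^ n * (‖e k‖ + ‖f k‖ + ‖g k‖) := h
  have w : ∀ k : ℤ × ℤ, 0 ≤ wt k ^ n := fun k => by
    have := wt_pos k
    positivity
  refine ⟨?_, ?_, ?_⟩
  · refine Summable.of_nonneg_of_le (fun k => mul_nonneg (w k) (norm_nonneg _)) (fun k => ?_) h'
    exact mul_le_mul_of_nonneg_left (by linarith [norm_nonneg (f k), norm_nonneg (g k)]) (w k)
  · refine Summable.of_nonneg_of_le (fun k => mul_nonneg (w k) (norm_nonneg _)) (fun k => ?_) h'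
    exact mul_le_mul_of_nonneg_left (by linarith [norm_nonneg (e k), norm_nonneg (g k)]) (w k)
  · refine Summable.of_nonneg_of_le (fun k => mul_nonneg (w k) (norm_nonneg _)) (fun k => ?_) h'
    exact mul_le_mul_of_nonneg_left (by linarith [norm_nonneg (e k), norm_nonneg (f k)]) (w k)

/-- The combined norm is the sum of the three norms. -/
theorem split_norm (e f g : ℤ × ℤ → ℂ)
    (h : Summable fun k : ℤ × ℤ =>
      (1 + |(k.1 : ℝ)| + |(k.2 : ℝ)|) ^ 2 * (‖e k‖ + ‖f k‖ + ‖g k‖)) :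
    ∑' k : ℤ × ℤ, (1 + |(k.1 : ℝ)| + |(k.2 : ℝ)|) ^ 2 * (‖e k‖ + ‖f k‖ + ‖g k‖) =
      nrm (fun k => wt k ^ 2) e + nrm (fun k => wt k ^ 2) f + nrm (fun k => wt k ^ 2) g := by
  obtain ⟨s1, s2, s3⟩ := split_decay e f g 2 h
  unfold nrm
  rw [← Summable.tsum_add s1 s2, ← Summable.tsum_add (s1.add s2) s3]
  refine tsum_congr (fun k => ?_)
  simp only [wt]
  ring

theorem nrm_nonneg_sq (c : ℤ × ℤ → ℂ) : 0 ≤ nrm (fun k => wt k ^ 2) c := by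
  unfold nrm
  refine tsum_nonneg (fun k => ?_)
  have := wt_pos k
  positivity

/-- Every smooth metric on the torus close to the flat square metric, after a change of the
mean value of its mixed coefficient, is induced by a smooth doubly periodic map into
four-space. -/
theorem near_flat_shear (e f g : ℤ × ℤ → ℂ)
    (he : ∀ k, e (-k) = (starRingEnd ℂ) (e k)) (hf : ∀ k, f (-k) = (starRingEnd ℂ) (f k))
    (hg : ∀ k, g (-k) = (starRingEnd ℂ) (g k))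
    (hdec : ∀ n : ℕ, Summable fun k : ℤ × ℤ =>
      (1 + |(k.1 : ℝ)| + |(k.2 : ℝ)|) ^ n * (‖e k‖ + ‖f k‖ + ‖g k‖))
    (hsmall : ∑' k : ℤ × ℤ,
      (1 + |(k.1 : ℝ)| + |(k.2 : ℝ)|) ^ 2 * (‖e k‖ + ‖f k‖ + ‖g k‖) < 1 / 1500) :
    ∃ (c : ℝ) (Ψ : ℝ × ℝ → EuclideanSpace ℝ (Fin 4)), ContDiff ℝ ∞ Ψ ∧
      (∀ p : ℝ × ℝ, Ψ (p.1 + 2 * Real.pi, p.2) = Ψ p) ∧
      (∀ p : ℝ × ℝ, Ψ (p.1, p.2 + 2 * Real.pi) = Ψ p) ∧
      ∀ p v w : ℝ × ℝ, inner ℝ (fderiv ℝ Ψ p v) (fderiv ℝ Ψ p w) =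
        (1 + (∑' k : ℤ × ℤ, e k * Complex.exp (Complex.I *
          ((k.1 : ℂ) * (p.1 : ℂ) + (k.2 : ℂ) * (p.2 : ℂ)))).re) * v.1 * w.1 +
        ((∑' k : ℤ × ℤ, f k * Complex.exp (Complex.I *
          ((k.1 : ℂ) * (p.1 : ℂ) + (k.2 : ℂ) * (p.2 : ℂ)))).re + c) *
            (v.1 * w.2 + v.2 * w.1) +
        (1 + (∑' k : ℤ × ℤ, g k * Complex.exp (Complex.I *
          ((k.1 : ℂ) * (p.1 : ℂ) + (k.2 : ℂ) * (p.2 : ℂ)))).re) * v.2 * w.2 := by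
  have de : ∀ n : ℕ, Summable fun k => wt k ^ n * ‖e k‖ := fun n =>
    (split_decay e f g n (hdec n)).1
  have df : ∀ n : ℕ, Summable fun k => wt k ^ n * ‖f k‖ := fun n =>
    (split_decay e f g n (hdec n)).2.1
  have dg : ∀ n : ℕ, Summable fun k => wt k ^ n * ‖g k‖ := fun n =>
    (split_decay e f g n (hdec n)).2.2
  have hz : ∀ k : ℤ × ℤ, (0 : ℤ × ℤ → ℂ) (-k) = (starRingEnd ℂ) ((0 : ℤ × ℤ → ℂ) k) := by
    intro k
    simp
  have dz : ∀ n : ℕ, Summable fun k : ℤ × ℤ => wt k ^ n * ‖(0 : ℤ × ℤ → ℂ) k‖ := by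
    intro n
    simpa using (summable_zero : Summable fun _ : ℤ × ℤ => (0 : ℝ))
  have dz' : Summable fun k : ℤ × ℤ => wt k ^ 2 * (wt k ^ 2 * ‖(0 : ℤ × ℤ → ℂ) k‖) := by
    simpa using (summable_zero : Summable fun _ : ℤ × ℤ => (0 : ℝ))
  have hz0 : ∑' k : ℤ × ℤ, wt k ^ 2 * (wt k ^ 2 * ‖(0 : ℤ × ℤ → ℂ) k‖) = 0 := by
    simp
  have w2 : ∀ k : ℤ × ℤ, 0 ≤ wt k ^ 2 := fun k => by positivity
  have hsum := split_norm e f g (hdec 2)
  rw [hsum] at hsmall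
  have n1 := nrm_nonneg_sq e
  have n2 := nrm_nonneg_sq f
  have n3 := nrm_nonneg_sq g
  obtain ⟨sA, bA⟩ := linA_bound (fun k => wt k ^ 2) w2 e f 0 (de 2) (df 2) dz'
  obtain ⟨sB, bB⟩ := linB_bound (fun k => wt k ^ 2) w2 g f 0 (dg 2) (df 2) dz'
  rw [hz0] at bA bB
  have hAs : nrm (fun k => wt k ^ 2) (linA e f 0) < (1 / 480 : ℝ) / 2 := by linarith
  have hBs : nrm (fun k => wt k ^ 2) (linB g f 0) < (1 / 480 : ℝ) / 2 := by linarith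
  obtain ⟨a, b, ha, hb, hfa, hfb⟩ := exists_fixed_base (linA e f 0) (linB g f 0) (1 / 480)
    (by norm_num) le_rfl ⟨sA, hAs.le⟩ ⟨sB, hBs.le⟩
  obtain ⟨Ψ, h1, h2, h3, h4⟩ := core e f g 0 he hf hg hz de df dg dz (1 / 480) le_rfl hAs hBs
    a b ha hb hfa hfb
  exact ⟨(c12 a b 0).re - (f 0).re, Ψ, h1, h2, h3, h4⟩

end Vale.Agent.Lib.P205.NF
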