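import Vale.Agent.Lib.P205.NF.ExactW
import Vale.Agent.Lib.P205.NF.FGlue

/-!
# Near-flat tori: every smooth metric close to a flat rectangular metric

Function-level statement: the metric is given by three smooth doubly periodic functions.
-/

namespace Vale.Agent.Lib.P205.NF

open scoped ContDiff

/-- Every smooth metric on the torus that is `C^6`-close to the flat rectangular metric
`A^2 dx^2 + B^2 dy^2` is induced by a smooth doubly periodic map into four-space. -/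
theorem near_flat_fun (A B : ℝ) (hA : 0 < A) (hB : 0 < B) : ∃ δ : ℝ, 0 < δ ∧
    ∀ E F G : ℝ × ℝ → ℝ, ContDiff ℝ ∞ E → ContDiff ℝ ∞ F → ContDiff ℝ ∞ G →
    (∀ p : ℝ × ℝ, E (p.1 + 2 * Real.pi, p.2) = E p ∧ E (p.1, p.2 + 2 * Real.pi) = E p ∧
      F (p.1 + 2 * Real.pi, p.2) = F p ∧ F (p.1, p.2 + 2 * Real.pi) = F p ∧
      G (p.1 + 2 * Real.pi, p.2) = G p ∧ G (p.1, p.2 + 2 * Real.pi) = G p) →
    (∀ p : ℝ × ℝ, ∀ j : ℕ, j ≤ 6 →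
      ‖iteratedFDeriv ℝ j (fun q => E q - A ^ 2) p‖ ≤ δ ∧
      ‖iteratedFDeriv ℝ j F p‖ ≤ δ ∧
      ‖iteratedFDeriv ℝ j (fun q => G q - B ^ 2) p‖ ≤ δ) →
    ∃ Ψ : ℝ × ℝ → EuclideanSpace ℝ (Fin 4), ContDiff ℝ ∞ Ψ ∧
      (∀ p : ℝ × ℝ, Ψ (p.1 + 2 * Real.pi, p.2) = Ψ p) ∧
      (∀ p : ℝ × ℝ, Ψ (p.1, p.2 + 2 * Real.pi) = Ψ p) ∧
      ∀ p v w : ℝ × ℝ, inner ℝ (fderiv ℝ Ψ p v) (fderiv ℝ Ψ p w) =
        E p * v.1 * w.1 + F p * (v.1 * w.2 + v.2 * w.1) + G p * v.2 * w.2 := by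
  obtain ⟨δ₀, hδ₀, hmain⟩ := near_flat_w A B hA hB
  obtain ⟨K, hK, hbr⟩ := fourier_bridge
  refine ⟨δ₀ / (4 * K), by positivity, ?_⟩
  intro E F G hE hF hG hper hsmall
  have hKδ : K * (δ₀ / (4 * K)) = δ₀ / 4 := by
    field_simp
  have hEs : ContDiff ℝ ∞ fun q : ℝ × ℝ => E q - A ^ 2 := hE.sub contDiff_const
  have hGs : ContDiff ℝ ∞ fun q : ℝ × ℝ => G q - B ^ 2 := hG.sub contDiff_const
  obtain ⟨e1, e2, e3, e4⟩ := hbr (fun q => E q - A ^ 2) (δ₀ / (4 * K)) hEs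
    (fun p => by simp only [(hper p).1])
    (fun p => by simp only [(hper p).2.1])
    (fun p j hj => (hsmall p j hj).1)
  obtain ⟨f1, f2, f3, f4⟩ := hbr F (δ₀ / (4 * K)) hF
    (fun p => (hper p).2.2.1)
    (fun p => (hper p).2.2.2.1)
    (fun p j hj => (hsmall p j hj).2.1)
  obtain ⟨g1, g2, g3, g4⟩ := hbr (fun q => G q - B ^ 2) (δ₀ / (4 * K)) hGs
    (fun p => by simp only [(hper p).2.2.2.2.1])
    (fun p => by simp only [(hper p).2.2.2.2.2])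
    (fun p j hj => (hsmall p j hj).2.2)
  rw [hKδ] at e3 f3 g3
  obtain ⟨Ψ, c1, c2, c3, c4⟩ := hmain _ _ _ e1 f1 g1 e2 f2 g2 (by linarith)
  refine ⟨Ψ, c1, c2, c3, ?_⟩
  intro p v w
  rw [c4 p v w, e4 p, f4 p, g4 p]
  ring

end Vale.Agent.Lib.P205.NF
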