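import Vale.Agent.Lib.P205.NF.Defs

/-!
# The gauge family and the mean shear
-/

namespace Vale.Agent.Lib.P205.NF

/-- Fourier coefficients of the gauge function `s cos(2x + y) + t cos(2x - y)`. -/
noncomputable def psiG (s t : ℝ) : ℤ × ℤ → ℂ := fun k =>
  (if k = (2, 1) ∨ k = (-2, -1) then ((s / 2 : ℝ) : ℂ) else 0) +
    (if k = (2, -1) ∨ k = (-2, 1) then ((t / 2 : ℝ) : ℂ) else 0)

/-- The mean value of the mixed metric coefficient produced by the quadratic terms. -/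
noncomputable def shear (a b : ℤ × ℤ → ℂ) : ℝ :=
  ∑' k : ℤ × ℤ, (((k.1 : ℝ) + 1) * (k.2 : ℝ) * ‖a k‖ ^ 2 +
    (k.1 : ℝ) * ((k.2 : ℝ) + 1) * ‖b k‖ ^ 2)

end Vale.Agent.Lib.P205.NF
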