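import Vale.Agent.Lib.P205.NF.LFreq

/-!
# Bounds for the twisted symbols at real frequencies
-/

namespace Vale.Agent.Lib.P205.NF

theorem lsymb_one_le_wt (j : ℤ × ℤ) : 1 ≤ wt j := by
  unfold wt
  have h1 := abs_nonneg (j.1 : ℝ)
  have h2 := abs_nonneg (j.2 : ℝ)
  linarith

theorem lsymb_wt_zero : wt (0 : ℤ × ℤ) = 1 := by
  unfold wt
  simp

theorem lsymb_ab (a b : ℝ) (ha : 1 ≤ a) (hb : 1 ≤ b) : a * b ≤ a ^ 2 * b ^ 2 := by
  have h1 : a ≤ a ^ 2 := by nlinarith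
  have h2 : b ≤ b ^ 2 := by nlinarith
  exact mul_le_mul h1 h2 (by linarith) (by positivity)

theorem lsymb_small (L a b : ℝ) (hL : 1 ≤ L) (ha : 1 ≤ a) (hb : 1 ≤ b) :
    (L ^ 2 * a) * (L ^ 2 * b) ≤ 12 * L ^ 10 * (a ^ 2 * b ^ 2) := by
  have h1 := lsymb_ab a b ha hb
  have h2 : L ^ 4 ≤ L ^ 10 := pow_le_pow_right₀ hL (by norm_num)
  have h3 : (1 : ℝ) ≤ L ^ 4 := one_le_pow₀ hL
  have h4 : 0 ≤ a * b := by nlinarith
  have e : (L ^ 2 * a) * (L ^ 2 * b) = L ^ 4 * (a * b) := by ring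
  rw [e]
  have s1 : L ^ 4 * (a * b) ≤ L ^ 10 * (a ^ 2 * b ^ 2) :=
    mul_le_mul h2 h1 h4 (by linarith)
  have s2 : 0 ≤ L ^ 10 * (a ^ 2 * b ^ 2) := le_trans (mul_nonneg (by linarith) h4) s1
  linarith

theorem lsymb_prod (a b c d X Y : ℝ) (h1 : |a| + |b| ≤ X) (h2 : |c| + |d| ≤ Y) :
    |a * c| ≤ X * Y ∧ |b * d| ≤ X * Y ∧ |a * d + b * c| ≤ X * Y ∧
      |a * d - b * c| ≤ X * Y := by
  have ha := abs_nonneg a
  have hb := abs_nonneg b
  have hc := abs_nonneg c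
  have hd := abs_nonneg d
  have hXY : (|a| + |b|) * (|c| + |d|) ≤ X * Y :=
    mul_le_mul h1 h2 (add_nonneg hc hd) (le_trans (add_nonneg ha hb) h1)
  have e1 : |a * c| = |a| * |c| := abs_mul a c
  have e2 : |b * d| = |b| * |d| := abs_mul b d
  have e3 : |a * d| = |a| * |d| := abs_mul a d
  have e4 : |b * c| = |b| * |c| := abs_mul b c
  have t1 : |a * d + b * c| ≤ |a * d| + |b * c| := abs_add_le _ _
  have t2 : |a * d - b * c| ≤ |a * d| + |b * c| := abs_sub _ _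
  have p1 : 0 ≤ |a| * |c| := mul_nonneg ha hc
  have p2 : 0 ≤ |a| * |d| := mul_nonneg ha hd
  have p3 : 0 ≤ |b| * |c| := mul_nonneg hb hc
  have p4 : 0 ≤ |b| * |d| := mul_nonneg hb hd
  have hexp : (|a| + |b|) * (|c| + |d|) =
      |a| * |c| + |a| * |d| + |b| * |c| + |b| * |d| := by ring
  refine ⟨?_, ?_, ?_, ?_⟩ <;> linarith

theorem lsymb_sqsum (a b X : ℝ) (h1 : |a| + |b| ≤ X) : a ^ 2 + b ^ 2 ≤ X ^ 2 := by
  have ha := abs_nonneg a
  have hb := abs_nonneg b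
  have h := pow_le_pow_left₀ (add_nonneg ha hb) h1 2
  have e : (|a| + |b|) ^ 2 = a ^ 2 + b ^ 2 + 2 * (|a| * |b|) := by
    rw [add_sq, sq_abs, sq_abs]
    ring
  have p := mul_nonneg ha hb
  linarith

theorem lsymb_num (a b c d X Y : ℝ) (hX : 1 ≤ X) (hY : 1 ≤ Y) (h1 : |a| + |b| ≤ X)
    (h2 : |c| + |d| ≤ Y) :
    |-(a * d - b * c) ^ 2 + (a ^ 2 + b ^ 2) * c + a * (c ^ 2 + d ^ 2)| ≤
      3 * X ^ 2 * Y ^ 2 := by
  have ha := abs_nonneg a
  have hb := abs_nonneg b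
  have hc := abs_nonneg c
  have hd := abs_nonneg d
  have hp := (lsymb_prod a b c d X Y h1 h2).2.2.2
  have s1 : (a * d - b * c) ^ 2 ≤ (X * Y) ^ 2 := by
    rw [← sq_abs (a * d - b * c)]
    exact pow_le_pow_left₀ (abs_nonneg _) hp 2
  have s2 := lsymb_sqsum a b X h1
  have s3 := lsymb_sqsum c d Y h2
  have hcY : |c| ≤ Y := by linarith
  have haX : |a| ≤ X := by linarith
  have q1 : 0 ≤ a ^ 2 + b ^ 2 := by positivity
  have q2 : 0 ≤ c ^ 2 + d ^ 2 := by positivity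
  have t1 : |(a ^ 2 + b ^ 2) * c| ≤ X ^ 2 * Y := by
    rw [abs_mul, abs_of_nonneg q1]
    exact mul_le_mul s2 hcY hc (by positivity)
  have t2 : |a * (c ^ 2 + d ^ 2)| ≤ X * Y ^ 2 := by
    rw [abs_mul, abs_of_nonneg q2]
    exact mul_le_mul haX s3 q2 (by linarith)
  have t0 : |-(a * d - b * c) ^ 2| ≤ (X * Y) ^ 2 := by
    rw [abs_neg, abs_of_nonneg (sq_nonneg _)]
    exact s1
  have tri : |-(a * d - b * c) ^ 2 + (a ^ 2 + b ^ 2) * c + a * (c ^ 2 + d ^ 2)| ≤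
      |-(a * d - b * c) ^ 2| + |(a ^ 2 + b ^ 2) * c| + |a * (c ^ 2 + d ^ 2)| :=
    abs_add_three _ _ _
  have u1 : X ^ 2 * Y ≤ X ^ 2 * Y ^ 2 := by
    have hYY : Y ≤ Y ^ 2 := by nlinarith
    exact mul_le_mul_of_nonneg_left hYY (by positivity)
  have u2 : X * Y ^ 2 ≤ X ^ 2 * Y ^ 2 := by
    have hXX : X ≤ X ^ 2 := by nlinarith
    exact mul_le_mul_of_nonneg_right hXX (by positivity)
  have u0 : (X * Y) ^ 2 = X ^ 2 * Y ^ 2 := by ring
  linarith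

theorem lsymb_num' (a b c d X Y : ℝ) (hX : 1 ≤ X) (hY : 1 ≤ Y) (h1 : |a| + |b| ≤ X)
    (h2 : |c| + |d| ≤ Y) :
    |-(a * d - b * c) ^ 2 + (a ^ 2 + b ^ 2) * d + b * (c ^ 2 + d ^ 2)| ≤
      3 * X ^ 2 * Y ^ 2 := by
  have h1' : |b| + |a| ≤ X := by linarith
  have h2' : |d| + |c| ≤ Y := by linarith
  have h := lsymb_num b a d c X Y hX hY h1' h2'
  have e : -(a * d - b * c) ^ 2 + (a ^ 2 + b ^ 2) * d + b * (c ^ 2 + d ^ 2) =
      -(b * c - a * d) ^ 2 + (b ^ 2 + a ^ 2) * d + b * (d ^ 2 + c ^ 2) := by ring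
  rw [e]
  exact h

theorem lsymb_den (k l : ℤ × ℤ) (hD : ldet k l ≠ 0) (m : ℤ × ℤ) (hm : m ≠ 0) :
    wt m ^ 2 ≤ 8 * lam k l ^ 2 * (nu1 k l m ^ 2 + nu2 k l m ^ 2) := by
  have hL := lam_ge_one k l hD
  have hlow := nu_lower k l hD m
  have h1 := abs_nonneg (m.1 : ℝ)
  have h2 := abs_nonneg (m.2 : ℝ)
  have hs : (1 : ℝ) ≤ |(m.1 : ℝ)| + |(m.2 : ℝ)| := by
    by_cases hm1 : m.1 = 0
    · have hm2 : m.2 ≠ 0 := by
        intro h
        exact hm (Prod.ext hm1 h)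
      have h3 : (1 : ℝ) ≤ |(m.2 : ℝ)| := by
        have h4 := Int.one_le_abs hm2
        exact_mod_cast h4
      linarith
    · have h3 : (1 : ℝ) ≤ |(m.1 : ℝ)| := by
        have h4 := Int.one_le_abs hm1
        exact_mod_cast h4
      linarith
  have ht0 : 0 ≤ |nu1 k l m| + |nu2 k l m| := add_nonneg (abs_nonneg _) (abs_nonneg _)
  have hw : wt m ≤ 2 * (lam k l * (|nu1 k l m| + |nu2 k l m|)) := by
    unfold wt
    linarith
  have hw0 : 0 ≤ wt m := by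
    unfold wt
    linarith
  have hsq : wt m ^ 2 ≤ (2 * (lam k l * (|nu1 k l m| + |nu2 k l m|))) ^ 2 :=
    pow_le_pow_left₀ hw0 hw 2
  have ht2 : (|nu1 k l m| + |nu2 k l m|) ^ 2 ≤ 2 * (nu1 k l m ^ 2 + nu2 k l m ^ 2) := by
    have e : (|nu1 k l m| + |nu2 k l m|) ^ 2 =
        nu1 k l m ^ 2 + nu2 k l m ^ 2 + 2 * (|nu1 k l m| * |nu2 k l m|) := by
      rw [add_sq, sq_abs, sq_abs]
      ring
    have q : 2 * (|nu1 k l m| * |nu2 k l m|) ≤ nu1 k l m ^ 2 + nu2 k l m ^ 2 := by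
      have h5 := sq_nonneg (|nu1 k l m| - |nu2 k l m|)
      have e2 : (|nu1 k l m| - |nu2 k l m|) ^ 2 =
          nu1 k l m ^ 2 + nu2 k l m ^ 2 - 2 * (|nu1 k l m| * |nu2 k l m|) := by
        rw [sub_sq, sq_abs, sq_abs]
        ring
      linarith
    linarith
  have e3 : (2 * (lam k l * (|nu1 k l m| + |nu2 k l m|))) ^ 2 =
      4 * lam k l ^ 2 * (|nu1 k l m| + |nu2 k l m|) ^ 2 := by ring
  have hL2 : 0 ≤ 4 * lam k l ^ 2 := by positivity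
  have h6 := mul_le_mul_of_nonneg_left ht2 hL2
  linarith

theorem lsymb_core (N S W L X Y : ℝ) (hS : 0 < S)
    (hN : |N| ≤ 3 * X ^ 2 * Y ^ 2) (hW : W ≤ 8 * L ^ 2 * S) :
    |N / (2 * S)| * W ≤ 12 * L ^ 2 * (X ^ 2 * Y ^ 2) := by
  have h2S : 0 < 2 * S := by linarith
  rw [abs_div, abs_of_pos h2S, div_mul_eq_mul_div, div_le_iff₀ h2S]
  have hN0 := abs_nonneg N
  have hL : 0 ≤ L ^ 2 := sq_nonneg L
  have a1 : |N| * W ≤ |N| * (8 * L ^ 2 * S) := mul_le_mul_of_nonneg_left hW hN0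
  have a2 : |N| * (8 * L ^ 2 * S) ≤ (3 * X ^ 2 * Y ^ 2) * (8 * L ^ 2 * S) :=
    mul_le_mul_of_nonneg_right hN (by positivity)
  have e : 12 * L ^ 2 * (X ^ 2 * Y ^ 2) * (2 * S) =
      (3 * X ^ 2 * Y ^ 2) * (8 * L ^ 2 * S) := by ring
  linarith

theorem lsymb_tauA (k l : ℤ × ℤ) (hD : ldet k l ≠ 0) (e : ℤ × ℤ) (he : e = k ∨ e = l) :
    SymOK (12 * lam k l ^ 10) (twmR tauAR k l e) := by
  intro m j
  have hL := lam_ge_one k l hD
  have hj := lsymb_one_le_wt j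
  have hmj := lsymb_one_le_wt (m - j)
  have hk := (nu_shift k l hD e he j).1
  have hl := (nu_shift k l hD e he (m - j)).2
  have hL2 : 1 ≤ lam k l ^ 2 := one_le_pow₀ hL
  have hX : 1 ≤ lam k l ^ 2 * wt j := by nlinarith
  have hY : 1 ≤ lam k l ^ 2 * wt (m - j) := by nlinarith
  show ‖((tauAR (fr k l m) (fr k l (j + e)) (fr k l (m - j - e)) : ℝ) : ℂ)‖ * wt m ^ 2 ≤ _
  rw [Complex.norm_real, Real.norm_eq_abs]
  by_cases hm : m = 0
  · have hf : fr k l m = 0 := (fr_eq_zero k l hD m).2 hm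
    have hw : wt m = 1 := by
      rw [hm]
      exact lsymb_wt_zero
    rw [hw]
    unfold tauAR
    rw [if_pos hf]
    have hp := (lsymb_prod _ _ _ _ _ _ hk hl).1
    have hsm := lsymb_small (lam k l) (wt j) (wt (m - j)) hL hj hmj
    have h0 := abs_nonneg ((fr k l (j + e)).1 * (fr k l (m - j - e)).1)
    have hp' : |(fr k l (j + e)).1 * (fr k l (m - j - e)).1| ≤
        lam k l ^ 2 * wt j * (lam k l ^ 2 * wt (m - j)) := hp
    rw [abs_div, abs_two]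
    linarith
  · have hf : fr k l m ≠ 0 := fun h => hm ((fr_eq_zero k l hD m).1 h)
    have hS : 0 < nu1 k l m ^ 2 + nu2 k l m ^ 2 := nu_sq_pos k l hD m hm
    have hden := lsymb_den k l hD m hm
    have hnum := lsymb_num _ _ _ _ _ _ hX hY hk hl
    have hcore := lsymb_core _ _ _ _ _ _ hS hnum hden
    unfold tauAR
    rw [if_neg hf]
    have e1 : 12 * lam k l ^ 2 *
        ((lam k l ^ 2 * wt j) ^ 2 * (lam k l ^ 2 * wt (m - j)) ^ 2) =
        12 * lam k l ^ 10 * (wt j ^ 2 * wt (m - j) ^ 2) := by ring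
    rw [← e1]
    exact hcore

theorem lsymb_tauB (k l : ℤ × ℤ) (hD : ldet k l ≠ 0) (e : ℤ × ℤ) (he : e = k ∨ e = l) :
    SymOK (12 * lam k l ^ 10) (twmR tauBR k l e) := by
  intro m j
  have hL := lam_ge_one k l hD
  have hj := lsymb_one_le_wt j
  have hmj := lsymb_one_le_wt (m - j)
  have hk := (nu_shift k l hD e he j).1
  have hl := (nu_shift k l hD e he (m - j)).2
  have hL2 : 1 ≤ lam k l ^ 2 := one_le_pow₀ hL
  have hX : 1 ≤ lam k l ^ 2 * wt j := by nlinarith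
  have hY : 1 ≤ lam k l ^ 2 * wt (m - j) := by nlinarith
  show ‖((tauBR (fr k l m) (fr k l (j + e)) (fr k l (m - j - e)) : ℝ) : ℂ)‖ * wt m ^ 2 ≤ _
  rw [Complex.norm_real, Real.norm_eq_abs]
  by_cases hm : m = 0
  · have hf : fr k l m = 0 := (fr_eq_zero k l hD m).2 hm
    have hw : wt m = 1 := by
      rw [hm]
      exact lsymb_wt_zero
    rw [hw]
    unfold tauBR
    rw [if_pos hf]
    have hp := (lsymb_prod _ _ _ _ _ _ hk hl).2.1
    have hsm := lsymb_small (lam k l) (wt j) (wt (m - j)) hL hj hmj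
    have h0 := abs_nonneg ((fr k l (j + e)).2 * (fr k l (m - j - e)).2)
    have hp' : |(fr k l (j + e)).2 * (fr k l (m - j - e)).2| ≤
        lam k l ^ 2 * wt j * (lam k l ^ 2 * wt (m - j)) := hp
    rw [abs_div, abs_two]
    linarith
  · have hf : fr k l m ≠ 0 := fun h => hm ((fr_eq_zero k l hD m).1 h)
    have hS : 0 < nu1 k l m ^ 2 + nu2 k l m ^ 2 := nu_sq_pos k l hD m hm
    have hden := lsymb_den k l hD m hm
    have hnum := lsymb_num' _ _ _ _ _ _ hX hY hk hl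
    have hcore := lsymb_core _ _ _ _ _ _ hS hnum hden
    unfold tauBR
    rw [if_neg hf]
    have e1 : 12 * lam k l ^ 2 *
        ((lam k l ^ 2 * wt j) ^ 2 * (lam k l ^ 2 * wt (m - j)) ^ 2) =
        12 * lam k l ^ 10 * (wt j ^ 2 * wt (m - j) ^ 2) := by ring
    rw [← e1]
    exact hcore

theorem tauR_bound (k l : ℤ × ℤ) (hD : ldet k l ≠ 0) :
    ∃ C : ℝ, 1 ≤ C ∧ ∀ e : ℤ × ℤ, (e = k ∨ e = l) →
      SymOK C (twmR tauAR k l e) ∧ SymOK C (twmR tauBR k l e) := by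
  have hL := lam_ge_one k l hD
  have h10 : (1 : ℝ) ≤ lam k l ^ 10 := one_le_pow₀ hL
  refine ⟨12 * lam k l ^ 10, by linarith, ?_⟩
  intro e he
  exact ⟨lsymb_tauA k l hD e he, lsymb_tauB k l hD e he⟩

theorem QR_bound (k l : ℤ × ℤ) (hD : ldet k l ≠ 0) :
    ∃ C : ℝ, 1 ≤ C ∧ ∀ e : ℤ × ℤ, (e = k ∨ e = l) → ∀ m j : ℤ × ℤ,
      ‖twR QR11 k l e m j‖ ≤ C * (wt j ^ 2 * wt (m - j) ^ 2) ∧
      ‖twR QR22 k l e m j‖ ≤ C * (wt j ^ 2 * wt (m - j) ^ 2) ∧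
      ‖twR QR12 k l e m j‖ ≤ C * (wt j ^ 2 * wt (m - j) ^ 2) := by
  have hL := lam_ge_one k l hD
  refine ⟨lam k l ^ 4, one_le_pow₀ hL, ?_⟩
  intro e he m j
  have hj := lsymb_one_le_wt j
  have hmj := lsymb_one_le_wt (m - j)
  have hk := (nu_shift k l hD e he j).1
  have hl := (nu_shift k l hD e he (m - j)).2
  have hp := lsymb_prod _ _ _ _ _ _ hk hl
  have hb := lsymb_ab (wt j) (wt (m - j)) hj hmj
  have e1 : lam k l ^ 2 * wt j * (lam k l ^ 2 * wt (m - j)) =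
      lam k l ^ 4 * (wt j * wt (m - j)) := by ring
  have hL4 : 0 ≤ lam k l ^ 4 := by positivity
  have hfin : lam k l ^ 2 * wt j * (lam k l ^ 2 * wt (m - j)) ≤
      lam k l ^ 4 * (wt j ^ 2 * wt (m - j) ^ 2) := by
    rw [e1]
    exact mul_le_mul_of_nonneg_left hb hL4
  refine ⟨?_, ?_, ?_⟩
  · show ‖((QR11 (fr k l (j + e)) (fr k l (m - j - e)) : ℝ) : ℂ)‖ ≤ _
    rw [Complex.norm_real, Real.norm_eq_abs]
    unfold QR11
    rw [abs_neg]
    exact le_trans hp.1 hfin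
  · show ‖((QR22 (fr k l (j + e)) (fr k l (m - j - e)) : ℝ) : ℂ)‖ ≤ _
    rw [Complex.norm_real, Real.norm_eq_abs]
    unfold QR22
    rw [abs_neg]
    exact le_trans hp.2.1 hfin
  · show ‖((QR12 (fr k l (j + e)) (fr k l (m - j - e)) : ℝ) : ℂ)‖ ≤ _
    rw [Complex.norm_real, Real.norm_eq_abs]
    unfold QR12
    rw [abs_div, abs_neg, abs_two]
    have h3 : |(fr k l (j + e)).1 * (fr k l (m - j - e)).2 +
        (fr k l (j + e)).2 * (fr k l (m - j - e)).1| ≤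
        lam k l ^ 2 * wt j * (lam k l ^ 2 * wt (m - j)) := hp.2.2.1
    have h0 := abs_nonneg ((fr k l (j + e)).1 * (fr k l (m - j - e)).2 +
        (fr k l (j + e)).2 * (fr k l (m - j - e)).1)
    linarith

end Vale.Agent.Lib.P205.NF
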