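import Vale.Agent.Lib.P205.NF.LFreq

/-!
# Symbol identities at real frequencies
-/

namespace Vale.Agent.Lib.P205.NF

theorem lsymid_tauAR_zero (κ l : ℝ × ℝ) : tauAR (0, 0) κ l = κ.1 * l.1 / 2 := by
  unfold tauAR
  rw [if_pos (Prod.mk_eq_zero.mpr ⟨rfl, rfl⟩)]

theorem lsymid_tauBR_zero (κ l : ℝ × ℝ) : tauBR (0, 0) κ l = κ.2 * l.2 / 2 := by
  unfold tauBR
  rw [if_pos (Prod.mk_eq_zero.mpr ⟨rfl, rfl⟩)]

theorem lsymid_tauAR_ne (x y : ℝ) (h : ¬ (x = 0 ∧ y = 0)) (κ l : ℝ × ℝ) :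
    tauAR (x, y) κ l =
      (-(κ.1 * l.2 - κ.2 * l.1) ^ 2 + (κ.1 ^ 2 + κ.2 ^ 2) * l.1 + κ.1 * (l.1 ^ 2 + l.2 ^ 2)) /
        (2 * (x ^ 2 + y ^ 2)) := by
  unfold tauAR
  rw [if_neg (fun h0 => h (Prod.mk_eq_zero.mp h0))]

theorem lsymid_tauBR_ne (x y : ℝ) (h : ¬ (x = 0 ∧ y = 0)) (κ l : ℝ × ℝ) :
    tauBR (x, y) κ l =
      (-(κ.1 * l.2 - κ.2 * l.1) ^ 2 + (κ.1 ^ 2 + κ.2 ^ 2) * l.2 + κ.2 * (l.1 ^ 2 + l.2 ^ 2)) /
        (2 * (x ^ 2 + y ^ 2)) := by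
  unfold tauBR
  rw [if_neg (fun h0 => h (Prod.mk_eq_zero.mp h0))]

theorem lsymid_den (x y : ℝ) (h : ¬ (x = 0 ∧ y = 0)) : x ^ 2 + y ^ 2 ≠ 0 := by
  intro h0
  apply h
  have hx : x ^ 2 = 0 := by linarith [sq_nonneg x, sq_nonneg y]
  have hy : y ^ 2 = 0 := by linarith [sq_nonneg x, sq_nonneg y]
  exact ⟨(pow_eq_zero_iff two_ne_zero).mp hx, (pow_eq_zero_iff two_ne_zero).mp hy⟩

theorem lsymid_neg (x y : ℝ) (h : ¬ (x = 0 ∧ y = 0)) : ¬ (-x = 0 ∧ -y = 0) :=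
  fun h0 => h ⟨neg_eq_zero.mp h0.1, neg_eq_zero.mp h0.2⟩

/-- The first diagonal identity at real frequencies, twist `(1, 0)`. -/
theorem lsymid_A1 (x y u v : ℝ) :
    (x + 1) * tauAR (x, y) (u + 1, v + 0) (x - u - 1, y - v - 0)
      - (x - 1) * tauAR (-x, -y) (u - x + 1, v - y + 0)
          (-x - (u - x) - 1, -y - (v - y) - 0)
      + QR11 (u + 1, v + 0) (x - u - 1, y - v - 0) = 0 := by
  by_cases h : x = 0 ∧ y = 0
  · obtain ⟨hx, hy⟩ := h
    subst hx hy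
    rw [neg_zero, lsymid_tauAR_zero, lsymid_tauAR_zero]
    unfold QR11
    dsimp only
    ring
  · have hden := lsymid_den x y h
    rw [lsymid_tauAR_ne x y h, lsymid_tauAR_ne (-x) (-y) (lsymid_neg x y h)]
    unfold QR11
    dsimp only
    rw [neg_sq, neg_sq]
    field_simp
    ring

/-- The first diagonal identity at real frequencies, twist `(0, 1)`. -/
theorem lsymid_A2 (x y u v : ℝ) :
    (x + 1) * tauAR (x, y) (u + 0, v + 1) (x - u - 0, y - v - 1)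
      - (x - 1) * tauAR (-x, -y) (u - x + 0, v - y + 1)
          (-x - (u - x) - 0, -y - (v - y) - 1)
      + QR11 (u + 0, v + 1) (x - u - 0, y - v - 1) = 0 := by
  by_cases h : x = 0 ∧ y = 0
  · obtain ⟨hx, hy⟩ := h
    subst hx hy
    rw [neg_zero, lsymid_tauAR_zero, lsymid_tauAR_zero]
    unfold QR11
    dsimp only
    ring
  · have hden := lsymid_den x y h
    rw [lsymid_tauAR_ne x y h, lsymid_tauAR_ne (-x) (-y) (lsymid_neg x y h)]
    unfold QR11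
    dsimp only
    rw [neg_sq, neg_sq]
    field_simp
    ring

/-- The second diagonal identity at real frequencies, twist `(1, 0)`. -/
theorem lsymid_B1 (x y u v : ℝ) :
    (y + 1) * tauBR (x, y) (u + 1, v + 0) (x - u - 1, y - v - 0)
      - (y - 1) * tauBR (-x, -y) (u - x + 1, v - y + 0)
          (-x - (u - x) - 1, -y - (v - y) - 0)
      + QR22 (u + 1, v + 0) (x - u - 1, y - v - 0) = 0 := by
  by_cases h : x = 0 ∧ y = 0
  · obtain ⟨hx, hy⟩ := h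
    subst hx hy
    rw [neg_zero, lsymid_tauBR_zero, lsymid_tauBR_zero]
    unfold QR22
    dsimp only
    ring
  · have hden := lsymid_den x y h
    rw [lsymid_tauBR_ne x y h, lsymid_tauBR_ne (-x) (-y) (lsymid_neg x y h)]
    unfold QR22
    dsimp only
    rw [neg_sq, neg_sq]
    field_simp
    ring

/-- The second diagonal identity at real frequencies, twist `(0, 1)`. -/
theorem lsymid_B2 (x y u v : ℝ) :
    (y + 1) * tauBR (x, y) (u + 0, v + 1) (x - u - 0, y - v - 1)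
      - (y - 1) * tauBR (-x, -y) (u - x + 0, v - y + 1)
          (-x - (u - x) - 0, -y - (v - y) - 1)
      + QR22 (u + 0, v + 1) (x - u - 0, y - v - 1) = 0 := by
  by_cases h : x = 0 ∧ y = 0
  · obtain ⟨hx, hy⟩ := h
    subst hx hy
    rw [neg_zero, lsymid_tauBR_zero, lsymid_tauBR_zero]
    unfold QR22
    dsimp only
    ring
  · have hden := lsymid_den x y h
    rw [lsymid_tauBR_ne x y h, lsymid_tauBR_ne (-x) (-y) (lsymid_neg x y h)]
    unfold QR22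
    dsimp only
    rw [neg_sq, neg_sq]
    field_simp
    ring

/-- The mixed identity at real frequencies, twist `(1, 0)`. -/
theorem lsymid_C1 (x y u v : ℝ) (h : ¬ (x = 0 ∧ y = 0)) :
    y / 2 * (tauAR (x, y) (u + 1, v + 0) (x - u - 1, y - v - 0)
        - tauAR (-x, -y) (u - x + 1, v - y + 0) (-x - (u - x) - 1, -y - (v - y) - 0))
      + x / 2 * (tauBR (x, y) (u + 1, v + 0) (x - u - 1, y - v - 0)
        - tauBR (-x, -y) (u - x + 1, v - y + 0) (-x - (u - x) - 1, -y - (v - y) - 0))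
      + QR12 (u + 1, v + 0) (x - u - 1, y - v - 0) = 0 := by
  have hden := lsymid_den x y h
  rw [lsymid_tauAR_ne x y h, lsymid_tauAR_ne (-x) (-y) (lsymid_neg x y h),
    lsymid_tauBR_ne x y h, lsymid_tauBR_ne (-x) (-y) (lsymid_neg x y h)]
  unfold QR12
  dsimp only
  rw [neg_sq, neg_sq]
  field_simp
  ring

/-- The mixed identity at real frequencies, twist `(0, 1)`. -/
theorem lsymid_C2 (x y u v : ℝ) (h : ¬ (x = 0 ∧ y = 0)) :
    y / 2 * (tauAR (x, y) (u + 0, v + 1) (x - u - 0, y - v - 1)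
        - tauAR (-x, -y) (u - x + 0, v - y + 1) (-x - (u - x) - 0, -y - (v - y) - 1))
      + x / 2 * (tauBR (x, y) (u + 0, v + 1) (x - u - 0, y - v - 1)
        - tauBR (-x, -y) (u - x + 0, v - y + 1) (-x - (u - x) - 0, -y - (v - y) - 1))
      + QR12 (u + 0, v + 1) (x - u - 0, y - v - 1) = 0 := by
  have hden := lsymid_den x y h
  rw [lsymid_tauAR_ne x y h, lsymid_tauAR_ne (-x) (-y) (lsymid_neg x y h),
    lsymid_tauBR_ne x y h, lsymid_tauBR_ne (-x) (-y) (lsymid_neg x y h)]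
  unfold QR12
  dsimp only
  rw [neg_sq, neg_sq]
  field_simp
  ring

/-- A twisted symbol depending on the output frequency, in frequency coordinates. -/
theorem lsymid_twm (σ : ℝ × ℝ → ℝ × ℝ → ℝ × ℝ → ℝ) (k l e m j : ℤ × ℤ) :
    twmR σ k l e m j = ((σ (nu1 k l m, nu2 k l m)
      (nu1 k l j + nu1 k l e, nu2 k l j + nu2 k l e)
      (nu1 k l m - nu1 k l j - nu1 k l e, nu2 k l m - nu2 k l j - nu2 k l e) : ℝ) : ℂ) := by
  unfold twmR fr
  rw [(nu_add k l j e).1, (nu_add k l j e).2, (nu_sub k l (m - j) e).1,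
    (nu_sub k l (m - j) e).2, (nu_sub k l m j).1, (nu_sub k l m j).2]

/-- The adjoint of a twisted symbol, in frequency coordinates. -/
theorem lsymid_dag (σ : ℝ × ℝ → ℝ × ℝ → ℝ × ℝ → ℝ) (k l e m j : ℤ × ℤ) :
    dag (twmR σ k l e) m j = ((σ (-nu1 k l m, -nu2 k l m)
      (nu1 k l j - nu1 k l m + nu1 k l e, nu2 k l j - nu2 k l m + nu2 k l e)
      (-nu1 k l m - (nu1 k l j - nu1 k l m) - nu1 k l e,
        -nu2 k l m - (nu2 k l j - nu2 k l m) - nu2 k l e) : ℝ) : ℂ) := by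
  unfold dag
  rw [lsymid_twm, Complex.conj_ofReal, (nu_neg k l m).1, (nu_neg k l m).2,
    (nu_sub k l j m).1, (nu_sub k l j m).2]

/-- A twisted symbol not depending on the output frequency, in frequency coordinates. -/
theorem lsymid_tw (σ : ℝ × ℝ → ℝ × ℝ → ℝ) (k l e m j : ℤ × ℤ) :
    twR σ k l e m j = ((σ (nu1 k l j + nu1 k l e, nu2 k l j + nu2 k l e)
      (nu1 k l m - nu1 k l j - nu1 k l e, nu2 k l m - nu2 k l j - nu2 k l e) : ℝ) : ℂ) := by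
  unfold twR fr
  rw [(nu_add k l j e).1, (nu_add k l j e).2, (nu_sub k l (m - j) e).1,
    (nu_sub k l (m - j) e).2, (nu_sub k l m j).1, (nu_sub k l m j).2]

/-- The frequency of a twist vector is one of the two unit vectors. -/
theorem lsymid_basis (k l : ℤ × ℤ) (hD : ldet k l ≠ 0) (e : ℤ × ℤ) (he : e = k ∨ e = l) :
    (nu1 k l e = 1 ∧ nu2 k l e = 0) ∨ (nu1 k l e = 0 ∧ nu2 k l e = 1) := by
  obtain ⟨h1, h2, h3, h4⟩ := nu_basis k l hD
  rcases he with he | he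
  · subst he
    exact Or.inl ⟨h1, h2⟩
  · subst he
    exact Or.inr ⟨h3, h4⟩

/-- A nonzero index has a nonzero frequency. -/
theorem lsymid_freq_ne (k l : ℤ × ℤ) (hD : ldet k l ≠ 0) (m : ℤ × ℤ) (hm : m ≠ 0) :
    ¬ (nu1 k l m = 0 ∧ nu2 k l m = 0) := by
  intro h0
  apply hm
  apply (fr_eq_zero k l hD m).mp
  unfold fr
  exact Prod.mk_eq_zero.mpr h0

theorem symL_11 (k l : ℤ × ℤ) (hD : ldet k l ≠ 0) (e : ℤ × ℤ) (he : e = k ∨ e = l)
    (m j : ℤ × ℤ) :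
    ((nu1 k l m : ℂ) + 1) * twmR tauAR k l e m j -
      ((nu1 k l m : ℂ) - 1) * dag (twmR tauAR k l e) m j + twR QR11 k l e m j = 0 := by
  rw [lsymid_twm, lsymid_dag, lsymid_tw]
  rcases lsymid_basis k l hD e he with ⟨hp, hq⟩ | ⟨hp, hq⟩
  · rw [hp, hq]
    exact_mod_cast lsymid_A1 (nu1 k l m) (nu2 k l m) (nu1 k l j) (nu2 k l j)
  · rw [hp, hq]
    exact_mod_cast lsymid_A2 (nu1 k l m) (nu2 k l m) (nu1 k l j) (nu2 k l j)

theorem symL_22 (k l : ℤ × ℤ) (hD : ldet k l ≠ 0) (e : ℤ × ℤ) (he : e = k ∨ e = l)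
    (m j : ℤ × ℤ) :
    ((nu2 k l m : ℂ) + 1) * twmR tauBR k l e m j -
      ((nu2 k l m : ℂ) - 1) * dag (twmR tauBR k l e) m j + twR QR22 k l e m j = 0 := by
  rw [lsymid_twm, lsymid_dag, lsymid_tw]
  rcases lsymid_basis k l hD e he with ⟨hp, hq⟩ | ⟨hp, hq⟩
  · rw [hp, hq]
    exact_mod_cast lsymid_B1 (nu1 k l m) (nu2 k l m) (nu1 k l j) (nu2 k l j)
  · rw [hp, hq]
    exact_mod_cast lsymid_B2 (nu1 k l m) (nu2 k l m) (nu1 k l j) (nu2 k l j)

theorem symL_12 (k l : ℤ × ℤ) (hD : ldet k l ≠ 0) (e : ℤ × ℤ) (he : e = k ∨ e = l)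
    (m j : ℤ × ℤ) (hm : m ≠ 0) :
    (nu2 k l m : ℂ) / 2 * (twmR tauAR k l e m j - dag (twmR tauAR k l e) m j) +
      (nu1 k l m : ℂ) / 2 * (twmR tauBR k l e m j - dag (twmR tauBR k l e) m j) +
      twR QR12 k l e m j = 0 := by
  have hne := lsymid_freq_ne k l hD m hm
  rw [lsymid_twm, lsymid_dag, lsymid_twm, lsymid_dag, lsymid_tw]
  rcases lsymid_basis k l hD e he with ⟨hp, hq⟩ | ⟨hp, hq⟩
  · rw [hp, hq]
    exact_mod_cast lsymid_C1 (nu1 k l m) (nu2 k l m) (nu1 k l j) (nu2 k l j) hne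
  · rw [hp, hq]
    exact_mod_cast lsymid_C2 (nu1 k l m) (nu2 k l m) (nu1 k l j) (nu2 k l j) hne

end Vale.Agent.Lib.P205.NF
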