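import Vale.Agent.Lib.P205.NF.CoefGen
import Vale.Agent.Lib.P205.NF.LSymBound
import Vale.Agent.Lib.P205.NF.LSymId

/-!
# The metric coefficients of a fixed point, general homogeneous flat base
-/

namespace Vale.Agent.Lib.P205.NF

/-- Conjugate form of a scaled fixed point equation. -/
theorem lcoefgen_star (A : ℝ) (a T : ℤ × ℤ → ℂ) (h : ∀ m, T m = (A : ℂ) * a m) (m : ℤ × ℤ) :
    (A : ℂ) * cstar a m = cstar T m := by
  simp only [cstar]
  rw [h (-m), map_mul, Complex.conj_ofReal]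

/-- A symbol bound with the weight of the output frequency gives the bound without it. -/
theorem lcoefgen_bound (C : ℝ) (τ : ℤ × ℤ → ℤ × ℤ → ℂ) (hτ : SymOK C τ) (m j : ℤ × ℤ) :
    ‖τ m j‖ ≤ C * (wt j ^ 2 * wt (m - j) ^ 2) :=
  (le_mul_of_one_le_right (norm_nonneg _) (one_le_pow₀ (coefgen_wt_ge_one m))).trans (hτ m j)

theorem coef_gen_l (k l : ℤ × ℤ) (hD : ldet k l ≠ 0) (A B : ℝ) (lA lB a b : ℤ × ℤ → ℂ)
    (ha : Summable fun j => wt j ^ 2 * ‖a j‖) (hb : Summable fun j => wt j ^ 2 * ‖b j‖)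
    (hfa : ∀ m, lA m + quad (twmR tauAR k l k) (twmR tauAR k l l) a b m = (A : ℂ) * a m)
    (hfb : ∀ m, lB m + quad (twmR tauBR k l k) (twmR tauBR k l l) a b m = (B : ℂ) * b m) :
    (∀ m : ℤ × ℤ, c11L k l A a b m =
      ((nu1 k l m : ℂ) + 1) * lA m - ((nu1 k l m : ℂ) - 1) * cstar lA m) ∧
    (∀ m : ℤ × ℤ, c22L k l B a b m =
      ((nu2 k l m : ℂ) + 1) * lB m - ((nu2 k l m : ℂ) - 1) * cstar lB m) ∧
    (∀ m : ℤ × ℤ, m ≠ 0 → c12L k l A B a b m =
      (nu2 k l m : ℂ) / 2 * (lA m - cstar lA m) +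
        (nu1 k l m : ℂ) / 2 * (lB m - cstar lB m)) := by
  have hwe : ∀ j : ℤ × ℤ, wt (-j) ^ 2 = wt j ^ 2 := fun j => by rw [coefgen_wt_neg]
  have has : Summable fun j => wt j ^ 2 * ‖cstar a j‖ :=
    summable_cstar (fun j => wt j ^ 2) hwe a ha
  have hbs : Summable fun j => wt j ^ 2 * ‖cstar b j‖ :=
    summable_cstar (fun j => wt j ^ 2) hwe b hb
  obtain ⟨C, _, hT⟩ := tauR_bound k l hD
  obtain ⟨C', _, hQ⟩ := QR_bound k l hD
  have hk : k = k ∨ k = l := Or.inl rfl
  have hl : l = k ∨ l = l := Or.inr rfl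
  -- summability of all the convolutions involved
  have sA : ∀ (e : ℤ × ℤ) (_ : e = k ∨ e = l)
      (x y : ℤ × ℤ → ℂ) (_ : Summable fun j => wt j ^ 2 * ‖x j‖)
      (_ : Summable fun j => wt j ^ 2 * ‖y j‖) (m : ℤ × ℤ),
      Summable fun j => twmR tauAR k l e m j * x j * y (m - j) := fun e he x y hx hy m =>
    coefgen_summable _ C m (fun j => lcoefgen_bound C _ (hT e he).1 m j) x y hx hy
  have sAd : ∀ (e : ℤ × ℤ) (_ : e = k ∨ e = l)
      (x y : ℤ × ℤ → ℂ) (_ : Summable fun j => wt j ^ 2 * ‖x j‖)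
      (_ : Summable fun j => wt j ^ 2 * ‖y j‖) (m : ℤ × ℤ),
      Summable fun j => dag (twmR tauAR k l e) m j * x j * y (m - j) := fun e he x y hx hy m =>
    coefgen_summable _ C m (fun j => coefgen_dag_bound _ C
      (fun m j => lcoefgen_bound C _ (hT e he).1 m j) m j) x y hx hy
  have sB : ∀ (e : ℤ × ℤ) (_ : e = k ∨ e = l)
      (x y : ℤ × ℤ → ℂ) (_ : Summable fun j => wt j ^ 2 * ‖x j‖)
      (_ : Summable fun j => wt j ^ 2 * ‖y j‖) (m : ℤ × ℤ),
      Summable fun j => twmR tauBR k l e m j * x j * y (m - j) := fun e he x y hx hy m =>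
    coefgen_summable _ C m (fun j => lcoefgen_bound C _ (hT e he).2 m j) x y hx hy
  have sBd : ∀ (e : ℤ × ℤ) (_ : e = k ∨ e = l)
      (x y : ℤ × ℤ → ℂ) (_ : Summable fun j => wt j ^ 2 * ‖x j‖)
      (_ : Summable fun j => wt j ^ 2 * ‖y j‖) (m : ℤ × ℤ),
      Summable fun j => dag (twmR tauBR k l e) m j * x j * y (m - j) := fun e he x y hx hy m =>
    coefgen_summable _ C m (fun j => coefgen_dag_bound _ C
      (fun m j => lcoefgen_bound C _ (hT e he).2 m j) m j) x y hx hy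
  have sQ11 : ∀ (e : ℤ × ℤ) (_ : e = k ∨ e = l)
      (x y : ℤ × ℤ → ℂ) (_ : Summable fun j => wt j ^ 2 * ‖x j‖)
      (_ : Summable fun j => wt j ^ 2 * ‖y j‖) (m : ℤ × ℤ),
      Summable fun j => twR QR11 k l e m j * x j * y (m - j) := fun e he x y hx hy m =>
    coefgen_summable _ C' m (fun j => (hQ e he m j).1) x y hx hy
  have sQ22 : ∀ (e : ℤ × ℤ) (_ : e = k ∨ e = l)
      (x y : ℤ × ℤ → ℂ) (_ : Summable fun j => wt j ^ 2 * ‖x j‖)
      (_ : Summable fun j => wt j ^ 2 * ‖y j‖) (m : ℤ × ℤ),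
      Summable fun j => twR QR22 k l e m j * x j * y (m - j) := fun e he x y hx hy m =>
    coefgen_summable _ C' m (fun j => (hQ e he m j).2.1) x y hx hy
  have sQ12 : ∀ (e : ℤ × ℤ) (_ : e = k ∨ e = l)
      (x y : ℤ × ℤ → ℂ) (_ : Summable fun j => wt j ^ 2 * ‖x j‖)
      (_ : Summable fun j => wt j ^ 2 * ‖y j‖) (m : ℤ × ℤ),
      Summable fun j => twR QR12 k l e m j * x j * y (m - j) := fun e he x y hx hy m =>
    coefgen_summable _ C' m (fun j => (hQ e he m j).2.2) x y hx hy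
  -- the fixed point equations and their conjugates
  have hA : ∀ m, (A : ℂ) * a m = lA m + (bconv (twmR tauAR k l k) a (cstar a) m
      + bconv (twmR tauAR k l l) b (cstar b) m) := fun m => (hfa m).symm
  have hB : ∀ m, (B : ℂ) * b m = lB m + (bconv (twmR tauBR k l k) a (cstar a) m
      + bconv (twmR tauBR k l l) b (cstar b) m) := fun m => (hfb m).symm
  have hAs : ∀ m, (A : ℂ) * cstar a m = cstar lA m
      + (bconv (dag (twmR tauAR k l k)) a (cstar a) m
      + bconv (dag (twmR tauAR k l l)) b (cstar b) m) := by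
    intro m
    have h : (A : ℂ) * cstar a m
        = cstar (fun m => lA m + quad (twmR tauAR k l k) (twmR tauAR k l l) a b m) m :=
      lcoefgen_star A a _ hfa m
    rw [h, ← bconv_star, ← bconv_star]
    simp only [cstar, quad, map_add]
  have hBs : ∀ m, (B : ℂ) * cstar b m = cstar lB m
      + (bconv (dag (twmR tauBR k l k)) a (cstar a) m
      + bconv (dag (twmR tauBR k l l)) b (cstar b) m) := by
    intro m
    have h : (B : ℂ) * cstar b m
        = cstar (fun m => lB m + quad (twmR tauBR k l k) (twmR tauBR k l l) a b m) m :=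
      lcoefgen_star B b _ hfb m
    rw [h, ← bconv_star, ← bconv_star]
    simp only [cstar, quad, map_add]
  refine ⟨fun m => ?_, fun m => ?_, fun m hm => ?_⟩
  · have k1 := coefgen_comb (twmR tauAR k l k) (dag (twmR tauAR k l k)) (twmR tauAR k l k)
      (twmR tauAR k l k) (twR QR11 k l k) a (cstar a) m
      ((nu1 k l m : ℂ) + 1) (-((nu1 k l m : ℂ) - 1)) 0 0
      (sA k hk a _ ha has m) (sAd k hk a _ ha has m)
      (sA k hk a _ ha has m) (sA k hk a _ ha has m)
      (sQ11 k hk a _ ha has m)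
      (fun j => by linear_combination symL_11 k l hD k hk m j)
    have k2 := coefgen_comb (twmR tauAR k l l) (dag (twmR tauAR k l l)) (twmR tauAR k l l)
      (twmR tauAR k l l) (twR QR11 k l l) b (cstar b) m
      ((nu1 k l m : ℂ) + 1) (-((nu1 k l m : ℂ) - 1)) 0 0
      (sA l hl b _ hb hbs m) (sAd l hl b _ hb hbs m)
      (sA l hl b _ hb hbs m) (sA l hl b _ hb hbs m)
      (sQ11 l hl b _ hb hbs m)
      (fun j => by linear_combination symL_11 k l hD l hl m j)
    simp only [c11L, quad]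
    linear_combination ((nu1 k l m : ℂ) + 1) * hA m - ((nu1 k l m : ℂ) - 1) * hAs m + k1 + k2
  · have k1 := coefgen_comb (twmR tauBR k l k) (dag (twmR tauBR k l k)) (twmR tauBR k l k)
      (twmR tauBR k l k) (twR QR22 k l k) a (cstar a) m
      ((nu2 k l m : ℂ) + 1) (-((nu2 k l m : ℂ) - 1)) 0 0
      (sB k hk a _ ha has m) (sBd k hk a _ ha has m)
      (sB k hk a _ ha has m) (sB k hk a _ ha has m)
      (sQ22 k hk a _ ha has m)
      (fun j => by linear_combination symL_22 k l hD k hk m j)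
    have k2 := coefgen_comb (twmR tauBR k l l) (dag (twmR tauBR k l l)) (twmR tauBR k l l)
      (twmR tauBR k l l) (twR QR22 k l l) b (cstar b) m
      ((nu2 k l m : ℂ) + 1) (-((nu2 k l m : ℂ) - 1)) 0 0
      (sB l hl b _ hb hbs m) (sBd l hl b _ hb hbs m)
      (sB l hl b _ hb hbs m) (sB l hl b _ hb hbs m)
      (sQ22 l hl b _ hb hbs m)
      (fun j => by linear_combination symL_22 k l hD l hl m j)
    simp only [c22L, quad]
    linear_combination ((nu2 k l m : ℂ) + 1) * hB m - ((nu2 k l m : ℂ) - 1) * hBs m + k1 + k2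
  · have k1 := coefgen_comb (twmR tauAR k l k) (dag (twmR tauAR k l k)) (twmR tauBR k l k)
      (dag (twmR tauBR k l k)) (twR QR12 k l k) a (cstar a) m
      ((nu2 k l m : ℂ) / 2) (-((nu2 k l m : ℂ) / 2)) ((nu1 k l m : ℂ) / 2)
      (-((nu1 k l m : ℂ) / 2))
      (sA k hk a _ ha has m) (sAd k hk a _ ha has m)
      (sB k hk a _ ha has m) (sBd k hk a _ ha has m)
      (sQ12 k hk a _ ha has m)
      (fun j => by linear_combination symL_12 k l hD k hk m j hm)
    have k2 := coefgen_comb (twmR tauAR k l l) (dag (twmR tauAR k l l)) (twmR tauBR k l l)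
      (dag (twmR tauBR k l l)) (twR QR12 k l l) b (cstar b) m
      ((nu2 k l m : ℂ) / 2) (-((nu2 k l m : ℂ) / 2)) ((nu1 k l m : ℂ) / 2)
      (-((nu1 k l m : ℂ) / 2))
      (sA l hl b _ hb hbs m) (sAd l hl b _ hb hbs m)
      (sB l hl b _ hb hbs m) (sBd l hl b _ hb hbs m)
      (sQ12 l hl b _ hb hbs m)
      (fun j => by linear_combination symL_12 k l hD l hl m j hm)
    simp only [c12L, quad]
    linear_combination (nu2 k l m : ℂ) / 2 * hA m - (nu2 k l m : ℂ) / 2 * hAs m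
      + (nu1 k l m : ℂ) / 2 * hB m - (nu1 k l m : ℂ) / 2 * hBs m + k1 + k2

end Vale.Agent.Lib.P205.NF
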