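import Vale.Agent.Lib.P205.NF.WDefs

/-!
# Near-flat tori over a general homogeneous flat base: definitions

The base map is `(A exp(i k.p), B exp(i l.p))` for two linearly independent integer vectors
`k`, `l`; its induced metric is `A^2 (k.dp)^2 + B^2 (l.dp)^2`.  An index `m` (a frequency in
the coordinates `p`) has coordinates `(nu1, nu2)` in the basis `k, l`, that is
`m = nu1 k + nu2 l`; these are its frequencies in the coordinates `(k.p, l.p)`.  All symbols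
are those of the rectangular case evaluated at these real frequencies.
-/

namespace Vale.Agent.Lib.P205.NF

/-- Determinant of the two twist vectors. -/
def ldet (k l : ℤ × ℤ) : ℤ := k.1 * l.2 - k.2 * l.1

/-- Size of the two twist vectors. -/
noncomputable def lam (k l : ℤ × ℤ) : ℝ :=
  |(k.1 : ℝ)| + |(k.2 : ℝ)| + |(l.1 : ℝ)| + |(l.2 : ℝ)|

/-- First coordinate of the index `m` in the basis `k, l`. -/
noncomputable def nu1 (k l m : ℤ × ℤ) : ℝ :=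
  ((m.1 * l.2 - m.2 * l.1 : ℤ) : ℝ) / ((ldet k l : ℤ) : ℝ)

/-- Second coordinate of the index `m` in the basis `k, l`. -/
noncomputable def nu2 (k l m : ℤ × ℤ) : ℝ :=
  ((k.1 * m.2 - k.2 * m.1 : ℤ) : ℝ) / ((ldet k l : ℤ) : ℝ)

/-- The frequency vector of the index `m`. -/
noncomputable def fr (k l m : ℤ × ℤ) : ℝ × ℝ := (nu1 k l m, nu2 k l m)

/-- Master symbol of the quadratic part of the first equation, at real frequencies
(used with `κ + l = m`). -/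
noncomputable def tauAR (m κ l : ℝ × ℝ) : ℝ :=
  if m = 0 then κ.1 * l.1 / 2 else
    (-(κ.1 * l.2 - κ.2 * l.1) ^ 2 + (κ.1 ^ 2 + κ.2 ^ 2) * l.1 + κ.1 * (l.1 ^ 2 + l.2 ^ 2)) /
      (2 * (m.1 ^ 2 + m.2 ^ 2))

/-- Master symbol of the quadratic part of the second equation, at real frequencies. -/
noncomputable def tauBR (m κ l : ℝ × ℝ) : ℝ :=
  if m = 0 then κ.2 * l.2 / 2 else
    (-(κ.1 * l.2 - κ.2 * l.1) ^ 2 + (κ.1 ^ 2 + κ.2 ^ 2) * l.2 + κ.2 * (l.1 ^ 2 + l.2 ^ 2)) /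
      (2 * (m.1 ^ 2 + m.2 ^ 2))

/-- Symbol of `<v_x, v_x>` at real frequencies. -/
noncomputable def QR11 (κ l : ℝ × ℝ) : ℝ := -(κ.1 * l.1)

/-- Symbol of `<v_y, v_y>` at real frequencies. -/
noncomputable def QR22 (κ l : ℝ × ℝ) : ℝ := -(κ.2 * l.2)

/-- Symbol of `<v_x, v_y>` at real frequencies. -/
noncomputable def QR12 (κ l : ℝ × ℝ) : ℝ := -(κ.1 * l.2 + κ.2 * l.1) / 2

/-- Twist a master symbol that depends on the output frequency; `e` is the index of the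
twisting exponential (`k` or `l`). -/
noncomputable def twmR (σ : ℝ × ℝ → ℝ × ℝ → ℝ × ℝ → ℝ) (k l e : ℤ × ℤ) :
    ℤ × ℤ → ℤ × ℤ → ℂ :=
  fun m j => ((σ (fr k l m) (fr k l (j + e)) (fr k l (m - j - e)) : ℝ) : ℂ)

/-- Twist a master symbol that does not depend on the output frequency. -/
noncomputable def twR (σ : ℝ × ℝ → ℝ × ℝ → ℝ) (k l e : ℤ × ℤ) : ℤ × ℤ → ℤ × ℤ → ℂ :=
  fun m j => ((σ (fr k l (j + e)) (fr k l (m - j - e)) : ℝ) : ℂ)

/-- Scaled fixed point map with arbitrary symbols. -/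
noncomputable def TG (s : ℝ) (τ₁ τ₂ : ℤ × ℤ → ℤ × ℤ → ℂ) (lA a b : ℤ × ℤ → ℂ) :
    ℤ × ℤ → ℂ :=
  fun m => (s : ℂ) * (lA m + quad τ₁ τ₂ a b m)

/-- Linear part for the first unknown, from the metric perturbation (components in the
coordinates `(k.p, l.p)`) and the gauge function. -/
noncomputable def linAL (k l : ℤ × ℤ) (h11 h12 psi : ℤ × ℤ → ℂ) : ℤ × ℤ → ℂ := fun m =>
  h11 m / 2 + ((nu2 k l m : ℂ) - (nu1 k l m : ℂ) * (nu2 k l m : ℂ)) * h12 m /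
      ((nu1 k l m : ℂ) ^ 2 + (nu2 k l m : ℂ) ^ 2) +
    ((nu1 k l m : ℂ) ^ 2 - (nu1 k l m : ℂ)) * psi m

/-- Linear part for the second unknown. -/
noncomputable def linBL (k l : ℤ × ℤ) (h22 h12 psi : ℤ × ℤ → ℂ) : ℤ × ℤ → ℂ := fun m =>
  h22 m / 2 + ((nu1 k l m : ℂ) - (nu1 k l m : ℂ) * (nu2 k l m : ℂ)) * h12 m /
      ((nu1 k l m : ℂ) ^ 2 + (nu2 k l m : ℂ) ^ 2) +
    ((nu2 k l m : ℂ) - (nu2 k l m : ℂ) ^ 2) * psi m

/-- Coefficients of the first diagonal metric component minus `A^2`, in the coordinates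
`(k.p, l.p)`. -/
noncomputable def c11L (k l : ℤ × ℤ) (A : ℝ) (a b : ℤ × ℤ → ℂ) : ℤ × ℤ → ℂ := fun m =>
  (A : ℂ) * (((nu1 k l m : ℂ) + 1) * a m - ((nu1 k l m : ℂ) - 1) * cstar a m) +
    quad (twR QR11 k l k) (twR QR11 k l l) a b m

/-- Coefficients of the second diagonal metric component minus `B^2`. -/
noncomputable def c22L (k l : ℤ × ℤ) (B : ℝ) (a b : ℤ × ℤ → ℂ) : ℤ × ℤ → ℂ := fun m =>
  (B : ℂ) * (((nu2 k l m : ℂ) + 1) * b m - ((nu2 k l m : ℂ) - 1) * cstar b m) +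
    quad (twR QR22 k l k) (twR QR22 k l l) a b m

/-- Coefficients of the mixed metric component. -/
noncomputable def c12L (k l : ℤ × ℤ) (A B : ℝ) (a b : ℤ × ℤ → ℂ) : ℤ × ℤ → ℂ := fun m =>
  (A : ℂ) * ((nu2 k l m : ℂ) / 2 * (a m - cstar a m)) +
    (B : ℂ) * ((nu1 k l m : ℂ) / 2 * (b m - cstar b m)) +
    quad (twR QR12 k l k) (twR QR12 k l l) a b m

/-- Fourier coefficients of the gauge function `s cos((2k + l).p) + t cos((2k - l).p)`. -/
noncomputable def psiL (k l : ℤ × ℤ) (s t : ℝ) : ℤ × ℤ → ℂ := fun j =>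
  (if j = k + k + l ∨ j = -(k + k + l) then ((s / 2 : ℝ) : ℂ) else 0) +
    (if j = k + k - l ∨ j = -(k + k - l) then ((t / 2 : ℝ) : ℂ) else 0)

/-- The mean value of the mixed metric component produced by the quadratic terms. -/
noncomputable def shearL (k l : ℤ × ℤ) (a b : ℤ × ℤ → ℂ) : ℝ :=
  ∑' j : ℤ × ℤ, ((nu1 k l j + 1) * nu2 k l j * ‖a j‖ ^ 2 +
    nu1 k l j * (nu2 k l j + 1) * ‖b j‖ ^ 2)

/-- The exponential `exp(i e.p)` for an integer vector `e`. -/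
noncomputable def cexpL (e : ℤ × ℤ) (p : ℝ × ℝ) : ℂ :=
  Complex.exp (Complex.I * ((e.1 : ℂ) * (p.1 : ℂ) + (e.2 : ℂ) * (p.2 : ℂ)))

/-- The bound on a convolution symbol used by the quadratic estimates. -/
def SymOK (C : ℝ) (τ : ℤ × ℤ → ℤ × ℤ → ℂ) : Prop :=
  ∀ m j : ℤ × ℤ, ‖τ m j‖ * wt m ^ 2 ≤ C * (wt j ^ 2 * wt (m - j) ^ 2)

/-- Real linear combination of three coefficient families. -/
noncomputable def comb3 (x y z : ℝ) (c₁ c₂ c₃ : ℤ × ℤ → ℂ) : ℤ × ℤ → ℂ :=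
  fun j => (x : ℂ) * c₁ j + (y : ℂ) * c₂ j + (z : ℂ) * c₃ j

end Vale.Agent.Lib.P205.NF
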