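import Vale.Agent.Lib.P205.NF.SynthBasic
import Vale.Agent.Lib.P205.NF.LDefs

/-!
# Real linear combinations of three coefficient families
-/

namespace Vale.Agent.Lib.P205.NF

theorem lcomb_wt_pow_nonneg (j : ℤ × ℤ) (n : ℕ) : 0 ≤ wt j ^ n := by
  refine pow_nonneg ?_ n
  unfold wt
  positivity

theorem lcomb_norm_le (x y z : ℝ) (c₁ c₂ c₃ : ℤ × ℤ → ℂ) (j : ℤ × ℤ) :
    ‖comb3 x y z c₁ c₂ c₃ j‖ ≤ |x| * ‖c₁ j‖ + |y| * ‖c₂ j‖ + |z| * ‖c₃ j‖ := by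
  show ‖(x : ℂ) * c₁ j + (y : ℂ) * c₂ j + (z : ℂ) * c₃ j‖ ≤ _
  calc ‖(x : ℂ) * c₁ j + (y : ℂ) * c₂ j + (z : ℂ) * c₃ j‖
      ≤ ‖(x : ℂ) * c₁ j‖ + ‖(y : ℂ) * c₂ j‖ + ‖(z : ℂ) * c₃ j‖ := norm_add₃_le
    _ = |x| * ‖c₁ j‖ + |y| * ‖c₂ j‖ + |z| * ‖c₃ j‖ := by
      rw [norm_mul, norm_mul, norm_mul, Complex.norm_real, Complex.norm_real,
        Complex.norm_real, Real.norm_eq_abs, Real.norm_eq_abs, Real.norm_eq_abs]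

theorem comb3_herm (x y z : ℝ) (c₁ c₂ c₃ : ℤ × ℤ → ℂ)
    (h₁ : ∀ j, c₁ (-j) = (starRingEnd ℂ) (c₁ j)) (h₂ : ∀ j, c₂ (-j) = (starRingEnd ℂ) (c₂ j))
    (h₃ : ∀ j, c₃ (-j) = (starRingEnd ℂ) (c₃ j)) (j : ℤ × ℤ) :
    comb3 x y z c₁ c₂ c₃ (-j) = (starRingEnd ℂ) (comb3 x y z c₁ c₂ c₃ j) := by
  show (x : ℂ) * c₁ (-j) + (y : ℂ) * c₂ (-j) + (z : ℂ) * c₃ (-j)
    = (starRingEnd ℂ) ((x : ℂ) * c₁ j + (y : ℂ) * c₂ j + (z : ℂ) * c₃ j)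
  rw [h₁ j, h₂ j, h₃ j, map_add, map_add, map_mul, map_mul, map_mul, Complex.conj_ofReal,
    Complex.conj_ofReal, Complex.conj_ofReal]

theorem comb3_decay (x y z : ℝ) (c₁ c₂ c₃ : ℤ × ℤ → ℂ) (n : ℕ)
    (h₁ : Summable fun j => wt j ^ n * ‖c₁ j‖) (h₂ : Summable fun j => wt j ^ n * ‖c₂ j‖)
    (h₃ : Summable fun j => wt j ^ n * ‖c₃ j‖) :
    (Summable fun j => wt j ^ n * ‖comb3 x y z c₁ c₂ c₃ j‖) ∧
    nrm (fun j => wt j ^ n) (comb3 x y z c₁ c₂ c₃) ≤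
      |x| * nrm (fun j => wt j ^ n) c₁ + |y| * nrm (fun j => wt j ^ n) c₂ +
        |z| * nrm (fun j => wt j ^ n) c₃ := by
  have hpt : ∀ j, wt j ^ n * ‖comb3 x y z c₁ c₂ c₃ j‖ ≤
      |x| * (wt j ^ n * ‖c₁ j‖) + |y| * (wt j ^ n * ‖c₂ j‖) + |z| * (wt j ^ n * ‖c₃ j‖) := by
    intro j
    calc wt j ^ n * ‖comb3 x y z c₁ c₂ c₃ j‖
        ≤ wt j ^ n * (|x| * ‖c₁ j‖ + |y| * ‖c₂ j‖ + |z| * ‖c₃ j‖) :=
          mul_le_mul_of_nonneg_left (lcomb_norm_le x y z c₁ c₂ c₃ j) (lcomb_wt_pow_nonneg j n)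
      _ = |x| * (wt j ^ n * ‖c₁ j‖) + |y| * (wt j ^ n * ‖c₂ j‖) + |z| * (wt j ^ n * ‖c₃ j‖) := by
          ring
  have hsum : Summable fun j =>
      |x| * (wt j ^ n * ‖c₁ j‖) + |y| * (wt j ^ n * ‖c₂ j‖) + |z| * (wt j ^ n * ‖c₃ j‖) :=
    ((h₁.mul_left |x|).add (h₂.mul_left |y|)).add (h₃.mul_left |z|)
  have hs : Summable fun j => wt j ^ n * ‖comb3 x y z c₁ c₂ c₃ j‖ :=
    Summable.of_nonneg_of_le
      (fun j => mul_nonneg (lcomb_wt_pow_nonneg j n) (norm_nonneg _)) hpt hsum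
  refine ⟨hs, ?_⟩
  show ∑' j, wt j ^ n * ‖comb3 x y z c₁ c₂ c₃ j‖ ≤
    |x| * ∑' j, wt j ^ n * ‖c₁ j‖ + |y| * ∑' j, wt j ^ n * ‖c₂ j‖ +
      |z| * ∑' j, wt j ^ n * ‖c₃ j‖
  calc ∑' j, wt j ^ n * ‖comb3 x y z c₁ c₂ c₃ j‖
      ≤ ∑' j, (|x| * (wt j ^ n * ‖c₁ j‖) + |y| * (wt j ^ n * ‖c₂ j‖)
          + |z| * (wt j ^ n * ‖c₃ j‖)) := Summable.tsum_le_tsum hpt hs hsum
    _ = |x| * ∑' j, wt j ^ n * ‖c₁ j‖ + |y| * ∑' j, wt j ^ n * ‖c₂ j‖ +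
          |z| * ∑' j, wt j ^ n * ‖c₃ j‖ := by
        rw [Summable.tsum_add ((h₁.mul_left |x|).add (h₂.mul_left |y|)) (h₃.mul_left |z|),
          Summable.tsum_add (h₁.mul_left |x|) (h₂.mul_left |y|), tsum_mul_left, tsum_mul_left,
          tsum_mul_left]

theorem comb3_S (x y z : ℝ) (c₁ c₂ c₃ : ℤ × ℤ → ℂ)
    (h₁ : Summable fun j => ‖c₁ j‖) (h₂ : Summable fun j => ‖c₂ j‖)
    (h₃ : Summable fun j => ‖c₃ j‖) (p : ℝ × ℝ) :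
    (S (comb3 x y z c₁ c₂ c₃) p).re =
      x * (S c₁ p).re + y * (S c₂ p).re + z * (S c₃ p).re := by
  have n₁ : Summable fun k => ‖(x : ℂ) * c₁ k‖ := by
    simp only [norm_mul]
    exact h₁.mul_left _
  have n₂ : Summable fun k => ‖(y : ℂ) * c₂ k‖ := by
    simp only [norm_mul]
    exact h₂.mul_left _
  have n₃ : Summable fun k => ‖(z : ℂ) * c₃ k‖ := by
    simp only [norm_mul]
    exact h₃.mul_left _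
  have n12 : Summable fun k => ‖(x : ℂ) * c₁ k + (y : ℂ) * c₂ k‖ :=
    Summable.of_nonneg_of_le (fun _ => norm_nonneg _) (fun k => norm_add_le _ _) (n₁.add n₂)
  have a1 : S (comb3 x y z c₁ c₂ c₃) p
      = S (fun k => (x : ℂ) * c₁ k + (y : ℂ) * c₂ k) p + S (fun k => (z : ℂ) * c₃ k) p :=
    S_add (fun k => (x : ℂ) * c₁ k + (y : ℂ) * c₂ k) (fun k => (z : ℂ) * c₃ k) n12 n₃ p
  have a2 : S (fun k => (x : ℂ) * c₁ k + (y : ℂ) * c₂ k) p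
      = S (fun k => (x : ℂ) * c₁ k) p + S (fun k => (y : ℂ) * c₂ k) p :=
    S_add (fun k => (x : ℂ) * c₁ k) (fun k => (y : ℂ) * c₂ k) n₁ n₂ p
  rw [a1, a2, S_const_mul, S_const_mul, S_const_mul, Complex.add_re, Complex.add_re,
    Complex.re_ofReal_mul, Complex.re_ofReal_mul, Complex.re_ofReal_mul]

end Vale.Agent.Lib.P205.NF
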