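import Mathlib

/-!
# Choice of the constants for the general homogeneous flat base (real arithmetic)
-/

namespace Vale.Agent.Lib.P205.NF

theorem consts_l (s c C C₁ C₂ C₃ : ℝ) (hs : 0 < s) (hsc : s ≤ c) (hC : 1 ≤ C) (hC₁ : 1 ≤ C₁)
    (hC₂ : 1 ≤ C₂) (hC₃ : 1 ≤ C₃) :
    ∃ t₀ r₁ δ : ℝ, 0 < t₀ ∧ 0 < δ ∧ 0 ≤ r₁ ∧ r₁ ≤ 1 / (8 * C * c) ∧
      C₁ * C₃ * c * t₀ ≤ r₁ ∧
      (∀ H : ℝ, 0 ≤ H → H < δ → C₁ * (H + C₃ * t₀) < r₁ / (2 * c)) ∧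
      (∀ H : ℝ, 0 ≤ H → H < δ →
        C₂ * r₁ * (2 * c * (C₁ * H + 2 * C * r₁ ^ 2)) + δ < 12 * s ^ 2 * t₀ ^ 2) := by
  have hc : 0 < c := lt_of_lt_of_le hs hsc
  have hC0 : 0 < C := lt_of_lt_of_le one_pos hC
  have hC₁0 : 0 < C₁ := lt_of_lt_of_le one_pos hC₁
  have hC₂0 : 0 < C₂ := lt_of_lt_of_le one_pos hC₂
  have hC₃0 : 0 < C₃ := lt_of_lt_of_le one_pos hC₃
  obtain ⟨K, hKdef⟩ : ∃ K : ℝ, K = 4 * c * C₁ * C₃ := ⟨_, rfl⟩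
  have hK : 0 < K := by
    rw [hKdef]
    positivity
  obtain ⟨D, hDdef⟩ : ∃ D : ℝ,
      D = 2 * c * C₁ * C₂ * K * s ^ 2 + 4 * c * C * C₂ * K ^ 3 := ⟨_, rfl⟩
  have hD : 0 < D := by
    rw [hDdef]
    positivity
  have hb1 : 0 < 1 / (8 * C * c * K) := by positivity
  have hb2 : 0 < C₃ / (2 * s ^ 2) := by positivity
  have hb3 : 0 < s ^ 2 / D := by positivity
  obtain ⟨t₀, ht₀def⟩ : ∃ t₀ : ℝ,
      t₀ = min (1 / (8 * C * c * K)) (min (C₃ / (2 * s ^ 2)) (s ^ 2 / D)) := ⟨_, rfl⟩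
  have ht₀ : 0 < t₀ := by
    rw [ht₀def]
    exact lt_min hb1 (lt_min hb2 hb3)
  have ht1 : t₀ * (8 * C * c * K) ≤ 1 := by
    have h : t₀ ≤ 1 / (8 * C * c * K) := by
      rw [ht₀def]
      exact min_le_left _ _
    exact (le_div_iff₀ (by positivity)).1 h
  have ht2 : t₀ * (2 * s ^ 2) ≤ C₃ := by
    have h : t₀ ≤ C₃ / (2 * s ^ 2) := by
      rw [ht₀def]
      exact le_trans (min_le_right _ _) (min_le_left _ _)
    exact (le_div_iff₀ (by positivity)).1 h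
  have ht3 : t₀ * D ≤ s ^ 2 := by
    have h : t₀ ≤ s ^ 2 / D := by
      rw [ht₀def]
      exact le_trans (min_le_right _ _) (min_le_right _ _)
    exact (le_div_iff₀ hD).1 h
  have hδ : 0 < s ^ 2 * t₀ ^ 2 := by positivity
  have hδle : s ^ 2 * t₀ ^ 2 ≤ C₃ * t₀ / 2 := by
    have h := mul_le_mul_of_nonneg_right ht2 ht₀.le
    have e : t₀ * (2 * s ^ 2) * t₀ = 2 * (s ^ 2 * t₀ ^ 2) := by ring
    rw [e] at h
    linarith
  refine ⟨t₀, K * t₀, s ^ 2 * t₀ ^ 2, ht₀, hδ, by positivity, ?_, ?_, ?_, ?_⟩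
  · rw [le_div_iff₀ (by positivity)]
    have e : K * t₀ * (8 * C * c) = t₀ * (8 * C * c * K) := by ring
    rw [e]
    exact ht1
  · have h : 0 ≤ C₁ * C₃ * c * t₀ := by positivity
    have e : K * t₀ = 4 * (C₁ * C₃ * c * t₀) := by
      rw [hKdef]
      ring
    rw [e]
    linarith
  · intro H _ hHδ
    have e : K * t₀ / (2 * c) = 2 * (C₁ * C₃ * t₀) := by
      rw [hKdef]
      field_simp
      ring
    rw [e]
    have h1 : H < C₃ * t₀ / 2 := lt_of_lt_of_le hHδ hδle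
    have h2 : C₁ * H < C₁ * (C₃ * t₀ / 2) := mul_lt_mul_of_pos_left h1 hC₁0
    have h3 : 0 < C₁ * C₃ * t₀ := by positivity
    have e2 : C₁ * (H + C₃ * t₀) = C₁ * H + C₁ * C₃ * t₀ := by ring
    have e3 : C₁ * (C₃ * t₀ / 2) = C₁ * C₃ * t₀ / 2 := by ring
    rw [e2]
    rw [e3] at h2
    linarith
  · intro H _ hHδ
    have hP : 0 < C₂ * (K * t₀) * (2 * c) * C₁ := by positivity
    have h1 : C₂ * (K * t₀) * (2 * c) * C₁ * H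
        ≤ C₂ * (K * t₀) * (2 * c) * C₁ * (s ^ 2 * t₀ ^ 2) :=
      mul_le_mul_of_nonneg_left hHδ.le hP.le
    have h2 : t₀ ^ 2 * (t₀ * D) ≤ t₀ ^ 2 * s ^ 2 :=
      mul_le_mul_of_nonneg_left ht3 (by positivity)
    have e2 : C₂ * (K * t₀) * (2 * c * (C₁ * H + 2 * C * (K * t₀) ^ 2))
        = C₂ * (K * t₀) * (2 * c) * C₁ * H
          + C₂ * (K * t₀) * (2 * c) * (2 * C * (K * t₀) ^ 2) := by ring
    have e3 : C₂ * (K * t₀) * (2 * c) * C₁ * (s ^ 2 * t₀ ^ 2)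
          + C₂ * (K * t₀) * (2 * c) * (2 * C * (K * t₀) ^ 2) = t₀ ^ 2 * (t₀ * D) := by
      rw [hDdef]
      ring
    have e4 : t₀ ^ 2 * s ^ 2 = s ^ 2 * t₀ ^ 2 := by ring
    rw [e2]
    rw [e4] at h2
    linarith

end Vale.Agent.Lib.P205.NF
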