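import Vale.Agent.Lib.P205.NF.LDefs

/-!
# Frequency coordinates in a basis of two integer vectors: basic facts
-/

namespace Vale.Agent.Lib.P205.NF

theorem lfreq_det_ne (k l : ℤ × ℤ) (hD : ldet k l ≠ 0) : ((ldet k l : ℤ) : ℝ) ≠ 0 :=
  Int.cast_ne_zero.2 hD

theorem lfreq_det_eq (k l : ℤ × ℤ) :
    ((ldet k l : ℤ) : ℝ) = (k.1 : ℝ) * (l.2 : ℝ) - (k.2 : ℝ) * (l.1 : ℝ) := by
  unfold ldet
  push_cast
  ring

theorem lfreq_one_le_abs_det (k l : ℤ × ℤ) (hD : ldet k l ≠ 0) :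
    1 ≤ |((ldet k l : ℤ) : ℝ)| := by
  have h := Int.one_le_abs hD
  have h2 : ((1 : ℤ) : ℝ) ≤ ((|ldet k l| : ℤ) : ℝ) := Int.cast_le.2 h
  rw [Int.cast_abs, Int.cast_one] at h2
  exact h2

theorem nu_add (k l m n : ℤ × ℤ) :
    nu1 k l (m + n) = nu1 k l m + nu1 k l n ∧ nu2 k l (m + n) = nu2 k l m + nu2 k l n := by
  simp only [nu1, nu2, Prod.fst_add, Prod.snd_add]
  constructor
  · push_cast
    ring
  · push_cast
    ring

theorem nu_neg (k l m : ℤ × ℤ) :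
    nu1 k l (-m) = -nu1 k l m ∧ nu2 k l (-m) = -nu2 k l m := by
  simp only [nu1, nu2, Prod.fst_neg, Prod.snd_neg]
  constructor
  · push_cast
    ring
  · push_cast
    ring

theorem nu_sub (k l m n : ℤ × ℤ) :
    nu1 k l (m - n) = nu1 k l m - nu1 k l n ∧ nu2 k l (m - n) = nu2 k l m - nu2 k l n := by
  simp only [nu1, nu2, Prod.fst_sub, Prod.snd_sub]
  constructor
  · push_cast
    ring
  · push_cast
    ring

theorem nu_zero (k l : ℤ × ℤ) : nu1 k l 0 = 0 ∧ nu2 k l 0 = 0 := by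
  simp [nu1, nu2]

theorem nu_basis (k l : ℤ × ℤ) (hD : ldet k l ≠ 0) :
    nu1 k l k = 1 ∧ nu2 k l k = 0 ∧ nu1 k l l = 0 ∧ nu2 k l l = 1 := by
  have hD' := lfreq_det_ne k l hD
  refine ⟨?_, ?_, ?_, ?_⟩
  · show ((ldet k l : ℤ) : ℝ) / ((ldet k l : ℤ) : ℝ) = 1
    exact div_self hD'
  · unfold nu2
    have h : (k.1 * k.2 - k.2 * k.1 : ℤ) = 0 := by ring
    rw [h, Int.cast_zero, zero_div]
  · unfold nu1
    have h : (l.1 * l.2 - l.2 * l.1 : ℤ) = 0 := by ring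
    rw [h, Int.cast_zero, zero_div]
  · show ((ldet k l : ℤ) : ℝ) / ((ldet k l : ℤ) : ℝ) = 1
    exact div_self hD'

theorem nu_recon (k l : ℤ × ℤ) (hD : ldet k l ≠ 0) (m : ℤ × ℤ) :
    (m.1 : ℝ) = nu1 k l m * (k.1 : ℝ) + nu2 k l m * (l.1 : ℝ) ∧
    (m.2 : ℝ) = nu1 k l m * (k.2 : ℝ) + nu2 k l m * (l.2 : ℝ) := by
  have hD' := lfreq_det_ne k l hD
  have hDe := lfreq_det_eq k l
  unfold nu1 nu2
  constructor
  · rw [div_mul_eq_mul_div, div_mul_eq_mul_div, ← add_div, eq_div_iff hD', hDe]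
    push_cast
    ring
  · rw [div_mul_eq_mul_div, div_mul_eq_mul_div, ← add_div, eq_div_iff hD', hDe]
    push_cast
    ring

theorem fr_eq_zero (k l : ℤ × ℤ) (hD : ldet k l ≠ 0) (m : ℤ × ℤ) : fr k l m = 0 ↔ m = 0 := by
  constructor
  · intro h
    have h1 : nu1 k l m = 0 := congrArg Prod.fst h
    have h2 : nu2 k l m = 0 := congrArg Prod.snd h
    obtain ⟨r1, r2⟩ := nu_recon k l hD m
    rw [h1, h2, zero_mul, zero_mul, add_zero] at r1 r2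
    have e1 : m.1 = 0 := Int.cast_eq_zero.1 r1
    have e2 : m.2 = 0 := Int.cast_eq_zero.1 r2
    exact Prod.ext e1 e2
  · intro h
    rw [h]
    unfold fr
    rw [(nu_zero k l).1, (nu_zero k l).2]
    rfl

theorem lam_ge_one (k l : ℤ × ℤ) (hD : ldet k l ≠ 0) : 1 ≤ lam k l := by
  unfold lam
  have h2 := abs_nonneg (k.2 : ℝ)
  have h1 := abs_nonneg (k.1 : ℝ)
  have h3 := abs_nonneg (l.1 : ℝ)
  have h4 := abs_nonneg (l.2 : ℝ)
  by_cases hk1 : k.1 = 0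
  · have hk2 : k.2 ≠ 0 := by
      intro hk2
      apply hD
      unfold ldet
      rw [hk1, hk2]
      ring
    have h := Int.one_le_abs hk2
    have h5 : ((1 : ℤ) : ℝ) ≤ ((|k.2| : ℤ) : ℝ) := Int.cast_le.2 h
    rw [Int.cast_abs, Int.cast_one] at h5
    linarith
  · have h := Int.one_le_abs hk1
    have h5 : ((1 : ℤ) : ℝ) ≤ ((|k.1| : ℤ) : ℝ) := Int.cast_le.2 h
    rw [Int.cast_abs, Int.cast_one] at h5
    linarith

theorem nu_upper (k l : ℤ × ℤ) (hD : ldet k l ≠ 0) (m : ℤ × ℤ) :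
    |nu1 k l m| + |nu2 k l m| ≤ lam k l * (|(m.1 : ℝ)| + |(m.2 : ℝ)|) := by
  have hD1 := lfreq_one_le_abs_det k l hD
  have b1 : |nu1 k l m| ≤ |(m.1 : ℝ)| * |(l.2 : ℝ)| + |(m.2 : ℝ)| * |(l.1 : ℝ)| := by
    unfold nu1
    rw [abs_div]
    refine (div_le_self (abs_nonneg _) hD1).trans ?_
    push_cast
    refine (abs_sub _ _).trans ?_
    rw [abs_mul, abs_mul]
  have b2 : |nu2 k l m| ≤ |(k.1 : ℝ)| * |(m.2 : ℝ)| + |(k.2 : ℝ)| * |(m.1 : ℝ)| := by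
    unfold nu2
    rw [abs_div]
    refine (div_le_self (abs_nonneg _) hD1).trans ?_
    push_cast
    refine (abs_sub _ _).trans ?_
    rw [abs_mul, abs_mul]
  unfold lam
  have h1 := abs_nonneg (k.1 : ℝ)
  have h2 := abs_nonneg (k.2 : ℝ)
  have h3 := abs_nonneg (l.1 : ℝ)
  have h4 := abs_nonneg (l.2 : ℝ)
  have h5 := abs_nonneg (m.1 : ℝ)
  have h6 := abs_nonneg (m.2 : ℝ)
  nlinarith [mul_nonneg h1 h5, mul_nonneg h2 h6, mul_nonneg h3 h5, mul_nonneg h4 h6]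

theorem nu_lower (k l : ℤ × ℤ) (hD : ldet k l ≠ 0) (m : ℤ × ℤ) :
    |(m.1 : ℝ)| + |(m.2 : ℝ)| ≤ lam k l * (|nu1 k l m| + |nu2 k l m|) := by
  obtain ⟨r1, r2⟩ := nu_recon k l hD m
  have b1 : |(m.1 : ℝ)| ≤ |nu1 k l m| * |(k.1 : ℝ)| + |nu2 k l m| * |(l.1 : ℝ)| := by
    have h : |(m.1 : ℝ)| = |nu1 k l m * (k.1 : ℝ) + nu2 k l m * (l.1 : ℝ)| := congrArg abs r1
    rw [h]
    refine (abs_add_le _ _).trans ?_
    rw [abs_mul, abs_mul]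
  have b2 : |(m.2 : ℝ)| ≤ |nu1 k l m| * |(k.2 : ℝ)| + |nu2 k l m| * |(l.2 : ℝ)| := by
    have h : |(m.2 : ℝ)| = |nu1 k l m * (k.2 : ℝ) + nu2 k l m * (l.2 : ℝ)| := congrArg abs r2
    rw [h]
    refine (abs_add_le _ _).trans ?_
    rw [abs_mul, abs_mul]
  unfold lam
  have h1 := abs_nonneg (k.1 : ℝ)
  have h2 := abs_nonneg (k.2 : ℝ)
  have h3 := abs_nonneg (l.1 : ℝ)
  have h4 := abs_nonneg (l.2 : ℝ)
  have h5 := abs_nonneg (nu1 k l m)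
  have h6 := abs_nonneg (nu2 k l m)
  nlinarith [mul_nonneg h1 h6, mul_nonneg h2 h6, mul_nonneg h3 h5, mul_nonneg h4 h5]

theorem nu_sq_pos (k l : ℤ × ℤ) (hD : ldet k l ≠ 0) (m : ℤ × ℤ) (hm : m ≠ 0) :
    0 < nu1 k l m ^ 2 + nu2 k l m ^ 2 := by
  have h : ¬ (nu1 k l m = 0 ∧ nu2 k l m = 0) := by
    rintro ⟨h1, h2⟩
    apply hm
    apply (fr_eq_zero k l hD m).1
    unfold fr
    rw [h1, h2]
    rfl
  rcases not_and_or.1 h with h1 | h2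
  · have hp : 0 < nu1 k l m ^ 2 := by positivity
    linarith [sq_nonneg (nu2 k l m)]
  · have hp : 0 < nu2 k l m ^ 2 := by positivity
    linarith [sq_nonneg (nu1 k l m)]

theorem lfreq_abs_le_lam (k l : ℤ × ℤ) (e : ℤ × ℤ) (he : e = k ∨ e = l) :
    |(e.1 : ℝ)| + |(e.2 : ℝ)| ≤ lam k l := by
  unfold lam
  have h1 := abs_nonneg (k.1 : ℝ)
  have h2 := abs_nonneg (k.2 : ℝ)
  have h3 := abs_nonneg (l.1 : ℝ)
  have h4 := abs_nonneg (l.2 : ℝ)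
  rcases he with rfl | rfl
  · linarith
  · linarith

/-- Frequencies of shifted indices are controlled by the weight. -/
theorem nu_shift (k l : ℤ × ℤ) (hD : ldet k l ≠ 0) (e : ℤ × ℤ) (he : e = k ∨ e = l)
    (j : ℤ × ℤ) :
    |nu1 k l (j + e)| + |nu2 k l (j + e)| ≤ lam k l ^ 2 * wt j ∧
    |nu1 k l (j - e)| + |nu2 k l (j - e)| ≤ lam k l ^ 2 * wt j := by
  have hlam := lam_ge_one k l hD
  have hel := lfreq_abs_le_lam k l e he
  have hj1 := abs_nonneg (j.1 : ℝ)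
  have hj2 := abs_nonneg (j.2 : ℝ)
  have hwt : wt j = 1 + |(j.1 : ℝ)| + |(j.2 : ℝ)| := rfl
  have key : ∀ x : ℤ × ℤ, |(x.1 : ℝ)| + |(x.2 : ℝ)|
      ≤ |(j.1 : ℝ)| + |(j.2 : ℝ)| + (|(e.1 : ℝ)| + |(e.2 : ℝ)|) →
      |nu1 k l x| + |nu2 k l x| ≤ lam k l ^ 2 * wt j := by
    intro x hx
    have hu := nu_upper k l hD x
    have h1 : |(x.1 : ℝ)| + |(x.2 : ℝ)| ≤ lam k l * wt j := by
      rw [hwt]
      nlinarith
    calc |nu1 k l x| + |nu2 k l x| ≤ lam k l * (|(x.1 : ℝ)| + |(x.2 : ℝ)|) := hu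
      _ ≤ lam k l * (lam k l * wt j) := mul_le_mul_of_nonneg_left h1 (by linarith)
      _ = lam k l ^ 2 * wt j := by ring
  constructor
  · apply key
    simp only [Prod.fst_add, Prod.snd_add, Int.cast_add]
    linarith [abs_add_le (j.1 : ℝ) (e.1 : ℝ), abs_add_le (j.2 : ℝ) (e.2 : ℝ)]
  · apply key
    simp only [Prod.fst_sub, Prod.snd_sub, Int.cast_sub]
    linarith [abs_sub (j.1 : ℝ) (e.1 : ℝ), abs_sub (j.2 : ℝ) (e.2 : ℝ)]

end Vale.Agent.Lib.P205.NF
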