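import Vale.Agent.Lib.P205.NF.FDerivW
import Vale.Agent.Lib.P205.NF.LFreq

/-!
# Derivatives of the two complex components of the map over a general homogeneous flat base
-/

namespace Vale.Agent.Lib.P205.NF

/-- Derivative of the exponential `exp(i e.p)`. -/
theorem lfder_exp (e : ℤ × ℤ) (p : ℝ × ℝ) :
    HasFDerivAt (fun q : ℝ × ℝ => cexpL e q)
      (cexpL e p • ((ContinuousLinearMap.fst ℝ ℝ ℝ).smulRight (Complex.I * (e.1 : ℂ)) +
        (ContinuousLinearMap.snd ℝ ℝ ℝ).smulRight (Complex.I * (e.2 : ℂ)))) p := by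
  have h1 : HasFDerivAt
      (fun q : ℝ × ℝ => Complex.I * ((e.1 : ℂ) * (q.1 : ℂ) + (e.2 : ℂ) * (q.2 : ℂ)))
      ((ContinuousLinearMap.fst ℝ ℝ ℝ).smulRight (Complex.I * (e.1 : ℂ)) +
        (ContinuousLinearMap.snd ℝ ℝ ℝ).smulRight (Complex.I * (e.2 : ℂ))) p := by
    have h2 := ((ContinuousLinearMap.fst ℝ ℝ ℝ).smulRight (Complex.I * (e.1 : ℂ)) +
        (ContinuousLinearMap.snd ℝ ℝ ℝ).smulRight (Complex.I * (e.2 : ℂ))).hasFDerivAt (x := p)
    refine h2.congr_of_eventuallyEq (Filter.Eventually.of_forall fun q => ?_)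
    simp only [add_apply, ContinuousLinearMap.smulRight_apply,
      ContinuousLinearMap.coe_fst', ContinuousLinearMap.coe_snd', Complex.real_smul]
    ring
  exact h1.cexp

/-- The frequency coordinates are controlled by the weight. -/
theorem lfder_nu_le (k l : ℤ × ℤ) (hD : ldet k l ≠ 0) (j : ℤ × ℤ) :
    |nu1 k l j| ≤ lam k l * wt j ∧ |nu2 k l j| ≤ lam k l * wt j := by
  have hu := nu_upper k l hD j
  have hl := lam_ge_one k l hD
  have h1 := abs_nonneg (nu1 k l j)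
  have h2 := abs_nonneg (nu2 k l j)
  have hw : wt j = 1 + |(j.1 : ℝ)| + |(j.2 : ℝ)| := rfl
  have h3 : lam k l * (|(j.1 : ℝ)| + |(j.2 : ℝ)|) ≤ lam k l * wt j := by
    apply mul_le_mul_of_nonneg_left _ (by linarith)
    rw [hw]
    linarith
  constructor
  · linarith
  · linarith

theorem lfder_sum1 (k l : ℤ × ℤ) (hD : ldet k l ≠ 0) (a : ℤ × ℤ → ℂ)
    (ha : Summable fun j => wt j * ‖a j‖) :
    Summable fun j : ℤ × ℤ => ‖Complex.I * (nu1 k l j : ℂ) * a j‖ := by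
  refine Summable.of_nonneg_of_le (fun j => norm_nonneg _) (fun j => ?_) (ha.mul_left (lam k l))
  rw [norm_mul, norm_mul, Complex.norm_I, one_mul, Complex.norm_real, Real.norm_eq_abs,
    ← mul_assoc]
  exact mul_le_mul_of_nonneg_right (lfder_nu_le k l hD j).1 (norm_nonneg _)

theorem lfder_sum2 (k l : ℤ × ℤ) (hD : ldet k l ≠ 0) (a : ℤ × ℤ → ℂ)
    (ha : Summable fun j => wt j * ‖a j‖) :
    Summable fun j : ℤ × ℤ => ‖Complex.I * (nu2 k l j : ℂ) * a j‖ := by
  refine Summable.of_nonneg_of_le (fun j => norm_nonneg _) (fun j => ?_) (ha.mul_left (lam k l))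
  rw [norm_mul, norm_mul, Complex.norm_I, one_mul, Complex.norm_real, Real.norm_eq_abs,
    ← mul_assoc]
  exact mul_le_mul_of_nonneg_right (lfder_nu_le k l hD j).2 (norm_nonneg _)

theorem lfder_shift1 (k l : ℤ × ℤ) (hD : ldet k l ≠ 0) (a : ℤ × ℤ → ℂ)
    (ha : Summable fun j => wt j * ‖a j‖) (p : ℝ × ℝ) :
    S (fun j => Complex.I * ((nu1 k l j : ℂ) + 1) * a j) p =
      Complex.I * S a p + S (fun j => Complex.I * (nu1 k l j : ℂ) * a j) p := by
  have h1 : (fun j : ℤ × ℤ => Complex.I * ((nu1 k l j : ℂ) + 1) * a j) =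
      fun j => Complex.I * a j + Complex.I * (nu1 k l j : ℂ) * a j := by
    funext j
    ring
  rw [h1, S_add (fun j => Complex.I * a j) (fun j => Complex.I * (nu1 k l j : ℂ) * a j)
    (fder_sum0 a ha) (lfder_sum1 k l hD a ha) p, S_const_mul]

theorem lfder_shift2 (k l : ℤ × ℤ) (hD : ldet k l ≠ 0) (a : ℤ × ℤ → ℂ)
    (ha : Summable fun j => wt j * ‖a j‖) (p : ℝ × ℝ) :
    S (fun j => Complex.I * ((nu2 k l j : ℂ) + 1) * a j) p =
      Complex.I * S a p + S (fun j => Complex.I * (nu2 k l j : ℂ) * a j) p := by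
  have h1 : (fun j : ℤ × ℤ => Complex.I * ((nu2 k l j : ℂ) + 1) * a j) =
      fun j => Complex.I * a j + Complex.I * (nu2 k l j : ℂ) * a j := by
    funext j
    ring
  rw [h1, S_add (fun j => Complex.I * a j) (fun j => Complex.I * (nu2 k l j : ℂ) * a j)
    (fder_sum0 a ha) (lfder_sum2 k l hD a ha) p, S_const_mul]

/-- The first index coordinate in terms of the frequency coordinates, under the synthesis. -/
theorem lfder_recon1 (k l : ℤ × ℤ) (hD : ldet k l ≠ 0) (a : ℤ × ℤ → ℂ)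
    (ha : Summable fun j => wt j * ‖a j‖) (p : ℝ × ℝ) :
    S (fun j => Complex.I * (j.1 : ℂ) * a j) p =
      (k.1 : ℂ) * S (fun j => Complex.I * (nu1 k l j : ℂ) * a j) p +
        (l.1 : ℂ) * S (fun j => Complex.I * (nu2 k l j : ℂ) * a j) p := by
  have h1 : (fun j : ℤ × ℤ => Complex.I * (j.1 : ℂ) * a j) =
      fun j => (k.1 : ℂ) * (Complex.I * (nu1 k l j : ℂ) * a j) +
        (l.1 : ℂ) * (Complex.I * (nu2 k l j : ℂ) * a j) := by
    funext j
    have h := (nu_recon k l hD j).1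
    have hc : ((j.1 : ℤ) : ℂ) = (nu1 k l j : ℂ) * (k.1 : ℂ) + (nu2 k l j : ℂ) * (l.1 : ℂ) := by
      exact_mod_cast congrArg (fun x : ℝ => (x : ℂ)) h
    rw [hc]
    ring
  have hs1 : Summable fun j : ℤ × ℤ => ‖(k.1 : ℂ) * (Complex.I * (nu1 k l j : ℂ) * a j)‖ :=
    ((lfder_sum1 k l hD a ha).mul_left ‖(k.1 : ℂ)‖).congr (fun j => (norm_mul _ _).symm)
  have hs2 : Summable fun j : ℤ × ℤ => ‖(l.1 : ℂ) * (Complex.I * (nu2 k l j : ℂ) * a j)‖ :=
    ((lfder_sum2 k l hD a ha).mul_left ‖(l.1 : ℂ)‖).congr (fun j => (norm_mul _ _).symm)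
  rw [h1, S_add _ _ hs1 hs2 p, S_const_mul, S_const_mul]

/-- The second index coordinate in terms of the frequency coordinates, under the synthesis. -/
theorem lfder_recon2 (k l : ℤ × ℤ) (hD : ldet k l ≠ 0) (a : ℤ × ℤ → ℂ)
    (ha : Summable fun j => wt j * ‖a j‖) (p : ℝ × ℝ) :
    S (fun j => Complex.I * (j.2 : ℂ) * a j) p =
      (k.2 : ℂ) * S (fun j => Complex.I * (nu1 k l j : ℂ) * a j) p +
        (l.2 : ℂ) * S (fun j => Complex.I * (nu2 k l j : ℂ) * a j) p := by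
  have h1 : (fun j : ℤ × ℤ => Complex.I * (j.2 : ℂ) * a j) =
      fun j => (k.2 : ℂ) * (Complex.I * (nu1 k l j : ℂ) * a j) +
        (l.2 : ℂ) * (Complex.I * (nu2 k l j : ℂ) * a j) := by
    funext j
    have h := (nu_recon k l hD j).2
    have hc : ((j.2 : ℤ) : ℂ) = (nu1 k l j : ℂ) * (k.2 : ℂ) + (nu2 k l j : ℂ) * (l.2 : ℂ) := by
      exact_mod_cast congrArg (fun x : ℝ => (x : ℂ)) h
    rw [hc]
    ring
  have hs1 : Summable fun j : ℤ × ℤ => ‖(k.2 : ℂ) * (Complex.I * (nu1 k l j : ℂ) * a j)‖ :=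
    ((lfder_sum1 k l hD a ha).mul_left ‖(k.2 : ℂ)‖).congr (fun j => (norm_mul _ _).symm)
  have hs2 : Summable fun j : ℤ × ℤ => ‖(l.2 : ℂ) * (Complex.I * (nu2 k l j : ℂ) * a j)‖ :=
    ((lfder_sum2 k l hD a ha).mul_left ‖(l.2 : ℂ)‖).congr (fun j => (norm_mul _ _).symm)
  rw [h1, S_add _ _ hs1 hs2 p, S_const_mul, S_const_mul]

theorem F1l_hasFDerivAt (k l : ℤ × ℤ) (hD : ldet k l ≠ 0) (A : ℝ) (a : ℤ × ℤ → ℂ)
    (ha : Summable fun j => wt j * ‖a j‖) (p : ℝ × ℝ) :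
    HasFDerivAt (fun q : ℝ × ℝ => cexpL k q * ((A : ℂ) + S a q))
      ((ContinuousLinearMap.fst ℝ ℝ ℝ).smulRight
          ((k.1 : ℂ) * (cexpL k p * (Complex.I * (A : ℂ) +
              S (fun j => Complex.I * ((nu1 k l j : ℂ) + 1) * a j) p)) +
            (l.1 : ℂ) * (cexpL k p * S (fun j => Complex.I * (nu2 k l j : ℂ) * a j) p)) +
        (ContinuousLinearMap.snd ℝ ℝ ℝ).smulRight
          ((k.2 : ℂ) * (cexpL k p * (Complex.I * (A : ℂ) +
              S (fun j => Complex.I * ((nu1 k l j : ℂ) + 1) * a j) p)) +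
            (l.2 : ℂ) * (cexpL k p * S (fun j => Complex.I * (nu2 k l j : ℂ) * a j) p))) p := by
  have hS := (S_hasFDerivAt a ha p).const_add (A : ℂ)
  have hmul := (lfder_exp k p).mul hS
  refine hmul.congr_fderiv ?_
  rw [lfder_shift1 k l hD a ha p, lfder_recon1 k l hD a ha p, lfder_recon2 k l hD a ha p]
  refine ContinuousLinearMap.ext fun v => ?_
  simp only [add_apply, smul_apply,
    ContinuousLinearMap.smulRight_apply, ContinuousLinearMap.coe_fst', ContinuousLinearMap.coe_snd',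
    smul_eq_mul, Complex.real_smul]
  ring

theorem F2l_hasFDerivAt (k l : ℤ × ℤ) (hD : ldet k l ≠ 0) (B : ℝ) (b : ℤ × ℤ → ℂ)
    (hb : Summable fun j => wt j * ‖b j‖) (p : ℝ × ℝ) :
    HasFDerivAt (fun q : ℝ × ℝ => cexpL l q * ((B : ℂ) + S b q))
      ((ContinuousLinearMap.fst ℝ ℝ ℝ).smulRight
          ((k.1 : ℂ) * (cexpL l p * S (fun j => Complex.I * (nu1 k l j : ℂ) * b j) p) +
            (l.1 : ℂ) * (cexpL l p * (Complex.I * (B : ℂ) +
              S (fun j => Complex.I * ((nu2 k l j : ℂ) + 1) * b j) p))) +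
        (ContinuousLinearMap.snd ℝ ℝ ℝ).smulRight
          ((k.2 : ℂ) * (cexpL l p * S (fun j => Complex.I * (nu1 k l j : ℂ) * b j) p) +
            (l.2 : ℂ) * (cexpL l p * (Complex.I * (B : ℂ) +
              S (fun j => Complex.I * ((nu2 k l j : ℂ) + 1) * b j) p)))) p := by
  have hS := (S_hasFDerivAt b hb p).const_add (B : ℂ)
  have hmul := (lfder_exp l p).mul hS
  refine hmul.congr_fderiv ?_
  rw [lfder_shift2 k l hD b hb p, lfder_recon1 k l hD b hb p, lfder_recon2 k l hD b hb p]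
  refine ContinuousLinearMap.ext fun v => ?_
  simp only [add_apply, smul_apply,
    ContinuousLinearMap.smulRight_apply, ContinuousLinearMap.coe_fst', ContinuousLinearMap.coe_snd',
    smul_eq_mul, Complex.real_smul]
  ring

end Vale.Agent.Lib.P205.NF
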