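import Vale.Agent.Lib.P205.NF.LFreq

/-!
# Bounds for the linear parts, general homogeneous flat base
-/

namespace Vale.Agent.Lib.P205.NF

theorem llinb_core (Λ a b : ℝ) (hΛ : 1 ≤ Λ) (_ha : 0 ≤ a) (hb : 0 ≤ b)
    (hσ : 1 ≤ Λ * (a + b)) : b + a * b ≤ 3 * Λ ^ 2 * (a ^ 2 + b ^ 2) := by
  have s1 : b ≤ Λ * (a * b + b ^ 2) := by nlinarith [mul_nonneg hb (sub_nonneg.2 hσ)]
  have s2 : a * b ≤ (a ^ 2 + b ^ 2) / 2 := by nlinarith [sq_nonneg (a - b)]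
  have s3 : Λ * (a * b + b ^ 2) ≤ Λ * (3 / 2 * (a ^ 2 + b ^ 2)) :=
    mul_le_mul_of_nonneg_left (by nlinarith [sq_nonneg (a - b), sq_nonneg a]) (by linarith)
  have hN : 0 ≤ a ^ 2 + b ^ 2 := by positivity
  have hc : 3 / 2 * Λ + 1 / 2 ≤ 3 * Λ ^ 2 := by nlinarith
  have s4 := mul_le_mul_of_nonneg_right hc hN
  nlinarith

theorem llinb_mid_real (Λ x y : ℝ) (hΛ : 1 ≤ Λ) (hσ : 1 ≤ Λ * (|x| + |y|)) :
    |y - x * y| ≤ 3 * Λ ^ 2 * (x ^ 2 + y ^ 2) := by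
  have h1 : |y - x * y| ≤ |y| + |x * y| := abs_sub _ _
  rw [abs_mul] at h1
  have h2 := llinb_core Λ |x| |y| hΛ (abs_nonneg x) (abs_nonneg y) hσ
  rw [sq_abs, sq_abs] at h2
  exact h1.trans h2

theorem llinb_sq_pos (Λ x y : ℝ) (hΛ : 1 ≤ Λ) (hσ : 1 ≤ Λ * (|x| + |y|)) :
    0 < x ^ 2 + y ^ 2 := by
  have hx := abs_nonneg x
  have hy := abs_nonneg y
  have hpos : 0 < |x| + |y| := by
    by_contra hc
    have hle : |x| + |y| ≤ 0 := not_lt.1 hc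
    have h := mul_le_mul_of_nonneg_left hle (by linarith : (0 : ℝ) ≤ Λ)
    rw [mul_zero] at h
    linarith
  have e : x ^ 2 + y ^ 2 = |x| ^ 2 + |y| ^ 2 := by rw [sq_abs, sq_abs]
  rw [e]
  nlinarith [sq_nonneg (|x| - |y|), mul_pos hpos hpos]

theorem llinb_mid (Λ x y : ℝ) (hΛ : 1 ≤ Λ)
    (h0 : (x = 0 ∧ y = 0) ∨ 1 ≤ Λ * (|x| + |y|)) (h : ℂ) :
    ‖((y : ℂ) - (x : ℂ) * (y : ℂ)) * h / ((x : ℂ) ^ 2 + (y : ℂ) ^ 2)‖ ≤ 3 * Λ ^ 2 * ‖h‖ := by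
  have hh : 0 ≤ ‖h‖ := norm_nonneg h
  rcases h0 with ⟨hx, hy⟩ | hσ
  · rw [hx, hy]
    have e : (((0 : ℝ) : ℂ) - ((0 : ℝ) : ℂ) * ((0 : ℝ) : ℂ)) * h /
        (((0 : ℝ) : ℂ) ^ 2 + ((0 : ℝ) : ℂ) ^ 2) = 0 := by simp
    rw [e, norm_zero]
    positivity
  · have e1 : ((y : ℂ) - (x : ℂ) * (y : ℂ)) = ((y - x * y : ℝ) : ℂ) := by
      push_cast
      ring
    have e2 : ((x : ℂ) ^ 2 + (y : ℂ) ^ 2) = ((x ^ 2 + y ^ 2 : ℝ) : ℂ) := by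
      push_cast
      ring
    rw [e1, e2, norm_div, norm_mul, Complex.norm_real, Complex.norm_real, Real.norm_eq_abs,
      Real.norm_eq_abs]
    have hNpos := llinb_sq_pos Λ x y hΛ hσ
    rw [abs_of_nonneg hNpos.le, div_le_iff₀ hNpos]
    have hm := llinb_mid_real Λ x y hΛ hσ
    calc |y - x * y| * ‖h‖ ≤ (3 * Λ ^ 2 * (x ^ 2 + y ^ 2)) * ‖h‖ :=
          mul_le_mul_of_nonneg_right hm hh
      _ = 3 * Λ ^ 2 * ‖h‖ * (x ^ 2 + y ^ 2) := by ring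

theorem llinb_midB (Λ x y : ℝ) (hΛ : 1 ≤ Λ)
    (h0 : (x = 0 ∧ y = 0) ∨ 1 ≤ Λ * (|x| + |y|)) (h : ℂ) :
    ‖((x : ℂ) - (x : ℂ) * (y : ℂ)) * h / ((x : ℂ) ^ 2 + (y : ℂ) ^ 2)‖ ≤ 3 * Λ ^ 2 * ‖h‖ := by
  have h0' : (y = 0 ∧ x = 0) ∨ 1 ≤ Λ * (|y| + |x|) := by
    rcases h0 with ⟨hx, hy⟩ | hσ
    · exact Or.inl ⟨hy, hx⟩
    · right
      rw [add_comm]
      exact hσ
  have t := llinb_mid Λ y x hΛ h0' h
  have e : ((x : ℂ) - (x : ℂ) * (y : ℂ)) * h / ((x : ℂ) ^ 2 + (y : ℂ) ^ 2)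
      = ((x : ℂ) - (y : ℂ) * (x : ℂ)) * h / ((y : ℂ) ^ 2 + (x : ℂ) ^ 2) := by
    rw [mul_comm (x : ℂ) (y : ℂ), add_comm ((x : ℂ) ^ 2)]
  rw [e]
  exact t

theorem llinb_last (Λ x y w : ℝ) (hΛ : 1 ≤ Λ) (hw : 1 ≤ w) (hσ : |x| + |y| ≤ Λ * w) (p : ℂ) :
    ‖((x : ℂ) ^ 2 - (x : ℂ)) * p‖ ≤ 3 * Λ ^ 2 * (w ^ 2 * ‖p‖) := by
  have e1 : ((x : ℂ) ^ 2 - (x : ℂ)) = ((x ^ 2 - x : ℝ) : ℂ) := by
    push_cast
    ring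
  rw [e1, norm_mul, Complex.norm_real, Real.norm_eq_abs]
  have hp : 0 ≤ ‖p‖ := norm_nonneg p
  have h1 : |x ^ 2 - x| ≤ |x ^ 2| + |x| := abs_sub _ _
  have h2 : |x ^ 2| = |x| ^ 2 := abs_pow _ 2
  rw [h2] at h1
  have h3 : 0 ≤ |x| := abs_nonneg _
  have h4 : 0 ≤ |y| := abs_nonneg _
  have hc : |x ^ 2 - x| ≤ 3 * Λ ^ 2 * w ^ 2 := by
    have hs : |x| ≤ Λ * w := by linarith
    have hs1 : 1 ≤ Λ * w := by nlinarith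
    have hsq : |x| ^ 2 ≤ (Λ * w) ^ 2 := by nlinarith
    have hs2 : Λ * w ≤ (Λ * w) ^ 2 := by nlinarith
    have e : (Λ * w) ^ 2 = Λ ^ 2 * w ^ 2 := by ring
    have hnn : 0 ≤ Λ ^ 2 * w ^ 2 := by positivity
    linarith
  calc |x ^ 2 - x| * ‖p‖ ≤ (3 * Λ ^ 2 * w ^ 2) * ‖p‖ := mul_le_mul_of_nonneg_right hc hp
    _ = 3 * Λ ^ 2 * (w ^ 2 * ‖p‖) := by ring

theorem llinb_lastB (Λ x y w : ℝ) (hΛ : 1 ≤ Λ) (hw : 1 ≤ w) (hσ : |x| + |y| ≤ Λ * w)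
    (p : ℂ) :
    ‖((y : ℂ) - (y : ℂ) ^ 2) * p‖ ≤ 3 * Λ ^ 2 * (w ^ 2 * ‖p‖) := by
  have hσ' : |y| + |x| ≤ Λ * w := by
    rw [add_comm]
    exact hσ
  have t := llinb_last Λ y x w hΛ hw hσ' (-p)
  rw [norm_neg] at t
  have e : ((y : ℂ) - (y : ℂ) ^ 2) * p = ((y : ℂ) ^ 2 - (y : ℂ)) * -p := by ring
  rw [e]
  exact t

theorem llinb_int_ge (m : ℤ × ℤ) (hm : m ≠ 0) : 1 ≤ |(m.1 : ℝ)| + |(m.2 : ℝ)| := by
  have a1 := abs_nonneg (m.1 : ℝ)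
  have a2 := abs_nonneg (m.2 : ℝ)
  by_cases h1 : m.1 = 0
  · have h2 : m.2 ≠ 0 := by
      intro h2
      apply hm
      exact Prod.ext h1 h2
    have h := Int.one_le_abs h2
    have h5 : ((1 : ℤ) : ℝ) ≤ ((|m.2| : ℤ) : ℝ) := Int.cast_le.2 h
    rw [Int.cast_abs, Int.cast_one] at h5
    linarith
  · have h := Int.one_le_abs h1
    have h5 : ((1 : ℤ) : ℝ) ≤ ((|m.1| : ℤ) : ℝ) := Int.cast_le.2 h
    rw [Int.cast_abs, Int.cast_one] at h5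
    linarith

theorem llinb_wt_ge (m : ℤ × ℤ) : 1 ≤ wt m := by
  unfold wt
  linarith [abs_nonneg (m.1 : ℝ), abs_nonneg (m.2 : ℝ)]

theorem llinb_h0 (k l : ℤ × ℤ) (hD : ldet k l ≠ 0) (m : ℤ × ℤ) :
    (nu1 k l m = 0 ∧ nu2 k l m = 0) ∨ 1 ≤ lam k l * (|nu1 k l m| + |nu2 k l m|) := by
  by_cases hm : m = 0
  · left
    rw [hm]
    exact nu_zero k l
  · right
    have h := nu_lower k l hD m
    have h2 := llinb_int_ge m hm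
    linarith

theorem llinb_up (k l : ℤ × ℤ) (hD : ldet k l ≠ 0) (m : ℤ × ℤ) :
    |nu1 k l m| + |nu2 k l m| ≤ lam k l * wt m := by
  have h := nu_upper k l hD m
  have hΛ := lam_ge_one k l hD
  unfold wt
  have e : lam k l * (1 + |(m.1 : ℝ)| + |(m.2 : ℝ)|)
      = lam k l + lam k l * (|(m.1 : ℝ)| + |(m.2 : ℝ)|) := by ring
  rw [e]
  linarith

theorem llinb_half (Λ : ℝ) (hΛ : 1 ≤ Λ) (h : ℂ) : ‖h / 2‖ ≤ 3 * Λ ^ 2 * ‖h‖ := by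
  have e : ‖h / 2‖ = ‖h‖ / 2 := by
    rw [norm_div]
    simp
  rw [e]
  have hn := norm_nonneg h
  have hc : (1 : ℝ) / 2 ≤ 3 * Λ ^ 2 := by nlinarith
  have h4 := mul_le_mul_of_nonneg_right hc hn
  linarith

theorem llinb_ptA (k l : ℤ × ℤ) (hD : ldet k l ≠ 0) (h11 h12 psi : ℤ × ℤ → ℂ) (m : ℤ × ℤ) :
    ‖linAL k l h11 h12 psi m‖ ≤
      3 * lam k l ^ 2 * (‖h11 m‖ + ‖h12 m‖ + wt m ^ 2 * ‖psi m‖) := by
  have hΛ := lam_ge_one k l hD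
  have t1 := llinb_half (lam k l) hΛ (h11 m)
  have t2 := llinb_mid (lam k l) (nu1 k l m) (nu2 k l m) hΛ (llinb_h0 k l hD m) (h12 m)
  have t3 := llinb_last (lam k l) (nu1 k l m) (nu2 k l m) (wt m) hΛ (llinb_wt_ge m)
    (llinb_up k l hD m) (psi m)
  have e : 3 * lam k l ^ 2 * (‖h11 m‖ + ‖h12 m‖ + wt m ^ 2 * ‖psi m‖)
      = 3 * lam k l ^ 2 * ‖h11 m‖ + 3 * lam k l ^ 2 * ‖h12 m‖
        + 3 * lam k l ^ 2 * (wt m ^ 2 * ‖psi m‖) := by ring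
  rw [e]
  unfold linAL
  refine le_trans (norm_add_le _ _) (add_le_add (le_trans (norm_add_le _ _) (add_le_add ?_ ?_)) ?_)
  · exact t1
  · exact t2
  · exact t3

theorem llinb_ptB (k l : ℤ × ℤ) (hD : ldet k l ≠ 0) (h22 h12 psi : ℤ × ℤ → ℂ) (m : ℤ × ℤ) :
    ‖linBL k l h22 h12 psi m‖ ≤
      3 * lam k l ^ 2 * (‖h22 m‖ + ‖h12 m‖ + wt m ^ 2 * ‖psi m‖) := by
  have hΛ := lam_ge_one k l hD
  have t1 := llinb_half (lam k l) hΛ (h22 m)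
  have t2 := llinb_midB (lam k l) (nu1 k l m) (nu2 k l m) hΛ (llinb_h0 k l hD m) (h12 m)
  have t3 := llinb_lastB (lam k l) (nu1 k l m) (nu2 k l m) (wt m) hΛ (llinb_wt_ge m)
    (llinb_up k l hD m) (psi m)
  have e : 3 * lam k l ^ 2 * (‖h22 m‖ + ‖h12 m‖ + wt m ^ 2 * ‖psi m‖)
      = 3 * lam k l ^ 2 * ‖h22 m‖ + 3 * lam k l ^ 2 * ‖h12 m‖
        + 3 * lam k l ^ 2 * (wt m ^ 2 * ‖psi m‖) := by ring
  rw [e]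
  unfold linBL
  refine le_trans (norm_add_le _ _) (add_le_add (le_trans (norm_add_le _ _) (add_le_add ?_ ?_)) ?_)
  · exact t1
  · exact t2
  · exact t3

theorem llinb_sum (C : ℝ) (ω : ℤ × ℤ → ℝ) (hω : ∀ j, 0 ≤ ω j) (F G1 G2 psi : ℤ × ℤ → ℂ)
    (hpt : ∀ m, ‖F m‖ ≤ C * (‖G1 m‖ + ‖G2 m‖ + wt m ^ 2 * ‖psi m‖))
    (h1 : Summable fun j => ω j * ‖G1 j‖) (h2 : Summable fun j => ω j * ‖G2 j‖)
    (h3 : Summable fun j => ω j * (wt j ^ 2 * ‖psi j‖)) :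
    Summable (fun j => ω j * ‖F j‖) ∧
    nrm ω F ≤ C * (nrm ω G1 + nrm ω G2 + ∑' j, ω j * (wt j ^ 2 * ‖psi j‖)) := by
  have hB : Summable fun j =>
      C * (ω j * ‖G1 j‖ + ω j * ‖G2 j‖ + ω j * (wt j ^ 2 * ‖psi j‖)) :=
    ((h1.add h2).add h3).mul_left C
  have hle : ∀ j, ω j * ‖F j‖ ≤
      C * (ω j * ‖G1 j‖ + ω j * ‖G2 j‖ + ω j * (wt j ^ 2 * ‖psi j‖)) := by
    intro j
    have h := mul_le_mul_of_nonneg_left (hpt j) (hω j)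
    have e : ω j * (C * (‖G1 j‖ + ‖G2 j‖ + wt j ^ 2 * ‖psi j‖))
        = C * (ω j * ‖G1 j‖ + ω j * ‖G2 j‖ + ω j * (wt j ^ 2 * ‖psi j‖)) := by ring
    rw [e] at h
    exact h
  have hF : Summable fun j => ω j * ‖F j‖ :=
    Summable.of_nonneg_of_le (fun j => mul_nonneg (hω j) (norm_nonneg _)) hle hB
  refine ⟨hF, ?_⟩
  have h4 := Summable.tsum_le_tsum hle hF hB
  rw [tsum_mul_left, Summable.tsum_add (h1.add h2) h3, Summable.tsum_add h1 h2] at h4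
  exact h4

theorem lin_bound_l (k l : ℤ × ℤ) (hD : ldet k l ≠ 0) :
    ∃ C : ℝ, 1 ≤ C ∧ ∀ (ω : ℤ × ℤ → ℝ), (∀ j, 0 ≤ ω j) → ∀ (h11 h12 h22 psi : ℤ × ℤ → ℂ),
      (Summable fun j => ω j * ‖h11 j‖) → (Summable fun j => ω j * ‖h12 j‖) →
      (Summable fun j => ω j * ‖h22 j‖) → (Summable fun j => ω j * (wt j ^ 2 * ‖psi j‖)) →
      (Summable fun j => ω j * ‖linAL k l h11 h12 psi j‖) ∧
      nrm ω (linAL k l h11 h12 psi) ≤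
        C * (nrm ω h11 + nrm ω h12 + ∑' j, ω j * (wt j ^ 2 * ‖psi j‖)) ∧
      (Summable fun j => ω j * ‖linBL k l h22 h12 psi j‖) ∧
      nrm ω (linBL k l h22 h12 psi) ≤
        C * (nrm ω h22 + nrm ω h12 + ∑' j, ω j * (wt j ^ 2 * ‖psi j‖)) := by
  have hΛ := lam_ge_one k l hD
  refine ⟨3 * lam k l ^ 2, by nlinarith, ?_⟩
  intro ω hω h11 h12 h22 psi s11 s12 s22 spsi
  have hA := llinb_sum (3 * lam k l ^ 2) ω hω (linAL k l h11 h12 psi) h11 h12 psi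
    (llinb_ptA k l hD h11 h12 psi) s11 s12 spsi
  have hB := llinb_sum (3 * lam k l ^ 2) ω hω (linBL k l h22 h12 psi) h22 h12 psi
    (llinb_ptB k l hD h22 h12 psi) s22 s12 spsi
  exact ⟨hA.1, hA.2, hB.1, hB.2⟩

end Vale.Agent.Lib.P205.NF
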