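import Vale.Agent.Lib.P205.NF.LFreq

/-!
# The linear parts solve the linearised equations, general homogeneous flat base
-/

namespace Vale.Agent.Lib.P205.NF

/-- The conjugate sequence of the first linear datum. -/
theorem llinid_cstarA (k l : ℤ × ℤ) (h11 h12 psi : ℤ × ℤ → ℂ)
    (H11 : ∀ j, h11 (-j) = (starRingEnd ℂ) (h11 j))
    (H12 : ∀ j, h12 (-j) = (starRingEnd ℂ) (h12 j))
    (Hpsi : ∀ j, psi (-j) = (starRingEnd ℂ) (psi j)) (m : ℤ × ℤ) :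
    cstar (linAL k l h11 h12 psi) m = h11 m / 2 +
      (-(nu2 k l m : ℂ) - (nu1 k l m : ℂ) * (nu2 k l m : ℂ)) * h12 m /
        ((nu1 k l m : ℂ) ^ 2 + (nu2 k l m : ℂ) ^ 2) +
      ((nu1 k l m : ℂ) ^ 2 + (nu1 k l m : ℂ)) * psi m := by
  unfold cstar linAL
  rw [H11 m, H12 m, Hpsi m, (nu_neg k l m).1, (nu_neg k l m).2]
  simp only [map_add, map_sub, map_mul, map_div₀, map_pow, map_neg, Complex.conj_conj,
    Complex.conj_ofReal, map_ofNat, Complex.ofReal_neg, neg_sq]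
  ring

/-- The conjugate sequence of the second linear datum. -/
theorem llinid_cstarB (k l : ℤ × ℤ) (h22 h12 psi : ℤ × ℤ → ℂ)
    (H22 : ∀ j, h22 (-j) = (starRingEnd ℂ) (h22 j))
    (H12 : ∀ j, h12 (-j) = (starRingEnd ℂ) (h12 j))
    (Hpsi : ∀ j, psi (-j) = (starRingEnd ℂ) (psi j)) (m : ℤ × ℤ) :
    cstar (linBL k l h22 h12 psi) m = h22 m / 2 +
      (-(nu1 k l m : ℂ) - (nu1 k l m : ℂ) * (nu2 k l m : ℂ)) * h12 m /
        ((nu1 k l m : ℂ) ^ 2 + (nu2 k l m : ℂ) ^ 2) +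
      (-(nu2 k l m : ℂ) - (nu2 k l m : ℂ) ^ 2) * psi m := by
  unfold cstar linBL
  rw [H22 m, H12 m, Hpsi m, (nu_neg k l m).1, (nu_neg k l m).2]
  simp only [map_add, map_sub, map_mul, map_div₀, map_pow, map_neg, Complex.conj_conj,
    Complex.conj_ofReal, map_ofNat, Complex.ofReal_neg, neg_sq]
  ring

theorem lin_id_l (k l : ℤ × ℤ) (hD : ldet k l ≠ 0) (h11 h12 h22 psi : ℤ × ℤ → ℂ)
    (h1 : ∀ j, h11 (-j) = (starRingEnd ℂ) (h11 j)) (h2 : ∀ j, h12 (-j) = (starRingEnd ℂ) (h12 j))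
    (h3 : ∀ j, h22 (-j) = (starRingEnd ℂ) (h22 j)) (h4 : ∀ j, psi (-j) = (starRingEnd ℂ) (psi j)) :
    (∀ m : ℤ × ℤ, ((nu1 k l m : ℂ) + 1) * linAL k l h11 h12 psi m -
      ((nu1 k l m : ℂ) - 1) * cstar (linAL k l h11 h12 psi) m = h11 m) ∧
    (∀ m : ℤ × ℤ, ((nu2 k l m : ℂ) + 1) * linBL k l h22 h12 psi m -
      ((nu2 k l m : ℂ) - 1) * cstar (linBL k l h22 h12 psi) m = h22 m) ∧
    (∀ m : ℤ × ℤ, m ≠ 0 →
      (nu2 k l m : ℂ) / 2 * (linAL k l h11 h12 psi m - cstar (linAL k l h11 h12 psi) m) +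
        (nu1 k l m : ℂ) / 2 * (linBL k l h22 h12 psi m - cstar (linBL k l h22 h12 psi) m) =
        h12 m) := by
  refine ⟨fun m => ?_, fun m => ?_, fun m hm => ?_⟩
  · rw [llinid_cstarA k l h11 h12 psi h1 h2 h4 m]
    unfold linAL
    by_cases hN : (nu1 k l m : ℂ) ^ 2 + (nu2 k l m : ℂ) ^ 2 = 0
    · simp only [hN, div_zero]
      ring
    · field_simp
      ring
  · rw [llinid_cstarB k l h22 h12 psi h3 h2 h4 m]
    unfold linBL
    by_cases hN : (nu1 k l m : ℂ) ^ 2 + (nu2 k l m : ℂ) ^ 2 = 0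
    · simp only [hN, div_zero]
      ring
    · field_simp
      ring
  · rw [llinid_cstarA k l h11 h12 psi h1 h2 h4 m, llinid_cstarB k l h22 h12 psi h3 h2 h4 m]
    unfold linAL linBL
    have hpos := nu_sq_pos k l hD m hm
    have hN : (nu1 k l m : ℂ) ^ 2 + (nu2 k l m : ℂ) ^ 2 ≠ 0 := by
      have hc : ((nu1 k l m ^ 2 + nu2 k l m ^ 2 : ℝ) : ℂ) ≠ 0 :=
        Complex.ofReal_ne_zero.2 (ne_of_gt hpos)
      push_cast at hc
      exact hc
    field_simp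
    ring

end Vale.Agent.Lib.P205.NF
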