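import Vale.Agent.Lib.P205.NF.MetricFunW
import Vale.Agent.Lib.P205.NF.LFreq

/-!
# The induced metric over a general homogeneous flat base, in terms of the coefficient
sequences (components in the coordinates `(k.p, l.p)`)
-/

namespace Vale.Agent.Lib.P205.NF

/-- Frequencies of the shifted indices that occur in the twisted symbols. -/
theorem lmetric_nu (k l : ℤ × ℤ) (hD : ldet k l ≠ 0) (m j : ℤ × ℤ) :
    nu1 k l (j + k) = nu1 k l j + 1 ∧ nu2 k l (j + k) = nu2 k l j ∧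
    nu1 k l (j + l) = nu1 k l j ∧ nu2 k l (j + l) = nu2 k l j + 1 ∧
    nu1 k l (m - j - k) = nu1 k l m - nu1 k l j - 1 ∧
    nu2 k l (m - j - k) = nu2 k l m - nu2 k l j ∧
    nu1 k l (m - j - l) = nu1 k l m - nu1 k l j ∧
    nu2 k l (m - j - l) = nu2 k l m - nu2 k l j - 1 ∧
    nu1 k l (j - m) = nu1 k l j - nu1 k l m ∧ nu2 k l (j - m) = nu2 k l j - nu2 k l m := by
  obtain ⟨b1, b2, b3, b4⟩ := nu_basis k l hD
  refine ⟨?_, ?_, ?_, ?_, ?_, ?_, ?_, ?_, ?_, ?_⟩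
  · rw [(nu_add k l j k).1, b1]
  · rw [(nu_add k l j k).2, b2, add_zero]
  · rw [(nu_add k l j l).1, b3, add_zero]
  · rw [(nu_add k l j l).2, b4]
  · rw [(nu_sub k l (m - j) k).1, (nu_sub k l m j).1, b1]
  · rw [(nu_sub k l (m - j) k).2, (nu_sub k l m j).2, b2, sub_zero]
  · rw [(nu_sub k l (m - j) l).1, (nu_sub k l m j).1, b3, sub_zero]
  · rw [(nu_sub k l (m - j) l).2, (nu_sub k l m j).2, b4]
  · exact (nu_sub k l j m).1
  · exact (nu_sub k l j m).2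

/-- Norm summability of a family with coefficients of linear growth. -/
theorem lmetric_ns (a : ℤ × ℤ → ℂ) (ha : Summable fun j => wt j * ‖a j‖) (M : ℝ)
    (c : ℤ × ℤ → ℂ) (hc : ∀ j, ‖c j‖ ≤ M * wt j) : Summable fun j => ‖c j * a j‖ := by
  refine Summable.of_nonneg_of_le (fun _ => norm_nonneg _) (fun j => ?_) (ha.mul_left M)
  rw [norm_mul]
  calc ‖c j‖ * ‖a j‖ ≤ M * wt j * ‖a j‖ :=
        mul_le_mul_of_nonneg_right (hc j) (norm_nonneg _)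
    _ = M * (wt j * ‖a j‖) := by ring

/-- The four frequency factors grow at most linearly. -/
theorem lmetric_cf (k l : ℤ × ℤ) (hD : ldet k l ≠ 0) (j : ℤ × ℤ) :
    ‖Complex.I * ((nu1 k l j : ℂ) + 1)‖ ≤ lam k l * wt j ∧
    ‖Complex.I * (nu2 k l j : ℂ)‖ ≤ lam k l * wt j ∧
    ‖Complex.I * (nu1 k l j : ℂ)‖ ≤ lam k l * wt j ∧
    ‖Complex.I * ((nu2 k l j : ℂ) + 1)‖ ≤ lam k l * wt j := by
  have hu := nu_upper k l hD j
  have hl := lam_ge_one k l hD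
  have h1 := abs_nonneg (nu1 k l j)
  have h2 := abs_nonneg (nu2 k l j)
  have hwt : wt j = 1 + |(j.1 : ℝ)| + |(j.2 : ℝ)| := rfl
  have hmul : lam k l * wt j = lam k l + lam k l * (|(j.1 : ℝ)| + |(j.2 : ℝ)|) := by
    rw [hwt]
    ring
  have e1 : ((nu1 k l j : ℂ) + 1) = ((nu1 k l j + 1 : ℝ) : ℂ) := by
    rw [Complex.ofReal_add, Complex.ofReal_one]
  have e2 : ((nu2 k l j : ℂ) + 1) = ((nu2 k l j + 1 : ℝ) : ℂ) := by
    rw [Complex.ofReal_add, Complex.ofReal_one]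
  have a1 := abs_add_le (nu1 k l j) 1
  have a2 := abs_add_le (nu2 k l j) 1
  rw [abs_one] at a1 a2
  refine ⟨?_, ?_, ?_, ?_⟩
  · rw [norm_mul, Complex.norm_I, one_mul, e1, Complex.norm_real, Real.norm_eq_abs]
    linarith
  · rw [norm_mul, Complex.norm_I, one_mul, Complex.norm_real, Real.norm_eq_abs]
    linarith
  · rw [norm_mul, Complex.norm_I, one_mul, Complex.norm_real, Real.norm_eq_abs]
    linarith
  · rw [norm_mul, Complex.norm_I, one_mul, e2, Complex.norm_real, Real.norm_eq_abs]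
    linarith

/-- The twisting exponentials have norm one. -/
theorem lmetric_cexp_norm (e : ℤ × ℤ) (p : ℝ × ℝ) : ‖cexpL e p‖ = 1 := by
  unfold cexpL
  have h : Complex.I * ((e.1 : ℂ) * (p.1 : ℂ) + (e.2 : ℂ) * (p.2 : ℂ)) =
      ((((e.1 : ℝ) * p.1 + (e.2 : ℝ) * p.2 : ℝ)) : ℂ) * Complex.I := by
    push_cast
    ring
  rw [h]
  exact Complex.norm_exp_ofReal_mul_I _

theorem lmetric_lin11 (k l : ℤ × ℤ) (A : ℝ) (a : ℤ × ℤ → ℂ) (m : ℤ × ℤ) :
    (A : ℂ) * (((nu1 k l m : ℂ) + 1) * a m - ((nu1 k l m : ℂ) - 1) * cstar a m) =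
      (-Complex.I * (A : ℂ)) * ((fun j : ℤ × ℤ => Complex.I * ((nu1 k l j : ℂ) + 1) * a j) m - cstar (fun j : ℤ × ℤ => Complex.I * ((nu1 k l j : ℂ) + 1) * a j) m) := by
  simp only [cstar]
  rw [metric_lin _ _ _ _ _ (by simp), (nu_neg k l m).1]
  push_cast
  linear_combination ((A : ℂ) * (((nu1 k l m : ℂ) + 1) * a m +
    (1 - (nu1 k l m : ℂ)) * (starRingEnd ℂ) (a (-m)))) * Complex.I_mul_I

theorem lmetric_lin22 (k l : ℤ × ℤ) (B : ℝ) (b : ℤ × ℤ → ℂ) (m : ℤ × ℤ) :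
    (B : ℂ) * (((nu2 k l m : ℂ) + 1) * b m - ((nu2 k l m : ℂ) - 1) * cstar b m) =
      (-Complex.I * (B : ℂ)) * ((fun j : ℤ × ℤ => Complex.I * ((nu2 k l j : ℂ) + 1) * b j) m - cstar (fun j : ℤ × ℤ => Complex.I * ((nu2 k l j : ℂ) + 1) * b j) m) := by
  simp only [cstar]
  rw [metric_lin _ _ _ _ _ (by simp), (nu_neg k l m).2]
  push_cast
  linear_combination ((B : ℂ) * (((nu2 k l m : ℂ) + 1) * b m +
    (1 - (nu2 k l m : ℂ)) * (starRingEnd ℂ) (b (-m)))) * Complex.I_mul_I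

theorem lmetric_lin12a (k l : ℤ × ℤ) (A : ℝ) (a : ℤ × ℤ → ℂ) (m : ℤ × ℤ) :
    (A : ℂ) * ((nu2 k l m : ℂ) / 2 * (a m - cstar a m)) =
      (-(Complex.I / 2) * (A : ℂ)) * ((fun j : ℤ × ℤ => Complex.I * (nu2 k l j : ℂ) * a j) m - cstar (fun j : ℤ × ℤ => Complex.I * (nu2 k l j : ℂ) * a j) m) := by
  simp only [cstar]
  rw [metric_lin _ _ _ _ _ (by simp), (nu_neg k l m).2]
  push_cast
  linear_combination ((A : ℂ) / 2 * ((nu2 k l m : ℂ) * a m -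
    (nu2 k l m : ℂ) * (starRingEnd ℂ) (a (-m)))) * Complex.I_mul_I

theorem lmetric_lin12b (k l : ℤ × ℤ) (B : ℝ) (b : ℤ × ℤ → ℂ) (m : ℤ × ℤ) :
    (B : ℂ) * ((nu1 k l m : ℂ) / 2 * (b m - cstar b m)) =
      (-(Complex.I / 2) * (B : ℂ)) * ((fun j : ℤ × ℤ => Complex.I * (nu1 k l j : ℂ) * b j) m - cstar (fun j : ℤ × ℤ => Complex.I * (nu1 k l j : ℂ) * b j) m) := by
  simp only [cstar]
  rw [metric_lin _ _ _ _ _ (by simp), (nu_neg k l m).1]
  push_cast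
  linear_combination ((B : ℂ) / 2 * ((nu1 k l m : ℂ) * b m -
    (nu1 k l m : ℂ) * (starRingEnd ℂ) (b (-m)))) * Complex.I_mul_I

theorem lmetric_t11k (k l : ℤ × ℤ) (hD : ldet k l ≠ 0) (a : ℤ × ℤ → ℂ) (m j : ℤ × ℤ) :
    twR QR11 k l k m j * a j * cstar a (m - j) =
      Complex.I * ((nu1 k l j : ℂ) + 1) * a j *
        (starRingEnd ℂ) (Complex.I * ((nu1 k l (j - m) : ℂ) + 1) * a (j - m)) := by
  obtain ⟨h1, h2, h3, h4, h5, h6, h7, h8, h9, h10⟩ := lmetric_nu k l hD m j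
  rw [metric_alg _ _ _ _ (by simp)]
  simp only [twR, QR11, fr, cstar, neg_sub, h1, h5, h9]
  push_cast
  ring

theorem lmetric_t11l (k l : ℤ × ℤ) (hD : ldet k l ≠ 0) (b : ℤ × ℤ → ℂ) (m j : ℤ × ℤ) :
    twR QR11 k l l m j * b j * cstar b (m - j) =
      Complex.I * (nu1 k l j : ℂ) * b j *
        (starRingEnd ℂ) (Complex.I * (nu1 k l (j - m) : ℂ) * b (j - m)) := by
  obtain ⟨h1, h2, h3, h4, h5, h6, h7, h8, h9, h10⟩ := lmetric_nu k l hD m j
  rw [metric_alg _ _ _ _ (by simp)]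
  simp only [twR, QR11, fr, cstar, neg_sub, h3, h7, h9]
  push_cast
  ring

theorem lmetric_t22k (k l : ℤ × ℤ) (hD : ldet k l ≠ 0) (a : ℤ × ℤ → ℂ) (m j : ℤ × ℤ) :
    twR QR22 k l k m j * a j * cstar a (m - j) =
      Complex.I * (nu2 k l j : ℂ) * a j *
        (starRingEnd ℂ) (Complex.I * (nu2 k l (j - m) : ℂ) * a (j - m)) := by
  obtain ⟨h1, h2, h3, h4, h5, h6, h7, h8, h9, h10⟩ := lmetric_nu k l hD m j
  rw [metric_alg _ _ _ _ (by simp)]
  simp only [twR, QR22, fr, cstar, neg_sub, h2, h6, h10]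
  push_cast
  ring

theorem lmetric_t22l (k l : ℤ × ℤ) (hD : ldet k l ≠ 0) (b : ℤ × ℤ → ℂ) (m j : ℤ × ℤ) :
    twR QR22 k l l m j * b j * cstar b (m - j) =
      Complex.I * ((nu2 k l j : ℂ) + 1) * b j *
        (starRingEnd ℂ) (Complex.I * ((nu2 k l (j - m) : ℂ) + 1) * b (j - m)) := by
  obtain ⟨h1, h2, h3, h4, h5, h6, h7, h8, h9, h10⟩ := lmetric_nu k l hD m j
  rw [metric_alg _ _ _ _ (by simp)]
  simp only [twR, QR22, fr, cstar, neg_sub, h4, h8, h10]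
  push_cast
  ring

theorem lmetric_t12k (k l : ℤ × ℤ) (hD : ldet k l ≠ 0) (a : ℤ × ℤ → ℂ) (m j : ℤ × ℤ) :
    twR QR12 k l k m j * a j * cstar a (m - j) =
      (1 / 2 : ℂ) * (Complex.I * ((nu1 k l j : ℂ) + 1) * a j *
          (starRingEnd ℂ) (Complex.I * (nu2 k l (j - m) : ℂ) * a (j - m)) +
        Complex.I * (nu2 k l j : ℂ) * a j *
          (starRingEnd ℂ) (Complex.I * ((nu1 k l (j - m) : ℂ) + 1) * a (j - m))) := by
  obtain ⟨h1, h2, h3, h4, h5, h6, h7, h8, h9, h10⟩ := lmetric_nu k l hD m j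
  rw [metric_alg _ _ _ _ (by simp), metric_alg _ _ _ _ (by simp)]
  simp only [twR, QR12, fr, cstar, neg_sub, h1, h2, h5, h6, h9, h10]
  push_cast
  ring

theorem lmetric_t12l (k l : ℤ × ℤ) (hD : ldet k l ≠ 0) (b : ℤ × ℤ → ℂ) (m j : ℤ × ℤ) :
    twR QR12 k l l m j * b j * cstar b (m - j) =
      (1 / 2 : ℂ) * (Complex.I * (nu1 k l j : ℂ) * b j *
          (starRingEnd ℂ) (Complex.I * ((nu2 k l (j - m) : ℂ) + 1) * b (j - m)) +
        Complex.I * ((nu2 k l j : ℂ) + 1) * b j *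
          (starRingEnd ℂ) (Complex.I * (nu1 k l (j - m) : ℂ) * b (j - m))) := by
  obtain ⟨h1, h2, h3, h4, h5, h6, h7, h8, h9, h10⟩ := lmetric_nu k l hD m j
  rw [metric_alg _ _ _ _ (by simp), metric_alg _ _ _ _ (by simp)]
  simp only [twR, QR12, fr, cstar, neg_sub, h3, h4, h7, h8, h9, h10]
  push_cast
  ring

theorem lmetric_c11L_eq (k l : ℤ × ℤ) (hD : ldet k l ≠ 0) (A : ℝ) (a b : ℤ × ℤ → ℂ) :
    c11L k l A a b = fun m =>
      (-Complex.I * (A : ℂ)) * ((fun j : ℤ × ℤ => Complex.I * ((nu1 k l j : ℂ) + 1) * a j) m - cstar (fun j : ℤ × ℤ => Complex.I * ((nu1 k l j : ℂ) + 1) * a j) m) +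
        ((∑' j : ℤ × ℤ, (fun j : ℤ × ℤ => Complex.I * ((nu1 k l j : ℂ) + 1) * a j) j * (starRingEnd ℂ) ((fun j : ℤ × ℤ => Complex.I * ((nu1 k l j : ℂ) + 1) * a j) (j - m))) +
          ∑' j : ℤ × ℤ, (fun j : ℤ × ℤ => Complex.I * (nu1 k l j : ℂ) * b j) j * (starRingEnd ℂ) ((fun j : ℤ × ℤ => Complex.I * (nu1 k l j : ℂ) * b j) (j - m))) := by
  funext m
  unfold c11L quad bconv
  congr 1
  · exact lmetric_lin11 k l A a m
  · congr 1
    · exact tsum_congr (fun j => lmetric_t11k k l hD a m j)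
    · exact tsum_congr (fun j => lmetric_t11l k l hD b m j)

theorem lmetric_c22L_eq (k l : ℤ × ℤ) (hD : ldet k l ≠ 0) (B : ℝ) (a b : ℤ × ℤ → ℂ) :
    c22L k l B a b = fun m =>
      (-Complex.I * (B : ℂ)) * ((fun j : ℤ × ℤ => Complex.I * ((nu2 k l j : ℂ) + 1) * b j) m - cstar (fun j : ℤ × ℤ => Complex.I * ((nu2 k l j : ℂ) + 1) * b j) m) +
        ((∑' j : ℤ × ℤ, (fun j : ℤ × ℤ => Complex.I * ((nu2 k l j : ℂ) + 1) * b j) j * (starRingEnd ℂ) ((fun j : ℤ × ℤ => Complex.I * ((nu2 k l j : ℂ) + 1) * b j) (j - m))) +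
          ∑' j : ℤ × ℤ, (fun j : ℤ × ℤ => Complex.I * (nu2 k l j : ℂ) * a j) j * (starRingEnd ℂ) ((fun j : ℤ × ℤ => Complex.I * (nu2 k l j : ℂ) * a j) (j - m))) := by
  funext m
  unfold c22L quad bconv
  congr 1
  · exact lmetric_lin22 k l B b m
  · rw [add_comm]
    congr 1
    · exact tsum_congr (fun j => lmetric_t22l k l hD b m j)
    · exact tsum_congr (fun j => lmetric_t22k k l hD a m j)

theorem lmetric_c12L_eq (k l : ℤ × ℤ) (hD : ldet k l ≠ 0) (A B : ℝ) (a b : ℤ × ℤ → ℂ)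
    (hu1 : Summable fun j : ℤ × ℤ => ‖Complex.I * ((nu1 k l j : ℂ) + 1) * a j‖)
    (hu2 : Summable fun j : ℤ × ℤ => ‖Complex.I * (nu2 k l j : ℂ) * a j‖)
    (hv1 : Summable fun j : ℤ × ℤ => ‖Complex.I * (nu1 k l j : ℂ) * b j‖)
    (hv2 : Summable fun j : ℤ × ℤ => ‖Complex.I * ((nu2 k l j : ℂ) + 1) * b j‖) :
    c12L k l A B a b = fun m =>
      ((-(Complex.I / 2) * (A : ℂ)) * ((fun j : ℤ × ℤ => Complex.I * (nu2 k l j : ℂ) * a j) m - cstar (fun j : ℤ × ℤ => Complex.I * (nu2 k l j : ℂ) * a j) m) +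
          (-(Complex.I / 2) * (B : ℂ)) * ((fun j : ℤ × ℤ => Complex.I * (nu1 k l j : ℂ) * b j) m - cstar (fun j : ℤ × ℤ => Complex.I * (nu1 k l j : ℂ) * b j) m)) +
        ((1 / 2 : ℂ) *
            ((∑' j : ℤ × ℤ, (fun j : ℤ × ℤ => Complex.I * ((nu1 k l j : ℂ) + 1) * a j) j * (starRingEnd ℂ) ((fun j : ℤ × ℤ => Complex.I * (nu2 k l j : ℂ) * a j) (j - m))) +
              ∑' j : ℤ × ℤ, (fun j : ℤ × ℤ => Complex.I * (nu2 k l j : ℂ) * a j) j * (starRingEnd ℂ) ((fun j : ℤ × ℤ => Complex.I * ((nu1 k l j : ℂ) + 1) * a j) (j - m))) +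
          (1 / 2 : ℂ) *
            ((∑' j : ℤ × ℤ, (fun j : ℤ × ℤ => Complex.I * (nu1 k l j : ℂ) * b j) j * (starRingEnd ℂ) ((fun j : ℤ × ℤ => Complex.I * ((nu2 k l j : ℂ) + 1) * b j) (j - m))) +
              ∑' j : ℤ × ℤ, (fun j : ℤ × ℤ => Complex.I * ((nu2 k l j : ℂ) + 1) * b j) j * (starRingEnd ℂ) ((fun j : ℤ × ℤ => Complex.I * (nu1 k l j : ℂ) * b j) (j - m)))) := by
  funext m
  unfold c12L quad bconv
  congr 1
  · congr 1
    · exact lmetric_lin12a k l A a m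
    · exact lmetric_lin12b k l B b m
  · congr 1
    · rw [← Summable.tsum_add (metric_pt_summable _ _ hu1 hu2 m)
        (metric_pt_summable _ _ hu2 hu1 m), ← tsum_mul_left]
      exact tsum_congr (fun j => lmetric_t12k k l hD a m j)
    · rw [← Summable.tsum_add (metric_pt_summable _ _ hv1 hv2 m)
        (metric_pt_summable _ _ hv2 hv1 m), ← tsum_mul_left]
      exact tsum_congr (fun j => lmetric_t12l k l hD b m j)

theorem metric_fun_l (k l : ℤ × ℤ) (hD : ldet k l ≠ 0) (A B : ℝ) (a b : ℤ × ℤ → ℂ)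
    (ha : Summable fun j => wt j * ‖a j‖) (hb : Summable fun j => wt j * ‖b j‖) (p : ℝ × ℝ) :
    ‖cexpL k p * (Complex.I * (A : ℂ) +
        S (fun j => Complex.I * ((nu1 k l j : ℂ) + 1) * a j) p)‖ ^ 2 +
      ‖cexpL l p * S (fun j => Complex.I * (nu1 k l j : ℂ) * b j) p‖ ^ 2 =
      A ^ 2 + (S (c11L k l A a b) p).re ∧
    (cexpL k p * (Complex.I * (A : ℂ) +
          S (fun j => Complex.I * ((nu1 k l j : ℂ) + 1) * a j) p) *
        (starRingEnd ℂ) (cexpL k p * S (fun j => Complex.I * (nu2 k l j : ℂ) * a j) p) +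
      cexpL l p * S (fun j => Complex.I * (nu1 k l j : ℂ) * b j) p *
        (starRingEnd ℂ) (cexpL l p * (Complex.I * (B : ℂ) +
          S (fun j => Complex.I * ((nu2 k l j : ℂ) + 1) * b j) p))).re =
      (S (c12L k l A B a b) p).re ∧
    ‖cexpL k p * S (fun j => Complex.I * (nu2 k l j : ℂ) * a j) p‖ ^ 2 +
      ‖cexpL l p * (Complex.I * (B : ℂ) +
        S (fun j => Complex.I * ((nu2 k l j : ℂ) + 1) * b j) p)‖ ^ 2 =
      B ^ 2 + (S (c22L k l B a b) p).re := by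
  have hlam0 : 0 ≤ lam k l := le_trans zero_le_one (lam_ge_one k l hD)
  have hu1 : Summable fun j : ℤ × ℤ => ‖Complex.I * ((nu1 k l j : ℂ) + 1) * a j‖ :=
    lmetric_ns a ha (lam k l) (fun j => Complex.I * ((nu1 k l j : ℂ) + 1))
      (fun j => (lmetric_cf k l hD j).1)
  have hu2 : Summable fun j : ℤ × ℤ => ‖Complex.I * (nu2 k l j : ℂ) * a j‖ :=
    lmetric_ns a ha (lam k l) (fun j => Complex.I * (nu2 k l j : ℂ))
      (fun j => (lmetric_cf k l hD j).2.1)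
  have hv1 : Summable fun j : ℤ × ℤ => ‖Complex.I * (nu1 k l j : ℂ) * b j‖ :=
    lmetric_ns b hb (lam k l) (fun j => Complex.I * (nu1 k l j : ℂ))
      (fun j => (lmetric_cf k l hD j).2.2.1)
  have hv2 : Summable fun j : ℤ × ℤ => ‖Complex.I * ((nu2 k l j : ℂ) + 1) * b j‖ :=
    lmetric_ns b hb (lam k l) (fun j => Complex.I * ((nu2 k l j : ℂ) + 1))
      (fun j => (lmetric_cf k l hD j).2.2.2)
  have he1 : ‖cexpL k p‖ = 1 := lmetric_cexp_norm k p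
  have he2 : ‖cexpL l p‖ = 1 := lmetric_cexp_norm l p
  refine ⟨?_, ?_, ?_⟩
  · rw [norm_mul, norm_mul, he1, he2, one_mul, one_mul, lmetric_c11L_eq k l hD A a b,
      metric_diag _ _ hu1 hv1]
    exact metricw_re1 A _ _
  · rw [metric_unit _ _ _ he1, metric_unit _ _ _ he2,
      lmetric_c12L_eq k l hD A B a b hu1 hu2 hv1 hv2,
      metricw_cross _ _ _ _ hu1 hu2 hv1 hv2]
    exact metricw_re2 A B _ _ _ _
  · rw [norm_mul, norm_mul, he1, he2, one_mul, one_mul, lmetric_c22L_eq k l hD B a b,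
      metric_diag _ _ hv2 hu2]
    have h := metricw_re1 B (S (fun j => Complex.I * ((nu2 k l j : ℂ) + 1) * b j) p)
      (S (fun j => Complex.I * (nu2 k l j : ℂ) * a j) p)
    linarith

end Vale.Agent.Lib.P205.NF
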