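import Vale.Agent.Lib.P205.NF.Core
import Vale.Agent.Lib.P205.NF.LRegular
import Vale.Agent.Lib.P205.NF.LCoefGen
import Vale.Agent.Lib.P205.NF.LMetricFun
import Vale.Agent.Lib.P205.NF.LFDeriv
import Vale.Agent.Lib.P205.NF.LLinBound
import Vale.Agent.Lib.P205.NF.LLinId

/-!
# From a fixed point of the scaled maps to the immersion (general homogeneous flat base)
-/

namespace Vale.Agent.Lib.P205.NF

open scoped ContDiff

/-- Change of frame for a metric: the components of the first fundamental form of a map with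
coordinate derivatives `X = κ₁ P + μ₁ Q`, `Y = κ₂ P + μ₂ Q`, in terms of the components for
`P`, `Q`. -/
theorem lcore_alg (P₁ Q₁ P₂ Q₂ : ℂ) (κ₁ κ₂ μ₁ μ₂ v₁ v₂ w₁ w₂ : ℝ) :
    (‖(κ₁ : ℂ) * P₁ + (μ₁ : ℂ) * Q₁‖ ^ 2 + ‖(κ₁ : ℂ) * P₂ + (μ₁ : ℂ) * Q₂‖ ^ 2) * v₁ * w₁ +
      (((κ₁ : ℂ) * P₁ + (μ₁ : ℂ) * Q₁) * (starRingEnd ℂ) ((κ₂ : ℂ) * P₁ + (μ₂ : ℂ) * Q₁) +
        ((κ₁ : ℂ) * P₂ + (μ₁ : ℂ) * Q₂) *
          (starRingEnd ℂ) ((κ₂ : ℂ) * P₂ + (μ₂ : ℂ) * Q₂)).re * (v₁ * w₂ + v₂ * w₁) +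
      (‖(κ₂ : ℂ) * P₁ + (μ₂ : ℂ) * Q₁‖ ^ 2 + ‖(κ₂ : ℂ) * P₂ + (μ₂ : ℂ) * Q₂‖ ^ 2) * v₂ * w₂ =
    (‖P₁‖ ^ 2 + ‖P₂‖ ^ 2) * (κ₁ * v₁ + κ₂ * v₂) * (κ₁ * w₁ + κ₂ * w₂) +
      (P₁ * (starRingEnd ℂ) Q₁ + P₂ * (starRingEnd ℂ) Q₂).re *
        ((κ₁ * v₁ + κ₂ * v₂) * (μ₁ * w₁ + μ₂ * w₂) +
          (μ₁ * v₁ + μ₂ * v₂) * (κ₁ * w₁ + κ₂ * w₂)) +
      (‖Q₁‖ ^ 2 + ‖Q₂‖ ^ 2) * (μ₁ * v₁ + μ₂ * v₂) * (μ₁ * w₁ + μ₂ * w₂) := by
  simp only [asm_normSq, Complex.add_re, Complex.add_im, Complex.mul_re, Complex.mul_im,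
    Complex.conj_re, Complex.conj_im, Complex.ofReal_re, Complex.ofReal_im]
  ring

/-- Smoothness of the exponential `exp(i e.p)`. -/
theorem lcore_exp_smooth (e : ℤ × ℤ) : ContDiff ℝ ∞ fun q : ℝ × ℝ => cexpL e q := by
  have h1 : ContDiff ℝ ∞ fun q : ℝ × ℝ => (q.1 : ℂ) :=
    Complex.ofRealCLM.contDiff.comp contDiff_fst
  have h2 : ContDiff ℝ ∞ fun q : ℝ × ℝ => (q.2 : ℂ) :=
    Complex.ofRealCLM.contDiff.comp contDiff_snd
  have h3 : ContDiff ℝ ∞ fun q : ℝ × ℝ =>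
      Complex.I * ((e.1 : ℂ) * (q.1 : ℂ) + (e.2 : ℂ) * (q.2 : ℂ)) :=
    contDiff_const.mul ((contDiff_const.mul h1).add (contDiff_const.mul h2))
  exact Complex.contDiff_exp.comp h3

/-- Periodicity of the exponential `exp(i e.p)` in the first variable. -/
theorem lcore_exp_per1 (e : ℤ × ℤ) (p : ℝ × ℝ) :
    cexpL e (p.1 + 2 * Real.pi, p.2) = cexpL e p := by
  unfold cexpL
  have h : Complex.I * ((e.1 : ℂ) * ((p.1 + 2 * Real.pi : ℝ) : ℂ) + (e.2 : ℂ) * (p.2 : ℂ)) =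
      Complex.I * ((e.1 : ℂ) * (p.1 : ℂ) + (e.2 : ℂ) * (p.2 : ℂ)) +
        (e.1 : ℂ) * (2 * Real.pi * Complex.I) := by
    push_cast
    ring
  dsimp only
  rw [h, Complex.exp_add, Complex.exp_int_mul_two_pi_mul_I, mul_one]

/-- Periodicity of the exponential `exp(i e.p)` in the second variable. -/
theorem lcore_exp_per2 (e : ℤ × ℤ) (p : ℝ × ℝ) :
    cexpL e (p.1, p.2 + 2 * Real.pi) = cexpL e p := by
  unfold cexpL
  have h : Complex.I * ((e.1 : ℂ) * (p.1 : ℂ) + (e.2 : ℂ) * ((p.2 + 2 * Real.pi : ℝ) : ℂ)) =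
      Complex.I * ((e.1 : ℂ) * (p.1 : ℂ) + (e.2 : ℂ) * (p.2 : ℂ)) +
        (e.2 : ℂ) * (2 * Real.pi * Complex.I) := by
    push_cast
    ring
  dsimp only
  rw [h, Complex.exp_add, Complex.exp_int_mul_two_pi_mul_I, mul_one]

/-- The map attached to a fixed point of the scaled coefficient equations induces the
prescribed metric near `A^2 (k.dp)^2 + B^2 (l.dp)^2`, up to the mean value of the mixed
coefficient. -/
theorem core_l (k l : ℤ × ℤ) (hD : ldet k l ≠ 0) (A B : ℝ) (hA : 0 < A) (hB : 0 < B)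
    (C : ℝ) (hC : 1 ≤ C)
    (hT : ∀ e : ℤ × ℤ, (e = k ∨ e = l) →
      SymOK C (twmR tauAR k l e) ∧ SymOK C (twmR tauBR k l e))
    (c : ℝ) (hcA : 1 / A ≤ c) (hcB : 1 / B ≤ c) (e f g psi : ℤ × ℤ → ℂ)
    (he : ∀ j, e (-j) = (starRingEnd ℂ) (e j)) (hf : ∀ j, f (-j) = (starRingEnd ℂ) (f j))
    (hg : ∀ j, g (-j) = (starRingEnd ℂ) (g j)) (hpsi : ∀ j, psi (-j) = (starRingEnd ℂ) (psi j))
    (de : ∀ n : ℕ, Summable fun j => wt j ^ n * ‖e j‖)
    (df : ∀ n : ℕ, Summable fun j => wt j ^ n * ‖f j‖)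
    (dg : ∀ n : ℕ, Summable fun j => wt j ^ n * ‖g j‖)
    (dpsi : ∀ n : ℕ, Summable fun j => wt j ^ n * ‖psi j‖)
    (r : ℝ) (hr : r ≤ 1 / (8 * C * c))
    (hAs : nrm (fun j => wt j ^ 2) (linAL k l e f psi) < r / (2 * c))
    (hBs : nrm (fun j => wt j ^ 2) (linBL k l g f psi) < r / (2 * c))
    (a b : ℤ × ℤ → ℂ) (ha : InBall (fun j => wt j ^ 2) r a)
    (hb : InBall (fun j => wt j ^ 2) r b)
    (hfa : TG (1 / A) (twmR tauAR k l k) (twmR tauAR k l l) (linAL k l e f psi) a b = a)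
    (hfb : TG (1 / B) (twmR tauBR k l k) (twmR tauBR k l l) (linBL k l g f psi) a b = b) :
    ∃ Ψ : ℝ × ℝ → EuclideanSpace ℝ (Fin 4), ContDiff ℝ ∞ Ψ ∧
      (∀ p : ℝ × ℝ, Ψ (p.1 + 2 * Real.pi, p.2) = Ψ p) ∧
      (∀ p : ℝ × ℝ, Ψ (p.1, p.2 + 2 * Real.pi) = Ψ p) ∧
      ∀ p v w : ℝ × ℝ, inner ℝ (fderiv ℝ Ψ p v) (fderiv ℝ Ψ p w) =
        (A ^ 2 + (S e p).re) * ((k.1 : ℝ) * v.1 + (k.2 : ℝ) * v.2) *
            ((k.1 : ℝ) * w.1 + (k.2 : ℝ) * w.2) +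
          ((S f p).re + ((c12L k l A B a b 0).re - (f 0).re)) *
            (((k.1 : ℝ) * v.1 + (k.2 : ℝ) * v.2) * ((l.1 : ℝ) * w.1 + (l.2 : ℝ) * w.2) +
              ((l.1 : ℝ) * v.1 + (l.2 : ℝ) * v.2) * ((k.1 : ℝ) * w.1 + (k.2 : ℝ) * w.2)) +
          (B ^ 2 + (S g p).re) * ((l.1 : ℝ) * v.1 + (l.2 : ℝ) * v.2) *
            ((l.1 : ℝ) * w.1 + (l.2 : ℝ) * w.2) := by
  have hA1 : 0 < 1 / A := one_div_pos.mpr hA
  have hB1 : 0 < 1 / B := one_div_pos.mpr hB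
  have hc : 0 < c := lt_of_lt_of_le hA1 hcA
  -- rapid decay of the linear data
  have dpsi' : ∀ n : ℕ, Summable fun j => wt j ^ n * (wt j ^ 2 * ‖psi j‖) := by
    intro n
    have := dpsi (n + 2)
    refine this.congr (fun j => ?_)
    ring
  have wn : ∀ n : ℕ, ∀ j : ℤ × ℤ, 0 ≤ wt j ^ n := fun n j => by
    have := wt_pos j
    positivity
  obtain ⟨C₁, _, hlin⟩ := lin_bound_l k l hD
  have dA : ∀ n : ℕ, Summable fun j => wt j ^ n * ‖linAL k l e f psi j‖ := fun n =>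
    (hlin (fun j => wt j ^ n) (wn n) e f g psi (de n) (df n) (dg n) (dpsi' n)).1
  have dB : ∀ n : ℕ, Summable fun j => wt j ^ n * ‖linBL k l g f psi j‖ := fun n =>
    (hlin (fun j => wt j ^ n) (wn n) e f g psi (de n) (df n) (dg n) (dpsi' n)).2.2.1
  -- rapid decay of the fixed point
  obtain ⟨da, db⟩ := fixed_smooth_g (twmR tauAR k l k) (twmR tauAR k l l) (twmR tauBR k l k)
    (twmR tauBR k l l) C hC (hT k (Or.inl rfl)).1 (hT l (Or.inr rfl)).1 (hT k (Or.inl rfl)).2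
    (hT l (Or.inr rfl)).2 (1 / A) (1 / B) c hA1.le hcA hB1.le hcB hc
    (linAL k l e f psi) (linBL k l g f psi) dA dB r hr hAs hBs a b ha hb hfa hfb
  have da1 : Summable fun j => wt j * ‖a j‖ := by simpa using da 1
  have db1 : Summable fun j => wt j * ‖b j‖ := by simpa using db 1
  -- the fixed point equations in multiplicative form
  have hfa' : ∀ m, linAL k l e f psi m + quad (twmR tauAR k l k) (twmR tauAR k l l) a b m =
      (A : ℂ) * a m := by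
    intro m
    have h1 := congrFun hfa m
    simp only [TG] at h1
    have hne : (A : ℂ) ≠ 0 := by exact_mod_cast hA.ne'
    rw [← h1]
    push_cast
    field_simp
  have hfb' : ∀ m, linBL k l g f psi m + quad (twmR tauBR k l k) (twmR tauBR k l l) a b m =
      (B : ℂ) * b m := by
    intro m
    have h1 := congrFun hfb m
    simp only [TG] at h1
    have hne : (B : ℂ) ≠ 0 := by exact_mod_cast hB.ne'
    rw [← h1]
    push_cast
    field_simp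
  -- coefficient identities
  obtain ⟨g11, g22, g12⟩ := coef_gen_l k l hD A B (linAL k l e f psi) (linBL k l g f psi) a b
    ha.1 hb.1 hfa' hfb'
  obtain ⟨l11, l22, l12⟩ := lin_id_l k l hD e f g psi he hf hg hpsi
  have k11 : c11L k l A a b = e := funext fun m => (g11 m).trans (l11 m)
  have k22 : c22L k l B a b = g := funext fun m => (g22 m).trans (l22 m)
  have k12 : c12L k l A B a b =
      fun j => f j + (if j = 0 then c12L k l A B a b 0 - f 0 else 0) := by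
    funext m
    by_cases hm : m = 0
    · subst hm
      simp
    · simp only [hm, if_false, add_zero]
      exact (g12 m hm).trans (l12 m hm)
  -- the two components
  set F₁ : ℝ × ℝ → ℂ := fun q => cexpL k q * ((A : ℂ) + S a q) with hF₁
  set F₂ : ℝ × ℝ → ℂ := fun q => cexpL l q * ((B : ℂ) + S b q) with hF₂
  have sa : ContDiff ℝ ∞ (S a) := S_contDiff a da
  have sb : ContDiff ℝ ∞ (S b) := S_contDiff b db
  have hF₁s : ContDiff ℝ ∞ F₁ := (lcore_exp_smooth k).mul (contDiff_const.add sa)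
  have hF₂s : ContDiff ℝ ∞ F₂ := (lcore_exp_smooth l).mul (contDiff_const.add sb)
  obtain ⟨hsm, hmet⟩ := toR4_spec F₁ F₂ _ _ _ _ hF₁s hF₂s
    (fun p => F1l_hasFDerivAt k l hD A a da1 p) (fun p => F2l_hasFDerivAt k l hD B b db1 p)
  refine ⟨toR4 F₁ F₂, hsm, ?_, ?_, ?_⟩
  · intro p
    have h1 : F₁ (p.1 + 2 * Real.pi, p.2) = F₁ p := by
      simp only [hF₁]
      rw [S_periodic1, lcore_exp_per1]
    have h2 : F₂ (p.1 + 2 * Real.pi, p.2) = F₂ p := by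
      simp only [hF₂]
      rw [S_periodic1, lcore_exp_per1]
    simp only [toR4, h1, h2]
  · intro p
    have h1 : F₁ (p.1, p.2 + 2 * Real.pi) = F₁ p := by
      simp only [hF₁]
      rw [S_periodic2, lcore_exp_per2]
    have h2 : F₂ (p.1, p.2 + 2 * Real.pi) = F₂ p := by
      simp only [hF₂]
      rw [S_periodic2, lcore_exp_per2]
    simp only [toR4, h1, h2]
  · intro p v w
    rw [hmet p v w]
    obtain ⟨m1, m2, m3⟩ := metric_fun_l k l hD A B a b da1 db1 p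
    have ck1 : ((k.1 : ℤ) : ℂ) = (((k.1 : ℤ) : ℝ) : ℂ) := (Complex.ofReal_intCast k.1).symm
    have ck2 : ((k.2 : ℤ) : ℂ) = (((k.2 : ℤ) : ℝ) : ℂ) := (Complex.ofReal_intCast k.2).symm
    have cl1 : ((l.1 : ℤ) : ℂ) = (((l.1 : ℤ) : ℝ) : ℂ) := (Complex.ofReal_intCast l.1).symm
    have cl2 : ((l.2 : ℤ) : ℂ) = (((l.2 : ℤ) : ℝ) : ℂ) := (Complex.ofReal_intCast l.2).symm
    rw [ck1, ck2, cl1, cl2, lcore_alg, m1, m2, m3, k11, k22]
    have hs12 : S (c12L k l A B a b) p = S f p + (c12L k l A B a b 0 - f 0) := by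
      have sf : Summable fun j => ‖f j‖ := by simpa using df 0
      have sd : Summable fun j : ℤ × ℤ =>
          ‖(if j = 0 then c12L k l A B a b 0 - f 0 else 0 : ℂ)‖ := by
        refine summable_of_ne_finset_zero (s := {0}) (fun j hj => ?_)
        have : j ≠ 0 := by simpa using hj
        simp [this]
      have h0 := congrArg (fun c => S c p) k12
      rw [h0, S_add f _ sf sd p, S_single]
    rw [hs12]
    simp only [Complex.add_re, Complex.sub_re]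

end Vale.Agent.Lib.P205.NF
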