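import Vale.Agent.Lib.P205.NF.LFreq

/-!
# The gauge family over a general homogeneous flat base
-/

namespace Vale.Agent.Lib.P205.NF

private lemma lgauge_neg_iff (j q : ℤ × ℤ) : (-j = q ∨ -j = -q) ↔ (j = q ∨ j = -q) := by
  constructor
  · rintro (h | h)
    · exact Or.inr (neg_eq_iff_eq_neg.mp h)
    · exact Or.inl (neg_inj.mp h)
  · rintro (h | h)
    · exact Or.inr (neg_inj.mpr h)
    · exact Or.inl (neg_eq_iff_eq_neg.mpr h)

private lemma lgauge_off (k l : ℤ × ℤ) (s t : ℝ) (j : ℤ × ℤ)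
    (hj : j ∉ ({k + k + l, -(k + k + l), k + k - l, -(k + k - l)} : Finset (ℤ × ℤ))) :
    psiL k l s t j = 0 := by
  simp only [Finset.mem_insert, Finset.mem_singleton, not_or] at hj
  obtain ⟨h1, h2, h3, h4⟩ := hj
  unfold psiL
  rw [if_neg (by tauto), if_neg (by tauto), add_zero]

private lemma lgauge_norm (x : ℝ) : ‖((x / 2 : ℝ) : ℂ)‖ = |x| / 2 := by
  rw [Complex.norm_real, Real.norm_eq_abs, abs_div, abs_two]

private lemma lgauge_norm_le (k l : ℤ × ℤ) (s t : ℝ) (j : ℤ × ℤ) :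
    ‖psiL k l s t j‖ ≤ (|s| + |t|) / 2 := by
  unfold psiL
  refine (norm_add_le _ _).trans ?_
  have h1 : ‖(if j = k + k + l ∨ j = -(k + k + l) then ((s / 2 : ℝ) : ℂ) else 0)‖ ≤
      |s| / 2 := by
    split_ifs
    · rw [lgauge_norm]
    · rw [norm_zero]
      positivity
  have h2 : ‖(if j = k + k - l ∨ j = -(k + k - l) then ((t / 2 : ℝ) : ℂ) else 0)‖ ≤
      |t| / 2 := by
    split_ifs
    · rw [lgauge_norm]
    · rw [norm_zero]
      positivity
  linarith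

private lemma lgauge_psi (k l : ℤ × ℤ) (c s t : ℝ) (j : ℤ × ℤ) :
    psiL k l (c * s) (c * t) j = (c : ℂ) * psiL k l s t j := by
  unfold psiL
  split_ifs <;> push_cast <;> ring

private lemma lgauge_A (k l : ℤ × ℤ) (psi : ℤ × ℤ → ℂ) (m : ℤ × ℤ) :
    linAL k l 0 0 psi m = ((nu1 k l m : ℂ) ^ 2 - (nu1 k l m : ℂ)) * psi m := by
  simp only [linAL, Pi.zero_apply]
  ring

private lemma lgauge_B (k l : ℤ × ℤ) (psi : ℤ × ℤ → ℂ) (m : ℤ × ℤ) :
    linBL k l 0 0 psi m = ((nu2 k l m : ℂ) - (nu2 k l m : ℂ) ^ 2) * psi m := by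
  simp only [linBL, Pi.zero_apply]
  ring

theorem psiL_herm (k l : ℤ × ℤ) (s t : ℝ) (j : ℤ × ℤ) :
    psiL k l s t (-j) = (starRingEnd ℂ) (psiL k l s t j) := by
  unfold psiL
  rw [if_congr (lgauge_neg_iff j (k + k + l)) rfl rfl,
    if_congr (lgauge_neg_iff j (k + k - l)) rfl rfl, map_add]
  congr 1
  · split_ifs
    · exact (Complex.conj_ofReal _).symm
    · exact (map_zero _).symm
  · split_ifs
    · exact (Complex.conj_ofReal _).symm
    · exact (map_zero _).symm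

theorem psiL_decay (k l : ℤ × ℤ) (s t : ℝ) (n : ℕ) :
    Summable fun j => wt j ^ n * ‖psiL k l s t j‖ := by
  apply summable_of_ne_finset_zero
    (s := ({k + k + l, -(k + k + l), k + k - l, -(k + k - l)} : Finset (ℤ × ℤ)))
  intro j hj
  rw [lgauge_off k l s t j hj, norm_zero, mul_zero]

theorem psiL_norm (k l : ℤ × ℤ) :
    ∃ C : ℝ, 1 ≤ C ∧ ∀ s t : ℝ,
      (Summable fun j => wt j ^ 2 * (wt j ^ 2 * ‖psiL k l s t j‖)) ∧
      ∑' j, wt j ^ 2 * (wt j ^ 2 * ‖psiL k l s t j‖) ≤ C * (|s| + |t|) := by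
  have hS0 : 0 ≤ ∑ j ∈ ({k + k + l, -(k + k + l), k + k - l, -(k + k - l)} :
      Finset (ℤ × ℤ)), wt j ^ 4 :=
    Finset.sum_nonneg fun j _ => by positivity
  refine ⟨1 + ∑ j ∈ ({k + k + l, -(k + k + l), k + k - l, -(k + k - l)} :
      Finset (ℤ × ℤ)), wt j ^ 4, by linarith, fun s t => ?_⟩
  have hoff : ∀ j ∉ ({k + k + l, -(k + k + l), k + k - l, -(k + k - l)} : Finset (ℤ × ℤ)),
      wt j ^ 2 * (wt j ^ 2 * ‖psiL k l s t j‖) = 0 := by
    intro j hj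
    rw [lgauge_off k l s t j hj, norm_zero, mul_zero, mul_zero]
  refine ⟨summable_of_ne_finset_zero hoff, ?_⟩
  rw [tsum_eq_sum hoff]
  have hst : 0 ≤ |s| + |t| := by positivity
  calc ∑ j ∈ ({k + k + l, -(k + k + l), k + k - l, -(k + k - l)} : Finset (ℤ × ℤ)),
        wt j ^ 2 * (wt j ^ 2 * ‖psiL k l s t j‖)
      ≤ ∑ j ∈ ({k + k + l, -(k + k + l), k + k - l, -(k + k - l)} : Finset (ℤ × ℤ)),
          wt j ^ 4 * ((|s| + |t|) / 2) := by
        refine Finset.sum_le_sum fun j _ => ?_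
        have hn := lgauge_norm_le k l s t j
        have hw : 0 ≤ wt j ^ 4 := by positivity
        calc wt j ^ 2 * (wt j ^ 2 * ‖psiL k l s t j‖) = wt j ^ 4 * ‖psiL k l s t j‖ := by
              ring
          _ ≤ wt j ^ 4 * ((|s| + |t|) / 2) := mul_le_mul_of_nonneg_left hn hw
    _ = (∑ j ∈ ({k + k + l, -(k + k + l), k + k - l, -(k + k - l)} : Finset (ℤ × ℤ)),
          wt j ^ 4) * ((|s| + |t|) / 2) := by
        rw [Finset.sum_mul]
    _ ≤ (1 + ∑ j ∈ ({k + k + l, -(k + k + l), k + k - l, -(k + k - l)} : Finset (ℤ × ℤ)),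
          wt j ^ 4) * (|s| + |t|) := by
        nlinarith [mul_nonneg hS0 hst]

theorem psiL_sub (k l : ℤ × ℤ) (s t s' t' : ℝ) (j : ℤ × ℤ) :
    psiL k l s t j - psiL k l s' t' j = psiL k l (s - s') (t - t') j := by
  unfold psiL
  split_ifs <;> push_cast <;> ring

theorem linAL_gauge (k l : ℤ × ℤ) (e f psi : ℤ × ℤ → ℂ) (j : ℤ × ℤ) :
    linAL k l e f psi j = linAL k l e f 0 j + linAL k l 0 0 psi j := by
  simp only [linAL, Pi.zero_apply]
  ring

theorem linBL_gauge (k l : ℤ × ℤ) (g f psi : ℤ × ℤ → ℂ) (j : ℤ × ℤ) :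
    linBL k l g f psi j = linBL k l g f 0 j + linBL k l 0 0 psi j := by
  simp only [linBL, Pi.zero_apply]
  ring

theorem gaugeAL_scale (k l : ℤ × ℤ) (c s t : ℝ) (j : ℤ × ℤ) :
    (c : ℂ) * linAL k l 0 0 (psiL k l s t) j = linAL k l 0 0 (psiL k l (c * s) (c * t)) j := by
  rw [lgauge_A, lgauge_A, lgauge_psi]
  ring

theorem gaugeBL_scale (k l : ℤ × ℤ) (c s t : ℝ) (j : ℤ × ℤ) :
    (c : ℂ) * linBL k l 0 0 (psiL k l s t) j = linBL k l 0 0 (psiL k l (c * s) (c * t)) j := by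
  rw [lgauge_B, lgauge_B, lgauge_psi]
  ring

end Vale.Agent.Lib.P205.NF
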