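import Vale.Agent.Lib.P205.NF.Shear
import Vale.Agent.Lib.P205.NF.LFreq

/-!
# The mean shear over a general homogeneous flat base
-/

namespace Vale.Agent.Lib.P205.NF

private lemma lshear_wt_one_le (j : ℤ × ℤ) : 1 ≤ wt j := by
  unfold wt
  have h1 := abs_nonneg (j.1 : ℝ)
  have h2 := abs_nonneg (j.2 : ℝ)
  linarith

private lemma lshear_wt_sq_one_le (j : ℤ × ℤ) : 1 ≤ wt j ^ 2 := by
  have h := lshear_wt_one_le j
  nlinarith

private lemma lshear_nu_le (k l : ℤ × ℤ) (hD : ldet k l ≠ 0) (j : ℤ × ℤ) :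
    |nu1 k l j| + 1 ≤ lam k l * wt j ∧ |nu2 k l j| + 1 ≤ lam k l * wt j := by
  have hu := nu_upper k l hD j
  have hlam := lam_ge_one k l hD
  have h1 := abs_nonneg (nu1 k l j)
  have h2 := abs_nonneg (nu2 k l j)
  have hw : wt j = 1 + |(j.1 : ℝ)| + |(j.2 : ℝ)| := rfl
  have e : lam k l * wt j = lam k l * (|(j.1 : ℝ)| + |(j.2 : ℝ)|) + lam k l := by
    rw [hw]
    ring
  rw [e]
  constructor
  · linarith
  · linarith

private lemma lshear_sym1_le (k l : ℤ × ℤ) (hD : ldet k l ≠ 0) (j : ℤ × ℤ) :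
    |(nu1 k l j + 1) * nu2 k l j| ≤ lam k l ^ 2 * wt j ^ 2 := by
  obtain ⟨b1, b2⟩ := lshear_nu_le k l hD j
  rw [abs_mul]
  have h3 : |nu1 k l j + 1| ≤ lam k l * wt j := by
    have := abs_add_le (nu1 k l j) 1
    rw [abs_one] at this
    linarith
  have h4 : |nu2 k l j| ≤ lam k l * wt j := by linarith
  have h5 : 0 ≤ lam k l * wt j := le_trans (abs_nonneg _) h4
  calc |nu1 k l j + 1| * |nu2 k l j| ≤ (lam k l * wt j) * (lam k l * wt j) :=
        mul_le_mul h3 h4 (abs_nonneg _) h5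
    _ = lam k l ^ 2 * wt j ^ 2 := by ring

private lemma lshear_sym2_le (k l : ℤ × ℤ) (hD : ldet k l ≠ 0) (j : ℤ × ℤ) :
    |nu1 k l j * (nu2 k l j + 1)| ≤ lam k l ^ 2 * wt j ^ 2 := by
  obtain ⟨b1, b2⟩ := lshear_nu_le k l hD j
  rw [abs_mul]
  have h3 : |nu2 k l j + 1| ≤ lam k l * wt j := by
    have := abs_add_le (nu2 k l j) 1
    rw [abs_one] at this
    linarith
  have h4 : |nu1 k l j| ≤ lam k l * wt j := by linarith
  have h5 : 0 ≤ lam k l * wt j := le_trans (abs_nonneg _) h4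
  calc |nu1 k l j| * |nu2 k l j + 1| ≤ (lam k l * wt j) * (lam k l * wt j) :=
        mul_le_mul h4 h3 (abs_nonneg _) h5
    _ = lam k l ^ 2 * wt j ^ 2 := by ring

private lemma lshear_norm_le_tsum (c : ℤ × ℤ → ℂ) (hc : Summable fun j => wt j ^ 2 * ‖c j‖)
    (j : ℤ × ℤ) : ‖c j‖ ≤ ∑' i, wt i ^ 2 * ‖c i‖ := by
  have h1 : wt j ^ 2 * ‖c j‖ ≤ ∑' i, wt i ^ 2 * ‖c i‖ :=
    hc.le_tsum j (fun i _ => mul_nonneg (by positivity) (norm_nonneg _))
  have h2 : ‖c j‖ ≤ wt j ^ 2 * ‖c j‖ := by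
    have := lshear_wt_sq_one_le j
    have := norm_nonneg (c j)
    nlinarith
  linarith

private lemma lshear_summable (M : ℝ) (hM : 0 ≤ M) (p : ℤ × ℤ → ℝ)
    (hp : ∀ j, |p j| ≤ M * wt j ^ 2) (c : ℤ × ℤ → ℂ)
    (hc : Summable fun j => wt j ^ 2 * ‖c j‖) : Summable fun j => p j * ‖c j‖ ^ 2 := by
  have hg : Summable (fun j => (M * ∑' i, wt i ^ 2 * ‖c i‖) * (wt j ^ 2 * ‖c j‖)) :=
    hc.mul_left (M * ∑' i, wt i ^ 2 * ‖c i‖)
  refine Summable.of_norm_bounded hg (fun j => ?_)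
  rw [Real.norm_eq_abs, abs_mul, abs_of_nonneg (by positivity : (0 : ℝ) ≤ ‖c j‖ ^ 2)]
  have h1 := lshear_norm_le_tsum c hc j
  have h2 := hp j
  have h3 := norm_nonneg (c j)
  have h4 : |p j| * ‖c j‖ ^ 2 ≤ M * wt j ^ 2 * ‖c j‖ ^ 2 :=
    mul_le_mul_of_nonneg_right h2 (by positivity)
  have h5 : M * wt j ^ 2 * ‖c j‖ ^ 2 = M * (‖c j‖ * (wt j ^ 2 * ‖c j‖)) := by ring
  have h6 : ‖c j‖ * (wt j ^ 2 * ‖c j‖) ≤ (∑' i, wt i ^ 2 * ‖c i‖) * (wt j ^ 2 * ‖c j‖) :=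
    mul_le_mul_of_nonneg_right h1 (by positivity)
  have h7 : M * (‖c j‖ * (wt j ^ 2 * ‖c j‖)) ≤
      M * ((∑' i, wt i ^ 2 * ‖c i‖) * (wt j ^ 2 * ‖c j‖)) :=
    mul_le_mul_of_nonneg_left h6 hM
  have h8 : M * ((∑' i, wt i ^ 2 * ‖c i‖) * (wt j ^ 2 * ‖c j‖)) =
      (M * ∑' i, wt i ^ 2 * ‖c i‖) * (wt j ^ 2 * ‖c j‖) := by ring
  linarith

private lemma lshear_tw (k l e j : ℤ × ℤ) :
    twR QR12 k l e 0 j = ((nu1 k l (j + e) * nu2 k l (j + e) : ℝ) : ℂ) := by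
  have h : (0 : ℤ × ℤ) - j - e = -(j + e) := by abel
  show ((-(nu1 k l (j + e) * nu2 k l (0 - j - e) + nu2 k l (j + e) * nu1 k l (0 - j - e)) / 2
    : ℝ) : ℂ) = _
  rw [h, (nu_neg k l (j + e)).1, (nu_neg k l (j + e)).2]
  congr 1
  ring

private lemma lshear_bconv (k l e : ℤ × ℤ) (a : ℤ × ℤ → ℂ) :
    bconv (twR QR12 k l e) a (cstar a) 0 =
      ((∑' j : ℤ × ℤ, nu1 k l (j + e) * nu2 k l (j + e) * ‖a j‖ ^ 2 : ℝ) : ℂ) := by
  unfold bconv
  rw [Complex.ofReal_tsum]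
  congr 1
  funext j
  have h1 : cstar a (0 - j) = (starRingEnd ℂ) (a j) := by
    unfold cstar
    rw [zero_sub, neg_neg]
  rw [h1, lshear_tw, mul_assoc, Complex.mul_conj, Complex.normSq_eq_norm_sq]
  push_cast
  ring

theorem shear_eq_l (k l : ℤ × ℤ) (hD : ldet k l ≠ 0) (A B : ℝ) (a b : ℤ × ℤ → ℂ)
    (ha : Summable fun j => wt j ^ 2 * ‖a j‖) (hb : Summable fun j => wt j ^ 2 * ‖b j‖) :
    (c12L k l A B a b 0).re = shearL k l a b := by
  have hlam0 : 0 ≤ lam k l ^ 2 := by positivity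
  have hsa := lshear_summable (lam k l ^ 2) hlam0 (fun j => (nu1 k l j + 1) * nu2 k l j)
    (lshear_sym1_le k l hD) a ha
  have hsb := lshear_summable (lam k l ^ 2) hlam0 (fun j => nu1 k l j * (nu2 k l j + 1))
    (lshear_sym2_le k l hD) b hb
  obtain ⟨b1, b2, b3, b4⟩ := nu_basis k l hD
  have hk1 : (fun j => nu1 k l (j + k) * nu2 k l (j + k) * ‖a j‖ ^ 2) =
      fun j => (nu1 k l j + 1) * nu2 k l j * ‖a j‖ ^ 2 := by
    funext j
    rw [(nu_add k l j k).1, (nu_add k l j k).2, b1, b2, add_zero]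
  have hk2 : (fun j => nu1 k l (j + l) * nu2 k l (j + l) * ‖b j‖ ^ 2) =
      fun j => nu1 k l j * (nu2 k l j + 1) * ‖b j‖ ^ 2 := by
    funext j
    rw [(nu_add k l j l).1, (nu_add k l j l).2, b3, b4, add_zero]
  have h0 : c12L k l A B a b 0 =
      bconv (twR QR12 k l k) a (cstar a) 0 + bconv (twR QR12 k l l) b (cstar b) 0 := by
    unfold c12L quad
    rw [(nu_zero k l).1, (nu_zero k l).2]
    simp
  rw [h0, lshear_bconv, lshear_bconv, Complex.add_re, Complex.ofReal_re, Complex.ofReal_re,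
    hk1, hk2]
  unfold shearL
  exact (Summable.tsum_add hsa hsb).symm

private lemma lshear_lip_gen (M : ℝ) (hM : 0 ≤ M) (p1 p2 : ℤ × ℤ → ℝ)
    (hp1 : ∀ j, |p1 j| ≤ M * wt j ^ 2) (hp2 : ∀ j, |p2 j| ≤ M * wt j ^ 2)
    (r : ℝ) (a b a' b' : ℤ × ℤ → ℂ) (ha : InBall (fun j => wt j ^ 2) r a)
    (hb : InBall (fun j => wt j ^ 2) r b) (ha' : InBall (fun j => wt j ^ 2) r a')
    (hb' : InBall (fun j => wt j ^ 2) r b') :
    |(∑' j : ℤ × ℤ, (p1 j * ‖a j‖ ^ 2 + p2 j * ‖b j‖ ^ 2)) -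
        ∑' j : ℤ × ℤ, (p1 j * ‖a' j‖ ^ 2 + p2 j * ‖b' j‖ ^ 2)| ≤
      2 * M * r * (nrm (fun j => wt j ^ 2) (fun j => a j - a' j) +
        nrm (fun j => wt j ^ 2) (fun j => b j - b' j)) := by
  have hsa : Summable (fun j => wt j ^ 2 * ‖a j‖) := ha.1
  have hsb : Summable (fun j => wt j ^ 2 * ‖b j‖) := hb.1
  have hsa' : Summable (fun j => wt j ^ 2 * ‖a' j‖) := ha'.1
  have hsb' : Summable (fun j => wt j ^ 2 * ‖b' j‖) := hb'.1
  have hna : ∀ j, ‖a j‖ ≤ r := fun j => (lshear_norm_le_tsum a hsa j).trans ha.2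
  have hnb : ∀ j, ‖b j‖ ≤ r := fun j => (lshear_norm_le_tsum b hsb j).trans hb.2
  have hna' : ∀ j, ‖a' j‖ ≤ r := fun j => (lshear_norm_le_tsum a' hsa' j).trans ha'.2
  have hnb' : ∀ j, ‖b' j‖ ≤ r := fun j => (lshear_norm_le_tsum b' hsb' j).trans hb'.2
  have hr : 0 ≤ r := (norm_nonneg (a 0)).trans (hna 0)
  have hF : Summable (fun j : ℤ × ℤ => p1 j * ‖a j‖ ^ 2 + p2 j * ‖b j‖ ^ 2) :=
    (lshear_summable M hM p1 hp1 a hsa).add (lshear_summable M hM p2 hp2 b hsb)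
  have hF' : Summable (fun j : ℤ × ℤ => p1 j * ‖a' j‖ ^ 2 + p2 j * ‖b' j‖ ^ 2) :=
    (lshear_summable M hM p1 hp1 a' hsa').add (lshear_summable M hM p2 hp2 b' hsb')
  have hDa : Summable (fun j => wt j ^ 2 * ‖a j - a' j‖) := by
    refine Summable.of_nonneg_of_le (fun j => mul_nonneg (by positivity) (norm_nonneg _))
      (fun j => ?_) (hsa.add hsa')
    have h1 := norm_sub_le (a j) (a' j)
    have h2 : (0 : ℝ) ≤ wt j ^ 2 := by positivity
    nlinarith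
  have hDb : Summable (fun j => wt j ^ 2 * ‖b j - b' j‖) := by
    refine Summable.of_nonneg_of_le (fun j => mul_nonneg (by positivity) (norm_nonneg _))
      (fun j => ?_) (hsb.add hsb')
    have h1 := norm_sub_le (b j) (b' j)
    have h2 : (0 : ℝ) ≤ wt j ^ 2 := by positivity
    nlinarith
  have hG : Summable (fun j =>
      2 * M * r * (wt j ^ 2 * ‖a j - a' j‖ + wt j ^ 2 * ‖b j - b' j‖)) :=
    (hDa.add hDb).mul_left (2 * M * r)
  have hsq : ∀ x y : ℂ, ‖x‖ ≤ r → ‖y‖ ≤ r → |‖x‖ ^ 2 - ‖y‖ ^ 2| ≤ 2 * r * ‖x - y‖ := by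
    intro x y hx hy
    have h1 : ‖x‖ ^ 2 - ‖y‖ ^ 2 = (‖x‖ - ‖y‖) * (‖x‖ + ‖y‖) := by ring
    rw [h1, abs_mul, abs_of_nonneg (by positivity : (0 : ℝ) ≤ ‖x‖ + ‖y‖)]
    have h2 := abs_norm_sub_norm_le x y
    have h3 : ‖x‖ + ‖y‖ ≤ 2 * r := by linarith
    calc |‖x‖ - ‖y‖| * (‖x‖ + ‖y‖) ≤ ‖x - y‖ * (2 * r) :=
          mul_le_mul h2 h3 (by positivity) (norm_nonneg _)
      _ = 2 * r * ‖x - y‖ := by ring
  have hdiff : (∑' j : ℤ × ℤ, (p1 j * ‖a j‖ ^ 2 + p2 j * ‖b j‖ ^ 2)) -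
        ∑' j : ℤ × ℤ, (p1 j * ‖a' j‖ ^ 2 + p2 j * ‖b' j‖ ^ 2) =
      ∑' j : ℤ × ℤ, ((p1 j * ‖a j‖ ^ 2 + p2 j * ‖b j‖ ^ 2) -
        (p1 j * ‖a' j‖ ^ 2 + p2 j * ‖b' j‖ ^ 2)) :=
    (Summable.tsum_sub hF hF').symm
  have hbound := tsum_of_norm_bounded hG.hasSum
    (f := fun j : ℤ × ℤ => ((p1 j * ‖a j‖ ^ 2 + p2 j * ‖b j‖ ^ 2) -
        (p1 j * ‖a' j‖ ^ 2 + p2 j * ‖b' j‖ ^ 2))) (fun j => by
      rw [Real.norm_eq_abs]
      have e1 : (p1 j * ‖a j‖ ^ 2 + p2 j * ‖b j‖ ^ 2) -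
          (p1 j * ‖a' j‖ ^ 2 + p2 j * ‖b' j‖ ^ 2) =
          p1 j * (‖a j‖ ^ 2 - ‖a' j‖ ^ 2) + p2 j * (‖b j‖ ^ 2 - ‖b' j‖ ^ 2) := by ring
      rw [e1]
      have h1 := abs_add_le (p1 j * (‖a j‖ ^ 2 - ‖a' j‖ ^ 2))
        (p2 j * (‖b j‖ ^ 2 - ‖b' j‖ ^ 2))
      rw [abs_mul, abs_mul] at h1
      have h2 := hsq (a j) (a' j) (hna j) (hna' j)
      have h3 := hsq (b j) (b' j) (hnb j) (hnb' j)
      have hw : (0 : ℝ) ≤ M * wt j ^ 2 := by positivity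
      have h6 : |p1 j| * |‖a j‖ ^ 2 - ‖a' j‖ ^ 2| ≤
          (M * wt j ^ 2) * (2 * r * ‖a j - a' j‖) :=
        mul_le_mul (hp1 j) h2 (abs_nonneg _) hw
      have h7 : |p2 j| * |‖b j‖ ^ 2 - ‖b' j‖ ^ 2| ≤
          (M * wt j ^ 2) * (2 * r * ‖b j - b' j‖) :=
        mul_le_mul (hp2 j) h3 (abs_nonneg _) hw
      have e2 : 2 * M * r * (wt j ^ 2 * ‖a j - a' j‖ + wt j ^ 2 * ‖b j - b' j‖) =
          (M * wt j ^ 2) * (2 * r * ‖a j - a' j‖) + (M * wt j ^ 2) * (2 * r * ‖b j - b' j‖) := by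
        ring
      rw [e2]
      linarith)
  rw [hdiff, ← Real.norm_eq_abs]
  refine hbound.trans (le_of_eq ?_)
  rw [tsum_mul_left, Summable.tsum_add hDa hDb]
  rfl

theorem shear_lip_l (k l : ℤ × ℤ) (hD : ldet k l ≠ 0) :
    ∃ C : ℝ, 1 ≤ C ∧ ∀ (r : ℝ) (a b a' b' : ℤ × ℤ → ℂ),
      InBall (fun j => wt j ^ 2) r a → InBall (fun j => wt j ^ 2) r b →
      InBall (fun j => wt j ^ 2) r a' → InBall (fun j => wt j ^ 2) r b' →
      |shearL k l a b - shearL k l a' b'| ≤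
        C * r * (nrm (fun j => wt j ^ 2) (fun j => a j - a' j) +
          nrm (fun j => wt j ^ 2) (fun j => b j - b' j)) := by
  have hlam := lam_ge_one k l hD
  refine ⟨2 * lam k l ^ 2, by nlinarith, fun r a b a' b' ha hb ha' hb' => ?_⟩
  exact lshear_lip_gen (lam k l ^ 2) (by positivity) (fun j => (nu1 k l j + 1) * nu2 k l j)
    (fun j => nu1 k l j * (nu2 k l j + 1)) (lshear_sym1_le k l hD) (lshear_sym2_le k l hD)
    r a b a' b' ha hb ha' hb'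

private lemma lshear_A (k l : ℤ × ℤ) (psi : ℤ × ℤ → ℂ) (m : ℤ × ℤ) :
    linAL k l 0 0 psi m = ((nu1 k l m : ℂ) ^ 2 - (nu1 k l m : ℂ)) * psi m := by
  simp only [linAL, Pi.zero_apply]
  ring

private lemma lshear_B (k l : ℤ × ℤ) (psi : ℤ × ℤ → ℂ) (m : ℤ × ℤ) :
    linBL k l 0 0 psi m = ((nu2 k l m : ℂ) - (nu2 k l m : ℂ) ^ 2) * psi m := by
  simp only [linBL, Pi.zero_apply]
  ring

private lemma lshear_off (k l : ℤ × ℤ) (s t : ℝ) (j : ℤ × ℤ)
    (hj : j ∉ ({k + k + l, -(k + k + l), k + k - l, -(k + k - l)} : Finset (ℤ × ℤ))) :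
    psiL k l s t j = 0 := by
  simp only [Finset.mem_insert, Finset.mem_singleton, not_or] at hj
  obtain ⟨h1, h2, h3, h4⟩ := hj
  unfold psiL
  rw [if_neg (by tauto), if_neg (by tauto), add_zero]

private lemma lshear_sq (x : ℝ) : ‖((x : ℝ) : ℂ)‖ ^ 2 = x ^ 2 := by
  rw [Complex.norm_real, Real.norm_eq_abs, sq_abs]

/-- The mean shear of a pure gauge pair with independent amplitudes in the two components:
only the first component contributes. -/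
theorem shear_gauge_l (k l : ℤ × ℤ) (hD : ldet k l ≠ 0) (s t s' t' : ℝ) :
    shearL k l (linAL k l 0 0 (psiL k l s t)) (linBL k l 0 0 (psiL k l s' t')) =
      12 * (s ^ 2 - t ^ 2) := by
  obtain ⟨b1, b2, b3, b4⟩ := nu_basis k l hD
  have e1 : nu1 k l (k + k + l) = 2 := by
    rw [(nu_add k l (k + k) l).1, (nu_add k l k k).1, b1, b3]
    norm_num
  have e2 : nu2 k l (k + k + l) = 1 := by
    rw [(nu_add k l (k + k) l).2, (nu_add k l k k).2, b2, b4]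
    norm_num
  have e3 : nu1 k l (-(k + k + l)) = -2 := by rw [(nu_neg k l (k + k + l)).1, e1]
  have e4 : nu2 k l (-(k + k + l)) = -1 := by rw [(nu_neg k l (k + k + l)).2, e2]
  have e5 : nu1 k l (k + k - l) = 2 := by
    rw [(nu_sub k l (k + k) l).1, (nu_add k l k k).1, b1, b3]
    norm_num
  have e6 : nu2 k l (k + k - l) = -1 := by
    rw [(nu_sub k l (k + k) l).2, (nu_add k l k k).2, b2, b4]
    norm_num
  have e7 : nu1 k l (-(k + k - l)) = -2 := by rw [(nu_neg k l (k + k - l)).1, e5]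
  have e8 : nu2 k l (-(k + k - l)) = 1 := by
    rw [(nu_neg k l (k + k - l)).2, e6]
    norm_num
  have d12 : k + k + l ≠ -(k + k + l) := by
    intro h
    have h' := congrArg (nu1 k l) h
    rw [e1, e3] at h'
    norm_num at h'
  have d13 : k + k + l ≠ k + k - l := by
    intro h
    have h' := congrArg (nu2 k l) h
    rw [e2, e6] at h'
    norm_num at h'
  have d14 : k + k + l ≠ -(k + k - l) := by
    intro h
    have h' := congrArg (nu1 k l) h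
    rw [e1, e7] at h'
    norm_num at h'
  have d23 : -(k + k + l) ≠ k + k - l := by
    intro h
    have h' := congrArg (nu1 k l) h
    rw [e3, e5] at h'
    norm_num at h'
  have d24 : -(k + k + l) ≠ -(k + k - l) := by
    intro h
    have h' := congrArg (nu2 k l) h
    rw [e4, e8] at h'
    norm_num at h'
  have d34 : k + k - l ≠ -(k + k - l) := by
    intro h
    have h' := congrArg (nu1 k l) h
    rw [e5, e7] at h'
    norm_num at h'
  have v1 : ∀ u w : ℝ, psiL k l u w (k + k + l) = ((u / 2 : ℝ) : ℂ) := by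
    intro u w
    unfold psiL
    rw [if_pos (Or.inl rfl), if_neg (by tauto), add_zero]
  have v2 : ∀ u w : ℝ, psiL k l u w (-(k + k + l)) = ((u / 2 : ℝ) : ℂ) := by
    intro u w
    unfold psiL
    rw [if_pos (Or.inr rfl), if_neg (by tauto), add_zero]
  have v3 : ∀ u w : ℝ, psiL k l u w (k + k - l) = ((w / 2 : ℝ) : ℂ) := by
    intro u w
    unfold psiL
    rw [if_neg (by tauto), if_pos (Or.inl rfl), zero_add]
  have v4 : ∀ u w : ℝ, psiL k l u w (-(k + k - l)) = ((w / 2 : ℝ) : ℂ) := by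
    intro u w
    unfold psiL
    rw [if_neg (by tauto), if_pos (Or.inr rfl), zero_add]
  have A1 : linAL k l 0 0 (psiL k l s t) (k + k + l) = ((s : ℝ) : ℂ) := by
    rw [lshear_A, v1, e1]
    push_cast
    ring
  have A2 : linAL k l 0 0 (psiL k l s t) (-(k + k + l)) = ((3 * s : ℝ) : ℂ) := by
    rw [lshear_A, v2, e3]
    push_cast
    ring
  have A3 : linAL k l 0 0 (psiL k l s t) (k + k - l) = ((t : ℝ) : ℂ) := by
    rw [lshear_A, v3, e5]
    push_cast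
    ring
  have A4 : linAL k l 0 0 (psiL k l s t) (-(k + k - l)) = ((3 * t : ℝ) : ℂ) := by
    rw [lshear_A, v4, e7]
    push_cast
    ring
  have B1 : linBL k l 0 0 (psiL k l s' t') (k + k + l) = ((0 : ℝ) : ℂ) := by
    rw [lshear_B, v1, e2]
    push_cast
    ring
  have B2 : linBL k l 0 0 (psiL k l s' t') (-(k + k + l)) = ((-s' : ℝ) : ℂ) := by
    rw [lshear_B, v2, e4]
    push_cast
    ring
  have B3 : linBL k l 0 0 (psiL k l s' t') (k + k - l) = ((-t' : ℝ) : ℂ) := by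
    rw [lshear_B, v3, e6]
    push_cast
    ring
  have B4 : linBL k l 0 0 (psiL k l s' t') (-(k + k - l)) = ((0 : ℝ) : ℂ) := by
    rw [lshear_B, v4, e8]
    push_cast
    ring
  have hoff : ∀ j ∉ ({k + k + l, -(k + k + l), k + k - l, -(k + k - l)} : Finset (ℤ × ℤ)),
      ((nu1 k l j + 1) * nu2 k l j * ‖linAL k l 0 0 (psiL k l s t) j‖ ^ 2 +
        nu1 k l j * (nu2 k l j + 1) * ‖linBL k l 0 0 (psiL k l s' t') j‖ ^ 2) = 0 := by
    intro j hj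
    rw [lshear_A, lshear_B, lshear_off k l s t j hj, lshear_off k l s' t' j hj, mul_zero,
      mul_zero, norm_zero]
    ring
  have n1 : k + k + l ∉ ({-(k + k + l), k + k - l, -(k + k - l)} : Finset (ℤ × ℤ)) := by
    simp only [Finset.mem_insert, Finset.mem_singleton, not_or]
    exact ⟨d12, d13, d14⟩
  have n2 : -(k + k + l) ∉ ({k + k - l, -(k + k - l)} : Finset (ℤ × ℤ)) := by
    simp only [Finset.mem_insert, Finset.mem_singleton, not_or]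
    exact ⟨d23, d24⟩
  have n3 : k + k - l ∉ ({-(k + k - l)} : Finset (ℤ × ℤ)) := by
    simp only [Finset.mem_singleton]
    exact d34
  unfold shearL
  rw [tsum_eq_sum hoff, Finset.sum_insert n1, Finset.sum_insert n2, Finset.sum_insert n3,
    Finset.sum_singleton, A1, A2, A3, A4, B1, B2, B3, B4, e1, e2, e3, e4, e5, e6, e7, e8]
  simp only [lshear_sq]
  ring

end Vale.Agent.Lib.P205.NF
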