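import Vale.Agent.Lib.P205.NF.ExactW
import Vale.Agent.Lib.P205.NF.LCore
import Vale.Agent.Lib.P205.NF.LConsts
import Vale.Agent.Lib.P205.NF.LGauge
import Vale.Agent.Lib.P205.NF.LShear
import Vale.Agent.Lib.P205.NF.LSymBound

/-!
# Near-flat tori over a general homogeneous flat base: every nearby metric, exactly
-/

namespace Vale.Agent.Lib.P205.NF

open scoped ContDiff

/-- Bounds for a quadratic part at the base weight, from the symbol bounds. -/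
theorem lexact_quad_base (C : ℝ) (hC : 1 ≤ C) (τ₁ τ₂ : ℤ × ℤ → ℤ × ℤ → ℂ) (h₁ : SymOK C τ₁)
    (h₂ : SymOK C τ₂) (r : ℝ) (a b : ℤ × ℤ → ℂ) (ha : InBall (fun j => wt j ^ 2) r a)
    (hb : InBall (fun j => wt j ^ 2) r b) :
    Summable (fun j => wt j ^ 2 * ‖quad τ₁ τ₂ a b j‖) ∧
      nrm (fun j => wt j ^ 2) (quad τ₁ τ₂ a b) ≤ 2 * C * r ^ 2 := by
  have hω : ∀ j : ℤ × ℤ, 0 < wt j ^ 2 := fun j => by
    have := wt_pos j
    positivity
  have hωe : ∀ j : ℤ × ℤ, wt (-j) ^ 2 = wt j ^ 2 := fun j => by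
    simp [wt]
  obtain ⟨q1, q2, -, -⟩ := quad_est (fun j => wt j ^ 2) hω hωe τ₁ τ₂ C (by linarith) h₁ h₂
    r a b a b ha hb ha hb
  exact ⟨q1, q2⟩

/-- Difference of the linear data along the gauge family. -/
theorem lexact_gauge_diff (k l : ℤ × ℤ) (e f g : ℤ × ℤ → ℂ) (s t s' t' : ℝ) :
    ((fun j => linAL k l e f (psiL k l s t) j - linAL k l e f (psiL k l s' t') j) =
      linAL k l 0 0 (psiL k l (s - s') (t - t'))) ∧
    ((fun j => linBL k l g f (psiL k l s t) j - linBL k l g f (psiL k l s' t') j) =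
      linBL k l 0 0 (psiL k l (s - s') (t - t'))) := by
  constructor
  · funext j
    rw [linAL_gauge k l e f (psiL k l s t) j, linAL_gauge k l e f (psiL k l s' t') j]
    simp only [linAL, ← psiL_sub k l s t s' t' j, Pi.zero_apply]
    ring
  · funext j
    rw [linBL_gauge k l g f (psiL k l s t) j, linBL_gauge k l g f (psiL k l s' t') j]
    simp only [linBL, ← psiL_sub k l s t s' t' j, Pi.zero_apply]
    ring

/-- The linear data of a pure gauge function, in the base norm. -/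
theorem lexact_gauge_lin_bound (k l : ℤ × ℤ) (C₁ C₃ : ℝ) (hC₁ : 1 ≤ C₁)
    (hlin : ∀ (u : ℤ × ℤ → ℝ), (∀ j, 0 ≤ u j) → ∀ (h11 h12 h22 psi : ℤ × ℤ → ℂ),
      (Summable fun j => u j * ‖h11 j‖) → (Summable fun j => u j * ‖h12 j‖) →
      (Summable fun j => u j * ‖h22 j‖) → (Summable fun j => u j * (wt j ^ 2 * ‖psi j‖)) →
      (Summable fun j => u j * ‖linAL k l h11 h12 psi j‖) ∧
      nrm u (linAL k l h11 h12 psi) ≤
        C₁ * (nrm u h11 + nrm u h12 + ∑' j, u j * (wt j ^ 2 * ‖psi j‖)) ∧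
      (Summable fun j => u j * ‖linBL k l h22 h12 psi j‖) ∧
      nrm u (linBL k l h22 h12 psi) ≤
        C₁ * (nrm u h22 + nrm u h12 + ∑' j, u j * (wt j ^ 2 * ‖psi j‖)))
    (hpsi : ∀ s t : ℝ,
      (Summable fun j => wt j ^ 2 * (wt j ^ 2 * ‖psiL k l s t j‖)) ∧
      ∑' j, wt j ^ 2 * (wt j ^ 2 * ‖psiL k l s t j‖) ≤ C₃ * (|s| + |t|))
    (s t : ℝ) :
    InBall (fun j => wt j ^ 2) (C₁ * C₃ * (|s| + |t|)) (linAL k l 0 0 (psiL k l s t)) ∧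
    InBall (fun j => wt j ^ 2) (C₁ * C₃ * (|s| + |t|)) (linBL k l 0 0 (psiL k l s t)) := by
  have w2 : ∀ j : ℤ × ℤ, 0 ≤ wt j ^ 2 := fun j => by positivity
  have z : Summable fun j : ℤ × ℤ => wt j ^ 2 * ‖(0 : ℤ × ℤ → ℂ) j‖ := by
    simp
  have hz : nrm (fun j => wt j ^ 2) (0 : ℤ × ℤ → ℂ) = 0 := by
    simp [nrm]
  obtain ⟨p1, p2⟩ := hpsi s t
  obtain ⟨sA, bA, sB, bB⟩ := hlin (fun j => wt j ^ 2) w2 0 0 0 (psiL k l s t) z z z p1
  rw [hz] at bA bB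
  have hC₁0 : 0 ≤ C₁ := by linarith
  have h3 : C₁ * (0 + 0 + ∑' j, wt j ^ 2 * (wt j ^ 2 * ‖psiL k l s t j‖))
      ≤ C₁ * C₃ * (|s| + |t|) := by
    have h4 := mul_le_mul_of_nonneg_left p2 hC₁0
    linarith
  exact ⟨⟨sA, le_trans bA h3⟩, ⟨sB, le_trans bB h3⟩⟩

/-- The mean shear of the fixed point of the scaled maps is close to that of the pure gauge
solution. -/
theorem lexact_shear_near (k l : ℤ × ℤ) (hD : ldet k l ≠ 0) (A B c : ℝ) (hA : 0 < A)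
    (hB : 0 < B) (hcA : 1 / A ≤ c) (hcB : 1 / B ≤ c) (C C₁ C₂ C₃ : ℝ) (hC : 1 ≤ C)
    (hC₁ : 1 ≤ C₁) (hC₂ : 1 ≤ C₂) (hC₃ : 1 ≤ C₃)
    (hT : ∀ e : ℤ × ℤ, (e = k ∨ e = l) →
      SymOK C (twmR tauAR k l e) ∧ SymOK C (twmR tauBR k l e))
    (hlin : ∀ (u : ℤ × ℤ → ℝ), (∀ j, 0 ≤ u j) → ∀ (h11 h12 h22 psi : ℤ × ℤ → ℂ),
      (Summable fun j => u j * ‖h11 j‖) → (Summable fun j => u j * ‖h12 j‖) →
      (Summable fun j => u j * ‖h22 j‖) → (Summable fun j => u j * (wt j ^ 2 * ‖psi j‖)) →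
      (Summable fun j => u j * ‖linAL k l h11 h12 psi j‖) ∧
      nrm u (linAL k l h11 h12 psi) ≤
        C₁ * (nrm u h11 + nrm u h12 + ∑' j, u j * (wt j ^ 2 * ‖psi j‖)) ∧
      (Summable fun j => u j * ‖linBL k l h22 h12 psi j‖) ∧
      nrm u (linBL k l h22 h12 psi) ≤
        C₁ * (nrm u h22 + nrm u h12 + ∑' j, u j * (wt j ^ 2 * ‖psi j‖)))
    (hsl : ∀ (r : ℝ) (a b a' b' : ℤ × ℤ → ℂ),
      InBall (fun j => wt j ^ 2) r a → InBall (fun j => wt j ^ 2) r b →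
      InBall (fun j => wt j ^ 2) r a' → InBall (fun j => wt j ^ 2) r b' →
      |shearL k l a b - shearL k l a' b'| ≤
        C₂ * r * (nrm (fun j => wt j ^ 2) (fun j => a j - a' j) +
          nrm (fun j => wt j ^ 2) (fun j => b j - b' j)))
    (hpsi : ∀ s t : ℝ,
      (Summable fun j => wt j ^ 2 * (wt j ^ 2 * ‖psiL k l s t j‖)) ∧
      ∑' j, wt j ^ 2 * (wt j ^ 2 * ‖psiL k l s t j‖) ≤ C₃ * (|s| + |t|))
    (e f g : ℤ × ℤ → ℂ) (de : Summable fun j => wt j ^ 2 * ‖e j‖)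
    (df : Summable fun j => wt j ^ 2 * ‖f j‖) (dg : Summable fun j => wt j ^ 2 * ‖g j‖)
    (s t r : ℝ) (a b : ℤ × ℤ → ℂ) (ha : InBall (fun j => wt j ^ 2) r a)
    (hb : InBall (fun j => wt j ^ 2) r b)
    (hfa : TG (1 / A) (twmR tauAR k l k) (twmR tauAR k l l)
      (linAL k l e f (psiL k l s t)) a b = a)
    (hfb : TG (1 / B) (twmR tauBR k l k) (twmR tauBR k l l)
      (linBL k l g f (psiL k l s t)) a b = b)
    (hst : C₁ * C₃ * c * (|s| + |t|) ≤ r) :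
    |shearL k l a b - 12 * (1 / A) ^ 2 * (s ^ 2 - t ^ 2)| ≤
      C₂ * r * (2 * c * (C₁ * (nrm (fun j => wt j ^ 2) e + nrm (fun j => wt j ^ 2) f +
        nrm (fun j => wt j ^ 2) g) + 2 * C * r ^ 2)) := by
  have hA1 : 0 < 1 / A := one_div_pos.mpr hA
  have hB1 : 0 < 1 / B := one_div_pos.mpr hB
  have hc : 0 < c := lt_of_lt_of_le hA1 hcA
  have hC₁0 : 0 ≤ C₁ := by linarith
  have hC₂0 : 0 ≤ C₂ := by linarith
  have hC₃0 : 0 ≤ C₃ := by linarith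
  have w2 : ∀ j : ℤ × ℤ, 0 ≤ wt j ^ 2 := fun j => by positivity
  have n1 := nrm_nonneg_sq e
  have n2 := nrm_nonneg_sq f
  have n3 := nrm_nonneg_sq g
  have hr0 : 0 ≤ r := le_trans (nrm_nonneg_sq a) ha.2
  have dz' : Summable fun j : ℤ × ℤ => wt j ^ 2 * (wt j ^ 2 * ‖(0 : ℤ × ℤ → ℂ) j‖) := by
    simp
  have hz0 : ∑' j : ℤ × ℤ, wt j ^ 2 * (wt j ^ 2 * ‖(0 : ℤ × ℤ → ℂ) j‖) = 0 := by
    simp
  obtain ⟨sA, bA, sB, bB⟩ := hlin (fun j => wt j ^ 2) w2 e f g 0 de df dg dz'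
  rw [hz0] at bA bB
  have hsum : 0 ≤ |s| + |t| := by positivity
  obtain ⟨gA, -⟩ := lexact_gauge_lin_bound k l C₁ C₃ hC₁ hlin hpsi (1 / A * s) (1 / A * t)
  obtain ⟨-, gB⟩ := lexact_gauge_lin_bound k l C₁ C₃ hC₁ hlin hpsi (1 / B * s) (1 / B * t)
  have eabsA : |1 / A * s| + |1 / A * t| = 1 / A * (|s| + |t|) := by
    rw [abs_mul, abs_mul, abs_of_pos hA1]
    ring
  have eabsB : |1 / B * s| + |1 / B * t| = 1 / B * (|s| + |t|) := by
    rw [abs_mul, abs_mul, abs_of_pos hB1]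
    ring
  have gA' : InBall (fun j => wt j ^ 2) r
      (linAL k l 0 0 (psiL k l (1 / A * s) (1 / A * t))) := by
    refine ⟨gA.1, le_trans gA.2 (le_trans ?_ hst)⟩
    rw [eabsA]
    have h1 := mul_le_mul_of_nonneg_right hcA hsum
    have h2 := mul_le_mul_of_nonneg_left h1 (mul_nonneg hC₁0 hC₃0)
    linarith
  have gB' : InBall (fun j => wt j ^ 2) r
      (linBL k l 0 0 (psiL k l (1 / B * s) (1 / B * t))) := by
    refine ⟨gB.1, le_trans gB.2 (le_trans ?_ hst)⟩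
    rw [eabsB]
    have h1 := mul_le_mul_of_nonneg_right hcB hsum
    have h2 := mul_le_mul_of_nonneg_left h1 (mul_nonneg hC₁0 hC₃0)
    linarith
  obtain ⟨qA1, qA2⟩ := lexact_quad_base C hC _ _ (hT k (Or.inl rfl)).1 (hT l (Or.inr rfl)).1
    r a b ha hb
  obtain ⟨qB1, qB2⟩ := lexact_quad_base C hC _ _ (hT k (Or.inl rfl)).2 (hT l (Or.inr rfl)).2
    r a b ha hb
  have eA : (fun j => a j - linAL k l 0 0 (psiL k l (1 / A * s) (1 / A * t)) j) =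
      fun j => ((1 / A : ℝ) : ℂ) *
        (linAL k l e f 0 j + quad (twmR tauAR k l k) (twmR tauAR k l l) a b j) := by
    funext j
    have h1 := congrFun hfa j
    simp only [TG] at h1
    rw [linAL_gauge k l e f (psiL k l s t) j] at h1
    rw [← gaugeAL_scale k l (1 / A) s t j]
    nth_rewrite 1 [← h1]
    ring
  have eB : (fun j => b j - linBL k l 0 0 (psiL k l (1 / B * s) (1 / B * t)) j) =
      fun j => ((1 / B : ℝ) : ℂ) *
        (linBL k l g f 0 j + quad (twmR tauBR k l k) (twmR tauBR k l l) a b j) := by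
    funext j
    have h1 := congrFun hfb j
    simp only [TG] at h1
    rw [linBL_gauge k l g f (psiL k l s t) j] at h1
    rw [← gaugeBL_scale k l (1 / B) s t j]
    nth_rewrite 1 [← h1]
    ring
  obtain ⟨dAs, dA⟩ := nrm_add_le_sq _ _ sA qA1
  obtain ⟨dBs, dB⟩ := nrm_add_le_sq _ _ sB qB1
  obtain ⟨-, mA⟩ := nrm_smul_sq (1 / A) hA1.le _ dAs
  obtain ⟨-, mB⟩ := nrm_smul_sq (1 / B) hB1.le _ dBs
  have hl := hsl r a b _ _ ha hb gA' gB'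
  rw [shear_gauge_l k l hD, eA, eB, mA, mB] at hl
  have hgoal : 12 * (1 / A) ^ 2 * (s ^ 2 - t ^ 2)
      = 12 * ((1 / A * s) ^ 2 - (1 / A * t) ^ 2) := by
    ring
  rw [hgoal]
  refine le_trans hl ?_
  obtain ⟨X, hX⟩ : ∃ X : ℝ, X = nrm (fun j => wt j ^ 2)
      (fun j => linAL k l e f 0 j + quad (twmR tauAR k l k) (twmR tauAR k l l) a b j) :=
    ⟨_, rfl⟩
  obtain ⟨Y, hY⟩ : ∃ Y : ℝ, Y = nrm (fun j => wt j ^ 2)
      (fun j => linBL k l g f 0 j + quad (twmR tauBR k l k) (twmR tauBR k l l) a b j) :=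
    ⟨_, rfl⟩
  obtain ⟨H, hH⟩ : ∃ H : ℝ, H = nrm (fun j => wt j ^ 2) e + nrm (fun j => wt j ^ 2) f +
      nrm (fun j => wt j ^ 2) g := ⟨_, rfl⟩
  rw [← hX] at dA
  rw [← hY] at dB
  rw [← hX, ← hY, ← hH]
  have hX0 : 0 ≤ X := by
    rw [hX]
    exact nrm_nonneg_sq _
  have hY0 : 0 ≤ Y := by
    rw [hY]
    exact nrm_nonneg_sq _
  have hXle : X ≤ C₁ * H + 2 * C * r ^ 2 := by
    have h1 : C₁ * (nrm (fun j => wt j ^ 2) e + nrm (fun j => wt j ^ 2) f + 0) ≤ C₁ * H := by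
      rw [hH]
      exact mul_le_mul_of_nonneg_left (by linarith) hC₁0
    linarith
  have hYle : Y ≤ C₁ * H + 2 * C * r ^ 2 := by
    have h1 : C₁ * (nrm (fun j => wt j ^ 2) g + nrm (fun j => wt j ^ 2) f + 0) ≤ C₁ * H := by
      rw [hH]
      exact mul_le_mul_of_nonneg_left (by linarith) hC₁0
    linarith
  have h5 : 1 / A * X + 1 / B * Y ≤ 2 * (c * (C₁ * H + 2 * C * r ^ 2)) := by
    have t1 : 1 / A * X ≤ c * (C₁ * H + 2 * C * r ^ 2) :=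
      mul_le_mul hcA hXle hX0 hc.le
    have t2 : 1 / B * Y ≤ c * (C₁ * H + 2 * C * r ^ 2) :=
      mul_le_mul hcB hYle hY0 hc.le
    linarith
  calc C₂ * r * (1 / A * X + 1 / B * Y)
      ≤ C₂ * r * (2 * (c * (C₁ * H + 2 * C * r ^ 2))) :=
        mul_le_mul_of_nonneg_left h5 (mul_nonneg hC₂0 hr0)
    _ = C₂ * r * (2 * c * (C₁ * H + 2 * C * r ^ 2)) := by ring

/-- Every smooth metric on the torus close to the flat metric `A^2 (k.dp)^2 + B^2 (l.dp)^2`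
is induced by a smooth doubly periodic map into four-space (coefficient form; the
perturbation is given by its components in the coframe `k.dp`, `l.dp`). -/
theorem near_flat_l (k l : ℤ × ℤ) (hD : ldet k l ≠ 0) (A B : ℝ) (hA : 0 < A) (hB : 0 < B) :
    ∃ δ : ℝ, 0 < δ ∧
    ∀ e f g : ℤ × ℤ → ℂ,
    (∀ j, e (-j) = (starRingEnd ℂ) (e j)) → (∀ j, f (-j) = (starRingEnd ℂ) (f j)) →
    (∀ j, g (-j) = (starRingEnd ℂ) (g j)) →
    (∀ n : ℕ, Summable fun j => wt j ^ n * ‖e j‖) →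
    (∀ n : ℕ, Summable fun j => wt j ^ n * ‖f j‖) →
    (∀ n : ℕ, Summable fun j => wt j ^ n * ‖g j‖) →
    nrm (fun j => wt j ^ 2) e + nrm (fun j => wt j ^ 2) f + nrm (fun j => wt j ^ 2) g < δ →
    ∃ Ψ : ℝ × ℝ → EuclideanSpace ℝ (Fin 4), ContDiff ℝ ∞ Ψ ∧
      (∀ p : ℝ × ℝ, Ψ (p.1 + 2 * Real.pi, p.2) = Ψ p) ∧
      (∀ p : ℝ × ℝ, Ψ (p.1, p.2 + 2 * Real.pi) = Ψ p) ∧
      ∀ p v w : ℝ × ℝ, inner ℝ (fderiv ℝ Ψ p v) (fderiv ℝ Ψ p w) =
        (A ^ 2 + (S e p).re) * ((k.1 : ℝ) * v.1 + (k.2 : ℝ) * v.2) *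
            ((k.1 : ℝ) * w.1 + (k.2 : ℝ) * w.2) +
          (S f p).re *
            (((k.1 : ℝ) * v.1 + (k.2 : ℝ) * v.2) * ((l.1 : ℝ) * w.1 + (l.2 : ℝ) * w.2) +
              ((l.1 : ℝ) * v.1 + (l.2 : ℝ) * v.2) * ((k.1 : ℝ) * w.1 + (k.2 : ℝ) * w.2)) +
          (B ^ 2 + (S g p).re) * ((l.1 : ℝ) * v.1 + (l.2 : ℝ) * v.2) *
            ((l.1 : ℝ) * w.1 + (l.2 : ℝ) * w.2) := by
  have hA1 : 0 < 1 / A := one_div_pos.mpr hA
  have hB1 : 0 < 1 / B := one_div_pos.mpr hB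
  obtain ⟨c, hcdef⟩ : ∃ c : ℝ, c = max (1 / A) (1 / B) := ⟨_, rfl⟩
  have hcA : 1 / A ≤ c := by
    rw [hcdef]
    exact le_max_left _ _
  have hcB : 1 / B ≤ c := by
    rw [hcdef]
    exact le_max_right _ _
  have hc : 0 < c := lt_of_lt_of_le hA1 hcA
  obtain ⟨C, hC, hT⟩ := tauR_bound k l hD
  obtain ⟨C₁, hC₁, hlin⟩ := lin_bound_l k l hD
  obtain ⟨C₂, hC₂, hsl⟩ := shear_lip_l k l hD
  obtain ⟨C₃, hC₃, hpsi⟩ := psiL_norm k l
  obtain ⟨t₀, r₁, δ, ht₀pos, hδ, hr₁pos, hr₁le, hgr, hdata, hsh⟩ :=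
    consts_l (1 / A) c C C₁ C₂ C₃ hA1 hcA hC hC₁ hC₂ hC₃
  refine ⟨δ, hδ, ?_⟩
  intro e f g he hf hg de df dg hH
  have hC₁0 : 0 ≤ C₁ := by linarith
  have hC₂0 : 0 ≤ C₂ := by linarith
  have hC₃0 : 0 ≤ C₃ := by linarith
  have n1 := nrm_nonneg_sq e
  have n2 := nrm_nonneg_sq f
  have n3 := nrm_nonneg_sq g
  have hH0 : 0 ≤ nrm (fun j => wt j ^ 2) e + nrm (fun j => wt j ^ 2) f +
      nrm (fun j => wt j ^ 2) g := by linarith
  have hd1 := hdata _ hH0 hH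
  have hs1 := hsh _ hH0 hH
  have w2 : ∀ j : ℤ × ℤ, 0 ≤ wt j ^ 2 := fun j => by positivity
  obtain ⟨sA1, sB1⟩ := hT k (Or.inl rfl)
  obtain ⟨sA2, sB2⟩ := hT l (Or.inr rfl)
  -- smallness of the data along the gauge family
  have data : ∀ s t : ℝ, |s| + |t| ≤ t₀ →
      (Summable fun j => wt j ^ 2 * ‖linAL k l e f (psiL k l s t) j‖) ∧
      nrm (fun j => wt j ^ 2) (linAL k l e f (psiL k l s t)) < r₁ / (2 * c) ∧
      (Summable fun j => wt j ^ 2 * ‖linBL k l g f (psiL k l s t) j‖) ∧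
      nrm (fun j => wt j ^ 2) (linBL k l g f (psiL k l s t)) < r₁ / (2 * c) := by
    intro s t hst
    obtain ⟨p1, p2⟩ := hpsi s t
    obtain ⟨sA, bA, sB, bB⟩ := hlin (fun j => wt j ^ 2) w2 e f g (psiL k l s t)
      (de 2) (df 2) (dg 2) p1
    have hp3 : ∑' j, wt j ^ 2 * (wt j ^ 2 * ‖psiL k l s t j‖) ≤ C₃ * t₀ :=
      le_trans p2 (mul_le_mul_of_nonneg_left hst hC₃0)
    have hA' : nrm (fun j => wt j ^ 2) (linAL k l e f (psiL k l s t))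
        ≤ C₁ * (nrm (fun j => wt j ^ 2) e + nrm (fun j => wt j ^ 2) f +
          nrm (fun j => wt j ^ 2) g + C₃ * t₀) :=
      le_trans bA (mul_le_mul_of_nonneg_left (by linarith) hC₁0)
    have hB' : nrm (fun j => wt j ^ 2) (linBL k l g f (psiL k l s t))
        ≤ C₁ * (nrm (fun j => wt j ^ 2) e + nrm (fun j => wt j ^ 2) f +
          nrm (fun j => wt j ^ 2) g + C₃ * t₀) :=
      le_trans bB (mul_le_mul_of_nonneg_left (by linarith) hC₁0)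
    exact ⟨sA, lt_of_le_of_lt hA' hd1, sB, lt_of_le_of_lt hB' hd1⟩
  have hpath : ∀ τ ∈ Set.Icc (0 : ℝ) 1, |t₀ * τ| + |t₀ * (1 - τ)| ≤ t₀ := by
    intro τ hτ
    rw [abs_of_nonneg (mul_nonneg ht₀pos.le hτ.1),
      abs_of_nonneg (mul_nonneg ht₀pos.le (by linarith [hτ.2]))]
    linarith
  -- the family of fixed points
  have ex : ∀ τ : ℝ, ∃ a b : ℤ × ℤ → ℂ, τ ∈ Set.Icc (0 : ℝ) 1 →
      InBall (fun j => wt j ^ 2) r₁ a ∧ InBall (fun j => wt j ^ 2) r₁ b ∧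
      TG (1 / A) (twmR tauAR k l k) (twmR tauAR k l l)
        (linAL k l e f (psiL k l (t₀ * τ) (t₀ * (1 - τ)))) a b = a ∧
      TG (1 / B) (twmR tauBR k l k) (twmR tauBR k l l)
        (linBL k l g f (psiL k l (t₀ * τ) (t₀ * (1 - τ)))) a b = b := by
    intro τ
    by_cases hτ : τ ∈ Set.Icc (0 : ℝ) 1
    · obtain ⟨sA, bA, sB, bB⟩ := data _ _ (hpath τ hτ)
      obtain ⟨a, b, h1, h2, h3, h4⟩ := exists_fixed_base_g _ _ _ _ C hC sA1 sA2 sB1 sB2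
        (1 / A) (1 / B) c hA1.le hcA hB1.le hcB hc _ _ r₁ hr₁pos hr₁le
        ⟨sA, bA.le⟩ ⟨sB, bB.le⟩
      exact ⟨a, b, fun _ => ⟨h1, h2, h3, h4⟩⟩
    · exact ⟨0, 0, fun h => absurd h hτ⟩
  choose a b hab using ex
  -- the mean shear along the family is Lipschitz
  obtain ⟨L, hLdef⟩ : ∃ L : ℝ, L = C₂ * r₁ * (4 * c * (C₁ * C₃ * (2 * t₀))) := ⟨_, rfl⟩
  have hL0 : 0 ≤ L := by
    rw [hLdef]
    positivity
  have lip : ∀ τ ∈ Set.Icc (0 : ℝ) 1, ∀ τ' ∈ Set.Icc (0 : ℝ) 1,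
      |shearL k l (a τ) (b τ) - shearL k l (a τ') (b τ')| ≤ L * |τ - τ'| := by
    intro τ hτ τ' hτ'
    obtain ⟨ha, hb, hfa, hfb⟩ := hab τ hτ
    obtain ⟨ha', hb', hfa', hfb'⟩ := hab τ' hτ'
    obtain ⟨dA, dB⟩ := lexact_gauge_diff k l e f g (t₀ * τ) (t₀ * (1 - τ)) (t₀ * τ')
      (t₀ * (1 - τ'))
    obtain ⟨gA, gB⟩ := lexact_gauge_lin_bound k l C₁ C₃ hC₁ hlin hpsi (t₀ * τ - t₀ * τ')
      (t₀ * (1 - τ) - t₀ * (1 - τ'))
    have hmax := fixed_lipschitz_base_g _ _ _ _ C hC sA1 sA2 sB1 sB2 (1 / A) (1 / B) c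
      hA1.le hcA hB1.le hcB hc _ _ _ _ r₁ hr₁le (a τ) (b τ) (a τ') (b τ')
      ha hb ha' hb' hfa hfb hfa' hfb'
      (by
        have h := gA.1
        rw [← dA] at h
        exact h)
      (by
        have h := gB.1
        rw [← dB] at h
        exact h)
    rw [dA, dB] at hmax
    have e1 : |t₀ * τ - t₀ * τ'| = t₀ * |τ - τ'| := by
      rw [← mul_sub, abs_mul, abs_of_pos ht₀pos]
    have e2 : |t₀ * (1 - τ) - t₀ * (1 - τ')| = t₀ * |τ - τ'| := by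
      have h : t₀ * (1 - τ) - t₀ * (1 - τ') = -(t₀ * (τ - τ')) := by ring
      rw [h, abs_neg, abs_mul, abs_of_pos ht₀pos]
    have g1 := gA.2
    have g2 := gB.2
    rw [e1, e2] at g1 g2
    have hl := hsl r₁ (a τ) (b τ) (a τ') (b τ') ha hb ha' hb'
    have m1 := le_max_left (nrm (fun j => wt j ^ 2) (fun j => a τ j - a τ' j))
      (nrm (fun j => wt j ^ 2) (fun j => b τ j - b τ' j))
    have m2 := le_max_right (nrm (fun j => wt j ^ 2) (fun j => a τ j - a τ' j))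
      (nrm (fun j => wt j ^ 2) (fun j => b τ j - b τ' j))
    have m3 : max (nrm (fun j => wt j ^ 2) (linAL k l 0 0 (psiL k l (t₀ * τ - t₀ * τ')
        (t₀ * (1 - τ) - t₀ * (1 - τ')))))
        (nrm (fun j => wt j ^ 2) (linBL k l 0 0 (psiL k l (t₀ * τ - t₀ * τ')
        (t₀ * (1 - τ) - t₀ * (1 - τ'))))) ≤ C₁ * C₃ * (t₀ * |τ - τ'| + t₀ * |τ - τ'|) :=
      max_le g1 g2
    have m4 : 2 * c * max (nrm (fun j => wt j ^ 2) (linAL k l 0 0 (psiL k l (t₀ * τ - t₀ * τ')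
        (t₀ * (1 - τ) - t₀ * (1 - τ')))))
        (nrm (fun j => wt j ^ 2) (linBL k l 0 0 (psiL k l (t₀ * τ - t₀ * τ')
        (t₀ * (1 - τ) - t₀ * (1 - τ'))))) ≤
        2 * c * (C₁ * C₃ * (t₀ * |τ - τ'| + t₀ * |τ - τ'|)) :=
      mul_le_mul_of_nonneg_left m3 (by positivity)
    have hsum : nrm (fun j => wt j ^ 2) (fun j => a τ j - a τ' j) +
        nrm (fun j => wt j ^ 2) (fun j => b τ j - b τ' j) ≤
        4 * c * (C₁ * C₃ * (t₀ * |τ - τ'| + t₀ * |τ - τ'|)) := by linarith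
    have h3 : C₂ * r₁ * (nrm (fun j => wt j ^ 2) (fun j => a τ j - a τ' j) +
        nrm (fun j => wt j ^ 2) (fun j => b τ j - b τ' j)) ≤
        C₂ * r₁ * (4 * c * (C₁ * C₃ * (t₀ * |τ - τ'| + t₀ * |τ - τ'|))) :=
      mul_le_mul_of_nonneg_left hsum (mul_nonneg hC₂0 hr₁pos)
    refine le_trans hl (le_trans h3 (le_of_eq ?_))
    rw [hLdef]
    ring
  have hcont : ContinuousOn (fun τ => shearL k l (a τ) (b τ)) (Set.Icc (0 : ℝ) 1) := by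
    have hL : LipschitzOnWith (Real.toNNReal L) (fun τ => shearL k l (a τ) (b τ))
        (Set.Icc (0 : ℝ) 1) := by
      refine LipschitzOnWith.of_dist_le_mul (fun x hx y hy => ?_)
      rw [Real.dist_eq, Real.dist_eq, Real.coe_toNNReal L hL0]
      exact lip x hx y hy
    exact hL.continuousOn
  -- the two ends of the family
  have hend : ∀ s t : ℝ, |s| + |t| = t₀ → ∀ a' b' : ℤ × ℤ → ℂ,
      InBall (fun j => wt j ^ 2) r₁ a' → InBall (fun j => wt j ^ 2) r₁ b' →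
      TG (1 / A) (twmR tauAR k l k) (twmR tauAR k l l)
        (linAL k l e f (psiL k l s t)) a' b' = a' →
      TG (1 / B) (twmR tauBR k l k) (twmR tauBR k l l)
        (linBL k l g f (psiL k l s t)) a' b' = b' →
      |shearL k l a' b' - 12 * (1 / A) ^ 2 * (s ^ 2 - t ^ 2)| ≤
        C₂ * r₁ * (2 * c * (C₁ * (nrm (fun j => wt j ^ 2) e + nrm (fun j => wt j ^ 2) f +
          nrm (fun j => wt j ^ 2) g) + 2 * C * r₁ ^ 2)) := by
    intro s t hst a' b' ha' hb' hfa' hfb'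
    refine lexact_shear_near k l hD A B c hA hB hcA hcB C C₁ C₂ C₃ hC hC₁ hC₂ hC₃ hT hlin hsl
      hpsi e f g (de 2) (df 2) (dg 2) s t r₁ a' b' ha' hb' hfa' hfb' ?_
    rw [hst]
    exact hgr
  have h1 : δ < shearL k l (a 1) (b 1) := by
    obtain ⟨ha1, hb1, hfa1, hfb1⟩ := hab 1 ⟨by norm_num, le_rfl⟩
    have e1 : t₀ * (1 - 1) = 0 := by ring
    rw [mul_one, e1] at hfa1 hfb1
    have h2 := hend t₀ 0 (by simp [abs_of_pos ht₀pos]) (a 1) (b 1) ha1 hb1 hfa1 hfb1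
    have h' := (abs_le.mp h2).1
    have e2 : 12 * (1 / A) ^ 2 * (t₀ ^ 2 - 0 ^ 2) = 12 * (1 / A) ^ 2 * t₀ ^ 2 := by ring
    rw [e2] at h'
    linarith
  have h0 : shearL k l (a 0) (b 0) < -δ := by
    obtain ⟨ha0, hb0, hfa0, hfb0⟩ := hab 0 ⟨le_rfl, by norm_num⟩
    have e1 : t₀ * (1 - 0) = t₀ := by ring
    rw [mul_zero, e1] at hfa0 hfb0
    have h2 := hend 0 t₀ (by simp [abs_of_pos ht₀pos]) (a 0) (b 0) ha0 hb0 hfa0 hfb0
    have h' := (abs_le.mp h2).2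
    have e2 : 12 * (1 / A) ^ 2 * (0 ^ 2 - t₀ ^ 2) = -(12 * (1 / A) ^ 2 * t₀ ^ 2) := by ring
    rw [e2] at h'
    linarith
  -- the target mean value
  have hμ : |(f 0).re| < δ := by
    have h2 : ‖f 0‖ ≤ nrm (fun j => wt j ^ 2) f := by
      have h3 := Summable.le_tsum (df 2) 0 (fun j _ => by positivity)
      have h4 : wt 0 ^ 2 * ‖f 0‖ = ‖f 0‖ := by simp [wt]
      rw [h4] at h3
      exact h3
    have h5 := Complex.abs_re_le_norm (f 0)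
    linarith
  have hmem : (f 0).re ∈ Set.Icc (shearL k l (a 0) (b 0)) (shearL k l (a 1) (b 1)) :=
    ⟨by linarith [(abs_lt.mp hμ).1], by linarith [(abs_lt.mp hμ).2]⟩
  obtain ⟨τ, hτ, hστ⟩ := intermediate_value_Icc (by norm_num : (0 : ℝ) ≤ 1) hcont hmem
  obtain ⟨ha, hb, hfa, hfb⟩ := hab τ hτ
  obtain ⟨sA, bA, sB, bB⟩ := data _ _ (hpath τ hτ)
  obtain ⟨Ψ, c1, c2, c3, c4⟩ := core_l k l hD A B hA hB C hC hT c hcA hcB e f g
    (psiL k l (t₀ * τ) (t₀ * (1 - τ))) he hf hg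
    (psiL_herm k l _ _) de df dg (psiL_decay k l _ _) r₁ hr₁le bA bB (a τ) (b τ) ha hb hfa hfb
  refine ⟨Ψ, c1, c2, c3, ?_⟩
  intro p v w
  have hs : shearL k l (a τ) (b τ) = (f 0).re := hστ
  rw [c4 p v w, shear_eq_l k l hD A B (a τ) (b τ) ha.1 hb.1, hs]
  ring

end Vale.Agent.Lib.P205.NF
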