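import Vale.Agent.Lib.P205.NF.ExistW
import Vale.Agent.Lib.P205.NF.LDefs

/-!
# Fixed point of the scaled maps with arbitrary symbols: existence, Lipschitz dependence,
uniqueness
-/

namespace Vale.Agent.Lib.P205.NF

/-- The weighted bound needed by the quadratic estimates, from `SymOK`. -/
lemma lexist_sym (W : ℤ × ℤ → ℝ) (hW1 : ∀ k, 1 ≤ W k) (hWm : ∀ k l, W (k + l) ≤ W k * W l)
    (τ : ℤ × ℤ → ℤ × ℤ → ℂ) (C : ℝ) (h : SymOK C τ) (m k : ℤ × ℤ) :
    ‖τ m k‖ * (W m * wt m ^ 2) ≤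
      C * ((W k * wt k ^ 2) * (W (m - k) * wt (m - k) ^ 2)) := by
  have h1 : ‖τ m k‖ * wt m ^ 2 ≤ C * (wt k ^ 2 * wt (m - k) ^ 2) := h m k
  have hWm' : W m ≤ W k * W (m - k) := by
    have h3 := hWm k (m - k)
    rwa [add_sub_cancel] at h3
  have hWk : 0 ≤ W k := by linarith [hW1 k]
  have hWmk : 0 ≤ W (m - k) := by linarith [hW1 (m - k)]
  have hn0 : 0 ≤ ‖τ m k‖ * wt m ^ 2 := by positivity
  have h2 : W m * (‖τ m k‖ * wt m ^ 2)
      ≤ (W k * W (m - k)) * (C * (wt k ^ 2 * wt (m - k) ^ 2)) :=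
    mul_le_mul hWm' h1 hn0 (mul_nonneg hWk hWmk)
  calc ‖τ m k‖ * (W m * wt m ^ 2)
      = W m * (‖τ m k‖ * wt m ^ 2) := by ring
    _ ≤ (W k * W (m - k)) * (C * (wt k ^ 2 * wt (m - k) ^ 2)) := h2
    _ = C * ((W k * wt k ^ 2) * (W (m - k) * wt (m - k) ^ 2)) := by ring

/-- The scaled map sends the ball into itself. -/
lemma lexist_map_aux (ω : ℤ × ℤ → ℝ) (hω0 : ∀ k, 0 ≤ ω k) (s c C : ℝ) (hs0 : 0 ≤ s)
    (hsc : s ≤ c) (hc : 0 < c) (l Qf : ℤ × ℤ → ℂ) (r : ℝ) (hr0 : 0 ≤ r)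
    (hrc : r * (8 * C * c) ≤ 1) (hl : InBall ω (r / (2 * c)) l)
    (hQs : Summable (fun k => ω k * ‖Qf k‖)) (hQ : nrm ω Qf ≤ 2 * C * r ^ 2) :
    InBall ω r (fun m => (s : ℂ) * (l m + Qf m)) := by
  have h := exist_nrm_le ω hω0 (fun m => l m + Qf m) l Qf
    (fun k => norm_add_le _ _) hl.1 hQs
  have hs := existw_scale ω s hs0 (fun m => l m + Qf m) h.1
  refine ⟨hs.1, ?_⟩
  rw [hs.2]
  have hn0 : 0 ≤ nrm ω (fun m => l m + Qf m) := exist_nrm_nonneg ω hω0 _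
  have h1 : s * nrm ω (fun m => l m + Qf m) ≤ c * nrm ω (fun m => l m + Qf m) :=
    mul_le_mul_of_nonneg_right hsc hn0
  have h2 : nrm ω (fun m => l m + Qf m) ≤ r / (2 * c) + 2 * C * r ^ 2 := by
    linarith [h.2, hl.2]
  have h3 : c * nrm ω (fun m => l m + Qf m) ≤ c * (r / (2 * c) + 2 * C * r ^ 2) :=
    mul_le_mul_of_nonneg_left h2 hc.le
  have h4 : c * (r / (2 * c) + 2 * C * r ^ 2) = r / 2 + (r * (8 * C * c) * r) / 4 := by
    field_simp
    ring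
  have h5 : r * (8 * C * c) * r ≤ 1 * r := mul_le_mul_of_nonneg_right hrc hr0
  linarith

/-- Scaling and the contraction estimate. -/
lemma lexist_lip_aux (ω : ℤ × ℤ → ℝ) (hω0 : ∀ k, 0 ≤ ω k) (s c C : ℝ) (hs0 : 0 ≤ s)
    (hsc : s ≤ c) (hc : 0 < c) (r : ℝ) (hrc : r * (8 * C * c) ≤ 1) (Qd : ℤ × ℤ → ℂ) (M : ℝ)
    (hM : 0 ≤ M) (hQs : Summable (fun k => ω k * ‖Qd k‖))
    (hQ : nrm ω Qd ≤ 4 * C * r * M) :
    nrm ω (fun k => (s : ℂ) * Qd k) ≤ 1 / 2 * M := by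
  have hs := existw_scale ω s hs0 Qd hQs
  rw [hs.2]
  have hn0 : 0 ≤ nrm ω Qd := exist_nrm_nonneg ω hω0 _
  have h1 : s * nrm ω Qd ≤ c * nrm ω Qd := mul_le_mul_of_nonneg_right hsc hn0
  have h3 : c * nrm ω Qd ≤ c * (4 * C * r * M) := mul_le_mul_of_nonneg_left hQ hc.le
  have h4 : c * (4 * C * r * M) = (r * (8 * C * c) * M) / 2 := by ring
  have h5 : r * (8 * C * c) * M ≤ 1 * M := mul_le_mul_of_nonneg_right hrc hM
  linarith

/-- Arithmetic of the Lipschitz estimate. -/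
lemma lexist_lip_num (s c C r nf DA D nq M : ℝ) (hsc : s ≤ c) (hc : 0 < c)
    (hrc : r * (8 * C * c) ≤ 1) (hM : 0 ≤ M) (hnf0 : 0 ≤ nf) (hnf : nf ≤ DA + nq)
    (hDA : DA ≤ D) (hnq : nq ≤ 4 * C * r * M) : s * nf ≤ c * D + 1 / 2 * M := by
  have h1 : s * nf ≤ c * nf := mul_le_mul_of_nonneg_right hsc hnf0
  have h2 : c * nf ≤ c * (D + 4 * C * r * M) :=
    mul_le_mul_of_nonneg_left (by linarith) hc.le
  have h3 : r * (8 * C * c) * M ≤ 1 * M := mul_le_mul_of_nonneg_right hrc hM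
  have h4 : c * (D + 4 * C * r * M) = c * D + (r * (8 * C * c) * M) / 2 := by ring
  linarith

/-- The radius condition in product form. -/
lemma lexist_radius (C c r : ℝ) (hC : 1 ≤ C) (hc : 0 < c) (hr : r ≤ 1 / (8 * C * c)) :
    r * (8 * C * c) ≤ 1 := by
  have hC0 : 0 < C := by linarith
  have h8 : 0 < 8 * C * c := mul_pos (mul_pos (by norm_num) hC0) hc
  exact (le_div_iff₀ h8).mp hr

theorem exists_fixed_g (W : ℤ × ℤ → ℝ) (hW1 : ∀ k, 1 ≤ W k)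
    (hWm : ∀ k l, W (k + l) ≤ W k * W l) (hWe : ∀ k, W (-k) = W k)
    (τA1 τA2 τB1 τB2 : ℤ × ℤ → ℤ × ℤ → ℂ) (C : ℝ) (hC : 1 ≤ C)
    (h1 : SymOK C τA1) (h2 : SymOK C τA2) (h3 : SymOK C τB1) (h4 : SymOK C τB2)
    (s t c : ℝ) (hs0 : 0 ≤ s) (hsc : s ≤ c) (ht0 : 0 ≤ t) (htc : t ≤ c) (hc : 0 < c)
    (lA lB : ℤ × ℤ → ℂ) (r : ℝ) (hr0 : 0 ≤ r) (hr : r ≤ 1 / (8 * C * c))
    (hA : InBall (fun k => W k * wt k ^ 2) (r / (2 * c)) lA)
    (hB : InBall (fun k => W k * wt k ^ 2) (r / (2 * c)) lB) :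
    ∃ a b, InBall (fun k => W k * wt k ^ 2) r a ∧ InBall (fun k => W k * wt k ^ 2) r b ∧
      TG s τA1 τA2 lA a b = a ∧ TG t τB1 τB2 lB a b = b := by
  have hω : ∀ k, 0 < (fun k => W k * wt k ^ 2) k := fun k => exist_omega_pos W hW1 k
  have hω0 : ∀ k, 0 ≤ (fun k => W k * wt k ^ 2) k := fun k => (hω k).le
  have hωe : ∀ k, (fun k => W k * wt k ^ 2) (-k) = (fun k => W k * wt k ^ 2) k :=
    fun k => exist_omega_even W hWe k
  have t1 := lexist_sym W hW1 hWm τA1 C h1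
  have t2 := lexist_sym W hW1 hWm τA2 C h2
  have t3 := lexist_sym W hW1 hWm τB1 C h3
  have t4 := lexist_sym W hW1 hWm τB2 C h4
  have hC0 : 0 ≤ C := by linarith
  have hrc : r * (8 * C * c) ≤ 1 := lexist_radius C c r hC hc hr
  refine fp2 (fun k => W k * wt k ^ 2) hω r (1 / 2) hr0 (by norm_num) (by norm_num)
    (TG s τA1 τA2 lA) (TG t τB1 τB2 lB) ?_ ?_
  · intro a b ha hb
    have qa := quad_est (fun k => W k * wt k ^ 2) hω hωe τA1 τA2 C
      hC0 t1 t2 r a b a b ha hb ha hb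
    have qb := quad_est (fun k => W k * wt k ^ 2) hω hωe τB1 τB2 C
      hC0 t3 t4 r a b a b ha hb ha hb
    exact ⟨lexist_map_aux _ hω0 s c C hs0 hsc hc lA _ r hr0 hrc hA qa.1 qa.2.1,
      lexist_map_aux _ hω0 t c C ht0 htc hc lB _ r hr0 hrc hB qb.1 qb.2.1⟩
  · intro a b a' b' ha hb ha' hb'
    have qa := quad_est (fun k => W k * wt k ^ 2) hω hωe τA1 τA2 C
      hC0 t1 t2 r a b a' b' ha hb ha' hb'
    have qb := quad_est (fun k => W k * wt k ^ 2) hω hωe τB1 τB2 C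
      hC0 t3 t4 r a b a' b' ha hb ha' hb'
    have hM : 0 ≤ max (nrm (fun k => W k * wt k ^ 2) (fun k => a k - a' k))
        (nrm (fun k => W k * wt k ^ 2) (fun k => b k - b' k)) :=
      le_max_of_le_left (exist_nrm_nonneg _ hω0 _)
    have eA : (fun k => TG s τA1 τA2 lA a b k - TG s τA1 τA2 lA a' b' k)
        = fun k => (s : ℂ) * (quad τA1 τA2 a b k - quad τA1 τA2 a' b' k) := by
      funext k
      unfold TG
      ring
    have eB : (fun k => TG t τB1 τB2 lB a b k - TG t τB1 τB2 lB a' b' k)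
        = fun k => (t : ℂ) * (quad τB1 τB2 a b k - quad τB1 τB2 a' b' k) := by
      funext k
      unfold TG
      ring
    rw [eA, eB]
    exact ⟨lexist_lip_aux _ hω0 s c C hs0 hsc hc r hrc _ _ hM qa.2.2.1 qa.2.2.2,
      lexist_lip_aux _ hω0 t c C ht0 htc hc r hrc _ _ hM qb.2.2.1 qb.2.2.2⟩

theorem fixed_lipschitz_g (W : ℤ × ℤ → ℝ) (hW1 : ∀ k, 1 ≤ W k)
    (hWm : ∀ k l, W (k + l) ≤ W k * W l) (hWe : ∀ k, W (-k) = W k)
    (τA1 τA2 τB1 τB2 : ℤ × ℤ → ℤ × ℤ → ℂ) (C : ℝ) (hC : 1 ≤ C)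
    (h1 : SymOK C τA1) (h2 : SymOK C τA2) (h3 : SymOK C τB1) (h4 : SymOK C τB2)
    (s t c : ℝ) (hs0 : 0 ≤ s) (hsc : s ≤ c) (ht0 : 0 ≤ t) (htc : t ≤ c) (hc : 0 < c)
    (lA lB lA' lB' : ℤ × ℤ → ℂ) (r : ℝ) (hr : r ≤ 1 / (8 * C * c))
    (a b a' b' : ℤ × ℤ → ℂ)
    (ha : InBall (fun k => W k * wt k ^ 2) r a) (hb : InBall (fun k => W k * wt k ^ 2) r b)
    (ha' : InBall (fun k => W k * wt k ^ 2) r a') (hb' : InBall (fun k => W k * wt k ^ 2) r b')
    (hfa : TG s τA1 τA2 lA a b = a) (hfb : TG t τB1 τB2 lB a b = b)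
    (hfa' : TG s τA1 τA2 lA' a' b' = a') (hfb' : TG t τB1 τB2 lB' a' b' = b')
    (hlA : Summable (fun k => W k * wt k ^ 2 * ‖lA k - lA' k‖))
    (hlB : Summable (fun k => W k * wt k ^ 2 * ‖lB k - lB' k‖)) :
    max (nrm (fun k => W k * wt k ^ 2) (fun k => a k - a' k))
        (nrm (fun k => W k * wt k ^ 2) (fun k => b k - b' k)) ≤
      2 * c * max (nrm (fun k => W k * wt k ^ 2) (fun k => lA k - lA' k))
        (nrm (fun k => W k * wt k ^ 2) (fun k => lB k - lB' k)) := by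
  have hω : ∀ k, 0 < (fun k => W k * wt k ^ 2) k := fun k => exist_omega_pos W hW1 k
  have hω0 : ∀ k, 0 ≤ (fun k => W k * wt k ^ 2) k := fun k => (hω k).le
  have hωe : ∀ k, (fun k => W k * wt k ^ 2) (-k) = (fun k => W k * wt k ^ 2) k :=
    fun k => exist_omega_even W hWe k
  have t1 := lexist_sym W hW1 hWm τA1 C h1
  have t2 := lexist_sym W hW1 hWm τA2 C h2
  have t3 := lexist_sym W hW1 hWm τB1 C h3
  have t4 := lexist_sym W hW1 hWm τB2 C h4
  have hC0 : 0 ≤ C := by linarith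
  have hrc : r * (8 * C * c) ≤ 1 := lexist_radius C c r hC hc hr
  have qa := quad_est (fun k => W k * wt k ^ 2) hω hωe τA1 τA2 C
    hC0 t1 t2 r a b a' b' ha hb ha' hb'
  have qb := quad_est (fun k => W k * wt k ^ 2) hω hωe τB1 τB2 C
    hC0 t3 t4 r a b a' b' ha hb ha' hb'
  have pA : (fun k => a k - a' k) = fun k => (s : ℂ) * ((lA k - lA' k)
      + (quad τA1 τA2 a b k - quad τA1 τA2 a' b' k)) := by
    funext k
    have e1 := congrFun hfa k
    have e2 := congrFun hfa' k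
    unfold TG at e1 e2
    rw [← e1, ← e2]
    ring
  have pB : (fun k => b k - b' k) = fun k => (t : ℂ) * ((lB k - lB' k)
      + (quad τB1 τB2 a b k - quad τB1 τB2 a' b' k)) := by
    funext k
    have e1 := congrFun hfb k
    have e2 := congrFun hfb' k
    unfold TG at e1 e2
    rw [← e1, ← e2]
    ring
  have fA := exist_nrm_le _ hω0
    (fun k => (lA k - lA' k) + (quad τA1 τA2 a b k - quad τA1 τA2 a' b' k))
    (fun k => lA k - lA' k)
    (fun k => quad τA1 τA2 a b k - quad τA1 τA2 a' b' k)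
    (fun k => norm_add_le _ _) hlA qa.2.2.1
  have fB := exist_nrm_le _ hω0
    (fun k => (lB k - lB' k) + (quad τB1 τB2 a b k - quad τB1 τB2 a' b' k))
    (fun k => lB k - lB' k)
    (fun k => quad τB1 τB2 a b k - quad τB1 τB2 a' b' k)
    (fun k => norm_add_le _ _) hlB qb.2.2.1
  have sA := existw_scale _ s hs0 _ fA.1
  have sB := existw_scale _ t ht0 _ fB.1
  have hM : 0 ≤ max (nrm (fun k => W k * wt k ^ 2) (fun k => a k - a' k))
      (nrm (fun k => W k * wt k ^ 2) (fun k => b k - b' k)) :=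
    le_max_of_le_left (exist_nrm_nonneg _ hω0 _)
  have hDa := le_max_left (nrm (fun k => W k * wt k ^ 2) (fun k => lA k - lA' k))
    (nrm (fun k => W k * wt k ^ 2) (fun k => lB k - lB' k))
  have hDb := le_max_right (nrm (fun k => W k * wt k ^ 2) (fun k => lA k - lA' k))
    (nrm (fun k => W k * wt k ^ 2) (fun k => lB k - lB' k))
  have nA : nrm (fun k => W k * wt k ^ 2) (fun k => a k - a' k)
      ≤ c * max (nrm (fun k => W k * wt k ^ 2) (fun k => lA k - lA' k))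
          (nrm (fun k => W k * wt k ^ 2) (fun k => lB k - lB' k))
        + 1 / 2 * max (nrm (fun k => W k * wt k ^ 2) (fun k => a k - a' k))
          (nrm (fun k => W k * wt k ^ 2) (fun k => b k - b' k)) := by
    have e : nrm (fun k => W k * wt k ^ 2) (fun k => a k - a' k)
        = s * nrm (fun k => W k * wt k ^ 2) (fun k => (lA k - lA' k)
          + (quad τA1 τA2 a b k - quad τA1 τA2 a' b' k)) := by
      rw [pA]
      exact sA.2
    exact le_trans (le_of_eq e)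
      (lexist_lip_num s c C r _ _ _ _ _ hsc hc hrc hM (exist_nrm_nonneg _ hω0 _)
        fA.2 hDa qa.2.2.2)
  have nB : nrm (fun k => W k * wt k ^ 2) (fun k => b k - b' k)
      ≤ c * max (nrm (fun k => W k * wt k ^ 2) (fun k => lA k - lA' k))
          (nrm (fun k => W k * wt k ^ 2) (fun k => lB k - lB' k))
        + 1 / 2 * max (nrm (fun k => W k * wt k ^ 2) (fun k => a k - a' k))
          (nrm (fun k => W k * wt k ^ 2) (fun k => b k - b' k)) := by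
    have e : nrm (fun k => W k * wt k ^ 2) (fun k => b k - b' k)
        = t * nrm (fun k => W k * wt k ^ 2) (fun k => (lB k - lB' k)
          + (quad τB1 τB2 a b k - quad τB1 τB2 a' b' k)) := by
      rw [pB]
      exact sB.2
    exact le_trans (le_of_eq e)
      (lexist_lip_num t c C r _ _ _ _ _ htc hc hrc hM (exist_nrm_nonneg _ hω0 _)
        fB.2 hDb qb.2.2.2)
  have hmax := max_le nA nB
  linarith

theorem fixed_unique_g (W : ℤ × ℤ → ℝ) (hW1 : ∀ k, 1 ≤ W k)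
    (hWm : ∀ k l, W (k + l) ≤ W k * W l) (hWe : ∀ k, W (-k) = W k)
    (τA1 τA2 τB1 τB2 : ℤ × ℤ → ℤ × ℤ → ℂ) (C : ℝ) (hC : 1 ≤ C)
    (h1 : SymOK C τA1) (h2 : SymOK C τA2) (h3 : SymOK C τB1) (h4 : SymOK C τB2)
    (s t c : ℝ) (hs0 : 0 ≤ s) (hsc : s ≤ c) (ht0 : 0 ≤ t) (htc : t ≤ c) (hc : 0 < c)
    (lA lB : ℤ × ℤ → ℂ) (r : ℝ) (hr : r ≤ 1 / (8 * C * c)) (a b a' b' : ℤ × ℤ → ℂ)
    (ha : InBall (fun k => W k * wt k ^ 2) r a) (hb : InBall (fun k => W k * wt k ^ 2) r b)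
    (ha' : InBall (fun k => W k * wt k ^ 2) r a') (hb' : InBall (fun k => W k * wt k ^ 2) r b')
    (hfa : TG s τA1 τA2 lA a b = a) (hfb : TG t τB1 τB2 lB a b = b)
    (hfa' : TG s τA1 τA2 lA a' b' = a') (hfb' : TG t τB1 τB2 lB a' b' = b') :
    a = a' ∧ b = b' := by
  have hω : ∀ k, 0 < (fun k => W k * wt k ^ 2) k := fun k => exist_omega_pos W hW1 k
  have hω0 : ∀ k, 0 ≤ (fun k => W k * wt k ^ 2) k := fun k => (hω k).le
  have zA : (fun k : ℤ × ℤ => W k * wt k ^ 2 * ‖lA k - lA k‖) = fun _ => (0 : ℝ) := by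
    funext k
    simp
  have zB : (fun k : ℤ × ℤ => W k * wt k ^ 2 * ‖lB k - lB k‖) = fun _ => (0 : ℝ) := by
    funext k
    simp
  have sA0 : Summable (fun k : ℤ × ℤ => W k * wt k ^ 2 * ‖lA k - lA k‖) := by
    rw [zA]
    exact summable_zero
  have sB0 : Summable (fun k : ℤ × ℤ => W k * wt k ^ 2 * ‖lB k - lB k‖) := by
    rw [zB]
    exact summable_zero
  have hl := fixed_lipschitz_g W hW1 hWm hWe τA1 τA2 τB1 τB2 C hC h1 h2 h3 h4
    s t c hs0 hsc ht0 htc hc lA lB lA lB r hr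
    a b a' b' ha hb ha' hb' hfa hfb hfa' hfb' sA0 sB0
  have z1 : nrm (fun k => W k * wt k ^ 2) (fun k => lA k - lA k) = 0 := by simp [nrm]
  have z2 : nrm (fun k => W k * wt k ^ 2) (fun k => lB k - lB k) = 0 := by simp [nrm]
  rw [z1, z2, max_self, mul_zero] at hl
  have sa := exist_nrm_le _ hω0 (fun k => a k - a' k) a a' (fun k => norm_sub_le _ _) ha.1 ha'.1
  have sb := exist_nrm_le _ hω0 (fun k => b k - b' k) b b' (fun k => norm_sub_le _ _) hb.1 hb'.1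
  have hza : nrm (fun k => W k * wt k ^ 2) (fun k => a k - a' k) ≤ 0 :=
    le_trans (le_max_left _ _) hl
  have hzb : nrm (fun k => W k * wt k ^ 2) (fun k => b k - b' k) ≤ 0 :=
    le_trans (le_max_right _ _) hl
  have key : ∀ (u u' : ℤ × ℤ → ℂ), Summable (fun k => W k * wt k ^ 2 * ‖u k - u' k‖) →
      nrm (fun k => W k * wt k ^ 2) (fun k => u k - u' k) ≤ 0 → u = u' := by
    intro u u' hs hz
    funext k
    have g1 : W k * wt k ^ 2 * ‖u k - u' k‖ ≤ ∑' j, W j * wt j ^ 2 * ‖u j - u' j‖ :=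
      hs.le_tsum k (fun j _ => mul_nonneg (hω0 j) (norm_nonneg _))
    have g2 : W k * wt k ^ 2 * ‖u k - u' k‖ ≤ 0 := le_trans g1 hz
    have g3 : ‖u k - u' k‖ ≤ 0 := by
      by_contra hcon
      rw [not_le] at hcon
      have := mul_pos (hω k) hcon
      linarith
    have g4 : u k - u' k = 0 := norm_le_zero_iff.mp g3
    exact sub_eq_zero.mp g4
  exact ⟨key a a' sa.1 hza, key b b' sb.1 hzb⟩

end Vale.Agent.Lib.P205.NF
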