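import Vale.Agent.Lib.P205.NF.LExact
import Vale.Agent.Lib.P205.NF.LComb
import Vale.Agent.Lib.P205.NF.FGlue

/-!
# Near-flat tori: every smooth metric close to a homogeneous flat metric

Function-level statement: the metric is given by three smooth doubly periodic functions; the
flat metric is `A^2 (k.dp)^2 + B^2 (l.dp)^2` for two linearly independent integer vectors
`k`, `l`, that is, the metric induced by `p ↦ (A exp(i k.p), B exp(i l.p))`.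
-/

namespace Vale.Agent.Lib.P205.NF

open scoped ContDiff

/-- The change of coframe: a perturbation `u1 dx^2 + 2 u2 dx dy + u3 dy^2` of the flat metric
written in the coframe `k.dp`, `l.dp`. -/
theorem lfinal_alg (k1 k2 l1 l2 A B u1 u2 u3 v1 v2 w1 w2 : ℝ)
    (hD : k1 * l2 - k2 * l1 ≠ 0) :
    (A ^ 2 + (l2 ^ 2 / (k1 * l2 - k2 * l1) ^ 2 * u1
        + -2 * l1 * l2 / (k1 * l2 - k2 * l1) ^ 2 * u2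
        + l1 ^ 2 / (k1 * l2 - k2 * l1) ^ 2 * u3)) * (k1 * v1 + k2 * v2) * (k1 * w1 + k2 * w2)
      + (-(k2 * l2) / (k1 * l2 - k2 * l1) ^ 2 * u1
        + (k1 * l2 + k2 * l1) / (k1 * l2 - k2 * l1) ^ 2 * u2
        + -(k1 * l1) / (k1 * l2 - k2 * l1) ^ 2 * u3)
        * ((k1 * v1 + k2 * v2) * (l1 * w1 + l2 * w2) + (l1 * v1 + l2 * v2) * (k1 * w1 + k2 * w2))
      + (B ^ 2 + (k2 ^ 2 / (k1 * l2 - k2 * l1) ^ 2 * u1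
        + -2 * k1 * k2 / (k1 * l2 - k2 * l1) ^ 2 * u2
        + k1 ^ 2 / (k1 * l2 - k2 * l1) ^ 2 * u3)) * (l1 * v1 + l2 * v2) * (l1 * w1 + l2 * w2)
      = (A ^ 2 * k1 ^ 2 + B ^ 2 * l1 ^ 2 + u1) * v1 * w1
        + (A ^ 2 * (k1 * k2) + B ^ 2 * (l1 * l2) + u2) * (v1 * w2 + v2 * w1)
        + (A ^ 2 * k2 ^ 2 + B ^ 2 * l2 ^ 2 + u3) * v2 * w2 := by
  obtain ⟨D, hDe⟩ : ∃ D : ℝ, D = k1 * l2 - k2 * l1 := ⟨_, rfl⟩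
  rw [← hDe] at hD ⊢
  field_simp
  rw [hDe]
  ring

/-- Every smooth metric on the torus that is `C^6`-close to the flat metric
`A^2 (k.dp)^2 + B^2 (l.dp)^2` is induced by a smooth doubly periodic map into four-space. -/
theorem near_flat_lattice (k l : ℤ × ℤ) (hD : k.1 * l.2 - k.2 * l.1 ≠ 0) (A B : ℝ)
    (hA : 0 < A) (hB : 0 < B) : ∃ δ : ℝ, 0 < δ ∧
    ∀ E F G : ℝ × ℝ → ℝ, ContDiff ℝ ∞ E → ContDiff ℝ ∞ F → ContDiff ℝ ∞ G →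
    (∀ p : ℝ × ℝ, E (p.1 + 2 * Real.pi, p.2) = E p ∧ E (p.1, p.2 + 2 * Real.pi) = E p ∧
      F (p.1 + 2 * Real.pi, p.2) = F p ∧ F (p.1, p.2 + 2 * Real.pi) = F p ∧
      G (p.1 + 2 * Real.pi, p.2) = G p ∧ G (p.1, p.2 + 2 * Real.pi) = G p) →
    (∀ p : ℝ × ℝ, ∀ j : ℕ, j ≤ 6 →
      ‖iteratedFDeriv ℝ j
        (fun q => E q - (A ^ 2 * (k.1 : ℝ) ^ 2 + B ^ 2 * (l.1 : ℝ) ^ 2)) p‖ ≤ δ ∧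
      ‖iteratedFDeriv ℝ j
        (fun q => F q - (A ^ 2 * ((k.1 : ℝ) * (k.2 : ℝ)) + B ^ 2 * ((l.1 : ℝ) * (l.2 : ℝ)))) p‖
          ≤ δ ∧
      ‖iteratedFDeriv ℝ j
        (fun q => G q - (A ^ 2 * (k.2 : ℝ) ^ 2 + B ^ 2 * (l.2 : ℝ) ^ 2)) p‖ ≤ δ) →
    ∃ Ψ : ℝ × ℝ → EuclideanSpace ℝ (Fin 4), ContDiff ℝ ∞ Ψ ∧
      (∀ p : ℝ × ℝ, Ψ (p.1 + 2 * Real.pi, p.2) = Ψ p) ∧
      (∀ p : ℝ × ℝ, Ψ (p.1, p.2 + 2 * Real.pi) = Ψ p) ∧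
      ∀ p v w : ℝ × ℝ, inner ℝ (fderiv ℝ Ψ p v) (fderiv ℝ Ψ p w) =
        E p * v.1 * w.1 + F p * (v.1 * w.2 + v.2 * w.1) + G p * v.2 * w.2 := by
  have hD' : ldet k l ≠ 0 := hD
  have hDr : (k.1 : ℝ) * (l.2 : ℝ) - (k.2 : ℝ) * (l.1 : ℝ) ≠ 0 := by exact_mod_cast hD
  obtain ⟨δ₀, hδ₀, hmain⟩ := near_flat_l k l hD' A B hA hB
  obtain ⟨K, hK, hbr⟩ := fourier_bridge
  obtain ⟨D, hDdef⟩ : ∃ D : ℝ, D = (k.1 : ℝ) * (l.2 : ℝ) - (k.2 : ℝ) * (l.1 : ℝ) := ⟨_, rfl⟩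
  obtain ⟨x1, hx1⟩ : ∃ x : ℝ, x = (l.2 : ℝ) ^ 2 / D ^ 2 := ⟨_, rfl⟩
  obtain ⟨x2, hx2⟩ : ∃ x : ℝ, x = -2 * (l.1 : ℝ) * (l.2 : ℝ) / D ^ 2 := ⟨_, rfl⟩
  obtain ⟨x3, hx3⟩ : ∃ x : ℝ, x = (l.1 : ℝ) ^ 2 / D ^ 2 := ⟨_, rfl⟩
  obtain ⟨x4, hx4⟩ : ∃ x : ℝ, x = -((k.2 : ℝ) * (l.2 : ℝ)) / D ^ 2 := ⟨_, rfl⟩
  obtain ⟨x5, hx5⟩ : ∃ x : ℝ, x = ((k.1 : ℝ) * (l.2 : ℝ) + (k.2 : ℝ) * (l.1 : ℝ)) / D ^ 2 :=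
    ⟨_, rfl⟩
  obtain ⟨x6, hx6⟩ : ∃ x : ℝ, x = -((k.1 : ℝ) * (l.1 : ℝ)) / D ^ 2 := ⟨_, rfl⟩
  obtain ⟨x7, hx7⟩ : ∃ x : ℝ, x = (k.2 : ℝ) ^ 2 / D ^ 2 := ⟨_, rfl⟩
  obtain ⟨x8, hx8⟩ : ∃ x : ℝ, x = -2 * (k.1 : ℝ) * (k.2 : ℝ) / D ^ 2 := ⟨_, rfl⟩
  obtain ⟨x9, hx9⟩ : ∃ x : ℝ, x = (k.1 : ℝ) ^ 2 / D ^ 2 := ⟨_, rfl⟩
  obtain ⟨M, hM⟩ : ∃ M : ℝ, M = 1 + (|x1| + |x2| + |x3|) + (|x4| + |x5| + |x6|)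
      + (|x7| + |x8| + |x9|) := ⟨_, rfl⟩
  have hM0 : 0 < M := by
    rw [hM]
    positivity
  refine ⟨δ₀ / (2 * M * K), by positivity, ?_⟩
  intro E F G hE hF hG hper hsmall
  obtain ⟨η, hη⟩ : ∃ η : ℝ, η = K * (δ₀ / (2 * M * K)) := ⟨_, rfl⟩
  have hη0 : 0 ≤ η := by
    rw [hη]
    positivity
  have hMη : M * η = δ₀ / 2 := by
    rw [hη]
    field_simp
  have hMη' : (1 + (|x1| + |x2| + |x3|) + (|x4| + |x5| + |x6|) + (|x7| + |x8| + |x9|)) * η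
      = δ₀ / 2 := by
    rw [← hM]
    exact hMη
  have hEs : ContDiff ℝ ∞ fun q : ℝ × ℝ =>
      E q - (A ^ 2 * (k.1 : ℝ) ^ 2 + B ^ 2 * (l.1 : ℝ) ^ 2) := hE.sub contDiff_const
  have hFs : ContDiff ℝ ∞ fun q : ℝ × ℝ =>
      F q - (A ^ 2 * ((k.1 : ℝ) * (k.2 : ℝ)) + B ^ 2 * ((l.1 : ℝ) * (l.2 : ℝ))) :=
    hF.sub contDiff_const
  have hGs : ContDiff ℝ ∞ fun q : ℝ × ℝ =>
      G q - (A ^ 2 * (k.2 : ℝ) ^ 2 + B ^ 2 * (l.2 : ℝ) ^ 2) := hG.sub contDiff_const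
  obtain ⟨e1, e2, e3, e4⟩ := hbr
    (fun q => E q - (A ^ 2 * (k.1 : ℝ) ^ 2 + B ^ 2 * (l.1 : ℝ) ^ 2)) (δ₀ / (2 * M * K)) hEs
    (fun p => by simp only [(hper p).1])
    (fun p => by simp only [(hper p).2.1])
    (fun p j hj => (hsmall p j hj).1)
  obtain ⟨f1, f2, f3, f4⟩ := hbr
    (fun q => F q - (A ^ 2 * ((k.1 : ℝ) * (k.2 : ℝ)) + B ^ 2 * ((l.1 : ℝ) * (l.2 : ℝ))))
    (δ₀ / (2 * M * K)) hFs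
    (fun p => by simp only [(hper p).2.2.1])
    (fun p => by simp only [(hper p).2.2.2.1])
    (fun p j hj => (hsmall p j hj).2.1)
  obtain ⟨g1, g2, g3, g4⟩ := hbr
    (fun q => G q - (A ^ 2 * (k.2 : ℝ) ^ 2 + B ^ 2 * (l.2 : ℝ) ^ 2)) (δ₀ / (2 * M * K)) hGs
    (fun p => by simp only [(hper p).2.2.2.2.1])
    (fun p => by simp only [(hper p).2.2.2.2.2])
    (fun p j hj => (hsmall p j hj).2.2)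
  rw [← hη] at e3 f3 g3
  obtain ⟨c₁, hc₁⟩ : ∃ c : ℤ × ℤ → ℂ, c = fcoef (fun p : ℝ × ℝ =>
      (((fun q : ℝ × ℝ => E q - (A ^ 2 * (k.1 : ℝ) ^ 2 + B ^ 2 * (l.1 : ℝ) ^ 2)) p : ℝ) : ℂ)) :=
    ⟨_, rfl⟩
  obtain ⟨c₂, hc₂⟩ : ∃ c : ℤ × ℤ → ℂ, c = fcoef (fun p : ℝ × ℝ =>
      (((fun q : ℝ × ℝ => F q - (A ^ 2 * ((k.1 : ℝ) * (k.2 : ℝ))
        + B ^ 2 * ((l.1 : ℝ) * (l.2 : ℝ)))) p : ℝ) : ℂ)) := ⟨_, rfl⟩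
  obtain ⟨c₃, hc₃⟩ : ∃ c : ℤ × ℤ → ℂ, c = fcoef (fun p : ℝ × ℝ =>
      (((fun q : ℝ × ℝ => G q - (A ^ 2 * (k.2 : ℝ) ^ 2 + B ^ 2 * (l.2 : ℝ) ^ 2)) p : ℝ) : ℂ)) :=
    ⟨_, rfl⟩
  rw [← hc₁] at e1 e2 e3 e4
  rw [← hc₂] at f1 f2 f3 f4
  rw [← hc₃] at g1 g2 g3 g4
  have e4' : ∀ p : ℝ × ℝ, (S c₁ p).re = E p - (A ^ 2 * (k.1 : ℝ) ^ 2 + B ^ 2 * (l.1 : ℝ) ^ 2) :=
    fun p => e4 p
  have f4' : ∀ p : ℝ × ℝ, (S c₂ p).re =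
      F p - (A ^ 2 * ((k.1 : ℝ) * (k.2 : ℝ)) + B ^ 2 * ((l.1 : ℝ) * (l.2 : ℝ))) := fun p => f4 p
  have g4' : ∀ p : ℝ × ℝ, (S c₃ p).re = G p - (A ^ 2 * (k.2 : ℝ) ^ 2 + B ^ 2 * (l.2 : ℝ) ^ 2) :=
    fun p => g4 p
  have s₁ : Summable fun j => ‖c₁ j‖ := by simpa using e2 0
  have s₂ : Summable fun j => ‖c₂ j‖ := by simpa using f2 0
  have s₃ : Summable fun j => ‖c₃ j‖ := by simpa using g2 0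
  have de := (comb3_decay x1 x2 x3 c₁ c₂ c₃ 2 (e2 2) (f2 2) (g2 2)).2
  have df := (comb3_decay x4 x5 x6 c₁ c₂ c₃ 2 (e2 2) (f2 2) (g2 2)).2
  have dg := (comb3_decay x7 x8 x9 c₁ c₂ c₃ 2 (e2 2) (f2 2) (g2 2)).2
  have hbound : nrm (fun j => wt j ^ 2) (comb3 x1 x2 x3 c₁ c₂ c₃)
      + nrm (fun j => wt j ^ 2) (comb3 x4 x5 x6 c₁ c₂ c₃)
      + nrm (fun j => wt j ^ 2) (comb3 x7 x8 x9 c₁ c₂ c₃) < δ₀ := by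
    have b1 := mul_le_mul_of_nonneg_left e3 (abs_nonneg x1)
    have b2 := mul_le_mul_of_nonneg_left f3 (abs_nonneg x2)
    have b3 := mul_le_mul_of_nonneg_left g3 (abs_nonneg x3)
    have b4 := mul_le_mul_of_nonneg_left e3 (abs_nonneg x4)
    have b5 := mul_le_mul_of_nonneg_left f3 (abs_nonneg x5)
    have b6 := mul_le_mul_of_nonneg_left g3 (abs_nonneg x6)
    have b7 := mul_le_mul_of_nonneg_left e3 (abs_nonneg x7)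
    have b8 := mul_le_mul_of_nonneg_left f3 (abs_nonneg x8)
    have b9 := mul_le_mul_of_nonneg_left g3 (abs_nonneg x9)
    linarith
  obtain ⟨Ψ, p1, p2, p3, p4⟩ := hmain _ _ _
    (comb3_herm x1 x2 x3 c₁ c₂ c₃ e1 f1 g1) (comb3_herm x4 x5 x6 c₁ c₂ c₃ e1 f1 g1)
    (comb3_herm x7 x8 x9 c₁ c₂ c₃ e1 f1 g1)
    (fun n => (comb3_decay x1 x2 x3 c₁ c₂ c₃ n (e2 n) (f2 n) (g2 n)).1)
    (fun n => (comb3_decay x4 x5 x6 c₁ c₂ c₃ n (e2 n) (f2 n) (g2 n)).1)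
    (fun n => (comb3_decay x7 x8 x9 c₁ c₂ c₃ n (e2 n) (f2 n) (g2 n)).1) hbound
  refine ⟨Ψ, p1, p2, p3, ?_⟩
  intro p v w
  have halg := lfinal_alg (k.1 : ℝ) (k.2 : ℝ) (l.1 : ℝ) (l.2 : ℝ) A B
    (E p - (A ^ 2 * (k.1 : ℝ) ^ 2 + B ^ 2 * (l.1 : ℝ) ^ 2))
    (F p - (A ^ 2 * ((k.1 : ℝ) * (k.2 : ℝ)) + B ^ 2 * ((l.1 : ℝ) * (l.2 : ℝ))))
    (G p - (A ^ 2 * (k.2 : ℝ) ^ 2 + B ^ 2 * (l.2 : ℝ) ^ 2)) v.1 v.2 w.1 w.2 hDr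
  rw [p4 p v w, comb3_S x1 x2 x3 c₁ c₂ c₃ s₁ s₂ s₃ p, comb3_S x4 x5 x6 c₁ c₂ c₃ s₁ s₂ s₃ p,
    comb3_S x7 x8 x9 c₁ c₂ c₃ s₁ s₂ s₃ p, e4' p, f4' p, g4' p, hx1, hx2, hx3, hx4, hx5, hx6,
    hx7, hx8, hx9, hDdef]
  linear_combination halg

end Vale.Agent.Lib.P205.NF
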