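import Vale.Agent.Lib.P205.NF.Young
import Vale.Agent.Lib.P205.NF.BconvAlg

/-!
# Bound and Lipschitz bound for the quadratic map on a ball of weighted `l1`
-/

namespace Vale.Agent.Lib.P205.NF

theorem quadest_nrm_nonneg (ω : ℤ × ℤ → ℝ) (hω : ∀ k, 0 < ω k) (c : ℤ × ℤ → ℂ) :
    0 ≤ nrm ω c :=
  tsum_nonneg (fun k => mul_nonneg (hω k).le (norm_nonneg _))

/-- A sequence dominated termwise by the sum of two weighted-summable sequences. -/
theorem quadest_le (ω : ℤ × ℤ → ℝ) (hω : ∀ k, 0 < ω k) (x y z : ℤ × ℤ → ℂ)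
    (hz : ∀ k, ‖z k‖ ≤ ‖x k‖ + ‖y k‖)
    (hx : Summable (fun k => ω k * ‖x k‖)) (hy : Summable (fun k => ω k * ‖y k‖)) :
    Summable (fun k => ω k * ‖z k‖) ∧ nrm ω z ≤ nrm ω x + nrm ω y := by
  have hle : ∀ k, ω k * ‖z k‖ ≤ ω k * ‖x k‖ + ω k * ‖y k‖ := by
    intro k
    rw [← mul_add]
    exact mul_le_mul_of_nonneg_left (hz k) (hω k).le
  have hs : Summable (fun k => ω k * ‖z k‖) :=
    Summable.of_nonneg_of_le (fun k => mul_nonneg (hω k).le (norm_nonneg _)) hle (hx.add hy)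
  refine ⟨hs, ?_⟩
  show (∑' k, ω k * ‖z k‖) ≤ (∑' k, ω k * ‖x k‖) + ∑' k, ω k * ‖y k‖
  calc (∑' k, ω k * ‖z k‖) ≤ ∑' k, (ω k * ‖x k‖ + ω k * ‖y k‖) :=
        Summable.tsum_le_tsum hle hs (hx.add hy)
    _ = (∑' k, ω k * ‖x k‖) + ∑' k, ω k * ‖y k‖ := Summable.tsum_add hx hy

theorem quadest_add (ω : ℤ × ℤ → ℝ) (hω : ∀ k, 0 < ω k) (x y : ℤ × ℤ → ℂ)
    (hx : Summable (fun k => ω k * ‖x k‖)) (hy : Summable (fun k => ω k * ‖y k‖)) :
    Summable (fun k => ω k * ‖x k + y k‖) ∧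
      nrm ω (fun k => x k + y k) ≤ nrm ω x + nrm ω y :=
  quadest_le ω hω x y (fun k => x k + y k) (fun k => norm_add_le (x k) (y k)) hx hy

theorem quadest_sub (ω : ℤ × ℤ → ℝ) (hω : ∀ k, 0 < ω k) (x y : ℤ × ℤ → ℂ)
    (hx : Summable (fun k => ω k * ‖x k‖)) (hy : Summable (fun k => ω k * ‖y k‖)) :
    Summable (fun k => ω k * ‖x k - y k‖) ∧
      nrm ω (fun k => x k - y k) ≤ nrm ω x + nrm ω y :=
  quadest_le ω hω x y (fun k => x k - y k) (fun k => norm_sub_le (x k) (y k)) hx hy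

theorem quadest_cstar_sub (a a' : ℤ × ℤ → ℂ) (k : ℤ × ℤ) :
    cstar (fun j => a j - a' j) k = cstar a k - cstar a' k := by
  simp only [cstar, map_sub]

/-- The difference of two values of the quadratic expression, as a sum of two bilinear
expressions in the difference. -/
theorem quadest_diff_eq (ω : ℤ × ℤ → ℝ) (hω : ∀ k, 0 < ω k) (hωe : ∀ k, ω (-k) = ω k)
    (τ : ℤ × ℤ → ℤ × ℤ → ℂ) (C : ℝ) (hC : 0 ≤ C)
    (hτ : ∀ m k, ‖τ m k‖ * ω m ≤ C * (ω k * ω (m - k))) (a a' : ℤ × ℤ → ℂ)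
    (ha : Summable (fun k => ω k * ‖a k‖)) (ha' : Summable (fun k => ω k * ‖a' k‖))
    (m : ℤ × ℤ) :
    bconv τ a (cstar a) m - bconv τ a' (cstar a') m
      = bconv τ (fun k => a k - a' k) (cstar a) m
        + bconv τ a' (cstar (fun k => a k - a' k)) m := by
  have hd : Summable (fun k => ω k * ‖a k - a' k‖) := (quadest_sub ω hω a a' ha ha').1
  have sca := summable_cstar ω hωe a ha
  have sca' := summable_cstar ω hωe a' ha'
  have scd := summable_cstar ω hωe (fun k => a k - a' k) hd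
  have s1 : Summable (fun k => τ m k * a k * cstar a (m - k)) :=
    (bconv_nrm_le ω hω τ C hC hτ a (cstar a) ha sca).1 m
  have s2 : Summable (fun k => τ m k * a' k * cstar a' (m - k)) :=
    (bconv_nrm_le ω hω τ C hC hτ a' (cstar a') ha' sca').1 m
  have s3 : Summable (fun k => τ m k * (a k - a' k) * cstar a (m - k)) :=
    (bconv_nrm_le ω hω τ C hC hτ (fun k => a k - a' k) (cstar a) hd sca).1 m
  have s4 : Summable (fun k => τ m k * a' k * cstar (fun j => a j - a' j) (m - k)) :=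
    (bconv_nrm_le ω hω τ C hC hτ a' (cstar (fun k => a k - a' k)) ha' scd).1 m
  show (∑' k, τ m k * a k * cstar a (m - k)) - (∑' k, τ m k * a' k * cstar a' (m - k))
    = (∑' k, τ m k * (a k - a' k) * cstar a (m - k))
      + ∑' k, τ m k * a' k * cstar (fun j => a j - a' j) (m - k)
  rw [← Summable.tsum_sub s1 s2, ← Summable.tsum_add s3 s4]
  refine tsum_congr (fun k => ?_)
  rw [quadest_cstar_sub]
  ring

/-- Lipschitz bound for one quadratic expression on the ball. -/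
theorem quadest_diff (ω : ℤ × ℤ → ℝ) (hω : ∀ k, 0 < ω k) (hωe : ∀ k, ω (-k) = ω k)
    (τ : ℤ × ℤ → ℤ × ℤ → ℂ) (C : ℝ) (hC : 0 ≤ C)
    (hτ : ∀ m k, ‖τ m k‖ * ω m ≤ C * (ω k * ω (m - k))) (r : ℝ) (a a' : ℤ × ℤ → ℂ)
    (ha : InBall ω r a) (ha' : InBall ω r a') :
    Summable (fun m => ω m * ‖bconv τ a (cstar a) m - bconv τ a' (cstar a') m‖) ∧
      nrm ω (fun m => bconv τ a (cstar a) m - bconv τ a' (cstar a') m)
        ≤ 2 * C * r * nrm ω (fun k => a k - a' k) := by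
  have hd : Summable (fun k => ω k * ‖a k - a' k‖) :=
    (quadest_sub ω hω a a' ha.1 ha'.1).1
  have sca := summable_cstar ω hωe a ha.1
  have scd := summable_cstar ω hωe (fun k => a k - a' k) hd
  obtain ⟨-, t3, n3⟩ := bconv_nrm_le ω hω τ C hC hτ (fun k => a k - a' k) (cstar a) hd sca
  obtain ⟨-, t4, n4⟩ :=
    bconv_nrm_le ω hω τ C hC hτ a' (cstar (fun k => a k - a' k)) ha'.1 scd
  rw [nrm_cstar ω hωe a] at n3
  rw [nrm_cstar ω hωe (fun k => a k - a' k)] at n4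
  have hadd := quadest_add ω hω _ _ t3 t4
  have hpt := quadest_diff_eq ω hω hωe τ C hC hτ a a' ha.1 ha'.1
  have e : (fun m => bconv τ a (cstar a) m - bconv τ a' (cstar a') m)
      = fun m => bconv τ (fun k => a k - a' k) (cstar a) m
        + bconv τ a' (cstar (fun k => a k - a' k)) m := funext hpt
  have hd0 := quadest_nrm_nonneg ω hω (fun k => a k - a' k)
  have h1 : C * (nrm ω (fun k => a k - a' k) * nrm ω a)
      ≤ C * (nrm ω (fun k => a k - a' k) * r) :=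
    mul_le_mul_of_nonneg_left (mul_le_mul_of_nonneg_left ha.2 hd0) hC
  have h2 : C * (nrm ω a' * nrm ω (fun k => a k - a' k))
      ≤ C * (r * nrm ω (fun k => a k - a' k)) :=
    mul_le_mul_of_nonneg_left (mul_le_mul_of_nonneg_right ha'.2 hd0) hC
  constructor
  · refine hadd.1.congr (fun m => ?_)
    rw [hpt m]
  · rw [e]
    refine le_trans hadd.2 ?_
    linarith

theorem quad_est (ω : ℤ × ℤ → ℝ) (hω : ∀ k, 0 < ω k) (hωe : ∀ k, ω (-k) = ω k)
    (τ₁ τ₂ : ℤ × ℤ → ℤ × ℤ → ℂ) (C : ℝ) (hC : 0 ≤ C)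
    (h₁ : ∀ m k, ‖τ₁ m k‖ * ω m ≤ C * (ω k * ω (m - k)))
    (h₂ : ∀ m k, ‖τ₂ m k‖ * ω m ≤ C * (ω k * ω (m - k)))
    (r : ℝ) (a b a' b' : ℤ × ℤ → ℂ) (ha : InBall ω r a) (hb : InBall ω r b)
    (ha' : InBall ω r a') (hb' : InBall ω r b') :
    Summable (fun k => ω k * ‖quad τ₁ τ₂ a b k‖) ∧
    nrm ω (quad τ₁ τ₂ a b) ≤ 2 * C * r ^ 2 ∧
    Summable (fun k => ω k * ‖quad τ₁ τ₂ a b k - quad τ₁ τ₂ a' b' k‖) ∧
    nrm ω (fun k => quad τ₁ τ₂ a b k - quad τ₁ τ₂ a' b' k) ≤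
      4 * C * r * max (nrm ω (fun k => a k - a' k)) (nrm ω (fun k => b k - b' k)) := by
  have ha0 := quadest_nrm_nonneg ω hω a
  have hb0 := quadest_nrm_nonneg ω hω b
  have hr : 0 ≤ r := le_trans ha0 ha.2
  have sca := summable_cstar ω hωe a ha.1
  have scb := summable_cstar ω hωe b hb.1
  obtain ⟨-, ta, na⟩ := bconv_nrm_le ω hω τ₁ C hC h₁ a (cstar a) ha.1 sca
  obtain ⟨-, tb, nb⟩ := bconv_nrm_le ω hω τ₂ C hC h₂ b (cstar b) hb.1 scb
  rw [nrm_cstar ω hωe a] at na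
  rw [nrm_cstar ω hωe b] at nb
  have hadd := quadest_add ω hω _ _ ta tb
  have hda := quadest_diff ω hω hωe τ₁ C hC h₁ r a a' ha ha'
  have hdb := quadest_diff ω hω hωe τ₂ C hC h₂ r b b' hb hb'
  have hadd2 := quadest_add ω hω _ _ hda.1 hdb.1
  have hpt : ∀ m, quad τ₁ τ₂ a b m - quad τ₁ τ₂ a' b' m
      = (bconv τ₁ a (cstar a) m - bconv τ₁ a' (cstar a') m)
        + (bconv τ₂ b (cstar b) m - bconv τ₂ b' (cstar b') m) := by
    intro m
    unfold quad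
    ring
  refine ⟨hadd.1, ?_, ?_, ?_⟩
  · have h0 : nrm ω (quad τ₁ τ₂ a b)
        ≤ nrm ω (bconv τ₁ a (cstar a)) + nrm ω (bconv τ₂ b (cstar b)) := hadd.2
    have h1 : nrm ω a * nrm ω a ≤ r * r := mul_le_mul ha.2 ha.2 ha0 hr
    have h2 : nrm ω b * nrm ω b ≤ r * r := mul_le_mul hb.2 hb.2 hb0 hr
    have h3 := mul_le_mul_of_nonneg_left h1 hC
    have h4 := mul_le_mul_of_nonneg_left h2 hC
    linarith
  · refine hadd2.1.congr (fun m => ?_)
    rw [hpt m]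
  · have e : (fun k => quad τ₁ τ₂ a b k - quad τ₁ τ₂ a' b' k)
        = fun m => (bconv τ₁ a (cstar a) m - bconv τ₁ a' (cstar a') m)
          + (bconv τ₂ b (cstar b) m - bconv τ₂ b' (cstar b') m) := funext hpt
    rw [e]
    refine le_trans hadd2.2 ?_
    have hA := hda.2
    have hB := hdb.2
    have hCr : 0 ≤ C * r := mul_nonneg hC hr
    have hmaxa := mul_le_mul_of_nonneg_left
      (le_max_left (nrm ω (fun k => a k - a' k)) (nrm ω (fun k => b k - b' k))) hCr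
    have hmaxb := mul_le_mul_of_nonneg_left
      (le_max_right (nrm ω (fun k => a k - a' k)) (nrm ω (fun k => b k - b' k))) hCr
    linarith

end Vale.Agent.Lib.P205.NF
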