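import Vale.Agent.Lib.P205.NF.Exist

/-!
# Rapid decay of the fixed point, and the base-weight forms of existence and uniqueness
-/

namespace Vale.Agent.Lib.P205.NF

theorem exists_fixed_base (lA lB : ℤ × ℤ → ℂ) (r : ℝ) (hr0 : 0 ≤ r) (hr : r ≤ 1 / 480)
    (hA : InBall (fun k => wt k ^ 2) (r / 2) lA) (hB : InBall (fun k => wt k ^ 2) (r / 2) lB) :
    ∃ a b, InBall (fun k => wt k ^ 2) r a ∧ InBall (fun k => wt k ^ 2) r b ∧
      TA lA a b = a ∧ TB lB a b = b := by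
  have h := exists_fixed (fun _ => (1 : ℝ)) (fun _ => le_refl _) (fun _ _ => by norm_num)
    (fun _ => rfl) lA lB r hr0 hr
  simp only [one_mul] at h
  exact h hA hB

theorem fixed_lipschitz_base (lA lB lA' lB' : ℤ × ℤ → ℂ) (r : ℝ) (hr : r ≤ 1 / 480)
    (a b a' b' : ℤ × ℤ → ℂ)
    (ha : InBall (fun k => wt k ^ 2) r a) (hb : InBall (fun k => wt k ^ 2) r b)
    (ha' : InBall (fun k => wt k ^ 2) r a') (hb' : InBall (fun k => wt k ^ 2) r b')
    (hfa : TA lA a b = a) (hfb : TB lB a b = b) (hfa' : TA lA' a' b' = a')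
    (hfb' : TB lB' a' b' = b') :
    Summable (fun k => wt k ^ 2 * ‖lA k - lA' k‖) ∧
    Summable (fun k => wt k ^ 2 * ‖lB k - lB' k‖) ∧
    max (nrm (fun k => wt k ^ 2) (fun k => a k - a' k))
        (nrm (fun k => wt k ^ 2) (fun k => b k - b' k)) ≤
      2 * max (nrm (fun k => wt k ^ 2) (fun k => lA k - lA' k))
        (nrm (fun k => wt k ^ 2) (fun k => lB k - lB' k)) := by
  have h := fixed_lipschitz (fun _ => (1 : ℝ)) (fun _ => le_refl _) (fun _ _ => by norm_num)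
    (fun _ => rfl) lA lB lA' lB' r hr a b a' b'
  simp only [one_mul] at h
  exact h ha hb ha' hb' hfa hfb hfa' hfb'

private lemma reg_wt_one_le (k : ℤ × ℤ) : 1 ≤ wt k := by
  unfold wt
  have h1 := abs_nonneg (k.1 : ℝ)
  have h2 := abs_nonneg (k.2 : ℝ)
  linarith

private lemma reg_wt_neg (k : ℤ × ℤ) : wt (-k) = wt k := by
  unfold wt
  simp only [Prod.fst_neg, Prod.snd_neg, Int.cast_neg, abs_neg]

private lemma reg_wt_add (k l : ℤ × ℤ) : wt (k + l) - 1 ≤ (wt k - 1) + (wt l - 1) := by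
  unfold wt
  simp only [Prod.fst_add, Prod.snd_add, Int.cast_add]
  have h1 := abs_add_le (k.1 : ℝ) (l.1 : ℝ)
  have h2 := abs_add_le (k.2 : ℝ) (l.2 : ℝ)
  linarith

private lemma reg_pow_le (ε x : ℝ) (hε0 : 0 ≤ ε) (hε1 : ε ≤ 1) (hx : 0 ≤ x) (n : ℕ) :
    (1 + ε * x) ^ n ≤ 1 + ε * ((1 + x) ^ n - 1) := by
  induction n with
  | zero => simp
  | succ n ih =>
    have hc : 0 ≤ (1 + x) ^ n - 1 := by
      have h : (1 : ℝ) ≤ (1 + x) ^ n := one_le_pow₀ (by linarith)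
      linarith
    have h1 : 0 ≤ 1 + ε * x := by
      have h := mul_nonneg hε0 hx
      linarith
    have h2 : (1 + ε * x) ^ (n + 1) ≤ (1 + ε * ((1 + x) ^ n - 1)) * (1 + ε * x) := by
      rw [pow_succ]
      exact mul_le_mul_of_nonneg_right ih h1
    have h3 : 1 + ε * ((1 + x) ^ (n + 1) - 1) - (1 + ε * ((1 + x) ^ n - 1)) * (1 + ε * x)
        = ε * ((1 + x) ^ n - 1) * x * (1 - ε) := by ring
    have h4 : 0 ≤ ε * ((1 + x) ^ n - 1) * x * (1 - ε) :=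
      mul_nonneg (mul_nonneg (mul_nonneg hε0 hc) hx) (by linarith)
    linarith

private lemma reg_pow_ge (ε x : ℝ) (hε0 : 0 < ε) (hε1 : ε ≤ 1) (hx : 0 ≤ x) (n : ℕ) :
    (1 + x) ^ n ≤ ε⁻¹ ^ n * (1 + ε * x) ^ n := by
  rw [← mul_pow]
  apply pow_le_pow_left₀ (by linarith)
  have h1 : ε⁻¹ * (1 + ε * x) = ε⁻¹ + x := by
    field_simp
  rw [h1]
  have h2 : 1 ≤ ε⁻¹ := (one_le_inv₀ hε0).mpr hε1
  linarith

private lemma reg_data (l : ℤ × ℤ → ℂ) (n : ℕ)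
    (h2 : Summable fun k => wt k ^ 2 * ‖l k‖)
    (hn : Summable fun k => wt k ^ (n + 2) * ‖l k‖) (ε : ℝ) (hε0 : 0 ≤ ε) (hε1 : ε ≤ 1) :
    Summable (fun k => (1 + ε * (wt k - 1)) ^ n * wt k ^ 2 * ‖l k‖) ∧
      nrm (fun k => (1 + ε * (wt k - 1)) ^ n * wt k ^ 2) l ≤
        nrm (fun k => wt k ^ 2) l + ε * ∑' k, wt k ^ (n + 2) * ‖l k‖ := by
  have hx : ∀ k, 0 ≤ wt k - 1 := fun k => by linarith [reg_wt_one_le k]
  have hle : ∀ k, (1 + ε * (wt k - 1)) ^ n * wt k ^ 2 * ‖l k‖ ≤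
      wt k ^ 2 * ‖l k‖ + ε * (wt k ^ (n + 2) * ‖l k‖) := by
    intro k
    have h1 := reg_pow_le ε (wt k - 1) hε0 hε1 (hx k) n
    have h3 : (1 + (wt k - 1)) = wt k := by ring
    rw [h3] at h1
    have h4 : (1 + ε * (wt k - 1)) ^ n ≤ 1 + ε * wt k ^ n := by
      have h := mul_nonneg hε0 zero_le_one
      linarith
    have h5 : 0 ≤ wt k ^ 2 * ‖l k‖ := mul_nonneg (sq_nonneg _) (norm_nonneg _)
    calc (1 + ε * (wt k - 1)) ^ n * wt k ^ 2 * ‖l k‖
        = (1 + ε * (wt k - 1)) ^ n * (wt k ^ 2 * ‖l k‖) := by ring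
      _ ≤ (1 + ε * wt k ^ n) * (wt k ^ 2 * ‖l k‖) := mul_le_mul_of_nonneg_right h4 h5
      _ = wt k ^ 2 * ‖l k‖ + ε * (wt k ^ (n + 2) * ‖l k‖) := by ring
  have hnn : ∀ k, 0 ≤ (1 + ε * (wt k - 1)) ^ n * wt k ^ 2 * ‖l k‖ := by
    intro k
    have h : 0 ≤ 1 + ε * (wt k - 1) := by
      have h' := mul_nonneg hε0 (hx k)
      linarith
    exact mul_nonneg (mul_nonneg (pow_nonneg h _) (sq_nonneg _)) (norm_nonneg _)
  have hsum2 : Summable (fun k => wt k ^ 2 * ‖l k‖ + ε * (wt k ^ (n + 2) * ‖l k‖)) :=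
    h2.add (hn.mul_left ε)
  have hs : Summable (fun k => (1 + ε * (wt k - 1)) ^ n * wt k ^ 2 * ‖l k‖) :=
    Summable.of_nonneg_of_le hnn hle hsum2
  refine ⟨hs, ?_⟩
  unfold nrm
  calc ∑' k, (1 + ε * (wt k - 1)) ^ n * wt k ^ 2 * ‖l k‖
      ≤ ∑' k, (wt k ^ 2 * ‖l k‖ + ε * (wt k ^ (n + 2) * ‖l k‖)) :=
        Summable.tsum_le_tsum hle hs hsum2
    _ = ∑' k, wt k ^ 2 * ‖l k‖ + ε * ∑' k, wt k ^ (n + 2) * ‖l k‖ := by
      rw [h2.tsum_add (hn.mul_left ε), tsum_mul_left]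

private lemma reg_core (lA lB : ℤ × ℤ → ℂ) (n : ℕ) (ε : ℝ) (hε0 : 0 < ε) (hε1 : ε ≤ 1)
    (r : ℝ) (hr0 : 0 ≤ r) (hr : r ≤ 1 / 480)
    (hAω : InBall (fun k => (1 + ε * (wt k - 1)) ^ n * wt k ^ 2) (r / 2) lA)
    (hBω : InBall (fun k => (1 + ε * (wt k - 1)) ^ n * wt k ^ 2) (r / 2) lB)
    (a b : ℤ × ℤ → ℂ) (ha : InBall (fun k => wt k ^ 2) r a)
    (hb : InBall (fun k => wt k ^ 2) r b) (hfa : TA lA a b = a) (hfb : TB lB a b = b) :
    Summable (fun k => wt k ^ n * ‖a k‖) ∧ Summable (fun k => wt k ^ n * ‖b k‖) := by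
  obtain ⟨W, hWdef⟩ : ∃ W : ℤ × ℤ → ℝ, W = fun k => (1 + ε * (wt k - 1)) ^ n := ⟨_, rfl⟩
  have hWk : ∀ k, W k = (1 + ε * (wt k - 1)) ^ n := fun k => by rw [hWdef]
  have hx : ∀ k, 0 ≤ wt k - 1 := fun k => by linarith [reg_wt_one_le k]
  have hbase : ∀ k, 1 ≤ 1 + ε * (wt k - 1) := fun k => by
    have h := mul_nonneg hε0.le (hx k)
    linarith
  have hW1 : ∀ k, 1 ≤ W k := fun k => by
    rw [hWk]
    exact one_le_pow₀ (hbase k)
  have hWm : ∀ k l, W (k + l) ≤ W k * W l := by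
    intro k l
    rw [hWk, hWk, hWk, ← mul_pow]
    apply pow_le_pow_left₀ (by linarith [hbase (k + l)])
    have h1 := reg_wt_add k l
    have h2 : ε * (wt (k + l) - 1) ≤ ε * ((wt k - 1) + (wt l - 1)) :=
      mul_le_mul_of_nonneg_left h1 hε0.le
    have h3 : 0 ≤ ε * (wt k - 1) * (ε * (wt l - 1)) :=
      mul_nonneg (mul_nonneg hε0.le (hx k)) (mul_nonneg hε0.le (hx l))
    have h4 : (1 + ε * (wt k - 1)) * (1 + ε * (wt l - 1))
        = 1 + ε * ((wt k - 1) + (wt l - 1)) + ε * (wt k - 1) * (ε * (wt l - 1)) := by ring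
    linarith
  have hWe : ∀ k, W (-k) = W k := fun k => by rw [hWk, hWk, reg_wt_neg]
  have hAω' : InBall (fun k => W k * wt k ^ 2) (r / 2) lA := by
    rw [hWdef]
    exact hAω
  have hBω' : InBall (fun k => W k * wt k ^ 2) (r / 2) lB := by
    rw [hWdef]
    exact hBω
  obtain ⟨a', b', ha', hb', hfa', hfb'⟩ :=
    exists_fixed W hW1 hWm hWe lA lB r hr0 hr hAω' hBω'
  have hdown : ∀ c : ℤ × ℤ → ℂ, InBall (fun k => W k * wt k ^ 2) r c →
      InBall (fun k => (fun _ : ℤ × ℤ => (1 : ℝ)) k * wt k ^ 2) r c := by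
    intro c hc
    have hle : ∀ k, 1 * wt k ^ 2 * ‖c k‖ ≤ W k * wt k ^ 2 * ‖c k‖ := by
      intro k
      apply mul_le_mul_of_nonneg_right _ (norm_nonneg _)
      exact mul_le_mul_of_nonneg_right (hW1 k) (sq_nonneg _)
    have hnn : ∀ k, 0 ≤ 1 * wt k ^ 2 * ‖c k‖ := fun k =>
      mul_nonneg (mul_nonneg zero_le_one (sq_nonneg _)) (norm_nonneg _)
    have hs : Summable (fun k => 1 * wt k ^ 2 * ‖c k‖) :=
      Summable.of_nonneg_of_le hnn hle hc.1
    exact ⟨hs, le_trans (Summable.tsum_le_tsum hle hs hc.1) hc.2⟩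
  have hup : ∀ c : ℤ × ℤ → ℂ, InBall (fun k => wt k ^ 2) r c →
      InBall (fun k => (fun _ : ℤ × ℤ => (1 : ℝ)) k * wt k ^ 2) r c := by
    intro c hc
    simpa only [one_mul] using hc
  obtain ⟨haa, hbb⟩ := fixed_unique (fun _ => (1 : ℝ)) (fun _ => le_refl _)
    (fun _ _ => by norm_num) (fun _ => rfl) lA lB r hr a b a' b' (hup a ha) (hup b hb)
    (hdown a' ha') (hdown b' hb') hfa hfb hfa' hfb'
  have hfin : ∀ c : ℤ × ℤ → ℂ, InBall (fun k => W k * wt k ^ 2) r c →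
      Summable (fun k => wt k ^ n * ‖c k‖) := by
    intro c hc
    have hle : ∀ k, wt k ^ n * ‖c k‖ ≤ ε⁻¹ ^ n * (W k * wt k ^ 2 * ‖c k‖) := by
      intro k
      have h1 := reg_pow_ge ε (wt k - 1) hε0 hε1 (hx k) n
      have h3 : (1 + (wt k - 1)) = wt k := by ring
      rw [h3, ← hWk] at h1
      have h4 : (1 : ℝ) ≤ wt k ^ 2 := one_le_pow₀ (reg_wt_one_le k)
      have h5 : 0 ≤ ε⁻¹ ^ n * W k :=
        mul_nonneg (pow_nonneg (inv_nonneg.mpr hε0.le) _) (le_trans zero_le_one (hW1 k))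
      calc wt k ^ n * ‖c k‖ ≤ ε⁻¹ ^ n * W k * ‖c k‖ :=
            mul_le_mul_of_nonneg_right h1 (norm_nonneg _)
        _ = ε⁻¹ ^ n * W k * 1 * ‖c k‖ := by ring
        _ ≤ ε⁻¹ ^ n * W k * wt k ^ 2 * ‖c k‖ := by
          apply mul_le_mul_of_nonneg_right _ (norm_nonneg _)
          exact mul_le_mul_of_nonneg_left h4 h5
        _ = ε⁻¹ ^ n * (W k * wt k ^ 2 * ‖c k‖) := by ring
    have hnn : ∀ k, 0 ≤ wt k ^ n * ‖c k‖ := fun k =>
      mul_nonneg (pow_nonneg (le_trans zero_le_one (reg_wt_one_le k)) _) (norm_nonneg _)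
    exact Summable.of_nonneg_of_le hnn hle (hc.1.mul_left _)
  rw [haa, hbb]
  exact ⟨hfin a' ha', hfin b' hb'⟩

/-- A fixed point in the small ball of the base space is rapidly decaying as soon as the
data are rapidly decaying and strictly inside the half ball. -/
theorem fixed_smooth (lA lB : ℤ × ℤ → ℂ)
    (hA : ∀ n : ℕ, Summable fun k => wt k ^ n * ‖lA k‖)
    (hB : ∀ n : ℕ, Summable fun k => wt k ^ n * ‖lB k‖)
    (r : ℝ) (hr : r ≤ 1 / 480)
    (hAs : nrm (fun k => wt k ^ 2) lA < r / 2) (hBs : nrm (fun k => wt k ^ 2) lB < r / 2)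
    (a b : ℤ × ℤ → ℂ) (ha : InBall (fun k => wt k ^ 2) r a)
    (hb : InBall (fun k => wt k ^ 2) r b) (hfa : TA lA a b = a) (hfb : TB lB a b = b) :
    (∀ n : ℕ, Summable fun k => wt k ^ n * ‖a k‖) ∧
    (∀ n : ℕ, Summable fun k => wt k ^ n * ‖b k‖) := by
  have hnA : 0 ≤ nrm (fun k => wt k ^ 2) lA :=
    tsum_nonneg (fun k => mul_nonneg (sq_nonneg _) (norm_nonneg _))
  have hnB : 0 ≤ nrm (fun k => wt k ^ 2) lB :=
    tsum_nonneg (fun k => mul_nonneg (sq_nonneg _) (norm_nonneg _))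
  have hr0 : 0 < r := by linarith
  have key : ∀ n : ℕ, Summable (fun k => wt k ^ n * ‖a k‖) ∧
      Summable (fun k => wt k ^ n * ‖b k‖) := by
    intro n
    obtain ⟨MA, hMA⟩ : ∃ MA : ℝ, MA = ∑' k, wt k ^ (n + 2) * ‖lA k‖ := ⟨_, rfl⟩
    obtain ⟨MB, hMB⟩ : ∃ MB : ℝ, MB = ∑' k, wt k ^ (n + 2) * ‖lB k‖ := ⟨_, rfl⟩
    have hMA0 : 0 ≤ MA := by
      rw [hMA]
      exact tsum_nonneg (fun k => mul_nonneg
        (pow_nonneg (le_trans zero_le_one (reg_wt_one_le k)) _) (norm_nonneg _))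
    have hMB0 : 0 ≤ MB := by
      rw [hMB]
      exact tsum_nonneg (fun k => mul_nonneg
        (pow_nonneg (le_trans zero_le_one (reg_wt_one_le k)) _) (norm_nonneg _))
    obtain ⟨gap, hgap⟩ : ∃ gap : ℝ, gap = min (r / 2 - nrm (fun k => wt k ^ 2) lA)
        (r / 2 - nrm (fun k => wt k ^ 2) lB) := ⟨_, rfl⟩
    have hgap0 : 0 < gap := by
      rw [hgap]
      exact lt_min (by linarith) (by linarith)
    have hgapA : gap ≤ r / 2 - nrm (fun k => wt k ^ 2) lA := by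
      rw [hgap]
      exact min_le_left _ _
    have hgapB : gap ≤ r / 2 - nrm (fun k => wt k ^ 2) lB := by
      rw [hgap]
      exact min_le_right _ _
    have hden : 0 < MA + MB + 1 := by linarith
    obtain ⟨ε, hε⟩ : ∃ ε : ℝ, ε = min 1 (gap / (MA + MB + 1)) := ⟨_, rfl⟩
    have hε0 : 0 < ε := by
      rw [hε]
      exact lt_min one_pos (div_pos hgap0 hden)
    have hε1 : ε ≤ 1 := by
      rw [hε]
      exact min_le_left _ _
    have hε2 : ε ≤ gap / (MA + MB + 1) := by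
      rw [hε]
      exact min_le_right _ _
    have hεA : ε * MA ≤ gap := by
      calc ε * MA ≤ gap / (MA + MB + 1) * MA := mul_le_mul_of_nonneg_right hε2 hMA0
        _ = gap * (MA / (MA + MB + 1)) := by ring
        _ ≤ gap * 1 := by
          apply mul_le_mul_of_nonneg_left _ hgap0.le
          rw [div_le_one hden]
          linarith
        _ = gap := mul_one _
    have hεB : ε * MB ≤ gap := by
      calc ε * MB ≤ gap / (MA + MB + 1) * MB := mul_le_mul_of_nonneg_right hε2 hMB0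
        _ = gap * (MB / (MA + MB + 1)) := by ring
        _ ≤ gap * 1 := by
          apply mul_le_mul_of_nonneg_left _ hgap0.le
          rw [div_le_one hden]
          linarith
        _ = gap := mul_one _
    have hdA := reg_data lA n (hA 2) (hA (n + 2)) ε hε0.le hε1
    have hdB := reg_data lB n (hB 2) (hB (n + 2)) ε hε0.le hε1
    rw [← hMA] at hdA
    rw [← hMB] at hdB
    have hAω : InBall (fun k => (1 + ε * (wt k - 1)) ^ n * wt k ^ 2) (r / 2) lA :=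
      ⟨hdA.1, by linarith [hdA.2]⟩
    have hBω : InBall (fun k => (1 + ε * (wt k - 1)) ^ n * wt k ^ 2) (r / 2) lB :=
      ⟨hdB.1, by linarith [hdB.2]⟩
    exact reg_core lA lB n ε hε0 hε1 r hr0.le hr hAω hBω a b ha hb hfa hfb
  exact ⟨fun n => (key n).1, fun n => (key n).2⟩

end Vale.Agent.Lib.P205.NF
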