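import Vale.Agent.Lib.P205.NF.Defs

/-!
# Basic properties of the synthesis map
-/

namespace Vale.Agent.Lib.P205.NF

theorem sbasic_norm_exp (k : ℤ × ℤ) (p : ℝ × ℝ) :
    ‖Complex.exp (Complex.I * ((k.1 : ℂ) * (p.1 : ℂ) + (k.2 : ℂ) * (p.2 : ℂ)))‖ = 1 := by
  have h : Complex.I * ((k.1 : ℂ) * (p.1 : ℂ) + (k.2 : ℂ) * (p.2 : ℂ)) =
      (((k.1 : ℝ) * p.1 + (k.2 : ℝ) * p.2 : ℝ) : ℂ) * Complex.I := by
    push_cast
    ring
  rw [h, Complex.norm_exp_ofReal_mul_I]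

theorem S_summable (c : ℤ × ℤ → ℂ) (hc : Summable fun k => ‖c k‖) (p : ℝ × ℝ) :
    Summable fun k : ℤ × ℤ =>
      c k * Complex.exp (Complex.I * ((k.1 : ℂ) * (p.1 : ℂ) + (k.2 : ℂ) * (p.2 : ℂ))) := by
  refine Summable.of_norm ?_
  have h : (fun k : ℤ × ℤ => ‖c k *
      Complex.exp (Complex.I * ((k.1 : ℂ) * (p.1 : ℂ) + (k.2 : ℂ) * (p.2 : ℂ)))‖) =
      fun k => ‖c k‖ := by
    funext k
    rw [norm_mul, sbasic_norm_exp, mul_one]
  rw [h]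
  exact hc

theorem S_add (c d : ℤ × ℤ → ℂ) (hc : Summable fun k => ‖c k‖) (hd : Summable fun k => ‖d k‖)
    (p : ℝ × ℝ) : S (fun k => c k + d k) p = S c p + S d p := by
  unfold S
  rw [← Summable.tsum_add (S_summable c hc p) (S_summable d hd p)]
  refine tsum_congr fun k => ?_
  rw [add_mul]

theorem S_sub (c d : ℤ × ℤ → ℂ) (hc : Summable fun k => ‖c k‖) (hd : Summable fun k => ‖d k‖)
    (p : ℝ × ℝ) : S (fun k => c k - d k) p = S c p - S d p := by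
  unfold S
  rw [← Summable.tsum_sub (S_summable c hc p) (S_summable d hd p)]
  refine tsum_congr fun k => ?_
  rw [sub_mul]

theorem S_const_mul (z : ℂ) (c : ℤ × ℤ → ℂ) (p : ℝ × ℝ) :
    S (fun k => z * c k) p = z * S c p := by
  unfold S
  rw [← tsum_mul_left]
  refine tsum_congr fun k => ?_
  rw [mul_assoc]

theorem S_cstar (c : ℤ × ℤ → ℂ) (p : ℝ × ℝ) : S (cstar c) p = (starRingEnd ℂ) (S c p) := by
  unfold S cstar
  rw [Complex.conj_tsum]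
  rw [← (Equiv.neg (ℤ × ℤ)).tsum_eq (fun k : ℤ × ℤ => (starRingEnd ℂ) (c (-k)) *
    Complex.exp (Complex.I * ((k.1 : ℂ) * (p.1 : ℂ) + (k.2 : ℂ) * (p.2 : ℂ))))]
  refine tsum_congr fun k => ?_
  simp only [Equiv.neg_apply, neg_neg, map_mul, Prod.fst_neg, Prod.snd_neg, Int.cast_neg]
  rw [← Complex.exp_conj]
  have h : (starRingEnd ℂ) (Complex.I * ((k.1 : ℂ) * (p.1 : ℂ) + (k.2 : ℂ) * (p.2 : ℂ))) =
      Complex.I * (-(k.1 : ℂ) * (p.1 : ℂ) + -(k.2 : ℂ) * (p.2 : ℂ)) := by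
    simp only [map_mul, map_add, Complex.conj_I, Complex.conj_ofReal, map_intCast]
    ring
  rw [h]

theorem S_single (z : ℂ) (p : ℝ × ℝ) : S (fun k => if k = 0 then z else 0) p = z := by
  unfold S
  rw [tsum_eq_single 0]
  · simp
  · intro k hk
    simp [hk]

theorem S_periodic1 (c : ℤ × ℤ → ℂ) (p : ℝ × ℝ) : S c (p.1 + 2 * Real.pi, p.2) = S c p := by
  unfold S
  refine tsum_congr fun k => ?_
  have h : Complex.I * ((k.1 : ℂ) * ((p.1 + 2 * Real.pi : ℝ) : ℂ) + (k.2 : ℂ) * (p.2 : ℂ)) =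
      Complex.I * ((k.1 : ℂ) * (p.1 : ℂ) + (k.2 : ℂ) * (p.2 : ℂ)) +
        (k.1 : ℂ) * (2 * Real.pi * Complex.I) := by
    push_cast
    ring
  dsimp only
  rw [h, Complex.exp_add, Complex.exp_int_mul_two_pi_mul_I, mul_one]

theorem S_periodic2 (c : ℤ × ℤ → ℂ) (p : ℝ × ℝ) : S c (p.1, p.2 + 2 * Real.pi) = S c p := by
  unfold S
  refine tsum_congr fun k => ?_
  have h : Complex.I * ((k.1 : ℂ) * (p.1 : ℂ) + (k.2 : ℂ) * ((p.2 + 2 * Real.pi : ℝ) : ℂ)) =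
      Complex.I * ((k.1 : ℂ) * (p.1 : ℂ) + (k.2 : ℂ) * (p.2 : ℂ)) +
        (k.2 : ℂ) * (2 * Real.pi * Complex.I) := by
    push_cast
    ring
  dsimp only
  rw [h, Complex.exp_add, Complex.exp_int_mul_two_pi_mul_I, mul_one]

end Vale.Agent.Lib.P205.NF
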