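import Vale.Agent.Lib.P205.NF.SynthBasic

/-!
# Derivative of a synthesised function
-/

namespace Vale.Agent.Lib.P205.NF

/-- The exponential factor of a term of the synthesis has modulus one. -/
theorem sderiv_norm_exp (k : ℤ × ℤ) (q : ℝ × ℝ) :
    ‖Complex.exp (Complex.I * ((k.1 : ℂ) * (q.1 : ℂ) + (k.2 : ℂ) * (q.2 : ℂ)))‖ = 1 := by
  rw [Complex.norm_exp]
  simp

/-- The weight dominates one and both components of the frequency. -/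
theorem sderiv_wt (k : ℤ × ℤ) : 1 ≤ wt k ∧ |(k.1 : ℝ)| ≤ wt k ∧ |(k.2 : ℝ)| ≤ wt k := by
  unfold wt
  have h1 := abs_nonneg (k.1 : ℝ)
  have h2 := abs_nonneg (k.2 : ℝ)
  refine ⟨by linarith, by linarith, by linarith⟩

/-- The derivative of one term of the synthesis. -/
theorem sderiv_term (c : ℤ × ℤ → ℂ) (k : ℤ × ℤ) (q : ℝ × ℝ) :
    HasFDerivAt
      (fun q : ℝ × ℝ =>
        c k * Complex.exp (Complex.I * ((k.1 : ℂ) * (q.1 : ℂ) + (k.2 : ℂ) * (q.2 : ℂ))))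
      ((ContinuousLinearMap.fst ℝ ℝ ℝ).smulRight (Complex.I * (k.1 : ℂ) *
          (c k * Complex.exp (Complex.I * ((k.1 : ℂ) * (q.1 : ℂ) + (k.2 : ℂ) * (q.2 : ℂ))))) +
        (ContinuousLinearMap.snd ℝ ℝ ℝ).smulRight (Complex.I * (k.2 : ℂ) *
          (c k * Complex.exp (Complex.I * ((k.1 : ℂ) * (q.1 : ℂ) + (k.2 : ℂ) * (q.2 : ℂ))))))
      q := by
  have hL : HasFDerivAt
      (fun q : ℝ × ℝ => Complex.I * ((k.1 : ℂ) * (q.1 : ℂ) + (k.2 : ℂ) * (q.2 : ℂ)))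
      ((ContinuousLinearMap.fst ℝ ℝ ℝ).smulRight (Complex.I * (k.1 : ℂ)) +
        (ContinuousLinearMap.snd ℝ ℝ ℝ).smulRight (Complex.I * (k.2 : ℂ))) q := by
    have h1 := ((ContinuousLinearMap.fst ℝ ℝ ℝ).smulRight (Complex.I * (k.1 : ℂ)) +
        (ContinuousLinearMap.snd ℝ ℝ ℝ).smulRight (Complex.I * (k.2 : ℂ))).hasFDerivAt (x := q)
    convert h1 using 1
    funext v
    simp
    ring
  have h2 : HasFDerivAt
      (fun q : ℝ × ℝ =>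
        c k * Complex.exp (Complex.I * ((k.1 : ℂ) * (q.1 : ℂ) + (k.2 : ℂ) * (q.2 : ℂ))))
      (c k • (Complex.exp (Complex.I * ((k.1 : ℂ) * (q.1 : ℂ) + (k.2 : ℂ) * (q.2 : ℂ))) •
        ((ContinuousLinearMap.fst ℝ ℝ ℝ).smulRight (Complex.I * (k.1 : ℂ)) +
          (ContinuousLinearMap.snd ℝ ℝ ℝ).smulRight (Complex.I * (k.2 : ℂ))))) q :=
    (hL.cexp).const_mul (c k)
  convert h2 using 1
  refine ContinuousLinearMap.ext fun v => ?_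
  simp
  ring

/-- The norm bound for the derivative of one term. -/
theorem sderiv_bound (c : ℤ × ℤ → ℂ) (k : ℤ × ℤ) (q : ℝ × ℝ) :
    ‖(ContinuousLinearMap.fst ℝ ℝ ℝ).smulRight (Complex.I * (k.1 : ℂ) *
          (c k * Complex.exp (Complex.I * ((k.1 : ℂ) * (q.1 : ℂ) + (k.2 : ℂ) * (q.2 : ℂ))))) +
        (ContinuousLinearMap.snd ℝ ℝ ℝ).smulRight (Complex.I * (k.2 : ℂ) *
          (c k * Complex.exp (Complex.I * ((k.1 : ℂ) * (q.1 : ℂ) + (k.2 : ℂ) * (q.2 : ℂ)))))‖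
      ≤ 2 * (wt k * ‖c k‖) := by
  obtain ⟨-, hw1, hw2⟩ := sderiv_wt k
  have hc0 := norm_nonneg (c k)
  refine (norm_add_le _ _).trans ?_
  rw [ContinuousLinearMap.norm_smulRight_apply, ContinuousLinearMap.norm_smulRight_apply]
  have hf : ‖ContinuousLinearMap.fst ℝ ℝ ℝ‖ ≤ 1 := ContinuousLinearMap.norm_fst_le ..
  have hs : ‖ContinuousLinearMap.snd ℝ ℝ ℝ‖ ≤ 1 := ContinuousLinearMap.norm_snd_le ..
  have e1 : ‖Complex.I * (k.1 : ℂ) *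
      (c k * Complex.exp (Complex.I * ((k.1 : ℂ) * (q.1 : ℂ) + (k.2 : ℂ) * (q.2 : ℂ))))‖
      = |(k.1 : ℝ)| * ‖c k‖ := by
    rw [norm_mul, norm_mul, norm_mul, sderiv_norm_exp, Complex.norm_I, one_mul, mul_one,
      Complex.norm_intCast]
  have e2 : ‖Complex.I * (k.2 : ℂ) *
      (c k * Complex.exp (Complex.I * ((k.1 : ℂ) * (q.1 : ℂ) + (k.2 : ℂ) * (q.2 : ℂ))))‖
      = |(k.2 : ℝ)| * ‖c k‖ := by
    rw [norm_mul, norm_mul, norm_mul, sderiv_norm_exp, Complex.norm_I, one_mul, mul_one,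
      Complex.norm_intCast]
  rw [e1, e2]
  have g1 : ‖ContinuousLinearMap.fst ℝ ℝ ℝ‖ * (|(k.1 : ℝ)| * ‖c k‖) ≤ wt k * ‖c k‖ := by
    calc ‖ContinuousLinearMap.fst ℝ ℝ ℝ‖ * (|(k.1 : ℝ)| * ‖c k‖)
        ≤ 1 * (|(k.1 : ℝ)| * ‖c k‖) :=
          mul_le_mul_of_nonneg_right hf (mul_nonneg (abs_nonneg _) hc0)
      _ = |(k.1 : ℝ)| * ‖c k‖ := one_mul _
      _ ≤ wt k * ‖c k‖ := mul_le_mul_of_nonneg_right hw1 hc0
  have g2 : ‖ContinuousLinearMap.snd ℝ ℝ ℝ‖ * (|(k.2 : ℝ)| * ‖c k‖) ≤ wt k * ‖c k‖ := by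
    calc ‖ContinuousLinearMap.snd ℝ ℝ ℝ‖ * (|(k.2 : ℝ)| * ‖c k‖)
        ≤ 1 * (|(k.2 : ℝ)| * ‖c k‖) :=
          mul_le_mul_of_nonneg_right hs (mul_nonneg (abs_nonneg _) hc0)
      _ = |(k.2 : ℝ)| * ‖c k‖ := one_mul _
      _ ≤ wt k * ‖c k‖ := mul_le_mul_of_nonneg_right hw2 hc0
  linarith

/-- Summability of the synthesis of a frequency-weighted coefficient sequence. -/
theorem sderiv_hasSum (c : ℤ × ℤ → ℂ) (hc : Summable fun k => wt k * ‖c k‖) (p : ℝ × ℝ)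
    (j : ℤ × ℤ → ℤ) (hj : ∀ k, |(j k : ℝ)| ≤ wt k) :
    HasSum (fun k : ℤ × ℤ => Complex.I * (j k : ℂ) *
        (c k * Complex.exp (Complex.I * ((k.1 : ℂ) * (p.1 : ℂ) + (k.2 : ℂ) * (p.2 : ℂ)))))
      (S (fun k => Complex.I * (j k : ℂ) * c k) p) := by
  have hsum : Summable (fun k : ℤ × ℤ => Complex.I * (j k : ℂ) *
      (c k * Complex.exp (Complex.I * ((k.1 : ℂ) * (p.1 : ℂ) + (k.2 : ℂ) * (p.2 : ℂ))))) := by
    refine Summable.of_norm_bounded hc (fun k => ?_)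
    rw [norm_mul, norm_mul, norm_mul, sderiv_norm_exp, Complex.norm_I, one_mul, mul_one,
      Complex.norm_intCast]
    exact mul_le_mul_of_nonneg_right (hj k) (norm_nonneg _)
  have hS : S (fun k => Complex.I * (j k : ℂ) * c k) p
      = ∑' k : ℤ × ℤ, Complex.I * (j k : ℂ) *
        (c k * Complex.exp (Complex.I * ((k.1 : ℂ) * (p.1 : ℂ) + (k.2 : ℂ) * (p.2 : ℂ)))) := by
    unfold S
    refine tsum_congr fun k => ?_
    ring
  rw [hS]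
  exact hsum.hasSum

theorem S_hasFDerivAt (c : ℤ × ℤ → ℂ) (hc : Summable fun k => wt k * ‖c k‖) (p : ℝ × ℝ) :
    HasFDerivAt (S c)
      ((ContinuousLinearMap.fst ℝ ℝ ℝ).smulRight (S (fun k => Complex.I * (k.1 : ℂ) * c k) p) +
        (ContinuousLinearMap.snd ℝ ℝ ℝ).smulRight (S (fun k => Complex.I * (k.2 : ℂ) * c k) p))
      p := by
  have hu : Summable (fun k : ℤ × ℤ => 2 * (wt k * ‖c k‖)) := hc.mul_left 2
  have h0 : Summable (fun k : ℤ × ℤ =>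
      c k * Complex.exp (Complex.I * ((k.1 : ℂ) * (p.1 : ℂ) + (k.2 : ℂ) * (p.2 : ℂ)))) := by
    refine Summable.of_norm_bounded hc (fun k => ?_)
    rw [norm_mul, sderiv_norm_exp, mul_one]
    have h1 := (sderiv_wt k).1
    nlinarith [norm_nonneg (c k)]
  have key := hasFDerivAt_tsum (𝕜 := ℝ) hu (fun k q => sderiv_term c k q)
    (fun k q => sderiv_bound c k q) h0 p
  have hA := (ContinuousLinearMap.smulRightL ℝ (ℝ × ℝ) ℂ (ContinuousLinearMap.fst ℝ ℝ ℝ)).hasSum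
    (sderiv_hasSum c hc p (fun k => k.1) (fun k => (sderiv_wt k).2.1))
  have hB := (ContinuousLinearMap.smulRightL ℝ (ℝ × ℝ) ℂ (ContinuousLinearMap.snd ℝ ℝ ℝ)).hasSum
    (sderiv_hasSum c hc p (fun k => k.2) (fun k => (sderiv_wt k).2.2))
  have hAB := hA.add hB
  have hE : (ContinuousLinearMap.fst ℝ ℝ ℝ).smulRight (S (fun k => Complex.I * (k.1 : ℂ) * c k) p) +
        (ContinuousLinearMap.snd ℝ ℝ ℝ).smulRight (S (fun k => Complex.I * (k.2 : ℂ) * c k) p)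
      = ∑' k : ℤ × ℤ, ((ContinuousLinearMap.fst ℝ ℝ ℝ).smulRight (Complex.I * (k.1 : ℂ) *
          (c k * Complex.exp (Complex.I * ((k.1 : ℂ) * (p.1 : ℂ) + (k.2 : ℂ) * (p.2 : ℂ))))) +
        (ContinuousLinearMap.snd ℝ ℝ ℝ).smulRight (Complex.I * (k.2 : ℂ) *
          (c k * Complex.exp (Complex.I * ((k.1 : ℂ) * (p.1 : ℂ) + (k.2 : ℂ) * (p.2 : ℂ)))))) :=
    hAB.tsum_eq.symm
  rw [hE]
  exact key

end Vale.Agent.Lib.P205.NF
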