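import Vale.Agent.Lib.P205.NF.Defs

/-!
# Young-type inequality for symbol convolutions in weighted `l1`
-/

namespace Vale.Agent.Lib.P205.NF

/-- Pointwise summability of the terms of a symbol convolution. -/
theorem bconv_summable_of_le (τ : ℤ × ℤ → ℤ × ℤ → ℂ) (u v : ℤ × ℤ → ℝ) (C : ℝ) (m : ℤ × ℤ)
    (hu : ∀ k, 0 ≤ u k) (hv : ∀ k, 0 ≤ v k)
    (hτ : ∀ k, ‖τ m k‖ ≤ C * (u k * v (m - k))) (a b : ℤ × ℤ → ℂ)
    (ha : Summable fun k => u k * ‖a k‖) (hb : Summable fun k => v k * ‖b k‖) :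
    Summable fun k => τ m k * a k * b (m - k) := by
  have hg : Summable (fun k : ℤ × ℤ => v (m - k) * ‖b (m - k)‖) :=
    (Equiv.subLeft m).summable_iff.mpr hb
  have hg0 : ∀ k : ℤ × ℤ, 0 ≤ v (m - k) * ‖b (m - k)‖ :=
    fun k => mul_nonneg (hv _) (norm_nonneg _)
  obtain ⟨Bs, hBs⟩ : ∃ Bs : ℝ, Bs = ∑' k : ℤ × ℤ, v (m - k) * ‖b (m - k)‖ := ⟨_, rfl⟩
  have hle : ∀ k : ℤ × ℤ, v (m - k) * ‖b (m - k)‖ ≤ Bs := by
    intro k
    rw [hBs]
    exact hg.le_tsum k (fun j _ => hg0 j)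
  refine Summable.of_norm_bounded (ha.mul_left (|C| * Bs)) (fun k => ?_)
  rw [norm_mul, norm_mul]
  have h1 : ‖τ m k‖ ≤ |C| * (u k * v (m - k)) :=
    (hτ k).trans (mul_le_mul_of_nonneg_right (le_abs_self C) (mul_nonneg (hu k) (hv _)))
  have h2 : 0 ≤ u k * ‖a k‖ := mul_nonneg (hu k) (norm_nonneg _)
  calc ‖τ m k‖ * ‖a k‖ * ‖b (m - k)‖
      ≤ |C| * (u k * v (m - k)) * ‖a k‖ * ‖b (m - k)‖ :=
        mul_le_mul_of_nonneg_right (mul_le_mul_of_nonneg_right h1 (norm_nonneg _))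
          (norm_nonneg _)
    _ = |C| * (u k * ‖a k‖) * (v (m - k) * ‖b (m - k)‖) := by ring
    _ ≤ |C| * (u k * ‖a k‖) * Bs :=
        mul_le_mul_of_nonneg_left (hle k) (mul_nonneg (abs_nonneg C) h2)
    _ = |C| * Bs * (u k * ‖a k‖) := by ring

/-- The equivalence `(m, k) ↦ (k, m - k)` of pairs of frequencies. -/
def young_equiv : (ℤ × ℤ) × (ℤ × ℤ) ≃ (ℤ × ℤ) × (ℤ × ℤ) where
  toFun p := (p.2, p.1 - p.2)
  invFun p := (p.1 + p.2, p.1)
  left_inv p := by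
    ext <;> simp
  right_inv p := by
    ext <;> simp

/-- The convolution family of two nonnegative summable families is summable on the product,
with total sum the product of the sums. -/
theorem young_conv_family (f g : ℤ × ℤ → ℝ) (hf0 : ∀ k, 0 ≤ f k) (hg0 : ∀ k, 0 ≤ g k)
    (hf : Summable f) (hg : Summable g) :
    Summable (fun p : (ℤ × ℤ) × (ℤ × ℤ) => f p.2 * g (p.1 - p.2)) ∧
    ∑' p : (ℤ × ℤ) × (ℤ × ℤ), f p.2 * g (p.1 - p.2) = (∑' k, f k) * ∑' k, g k := by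
  have hP : Summable (fun x : (ℤ × ℤ) × (ℤ × ℤ) => f x.1 * g x.2) :=
    hf.mul_of_nonneg hg hf0 hg0
  refine ⟨young_equiv.summable_iff.mpr hP, ?_⟩
  rw [hf.tsum_mul_tsum hg hP]
  exact young_equiv.tsum_eq (fun x : (ℤ × ℤ) × (ℤ × ℤ) => f x.1 * g x.2)

/-- Young-type inequality: if `‖τ m k‖ ω(m) ≤ C ω(k) ω(m - k)` then `bconv τ` is bounded
on the weighted `l1` space, with constant `C`. -/
theorem bconv_nrm_le (ω : ℤ × ℤ → ℝ) (hω : ∀ k, 0 < ω k) (τ : ℤ × ℤ → ℤ × ℤ → ℂ) (C : ℝ)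
    (hC : 0 ≤ C) (hτ : ∀ m k, ‖τ m k‖ * ω m ≤ C * (ω k * ω (m - k))) (a b : ℤ × ℤ → ℂ)
    (ha : Summable fun k => ω k * ‖a k‖) (hb : Summable fun k => ω k * ‖b k‖) :
    (∀ m, Summable fun k => τ m k * a k * b (m - k)) ∧
    Summable (fun m => ω m * ‖bconv τ a b m‖) ∧
    nrm ω (bconv τ a b) ≤ C * (nrm ω a * nrm ω b) := by
  have hω0 : ∀ k, 0 ≤ ω k := fun k => (hω k).le
  -- pointwise summability
  have hτ' : ∀ m k, ‖τ m k‖ ≤ C / ω m * (ω k * ω (m - k)) := by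
    intro m k
    rw [div_mul_eq_mul_div, le_div_iff₀ (hω m)]
    exact hτ m k
  have hsum : ∀ m, Summable fun k => τ m k * a k * b (m - k) :=
    fun m => bconv_summable_of_le τ ω ω (C / ω m) m hω0 hω0 (hτ' m) a b ha hb
  -- the convolution family
  have hf0 : ∀ k, 0 ≤ ω k * ‖a k‖ := fun k => mul_nonneg (hω0 k) (norm_nonneg _)
  have hg0 : ∀ k, 0 ≤ ω k * ‖b k‖ := fun k => mul_nonneg (hω0 k) (norm_nonneg _)
  obtain ⟨hG, hGsum⟩ := young_conv_family (fun k => ω k * ‖a k‖) (fun k => ω k * ‖b k‖)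
    hf0 hg0 ha hb
  obtain ⟨G, hGdef⟩ : ∃ G : (ℤ × ℤ) × (ℤ × ℤ) → ℝ,
      G = fun p => (ω p.2 * ‖a p.2‖) * (ω (p.1 - p.2) * ‖b (p.1 - p.2)‖) := ⟨_, rfl⟩
  rw [← hGdef] at hG hGsum
  have hGapp : ∀ m k, G (m, k) = (ω k * ‖a k‖) * (ω (m - k) * ‖b (m - k)‖) := by
    intro m k
    rw [hGdef]
  have hG0 : ∀ m k, 0 ≤ G (m, k) := by
    intro m k
    rw [hGapp]
    exact mul_nonneg (hf0 k) (hg0 _)
  have hGrow : ∀ m, Summable fun k => G (m, k) := fun m => hG.prod_factor m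
  have hGcol : Summable fun m => ∑' k, G (m, k) := hG.prod
  -- the pointwise bound
  have hterm : ∀ m k, ω m * ‖τ m k * a k * b (m - k)‖ ≤ C * G (m, k) := by
    intro m k
    rw [norm_mul, norm_mul, hGapp]
    calc ω m * (‖τ m k‖ * ‖a k‖ * ‖b (m - k)‖)
        = (‖τ m k‖ * ω m) * (‖a k‖ * ‖b (m - k)‖) := by ring
      _ ≤ (C * (ω k * ω (m - k))) * (‖a k‖ * ‖b (m - k)‖) :=
          mul_le_mul_of_nonneg_right (hτ m k)
            (mul_nonneg (norm_nonneg _) (norm_nonneg _))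
      _ = C * ((ω k * ‖a k‖) * (ω (m - k) * ‖b (m - k)‖)) := by ring
  have hnormsum : ∀ m, Summable fun k => ‖τ m k * a k * b (m - k)‖ := by
    intro m
    refine Summable.of_nonneg_of_le (fun k => norm_nonneg _) (fun k => ?_)
      ((hGrow m).mul_left (C / ω m))
    rw [div_mul_eq_mul_div, le_div_iff₀ (hω m), mul_comm]
    exact hterm m k
  have hpt : ∀ m, ω m * ‖bconv τ a b m‖ ≤ C * ∑' k, G (m, k) := by
    intro m
    have h1 : ‖bconv τ a b m‖ ≤ ∑' k, ‖τ m k * a k * b (m - k)‖ :=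
      norm_tsum_le_tsum_norm (hnormsum m)
    calc ω m * ‖bconv τ a b m‖
        ≤ ω m * ∑' k, ‖τ m k * a k * b (m - k)‖ := mul_le_mul_of_nonneg_left h1 (hω0 m)
      _ = ∑' k, ω m * ‖τ m k * a k * b (m - k)‖ := ((hnormsum m).tsum_mul_left (ω m)).symm
      _ ≤ ∑' k, C * G (m, k) :=
          Summable.tsum_le_tsum (hterm m) ((hnormsum m).mul_left (ω m)) ((hGrow m).mul_left C)
      _ = C * ∑' k, G (m, k) := (hGrow m).tsum_mul_left C
  have hS : Summable (fun m => ω m * ‖bconv τ a b m‖) :=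
    Summable.of_nonneg_of_le (fun m => mul_nonneg (hω0 m) (norm_nonneg _)) hpt
      (hGcol.mul_left C)
  refine ⟨hsum, hS, ?_⟩
  unfold nrm
  calc ∑' m, ω m * ‖bconv τ a b m‖
      ≤ ∑' m, C * ∑' k, G (m, k) := Summable.tsum_le_tsum hpt hS (hGcol.mul_left C)
    _ = C * ∑' m, ∑' k, G (m, k) := hGcol.tsum_mul_left C
    _ = C * ∑' p, G p := by rw [hG.tsum_prod]
    _ = C * ((∑' k, ω k * ‖a k‖) * ∑' k, ω k * ‖b k‖) := by rw [hGsum]

end Vale.Agent.Lib.P205.NF
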